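import Vale.Agent.P371.Basic

/-!
# P371 [ALG]: noncommutative polynomial calculus
-/

open MeasureTheory Matrix Finset
open scoped ComplexOrder

namespace Vale.Agent.P371

variable {n : Type*} [Fintype n] [DecidableEq n]

namespace AlgAux

/-- entrywise derivative of a matrix valued function -/
def MD (A : ℝ → Matrix n n ℂ) (A' : Matrix n n ℂ) (x : ℝ) : Prop :=
  ∀ i j, HasDerivAt (fun t => A t i j) (A' i j) x

omit [DecidableEq n] in
theorem MD.mul {A B : ℝ → Matrix n n ℂ} {A' B' : Matrix n n ℂ} {x : ℝ} (hA : MD A A' x)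
    (hB : MD B B' x) : MD (fun t => A t * B t) (A' * B x + A x * B') x := by
  intro i j
  have h : HasDerivAt (fun t => ∑ k, A t i k * B t k j)
      (∑ k, (A' i k * B x k j + A x i k * B' k j)) x :=
    HasDerivAt.fun_sum fun k _ => (hA i k).mul (hB k j)
  have e : (A' * B x + A x * B') i j = ∑ k, (A' i k * B x k j + A x i k * B' k j) := by
    simp [Matrix.add_apply, Matrix.mul_apply, Finset.sum_add_distrib]
  rw [e]
  exact h

omit [Fintype n] [DecidableEq n] in
theorem MD.const (C : Matrix n n ℂ) (x : ℝ) : MD (fun _ => C) 0 x := fun i j => by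
  simpa using hasDerivAt_const x (C i j)

omit [Fintype n] [DecidableEq n] in
theorem MD.smul (c : ℂ) {A : ℝ → Matrix n n ℂ} {A' : Matrix n n ℂ} {x : ℝ} (hA : MD A A' x) :
    MD (fun t => c • A t) (c • A') x := fun i j => by
  simpa using (hA i j).const_mul c

omit [Fintype n] [DecidableEq n] in
theorem MD.sum {ι : Type*} (s : Finset ι) {A : ι → ℝ → Matrix n n ℂ} {A' : ι → Matrix n n ℂ}
    {x : ℝ} (hA : ∀ k ∈ s, MD (A k) (A' k) x) :
    MD (fun t => ∑ k ∈ s, A k t) (∑ k ∈ s, A' k) x := by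
  intro i j
  have h := HasDerivAt.fun_sum (fun k hk => hA k hk i j)
  simpa [Matrix.sum_apply] using h

theorem dPow_succ (M H : Matrix n n ℂ) (k : ℕ) :
    dPow M H (k + 1) = dPow M H k * M + M ^ k * H := by
  unfold dPow
  rw [Finset.sum_range_succ, Finset.sum_mul]
  congr 1
  · refine Finset.sum_congr rfl fun j hj => ?_
    have hj := Finset.mem_range.1 hj
    have e : k + 1 - 1 - j = (k - 1 - j) + 1 := by omega
    rw [e, pow_succ, ← mul_assoc]
  · simp

theorem MD.pow {M : ℝ → Matrix n n ℂ} {M' : Matrix n n ℂ} {x : ℝ} (hM : MD M M' x) (k : ℕ) :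
    MD (fun t => M t ^ k) (dPow (M x) M' k) x := by
  induction k with
  | zero =>
    have : dPow (M x) M' 0 = 0 := by simp [dPow]
    rw [this]
    simpa using MD.const (1 : Matrix n n ℂ) x
  | succ k ih =>
    rw [dPow_succ]
    have := ih.mul hM
    simpa [pow_succ] using this

theorem MD.Tf {M X : ℝ → Matrix n n ℂ} {M' X' : Matrix n n ℂ} {x : ℝ} (f : Polynomial ℝ)
    (hM : MD M M' x) (hX : MD X X' x) :
    MD (fun t => P371.Tf f (M t) (X t)) (P371.Tf f (M x) X' + dTf f (M x) (X x) M') x := by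
  unfold P371.Tf dTf
  simp only [Polynomial.sum_def]
  rw [← Finset.sum_add_distrib]
  refine MD.sum _ fun d _ => ?_
  rw [← Finset.sum_add_distrib]
  refine MD.sum _ fun k _ => ?_
  rw [← smul_add]
  refine MD.smul _ ?_
  have h := ((hM.pow k).mul hX).mul (hM.pow (d - k))
  have e : (dPow (M x) M' k * X x + M x ^ k * X') * M x ^ (d - k) +
      M x ^ k * X x * dPow (M x) M' (d - k)
      = M x ^ k * X' * M x ^ (d - k) + (dPow (M x) M' k * X x * M x ^ (d - k) +
        M x ^ k * X x * dPow (M x) M' (d - k)) := by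
    rw [add_mul]
    abel
  rw [← e]
  exact h

omit [DecidableEq n] in
theorem MD.trace {A : ℝ → Matrix n n ℂ} {A' : Matrix n n ℂ} {x : ℝ} (hA : MD A A' x) :
    HasDerivAt (fun t => Matrix.trace (A t)) (Matrix.trace A') x := by
  unfold Matrix.trace
  exact HasDerivAt.fun_sum fun i _ => hA i i

theorem hasDerivAt_re {g : ℝ → ℂ} {g' : ℂ} {x : ℝ} (hg : HasDerivAt g g' x) :
    HasDerivAt (fun t => (g t).re) g'.re x :=
  (Complex.reCLM.hasFDerivAt.comp_hasDerivAt x hg)

/-- reflection `k ↦ d - k` in the binomial sum -/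
theorem sum_reflect {R : Type*} [AddCommMonoid R] (d : ℕ) (F : ℕ → ℕ → R) :
    ∑ k ∈ range (d + 1), F k (d - k) = ∑ k ∈ range (d + 1), F (d - k) k := by
  rw [← Finset.sum_range_reflect]
  refine Finset.sum_congr rfl fun k hk => ?_
  have hk := Finset.mem_range.1 hk
  have e1 : d + 1 - 1 - k = d - k := by omega
  have e2 : d - (d - k) = k := by omega
  rw [e1, e2]

theorem trace_symm (f : Polynomial ℝ) (M X Y : Matrix n n ℂ) :
    Matrix.trace (X * P371.Tf f M Y) = Matrix.trace (P371.Tf f M X * Y) := by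
  unfold P371.Tf
  simp only [Polynomial.sum_def, Finset.mul_sum, Finset.sum_mul, Matrix.trace_sum]
  refine Finset.sum_congr rfl fun d _ => ?_
  rw [sum_reflect d (fun k l => Matrix.trace
    (X * (((f.coeff d * (d.choose k : ℝ) : ℝ) : ℂ) • (M ^ k * Y * M ^ l))))]
  refine Finset.sum_congr rfl fun k hk => ?_
  have hk := Finset.mem_range.1 hk
  rw [Nat.choose_symm (by omega : k ≤ d), Matrix.mul_smul, Matrix.smul_mul, Matrix.trace_smul,
    Matrix.trace_smul]
  congr 1
  rw [← Matrix.mul_assoc, ← Matrix.mul_assoc, Matrix.trace_mul_comm]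
  simp only [Matrix.mul_assoc]

end AlgAux

open AlgAux

theorem hasDerivAt_V (f : Polynomial ℝ) (M X : ℝ → Matrix n n ℂ) (M' X' : Matrix n n ℂ) (x : ℝ)
    (hM : ∀ i j, HasDerivAt (fun t => M t i j) (M' i j) x)
    (hX : ∀ i j, HasDerivAt (fun t => X t i j) (X' i j) x) :
    HasDerivAt (fun t => (trace (X t * Tf f (M t) (X t))).re)
      (2 * (trace (Tf f (M x) (X x) * X')).re + (trace (X x * dTf f (M x) (X x) M')).re) x := by
  have hM' : MD M M' x := hM
  have hX' : MD X X' x := hX
  have h := hasDerivAt_re (hX'.mul (MD.Tf f hM' hX')).trace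
  have e : (Matrix.trace (X' * Tf f (M x) (X x) +
      X x * (Tf f (M x) X' + dTf f (M x) (X x) M'))).re
      = 2 * (trace (Tf f (M x) (X x) * X')).re + (trace (X x * dTf f (M x) (X x) M')).re := by
    rw [mul_add, Matrix.trace_add, Matrix.trace_add, Matrix.trace_mul_comm X',
      trace_symm f (M x) (X x) X']
    simp only [Complex.add_re]
    ring
  rw [← e]
  exact h

/-- `T_f^M(X)` is Hermitian if `M, X` are. -/
theorem Tf_isHermitian (f : Polynomial ℝ) (M X : Matrix n n ℂ) (hM : M.IsHermitian)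
    (hX : X.IsHermitian) : (Tf f M X).IsHermitian := by
  unfold Matrix.IsHermitian Tf
  simp only [Polynomial.sum_def, Matrix.conjTranspose_sum]
  refine Finset.sum_congr rfl fun d _ => ?_
  rw [sum_reflect d (fun k l =>
    (((f.coeff d * (d.choose k : ℝ) : ℝ) : ℂ) • (M ^ k * X * M ^ l))ᴴ)]
  refine Finset.sum_congr rfl fun k hk => ?_
  have hk := Finset.mem_range.1 hk
  rw [Nat.choose_symm (by omega : k ≤ d), Matrix.conjTranspose_smul, Matrix.conjTranspose_mul,
    Matrix.conjTranspose_mul, Matrix.conjTranspose_pow, Matrix.conjTranspose_pow, hM.eq, hX.eq,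
    ← Matrix.mul_assoc]
  congr 1
  exact Complex.conj_ofReal _

end Vale.Agent.P371
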