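import Vale.Agent.P371.AcCore
import Vale.Agent.P371.Alg

/-!
# P371 [AC]: the integrated inequality
-/

open MeasureTheory Matrix Finset
open scoped ComplexOrder ENNReal

namespace Vale.Agent.P371

open Ac in
theorem step {m N : ℕ} (f : Polynomial ℝ) (c : ℝ)
    (hf : ∀ (M X : Matrix (Fin N) (Fin N) ℂ), M.PosSemidef → (1 - M).PosSemidef →
      X.PosSemidef →
      (1 / 2) * (trace (X * dTf f M X X)).re + (trace (Tf f M X * X * Tf f M X)).re +
        c * (trace (X * X * X)).re ≤ 0)
    (u du : Fin N → ℝ → Fin m → ℂ) (hu : ∀ j, IsH1 (u j) (du j))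
    (hon : ∀ j k, ∫ x, ip (u j x) (u k x) = if j = k then 1 else 0) (s t : ℝ) (hst : s ≤ t) :
    c * (∫ x in s..t, (trace (gram u x * gram u x * gram u x)).re) +
      (1 / 2) * (trace (gram u t * Tf f (cum u t) (gram u t))).re -
      (1 / 2) * (trace (gram u s * Tf f (cum u s) (gram u s))).re ≤
    ∫ x in s..t, ∑ j, ∑ a, ‖du j x a‖ ^ 2 := by
  have hV : AbsolutelyContinuousOnInterval
      (fun x => (trace (gram u x * Tf f (cum u x) (gram u x))).re) s t :=
    (MAC.trace ((gram_ac hu s t).mul (MAC.Tf (cum_ac hu s t) (gram_ac hu s t) f))).1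
  have hX : AbsolutelyContinuousOnInterval
      (fun x => (trace (gram u x * gram u x * gram u x)).re) s t :=
    (MAC.trace (((gram_ac hu s t).mul (gram_ac hu s t)).mul (gram_ac hu s t))).1
  have h1 := hV.integral_deriv_eq_sub
  have hVi := hV.intervalIntegrable_deriv
  have hXi : IntervalIntegrable (fun x => (trace (gram u x * gram u x * gram u x)).re) volume s t :=
    hX.continuousOn.intervalIntegrable
  have h2 : c * (∫ x in s..t, (trace (gram u x * gram u x * gram u x)).re) +
      (1 / 2) * (trace (gram u t * Tf f (cum u t) (gram u t))).re -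
      (1 / 2) * (trace (gram u s * Tf f (cum u s) (gram u s))).re =
      ∫ x in s..t, (c * (trace (gram u x * gram u x * gram u x)).re +
        (1 / 2) * deriv (fun x => (trace (gram u x * Tf f (cum u x) (gram u x))).re) x) := by
    rw [intervalIntegral.integral_add (hXi.const_mul _) (hVi.const_mul _),
      intervalIntegral.integral_const_mul, intervalIntegral.integral_const_mul, h1]
    ring
  rw [h2]
  refine intervalIntegral.integral_mono_ae_restrict hst ((hXi.const_mul _).add (hVi.const_mul _))
    (kin_int hu).intervalIntegrable ?_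
  have hd : ∀ᵐ x, ∀ j a, x ∈ Set.uIcc s t → HasDerivAt (fun x => u j x a) (du j x a) x := by
    rw [ae_all_iff]; intro j
    rw [ae_all_iff]; intro a
    exact u_deriv (hu j) a s t
  rw [Filter.EventuallyLE, ae_restrict_iff' measurableSet_Icc]
  filter_upwards [hd] with x hx hxs
  rw [← Set.uIcc_of_le hst] at hxs
  have hg : ∀ j k, HasDerivAt (fun x => gram u x j k) (dgram u du x j k) x :=
    gram_deriv fun j a => hx j a hxs
  have hder := (hasDerivAt_V f (cum u) (gram u) (gram u x) (dgram u du x) x
    (fun j k => cum_deriv hu j k x) hg).deriv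
  rw [hder]
  obtain ⟨hM, hM1⟩ := cum_psd u du hu hon x
  have hXp := gram_psd u x
  have hT := Tf_isHermitian f (cum u x) (gram u x) hM.1 hXp.1
  have hsq := square (U := mat u x) (D := mat du x) hT
  have hin := hf (cum u x) (gram u x) hM hM1 hXp
  rw [trace_kin, ← gram_eq] at hsq
  rw [dgram]
  linarith

end Vale.Agent.P371
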