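import Vale.Agent.P371.Gram

/-!
# P371: basic facts on `H¹` functions and absolutely continuous matrix functions
-/

open MeasureTheory Matrix Finset
open scoped ComplexOrder ENNReal

namespace Vale.Agent.P371

namespace Ac

variable {m N : ℕ}

/-! ### `H¹` functions -/

theorem du_int {u du : ℝ → Fin m → ℂ} (h : IsH1 u du) (a : Fin m) (s t : ℝ) :
    IntervalIntegrable (fun x => du x a) volume s t :=
  (((h a).2.1.locallyIntegrable (by norm_num)).integrableOn_isCompact
    isCompact_uIcc).intervalIntegrable

theorem u_cont {u du : ℝ → Fin m → ℂ} (h : IsH1 u du) (a : Fin m) :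
    Continuous (fun x => u x a) := by
  have h1 := intervalIntegral.continuous_primitive (fun s t => du_int h a s t) 0
  have h2 : (fun x => u x a) = fun x => u 0 a + ∫ t in (0:ℝ)..x, du t a := by
    funext x
    rw [← (h a).2.2 0 x]
    ring
  rw [h2]
  exact continuous_const.add h1

theorem u_deriv {u du : ℝ → Fin m → ℂ} (h : IsH1 u du) (a : Fin m) (s t : ℝ) :
    ∀ᵐ x, x ∈ Set.uIcc s t → HasDerivAt (fun x => u x a) (du x a) x := by
  filter_upwards [(du_int h a s t).ae_hasDerivAt_integral] with x hx hxs
  have h1 := hx hxs s Set.left_mem_uIcc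
  have h2 : (fun x => u x a) = fun x => u s a + ∫ t in s..x, du t a := by
    funext x
    rw [← (h a).2.2 s x]
    ring
  rw [h2]
  exact h1.const_add _

theorem ip_int {u v du dv : ℝ → Fin m → ℂ} (hu : IsH1 u du) (hv : IsH1 v dv) :
    Integrable fun x => ip (u x) (v x) := by
  unfold ip
  refine integrable_finsetSum _ fun a _ => ?_
  exact MemLp.integrable_mul (p := 2) (q := 2) (hu a).1.star (hv a).1

theorem ip_cont {u v du dv : ℝ → Fin m → ℂ} (hu : IsH1 u du) (hv : IsH1 v dv) :
    Continuous fun x => ip (u x) (v x) := by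
  unfold ip
  exact continuous_finsetSum _ fun a _ => (continuous_star.comp (u_cont hu a)).mul (u_cont hv a)

theorem du_sq_int {u du : ℝ → Fin m → ℂ} (h : IsH1 u du) (a : Fin m) :
    Integrable fun x => ‖du x a‖ ^ 2 :=
  (h a).2.1.integrable_norm_pow (by norm_num)

theorem kin_int {u du : Fin N → ℝ → Fin m → ℂ} (hu : ∀ j, IsH1 (u j) (du j)) :
    Integrable fun x => ∑ j, ∑ a, ‖du j x a‖ ^ 2 :=
  integrable_finsetSum _ fun j _ => integrable_finsetSum _ fun a _ => du_sq_int (hu j) a

/-- the matrix with columns `u_k(x)` -/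
noncomputable def mat (u : Fin N → ℝ → Fin m → ℂ) (x : ℝ) : Matrix (Fin m) (Fin N) ℂ :=
  Matrix.of fun a k => u k x a

theorem gram_eq (u : Fin N → ℝ → Fin m → ℂ) (x : ℝ) : gram u x = (mat u x)ᴴ * mat u x := by
  ext j k
  simp [gram, mat, ip, Matrix.mul_apply]

theorem dens_eq (u : Fin N → ℝ → Fin m → ℂ) (x : ℝ) : dens u x = mat u x * (mat u x)ᴴ := by
  ext a b
  simp [dens, mat, Matrix.mul_apply]

theorem gram_psd (u : Fin N → ℝ → Fin m → ℂ) (x : ℝ) : (gram u x).PosSemidef := by
  rw [gram_eq]; exact posSemidef_conjTranspose_mul_self _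

theorem dens_psd (u : Fin N → ℝ → Fin m → ℂ) (x : ℝ) : (dens u x).PosSemidef := by
  rw [dens_eq]; exact posSemidef_self_mul_conjTranspose _

/-- integrals of positive semidefinite matrices -/
theorem integral_psd {n : Type} [Fintype n] [DecidableEq n] (G : ℝ → Matrix n n ℂ) (S : Set ℝ)
    (hG : ∀ x, (G x).PosSemidef)
    (hi : ∀ j k, IntegrableOn (fun x => G x j k) S) :
    (Matrix.of fun j k => ∫ x in S, G x j k : Matrix n n ℂ).PosSemidef := by
  refine PosSemidef.of_dotProduct_mulVec_nonneg ?_ fun v => ?_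
  · ext j k
    rw [Matrix.conjTranspose_apply, Matrix.of_apply, Matrix.of_apply]
    have : ∀ x, G x j k = star (G x k j) := fun x => ((hG x).1.apply j k).symm
    simp only [this]
    exact (integral_conj (f := fun x => G x k j)).symm
  · have h1 : star v ⬝ᵥ ((Matrix.of fun j k => ∫ x in S, G x j k : Matrix n n ℂ) *ᵥ v) =
        ∫ x in S, star v ⬝ᵥ (G x *ᵥ v) := by
      simp only [dotProduct, Matrix.mulVec, Matrix.of_apply]
      rw [integral_finsetSum]
      · refine Finset.sum_congr rfl fun j _ => ?_
        rw [integral_const_mul, integral_finsetSum]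
        · congr 1
          refine Finset.sum_congr rfl fun k _ => ?_
          rw [integral_mul_const]
        · intro k _
          exact (hi j k).mul_const _
      · intro j _
        refine Integrable.const_mul ?_ _
        exact integrable_finsetSum _ fun k _ => (hi j k).mul_const _
    rw [h1]
    exact integral_nonneg fun x => (hG x).dotProduct_mulVec_nonneg v

end Ac

theorem cum_psd {m N : ℕ} (u du : Fin N → ℝ → Fin m → ℂ) (hu : ∀ j, IsH1 (u j) (du j))
    (hon : ∀ j k, ∫ x, ip (u j x) (u k x) = if j = k then 1 else 0) (x : ℝ) :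
    (cum u x).PosSemidef ∧ (1 - cum u x).PosSemidef := by
  constructor
  · exact Ac.integral_psd (fun t => gram u t) (Set.Iic x) (Ac.gram_psd u)
      fun j k => (Ac.ip_int (hu j) (hu k)).integrableOn
  · have h1 : (1 - cum u x) =
        (Matrix.of fun j k => ∫ t in Set.Ioi x, gram u t j k : Matrix (Fin N) (Fin N) ℂ) := by
      ext j k
      rw [Matrix.sub_apply, Matrix.one_apply, ← hon j k]
      have h2 := integral_add_compl (measurableSet_Iic (a := x)) (Ac.ip_int (hu j) (hu k))
      rw [Set.compl_Iic] at h2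
      rw [← h2]
      simp [cum, gram]
    rw [h1]
    exact Ac.integral_psd (fun t => gram u t) (Set.Ioi x) (Ac.gram_psd u)
      fun j k => (Ac.ip_int (hu j) (hu k)).integrableOn

end Vale.Agent.P371
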