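import Vale.Agent.P371.AcAux

/-!
# P371: absolutely continuous matrix functions
-/

open MeasureTheory Matrix Finset
open scoped ComplexOrder ENNReal

namespace Vale.Agent.P371

namespace Ac

/-- complex valued absolutely continuous functions -/
def CAC (f : ℝ → ℂ) (s t : ℝ) : Prop :=
  AbsolutelyContinuousOnInterval (fun x => (f x).re) s t ∧
    AbsolutelyContinuousOnInterval (fun x => (f x).im) s t

theorem ac_const (c s t : ℝ) : AbsolutelyContinuousOnInterval (fun _ => c) s t :=
  ((LipschitzWith.const c).lipschitzOnWith (s := Set.uIcc s t)).absolutelyContinuousOnInterval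

theorem CAC.const (c : ℂ) (s t : ℝ) : CAC (fun _ => c) s t := ⟨ac_const _ _ _, ac_const _ _ _⟩

theorem CAC.add {f g : ℝ → ℂ} {s t : ℝ} (hf : CAC f s t) (hg : CAC g s t) :
    CAC (fun x => f x + g x) s t := ⟨hf.1.fun_add hg.1, hf.2.fun_add hg.2⟩

theorem CAC.mul {f g : ℝ → ℂ} {s t : ℝ} (hf : CAC f s t) (hg : CAC g s t) :
    CAC (fun x => f x * g x) s t :=
  ⟨(hf.1.fun_mul hg.1).fun_sub (hf.2.fun_mul hg.2),
    (hf.1.fun_mul hg.2).fun_add (hf.2.fun_mul hg.1)⟩

theorem CAC.star {f : ℝ → ℂ} {s t : ℝ} (hf : CAC f s t) : CAC (fun x => star (f x)) s t :=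
  ⟨hf.1, hf.2.fun_neg⟩

theorem CAC.sum {ι : Type*} (S : Finset ι) {f : ι → ℝ → ℂ} {s t : ℝ}
    (hf : ∀ i ∈ S, CAC (f i) s t) : CAC (fun x => ∑ i ∈ S, f i x) s t := by
  classical
  induction S using Finset.induction_on with
  | empty => simpa using CAC.const 0 s t
  | insert a S ha ih =>
    simp only [Finset.sum_insert ha]
    exact (hf a (Finset.mem_insert_self _ _)).add
      (ih fun i hi => hf i (Finset.mem_insert_of_mem hi))

/-- primitives -/
theorem CAC.prim {f F : ℝ → ℂ} {s t : ℝ} (hf : ∀ a b, IntervalIntegrable f volume a b)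
    (hF : ∀ x, F x = F s + ∫ y in s..x, f y) : CAC F s t := by
  have hre : IntervalIntegrable (fun x => (f x).re) volume s t :=
    ⟨(hf s t).1.re, (hf s t).2.re⟩
  have him : IntervalIntegrable (fun x => (f x).im) volume s t :=
    ⟨(hf s t).1.im, (hf s t).2.im⟩
  have h1 := hre.absolutelyContinuousOnInterval_intervalIntegral (c := s) Set.left_mem_uIcc
  have h2 := him.absolutelyContinuousOnInterval_intervalIntegral (c := s) Set.left_mem_uIcc
  have e1 : (fun x => (F x).re) = fun x => (F s).re + ∫ y in s..x, (f y).re := by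
    funext x
    rw [hF x, Complex.add_re]
    congr 1
    exact (Complex.reCLM.intervalIntegral_comp_comm (hf s x)).symm
  have e2 : (fun x => (F x).im) = fun x => (F s).im + ∫ y in s..x, (f y).im := by
    funext x
    rw [hF x, Complex.add_im]
    congr 1
    exact (Complex.imCLM.intervalIntegral_comp_comm (hf s x)).symm
  constructor
  · rw [e1]; exact (ac_const _ _ _).fun_add h1
  · rw [e2]; exact (ac_const _ _ _).fun_add h2

/-- matrix valued -/
def MAC {α β : Type*} (F : ℝ → Matrix α β ℂ) (s t : ℝ) : Prop :=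
  ∀ i j, CAC (fun x => F x i j) s t

set_option linter.unusedSectionVars false

variable {n : Type*} [Fintype n] [DecidableEq n]

theorem MAC.mul {F G : ℝ → Matrix n n ℂ} {s t : ℝ} (hF : MAC F s t) (hG : MAC G s t) :
    MAC (fun x => F x * G x) s t := by
  intro i j
  simp only [Matrix.mul_apply]
  exact CAC.sum _ fun l _ => (hF i l).mul (hG l j)

theorem MAC.const (A : Matrix n n ℂ) (s t : ℝ) : MAC (fun _ => A) s t :=
  fun _ _ => CAC.const _ _ _

theorem MAC.pow {F : ℝ → Matrix n n ℂ} {s t : ℝ} (hF : MAC F s t) (k : ℕ) :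
    MAC (fun x => F x ^ k) s t := by
  induction k with
  | zero => simpa using MAC.const 1 s t
  | succ k ih =>
    simp only [pow_succ]
    exact ih.mul hF

theorem MAC.smul {F : ℝ → Matrix n n ℂ} {s t : ℝ} (hF : MAC F s t) (c : ℂ) :
    MAC (fun x => c • F x) s t := by
  intro i j
  simp only [Matrix.smul_apply, smul_eq_mul]
  exact (CAC.const c s t).mul (hF i j)

theorem MAC.sum {ι : Type*} (S : Finset ι) {F : ι → ℝ → Matrix n n ℂ} {s t : ℝ}
    (hF : ∀ i ∈ S, MAC (F i) s t) : MAC (fun x => ∑ i ∈ S, F i x) s t := by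
  intro i j
  simp only [Matrix.sum_apply]
  exact CAC.sum _ fun l hl => hF l hl i j

theorem MAC.Tf {M X : ℝ → Matrix n n ℂ} {s t : ℝ} (hM : MAC M s t) (hX : MAC X s t)
    (f : Polynomial ℝ) : MAC (fun x => Tf f (M x) (X x)) s t := by
  simp only [P371.Tf, Polynomial.sum]
  exact MAC.sum _ fun d _ => MAC.sum _ fun k _ => (((hM.pow k).mul hX).mul (hM.pow (d - k))).smul _

theorem MAC.trace {F : ℝ → Matrix n n ℂ} {s t : ℝ} (hF : MAC F s t) :
    CAC (fun x => trace (F x)) s t :=
  CAC.sum _ fun l _ => hF l l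

variable {m N : ℕ}

theorem u_ac {u du : ℝ → Fin m → ℂ} (h : IsH1 u du) (a : Fin m) (s t : ℝ) :
    CAC (fun x => u x a) s t := by
  refine CAC.prim (du_int h a) fun x => ?_
  rw [← (h a).2.2 s x]
  ring

theorem gram_ac {u du : Fin N → ℝ → Fin m → ℂ} (hu : ∀ j, IsH1 (u j) (du j)) (s t : ℝ) :
    MAC (gram u) s t := by
  intro j k
  simp only [gram, Matrix.of_apply, ip]
  exact CAC.sum _ fun a _ => (u_ac (hu j) a s t).star.mul (u_ac (hu k) a s t)

theorem cum_sub {u du : Fin N → ℝ → Fin m → ℂ} (hu : ∀ j, IsH1 (u j) (du j)) (j k : Fin N)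
    (s x : ℝ) : cum u x j k = cum u s j k + ∫ y in s..x, ip (u j y) (u k y) := by
  have hi := ip_int (hu j) (hu k)
  have := intervalIntegral.integral_Iic_sub_Iic (hi.integrableOn (s := Set.Iic s))
    (hi.integrableOn (s := Set.Iic x))
  rw [← this]
  simp [cum]

theorem cum_ac {u du : Fin N → ℝ → Fin m → ℂ} (hu : ∀ j, IsH1 (u j) (du j)) (s t : ℝ) :
    MAC (cum u) s t := by
  intro j k
  exact CAC.prim (fun _ _ => (ip_int (hu j) (hu k)).intervalIntegrable) fun x => cum_sub hu j k s x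

theorem cum_deriv {u du : Fin N → ℝ → Fin m → ℂ} (hu : ∀ j, IsH1 (u j) (du j)) (j k : Fin N)
    (x : ℝ) : HasDerivAt (fun x => cum u x j k) (gram u x j k) x := by
  have h1 := (Continuous.integral_hasStrictDerivAt (ip_cont (hu j) (hu k)) 0 x).hasDerivAt
  have h2 : (fun x => cum u x j k) = fun x => cum u 0 j k + ∫ y in (0:ℝ)..x, ip (u j y) (u k y) := by
    funext x; exact cum_sub hu j k 0 x
  rw [h2]
  exact h1.const_add _

/-- derivative of the Gram matrix -/
noncomputable def dgram (u du : Fin N → ℝ → Fin m → ℂ) (x : ℝ) : Matrix (Fin N) (Fin N) ℂ :=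
  (mat du x)ᴴ * mat u x + (mat u x)ᴴ * mat du x

theorem gram_deriv {u du : Fin N → ℝ → Fin m → ℂ} {x : ℝ}
    (hd : ∀ j a, HasDerivAt (fun x => u j x a) (du j x a) x) (j k : Fin N) :
    HasDerivAt (fun x => gram u x j k) (dgram u du x j k) x := by
  simp only [gram, Matrix.of_apply, ip, dgram, Matrix.add_apply, Matrix.mul_apply, mat,
    Matrix.conjTranspose_apply]
  rw [← Finset.sum_add_distrib]
  exact HasDerivAt.fun_sum fun a _ => (hd j a).star.mul (hd k a)

/-- pointwise inequality -/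
theorem square {U D : Matrix (Fin m) (Fin N) ℂ} {T : Matrix (Fin N) (Fin N) ℂ}
    (hT : T.IsHermitian) :
    (trace (T * (Dᴴ * U + Uᴴ * D))).re - (trace (T * (Uᴴ * U) * T)).re ≤ (trace (Dᴴ * D)).re := by
  have h1 : 0 ≤ (trace ((D - U * T)ᴴ * (D - U * T))).re := by
    have := (posSemidef_conjTranspose_mul_self (D - U * T)).trace_nonneg
    exact (Complex.le_def.1 this).1
  have h2 : trace ((D - U * T)ᴴ * (D - U * T)) =
      trace (Dᴴ * D) - trace (T * (Dᴴ * U + Uᴴ * D)) + trace (T * (Uᴴ * U) * T) := by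
    rw [conjTranspose_sub, conjTranspose_mul, hT.eq, Matrix.sub_mul, Matrix.mul_sub,
      Matrix.mul_sub, Matrix.mul_add, trace_sub, trace_sub, trace_sub, trace_add,
      ← Matrix.mul_assoc Dᴴ U T, trace_mul_comm (Dᴴ * U) T, Matrix.mul_assoc T Uᴴ D]
    have : T * Uᴴ * (U * T) = T * (Uᴴ * U) * T := by simp only [Matrix.mul_assoc]
    rw [this]
    ring
  rw [h2, Complex.add_re, Complex.sub_re] at h1
  linarith

theorem trace_kin (du : Fin N → ℝ → Fin m → ℂ) (x : ℝ) :
    (trace ((mat du x)ᴴ * mat du x)).re = ∑ j, ∑ a, ‖du j x a‖ ^ 2 := by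
  rw [trace, Complex.re_sum]
  refine Finset.sum_congr rfl fun j _ => ?_
  rw [Matrix.diag_apply, Matrix.mul_apply, Complex.re_sum]
  refine Finset.sum_congr rfl fun a _ => ?_
  simp only [Matrix.conjTranspose_apply, mat, Matrix.of_apply]
  rw [Complex.star_def, ← Complex.normSq_eq_conj_mul_self, Complex.ofReal_re,
    Complex.normSq_eq_norm_sq]

end Ac

end Vale.Agent.P371
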