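import Vale.Agent.P371.Basic

/-!
# P371 [APPROX]: polynomial approximation of `a cot (a (s + ε))` together with its derivative
-/

open MeasureTheory Matrix Finset
open scoped ComplexOrder ENNReal

namespace Vale.Agent.P371

theorem exists_antideriv (p : Polynomial ℝ) :
    ∃ q : Polynomial ℝ, Polynomial.derivative q = p ∧ q.eval 0 = 0 := by
  induction p using Polynomial.induction_on' with
  | add p q hp hq =>
    obtain ⟨p', hp1, hp2⟩ := hp
    obtain ⟨q', hq1, hq2⟩ := hq
    exact ⟨p' + q', by rw [Polynomial.derivative_add, hp1, hq1], by simp [hp2, hq2]⟩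
  | monomial n a =>
    refine ⟨Polynomial.monomial (n + 1) (a / (n + 1)), ?_, ?_⟩
    · rw [Polynomial.derivative_monomial]
      have : ((n : ℝ) + 1) ≠ 0 := by positivity
      simp [div_mul_cancel₀ a this]
    · simp [Polynomial.eval_monomial]

theorem exists_poly (a ε δ : ℝ) (ha : 0 < a) (hε : 0 < ε) (h : a * (2 + ε) < Real.pi)
    (hδ : 0 < δ) :
    ∃ f : Polynomial ℝ, ∀ s ∈ Set.Icc (0:ℝ) 2,
      |f.eval s - a * Real.cot (a * (s + ε))| ≤ δ ∧
      |(Polynomial.derivative f).eval s - (-(a ^ 2 / Real.sin (a * (s + ε)) ^ 2))| ≤ δ := by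
  have hpos : ∀ s ∈ Set.Icc (0 : ℝ) 2, 0 < Real.sin (a * (s + ε)) := by
    intro s hs
    apply Real.sin_pos_of_pos_of_lt_pi
    · have := hs.1
      positivity
    · refine lt_of_le_of_lt ?_ h
      exact mul_le_mul_of_nonneg_left (by linarith [hs.2]) ha.le
  have hgc : ContinuousOn (fun s : ℝ => -(a ^ 2 / Real.sin (a * (s + ε)) ^ 2)) (Set.Icc 0 2) := by
    refine ContinuousOn.neg (ContinuousOn.div (by fun_prop) (by fun_prop) ?_)
    intro s hs
    have := hpos s hs
    positivity
  obtain ⟨p, hp⟩ := exists_polynomial_near_of_continuousOn 0 2 _ hgc (δ / 2) (by positivity)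
  obtain ⟨q, hq1, hq2⟩ := exists_antideriv p
  refine ⟨Polynomial.C (a * Real.cot (a * ε)) + q, fun s hs => ?_⟩
  have hder : Polynomial.derivative (Polynomial.C (a * Real.cot (a * ε)) + q) = p := by
    rw [Polynomial.derivative_add, Polynomial.derivative_C, zero_add, hq1]
  refine ⟨?_, ?_⟩
  · have hF : ∀ t ∈ Set.Icc (0 : ℝ) 2, HasDerivWithinAt
        (fun t => (Polynomial.C (a * Real.cot (a * ε)) + q).eval t -
          a * Real.cot (a * (t + ε)))
        (p.eval t - (-(a ^ 2 / Real.sin (a * (t + ε)) ^ 2))) (Set.Icc 0 2) t := by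
      intro t ht
      have h1 : HasDerivAt (fun t => (Polynomial.C (a * Real.cot (a * ε)) + q).eval t)
          (p.eval t) t := by
        have := (Polynomial.C (a * Real.cot (a * ε)) + q).hasDerivAt t
        rwa [hder] at this
      have h2 : HasDerivAt (fun t => a * Real.cot (a * (t + ε)))
          (-(a ^ 2 / Real.sin (a * (t + ε)) ^ 2)) t := by
        have hl : HasDerivAt (fun t : ℝ => a * (t + ε)) a t := by
          have := ((hasDerivAt_id t).add_const ε).const_mul a
          simpa using this
        have hs0 := (hpos t ht).ne'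
        have h3 := (hl.cos.div hl.sin hs0).const_mul a
        simp only [Real.cot_eq_cos_div_sin]
        refine h3.congr_deriv ?_
        have h5 := Real.sin_sq_add_cos_sq (a * (t + ε))
        field_simp
        linarith
      exact (h1.sub h2).hasDerivWithinAt
    have hb : ∀ t ∈ Set.Icc (0 : ℝ) 2,
        ‖p.eval t - (-(a ^ 2 / Real.sin (a * (t + ε)) ^ 2))‖ ≤ δ / 2 := by
      intro t ht
      exact (hp t ht).le
    have h4 := (convex_Icc (0 : ℝ) 2).norm_image_sub_le_of_norm_hasDerivWithin_le hF hb
      (Set.left_mem_Icc.2 zero_le_two) hs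
    have e0 : (Polynomial.C (a * Real.cot (a * ε)) + q).eval 0 - a * Real.cot (a * (0 + ε)) = 0 := by
      simp [hq2]
    rw [e0, sub_zero, sub_zero, Real.norm_eq_abs, Real.norm_eq_abs] at h4
    refine h4.trans ?_
    rw [abs_of_nonneg hs.1]
    nlinarith [hs.2]
  · rw [hder]
    have := hp s hs
    linarith

end Vale.Agent.P371
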