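import Mathlib

/-!
# P371: internal definitions (noncommutative polynomial calculus, kernels)
-/

open MeasureTheory Matrix Finset
open scoped ComplexOrder

namespace Vale.Agent.P371

variable {n : Type*} [Fintype n] [DecidableEq n]

/-- `T_f^M(X) = f(L_M + R_M) X`. -/
noncomputable def Tf (f : Polynomial ℝ) (M X : Matrix n n ℂ) : Matrix n n ℂ :=
  f.sum fun d c => ∑ k ∈ range (d + 1), ((c * (d.choose k : ℝ) : ℝ) : ℂ) • (M ^ k * X * M ^ (d - k))

/-- derivative of `M ↦ M ^ k` in the direction `H`. -/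
def dPow (M H : Matrix n n ℂ) (k : ℕ) : Matrix n n ℂ :=
  ∑ j ∈ range k, M ^ j * H * M ^ (k - 1 - j)

/-- derivative of `M ↦ T_f^M(X)` in the direction `H`. -/
noncomputable def dTf (f : Polynomial ℝ) (M X H : Matrix n n ℂ) : Matrix n n ℂ :=
  f.sum fun d c => ∑ k ∈ range (d + 1), ((c * (d.choose k : ℝ) : ℝ) : ℂ) •
    (dPow M H k * X * M ^ (d - k) + M ^ k * X * dPow M H (d - k))

/-- divided difference `(f(a+b) - f(c+b))/(a-c)` in integral form. -/
noncomputable def dd (f : Polynomial ℝ) (a c b : ℝ) : ℝ :=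
  ∫ t in (0:ℝ)..1, (Polynomial.derivative f).eval (b + c + t * (a - c))

/-- `G(d) = ∫_0^1 (1 - h²) cos (h d) dh`  (`= 2 (sin d / d - cos d) / d²`). -/
noncomputable def G (d : ℝ) : ℝ := ∫ h in (0:ℝ)..1, (1 - h ^ 2) * Real.cos (h * d)

/-- `ρ(x,y) = sin (x+y) G(x-y)`. -/
noncomputable def rho (x y : ℝ) : ℝ := Real.sin (x + y) * G (x - y)

/-- `∫_0^1 dt / sin² (b + c + t (a - c))`. -/
noncomputable def ics (a c b : ℝ) : ℝ := ∫ t in (0:ℝ)..1, 1 / Real.sin (b + c + t * (a - c)) ^ 2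

end Vale.Agent.P371
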