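import Mathlib

/-!
# The Brouwer fixed point theorem (Milnor-Rogers argument) and nearest-point projections

Every continuous self-map of a nonempty compact convex subset of a finite-dimensional real inner
product space has a fixed point.
-/

namespace Vale.Agent.P371
namespace BrouwerAux

open Set Metric MeasureTheory
open scoped RealInnerProductSpace NNReal ENNReal Topology Polynomial ContDiff

section Det

variable {E : Type*} [NormedAddCommGroup E] [InnerProductSpace ℝ E] [FiniteDimensional ℝ E]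

/-- The determinant of `1 + t A` is a polynomial in `t` of degree at most the dimension. -/
theorem det_poly (A : E →L[ℝ] E) : ∃ q : ℝ[X], q.natDegree ≤ Module.finrank ℝ E ∧
    ∀ t : ℝ, q.eval t = (ContinuousLinearMap.id ℝ E + t • A).det := by
  classical
  set b := Module.finBasis ℝ E with hb
  set M := LinearMap.toMatrix b b (A : E →ₗ[ℝ] E) with hM
  refine ⟨(-M).charpolyRev, ?_, fun t => ?_⟩
  · rw [← Matrix.reverse_charpoly]
    refine (Polynomial.reverse_natDegree_le _).trans ?_
    rw [Matrix.charpoly_natDegree_eq_dim]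
    simp
  · have h1 : Polynomial.eval t (-M).charpolyRev = (1 + t • M).det := by
      rw [Matrix.charpolyRev, ← Polynomial.coe_evalRingHom, RingHom.map_det]
      congr 1
      ext i j
      by_cases hij : i = j
      · subst hij
        simp
        ring
      · simp [Matrix.one_apply_ne hij]
        ring
    rw [h1]
    change _ = LinearMap.det ((ContinuousLinearMap.id ℝ E + t • A : E →L[ℝ] E) : E →ₗ[ℝ] E)
    rw [← LinearMap.det_toMatrix b]
    congr 1
    simp [hM]

/-- Interpolation: `det (1 + A)` is a fixed combination of the values `det (1 + t A)` for small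
positive parameters `t`. -/
theorem det_interp (ε : ℝ) (hε : 0 < ε) : ∃ (s : Finset ℕ) (v c : ℕ → ℝ),
    (∀ i ∈ s, 0 ≤ v i ∧ v i < ε) ∧ ∑ i ∈ s, c i = 1 ∧
    ∀ A : E →L[ℝ] E, (ContinuousLinearMap.id ℝ E + A).det =
      ∑ i ∈ s, c i * (ContinuousLinearMap.id ℝ E + v i • A).det := by
  classical
  set n := Module.finrank ℝ E with hn
  set s : Finset ℕ := Finset.range (n + 1) with hs
  set v : ℕ → ℝ := fun i => ε * (i / (n + 1)) with hv
  have hinj : Set.InjOn v s := by
    intro i _ j _ hij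
    have hn1 : ((n : ℝ) + 1) ≠ 0 := by positivity
    have h1 : (i : ℝ) / (n + 1) = j / (n + 1) := mul_left_cancel₀ hε.ne' hij
    have h2 : (i : ℝ) = j := by
      field_simp at h1
      exact h1
    exact_mod_cast h2
  have hne : s.Nonempty := ⟨0, by simp [hs]⟩
  refine ⟨s, v, fun i => (Lagrange.basis s v i).eval 1, ?_, ?_, ?_⟩
  · intro i hi
    have hi' : (i : ℝ) < n + 1 := by
      have := Finset.mem_range.1 hi
      exact_mod_cast this
    have hn1 : (0 : ℝ) < (n : ℝ) + 1 := by positivity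
    refine ⟨by positivity, ?_⟩
    have : (i : ℝ) / (n + 1) < 1 := by rw [div_lt_one hn1]; exact hi'
    calc ε * ((i : ℝ) / (n + 1)) < ε * 1 := by
          apply mul_lt_mul_of_pos_left this hε
      _ = ε := mul_one _
  · have := congrArg (Polynomial.eval (1 : ℝ)) (Lagrange.sum_basis hinj hne)
    rw [Polynomial.eval_finsetSum, Polynomial.eval_one] at this
    exact this
  · intro A
    obtain ⟨q, hq, hqe⟩ := det_poly A
    have hdeg : q.degree < s.card := by
      refine lt_of_le_of_lt Polynomial.degree_le_natDegree ?_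
      rw [hs, Finset.card_range]
      exact_mod_cast Nat.lt_succ_of_le hq
    have h1 := congrArg (Polynomial.eval (1 : ℝ)) (Lagrange.eq_interpolate hinj hdeg)
    rw [Lagrange.interpolate_apply, Polynomial.eval_finsetSum] at h1
    have h2 := hqe 1
    rw [one_smul] at h2
    rw [← h2, h1]
    refine Finset.sum_congr rfl fun i _ => ?_
    rw [Polynomial.eval_mul, Polynomial.eval_C, hqe]
    ring

/-- `1 + A` is invertible when `A` has norm less than one. -/
theorem isUnit_one_add {A : E →L[ℝ] E} (h : ‖A‖ < 1) :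
    IsUnit (ContinuousLinearMap.id ℝ E + A) := by
  have h1 : IsUnit (1 - (-A)) := isUnit_one_sub_of_norm_lt_one (by rwa [norm_neg])
  have h2 : (1 : E →L[ℝ] E) - (-A) = ContinuousLinearMap.id ℝ E + A := by
    rw [sub_neg_eq_add]; rfl
  rwa [h2] at h1

theorem det_ne_zero {A : E →L[ℝ] E} (h : ‖A‖ < 1) :
    (ContinuousLinearMap.id ℝ E + A).det ≠ 0 := by
  have h1 := isUnit_one_add h
  have h2 : IsUnit ((ContinuousLinearMap.id ℝ E + A : E →L[ℝ] E) : E →ₗ[ℝ] E) :=
    h1.map (ContinuousLinearMap.toLinearMapRingHom (R₁ := ℝ) (M₁ := E))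
  exact (h2.map (LinearMap.det (M := E) (A := ℝ))).ne_zero

theorem det_pos {A : E →L[ℝ] E} (h : ‖A‖ < 1) :
    0 < (ContinuousLinearMap.id ℝ E + A).det := by
  by_contra hneg
  push Not at hneg
  set φ : ℝ → ℝ := fun t => (ContinuousLinearMap.id ℝ E + t • A).det with hφ
  have hcont : Continuous φ := by
    refine ContinuousLinearMap.continuous_det.comp ?_
    fun_prop
  have h0 : φ 0 = 1 := by
    simp only [hφ, zero_smul, add_zero]
    exact LinearMap.det_id
  have h1 : φ 1 ≤ 0 := by simpa [hφ] using hneg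
  obtain ⟨t, ht, hte⟩ := intermediate_value_Icc' (zero_le_one' ℝ) hcont.continuousOn
    (show (0 : ℝ) ∈ Icc (φ 1) (φ 0) from ⟨h1, by rw [h0]; exact zero_le_one⟩)
  refine det_ne_zero (A := t • A) ?_ hte
  rw [norm_smul, Real.norm_eq_abs, abs_of_nonneg ht.1]
  calc t * ‖A‖ ≤ 1 * ‖A‖ := mul_le_mul_of_nonneg_right ht.2 (norm_nonneg _)
    _ < 1 := by rwa [one_mul]

end Det

section Retract

variable {E : Type*} [NormedAddCommGroup E] [InnerProductSpace ℝ E] [FiniteDimensional ℝ E]

/-- A map which is `C¹` at every point of the closed unit ball is Lipschitz there. -/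
theorem exists_lipschitz {g : E → E} (hg : ∀ x ∈ closedBall (0 : E) 1, ContDiffAt ℝ 1 g x) :
    ∃ C : ℝ, 0 < C ∧ (∀ x ∈ closedBall (0 : E) 1, ‖fderiv ℝ g x‖ ≤ C) ∧
      ∀ x ∈ closedBall (0 : E) 1, ∀ y ∈ closedBall (0 : E) 1, ‖g y - g x‖ ≤ C * ‖y - x‖ := by
  have hc : ContinuousOn (fun x => ‖fderiv ℝ g x‖) (closedBall (0 : E) 1) := by
    intro x hx
    have h1 : ContinuousAt (fderiv ℝ g) x :=
      ((hg x hx).fderiv_right (m := 0) (by norm_num)).continuousAt
    exact h1.norm.continuousWithinAt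
  obtain ⟨C, hC⟩ := (isCompact_closedBall (0 : E) 1).bddAbove_image hc
  have hC' : ∀ x ∈ closedBall (0 : E) 1, ‖fderiv ℝ g x‖ ≤ max C 1 := fun x hx =>
    (hC ⟨x, hx, rfl⟩).trans (le_max_left _ _)
  refine ⟨max C 1, lt_of_lt_of_le one_pos (le_max_right _ _), hC', fun x hx y hy => ?_⟩
  exact (convex_closedBall (0 : E) 1).norm_image_sub_le_of_norm_fderiv_le
    (fun z hz => (hg z hz).differentiableAt (by norm_num)) hC' hx hy

/-- For small `t`, the map `x + t g(x)` is a bijection of the open unit ball. -/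
theorem image_ball {g : E → E} {C t : ℝ} (ht0 : 0 ≤ t) (ht1 : t < 1)
    (htC : t * C < 1)
    (hg : ∀ x ∈ closedBall (0 : E) 1, ContDiffAt ℝ 1 g x)
    (hgC : ∀ x ∈ closedBall (0 : E) 1, ‖fderiv ℝ g x‖ ≤ C)
    (hB : ∀ x ∈ closedBall (0 : E) 1, ‖x + g x‖ ≤ 1)
    (hS : ∀ x, ‖x‖ = 1 → g x = 0) :
    (fun x => x + t • g x) '' ball (0 : E) 1 = ball 0 1 := by
  set F : E → E := fun x => x + t • g x with hF
  have hsub : ball (0 : E) 1 ⊆ closedBall (0 : E) 1 := ball_subset_closedBall
  have hFcont : ContinuousOn F (closedBall (0 : E) 1) := by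
    intro x hx
    have : ContinuousAt g x := (hg x hx).continuousAt
    exact (continuousAt_id.add (this.const_smul t)).continuousWithinAt
  have hmaps : F '' ball (0 : E) 1 ⊆ ball 0 1 := by
    rintro _ ⟨x, hx, rfl⟩
    rw [mem_ball_zero_iff] at hx ⊢
    have h1 : F x = (1 - t) • x + t • (x + g x) := by
      simp only [hF, smul_add, sub_smul, one_smul]; abel
    rw [h1]
    have h2 : ‖x + g x‖ ≤ 1 := hB x (by rw [mem_closedBall_zero_iff]; exact hx.le)
    calc ‖(1 - t) • x + t • (x + g x)‖ ≤ ‖(1 - t) • x‖ + ‖t • (x + g x)‖ := norm_add_le _ _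
      _ = (1 - t) * ‖x‖ + t * ‖x + g x‖ := by
          rw [norm_smul, norm_smul, Real.norm_eq_abs, Real.norm_eq_abs,
            abs_of_nonneg (by linarith), abs_of_nonneg ht0]
      _ < 1 := by
          have h3 : (1 - t) * ‖x‖ < (1 - t) * 1 := mul_lt_mul_of_pos_left hx (by linarith)
          have h4 : t * ‖x + g x‖ ≤ t * 1 := mul_le_mul_of_nonneg_left h2 ht0
          linarith
  have hopen : IsOpen (F '' ball (0 : E) 1) := by
    rw [isOpen_iff_mem_nhds]
    rintro _ ⟨x, hx, rfl⟩
    have hgx := hg x (hsub hx)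
    have hst : HasStrictFDerivAt g (fderiv ℝ g x) x := hgx.hasStrictFDerivAt (by norm_num)
    have hst2 : HasStrictFDerivAt F (ContinuousLinearMap.id ℝ E + t • fderiv ℝ g x) x :=
      (hasStrictFDerivAt_id x).add (hst.const_smul t)
    have hn : ‖t • fderiv ℝ g x‖ < 1 := by
      rw [norm_smul, Real.norm_eq_abs, abs_of_nonneg ht0]
      exact lt_of_le_of_lt (mul_le_mul_of_nonneg_left (hgC x (hsub hx)) ht0) htC
    have hu := isUnit_one_add hn
    have hsurj : (ContinuousLinearMap.id ℝ E + t • fderiv ℝ g x).range = ⊤ := by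
      obtain ⟨u, hu⟩ := hu
      rw [← hu, LinearMap.range_eq_top]
      intro y
      refine ⟨(u⁻¹ : (E →L[ℝ] E)ˣ).1 y, ?_⟩
      exact congrArg (fun T : E →L[ℝ] E => T y) u.mul_inv
    have h1 := hst2.map_nhds_eq_of_surj hsurj
    rw [← h1]
    exact Filter.image_mem_map (isOpen_ball.mem_nhds hx)
  have hclosed : closure (F '' ball (0 : E) 1) ∩ ball 0 1 ⊆ F '' ball (0 : E) 1 := by
    rintro y ⟨hy1, hy2⟩
    have hK : IsCompact (F '' closedBall (0 : E) 1) :=
      (isCompact_closedBall (0 : E) 1).image_of_continuousOn hFcont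
    have h1 : closure (F '' ball (0 : E) 1) ⊆ F '' closedBall (0 : E) 1 :=
      closure_minimal (image_mono hsub) hK.isClosed
    obtain ⟨x, hx, rfl⟩ := h1 hy1
    refine ⟨x, ?_, rfl⟩
    rw [mem_closedBall_zero_iff] at hx
    rw [mem_ball_zero_iff]
    refine lt_of_le_of_ne hx fun hx1 => ?_
    have : F x = x := by simp [hF, hS x hx1]
    rw [this, mem_ball_zero_iff] at hy2
    exact absurd hx1 hy2.ne
  refine Subset.antisymm hmaps ?_
  refine (convex_ball (0 : E) 1).isPreconnected.subset_of_closure_inter_subset hopen ?_ hclosed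
  refine ⟨F 0, ?_, ⟨0, by simp, rfl⟩⟩
  exact hmaps ⟨0, by simp, rfl⟩

/-- There is no `C¹` retraction of the closed unit ball onto the unit sphere. -/
theorem no_retraction {f : E → E} (hf : ∀ x ∈ closedBall (0 : E) 1, ContDiffAt ℝ 1 f x)
    (hf1 : ∀ x ∈ closedBall (0 : E) 1, ‖f x‖ = 1) (hfS : ∀ x, ‖x‖ = 1 → f x = x) : False := by
  borelize E
  set μ : Measure E := Measure.addHaar with hμ
  set g : E → E := fun x => f x - x with hgdef
  have hg : ∀ x ∈ closedBall (0 : E) 1, ContDiffAt ℝ 1 g x := fun x hx =>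
    (hf x hx).sub contDiffAt_id
  obtain ⟨C, hC, hgC, hL⟩ := exists_lipschitz hg
  have hB : ∀ x ∈ closedBall (0 : E) 1, ‖x + g x‖ ≤ 1 := by
    intro x hx
    have : x + g x = f x := by simp [hgdef]
    rw [this, hf1 x hx]
  have hS : ∀ x, ‖x‖ = 1 → g x = 0 := by
    intro x hx
    simp [hgdef, hfS x hx]
  have hsub : ball (0 : E) 1 ⊆ closedBall (0 : E) 1 := ball_subset_closedBall
  set ε : ℝ := min (1 / 2) (1 / (2 * C)) with hε
  have hε0 : 0 < ε := by positivity
  obtain ⟨s, v, c, hv, hc, hdet⟩ := det_interp (E := E) ε hε0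
  have hder : ∀ x ∈ closedBall (0 : E) 1, HasFDerivAt g (fderiv ℝ g x) x := fun x hx =>
    ((hg x hx).differentiableAt (by norm_num)).hasFDerivAt
  have hint : ∀ t : ℝ, IntegrableOn
      (fun x => (ContinuousLinearMap.id ℝ E + t • fderiv ℝ g x).det) (ball 0 1) μ := by
    intro t
    have hcont : ContinuousOn (fun x => (ContinuousLinearMap.id ℝ E + t • fderiv ℝ g x).det)
        (closedBall (0 : E) 1) := by
      intro x hx
      have h1 : ContinuousAt (fderiv ℝ g) x :=
        ((hg x hx).fderiv_right (m := 0) (by norm_num)).continuousAt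
      have h2 : ContinuousAt (fun x => ContinuousLinearMap.id ℝ E + t • fderiv ℝ g x) x :=
        continuousAt_const.add (h1.const_smul t)
      exact (ContinuousLinearMap.continuous_det.continuousAt.comp h2).continuousWithinAt
    exact (hcont.integrableOn_compact (isCompact_closedBall (0 : E) 1)).mono_set hsub
  have hvol : ∀ i ∈ s, ∫ x in ball (0 : E) 1,
      (ContinuousLinearMap.id ℝ E + v i • fderiv ℝ g x).det ∂μ = μ.real (ball 0 1) := by
    intro i hi
    obtain ⟨h0, h1⟩ := hv i hi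
    have ht1 : v i < 1 := lt_of_lt_of_le h1 ((min_le_left _ _).trans (by norm_num))
    have htC : v i * C < 1 := by
      have h2 : v i < 1 / (2 * C) := lt_of_lt_of_le h1 (min_le_right _ _)
      rw [lt_div_iff₀ (by positivity)] at h2
      nlinarith
    have himg := image_ball h0 ht1 htC hg hgC hB hS
    have hinj : InjOn (fun x => x + v i • g x) (ball (0 : E) 1) := by
      intro x hx y hy hxy
      have h3 : y - x = - (v i • (g y - g x)) := by
        have : x + v i • g x = y + v i • g y := hxy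
        rw [smul_sub]
        have h4 : y - x = v i • g x - v i • g y := by
          rw [sub_eq_sub_iff_add_eq_add, add_comm y, add_comm (v i • g x)]
          rw [add_comm (v i • g y), this.symm]
        rw [h4]; abel
      have h4 : ‖y - x‖ ≤ v i * (C * ‖y - x‖) := by
        calc ‖y - x‖ = v i * ‖g y - g x‖ := by
              conv_lhs => rw [h3]
              rw [norm_neg, norm_smul, Real.norm_eq_abs, abs_of_nonneg h0]
          _ ≤ v i * (C * ‖y - x‖) := mul_le_mul_of_nonneg_left (hL x (hsub hx) y (hsub hy)) h0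
      have h5 : ‖y - x‖ = 0 := by
        by_contra hne
        have h6 : 0 < ‖y - x‖ := lt_of_le_of_ne (norm_nonneg _) (Ne.symm hne)
        nlinarith
      exact (sub_eq_zero.1 (norm_eq_zero.1 h5)).symm
    have h6 := integral_image_eq_integral_abs_det_fderiv_smul μ (f := fun x => x + v i • g x)
      (f' := fun x => ContinuousLinearMap.id ℝ E + v i • fderiv ℝ g x) (s := ball (0 : E) 1)
      measurableSet_ball (fun x hx =>
        ((hasFDerivAt_id x).add ((hder x (hsub hx)).const_smul (v i))).hasFDerivWithinAt)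
      hinj (fun _ => (1 : ℝ))
    rw [himg] at h6
    have h7 : ∫ _ in ball (0 : E) 1, (1 : ℝ) ∂μ = μ.real (ball 0 1) := by simp
    rw [← h7, h6]
    refine setIntegral_congr_fun measurableSet_ball fun x hx => ?_
    have hpos : 0 < (ContinuousLinearMap.id ℝ E + v i • fderiv ℝ g x).det := by
      apply det_pos
      rw [norm_smul, Real.norm_eq_abs, abs_of_nonneg h0]
      exact lt_of_le_of_lt (mul_le_mul_of_nonneg_left (hgC x (hsub hx)) h0) htC
    simp only [smul_eq_mul, mul_one]
    exact (abs_of_pos hpos).symm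
  have hzero : ∀ x ∈ ball (0 : E) 1, (ContinuousLinearMap.id ℝ E + fderiv ℝ g x).det = 0 := by
    intro x hx
    have hfx : HasFDerivAt f (ContinuousLinearMap.id ℝ E + fderiv ℝ g x) x := by
      have h1 := (hasFDerivAt_id x).add (hder x (hsub hx))
      have h2 : (id + g : E → E) = f := by
        funext y
        simp [hgdef]
      rwa [h2] at h1
    by_contra hne
    set T := ContinuousLinearMap.id ℝ E + fderiv ℝ g x with hT
    have hconst : ∀ᶠ y in 𝓝 x, ⟪f y, f y⟫ = (1 : ℝ) := by
      filter_upwards [isOpen_ball.mem_nhds hx] with y hy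
      rw [real_inner_self_eq_norm_sq, hf1 y (hsub hy)]
      norm_num
    have hd1 : HasFDerivAt (fun y => (⟪f y, f y⟫ : ℝ)) (0 : E →L[ℝ] ℝ) x :=
      (hasFDerivAt_const (1 : ℝ) x).congr_of_eventuallyEq hconst
    have hd2 := hfx.inner ℝ hfx
    have heq := hd1.unique hd2
    have hdet' : LinearMap.det (T : E →ₗ[ℝ] E) ≠ 0 := hne
    have hunit : IsUnit (T : E →ₗ[ℝ] E) := by
      rw [LinearMap.isUnit_iff_isUnit_det]
      exact isUnit_iff_ne_zero.2 hdet'
    obtain ⟨w, hw⟩ := ((Module.End.isUnit_iff _).1 hunit).2 (f x)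
    have hw' : T w = f x := hw
    have h3 := congrArg (fun L : E →L[ℝ] ℝ => L w) heq
    simp only [zero_apply, fderivInnerCLM_apply,
      ContinuousLinearMap.comp_apply, ContinuousLinearMap.prod_apply, hw'] at h3
    rw [real_inner_self_eq_norm_sq, hf1 x (hsub hx)] at h3
    norm_num at h3
  have hfinal : ∫ x in ball (0 : E) 1, (ContinuousLinearMap.id ℝ E + fderiv ℝ g x).det ∂μ
      = μ.real (ball 0 1) := by
    calc ∫ x in ball (0 : E) 1, (ContinuousLinearMap.id ℝ E + fderiv ℝ g x).det ∂μ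
        = ∫ x in ball (0 : E) 1, ∑ i ∈ s, c i *
          (ContinuousLinearMap.id ℝ E + v i • fderiv ℝ g x).det ∂μ := by
          refine integral_congr_ae (Filter.Eventually.of_forall fun x => ?_)
          exact hdet _
      _ = ∑ i ∈ s, c i * ∫ x in ball (0 : E) 1,
          (ContinuousLinearMap.id ℝ E + v i • fderiv ℝ g x).det ∂μ := by
          rw [integral_finsetSum]
          · refine Finset.sum_congr rfl fun i _ => ?_
            rw [integral_const_mul]
          · intro i _
            exact (hint (v i)).const_mul (c i)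
      _ = ∑ i ∈ s, c i * μ.real (ball 0 1) := by
          refine Finset.sum_congr rfl fun i hi => ?_
          rw [hvol i hi]
      _ = μ.real (ball 0 1) := by rw [← Finset.sum_mul, hc, one_mul]
  have hz : ∫ x in ball (0 : E) 1, (ContinuousLinearMap.id ℝ E + fderiv ℝ g x).det ∂μ = 0 := by
    rw [setIntegral_congr_fun measurableSet_ball (g := fun _ => (0 : ℝ)) (fun x hx => hzero x hx)]
    simp
  rw [hz] at hfinal
  have hpos : 0 < μ.real (ball (0 : E) 1) := by
    rw [Measure.real, ENNReal.toReal_pos_iff]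
    exact ⟨measure_ball_pos μ 0 one_pos, measure_ball_lt_top⟩
  exact absurd hfinal hpos.ne

end Retract

section Ball

variable {E : Type*} [NormedAddCommGroup E] [InnerProductSpace ℝ E] [FiniteDimensional ℝ E]

/-- The smooth case: a `C¹` map defined everywhere, mapping the closed unit ball to itself, has a
fixed point in the closed unit ball. -/
theorem smooth_fixed {p : E → E} (hp : ContDiff ℝ 1 p)
    (hpB : ∀ x ∈ closedBall (0 : E) 1, ‖p x‖ ≤ 1) : ∃ x ∈ closedBall (0 : E) 1, p x = x := by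
  by_contra hno
  push Not at hno
  set w : E → E := fun x => x - p x with hw
  have hw0 : ∀ x ∈ closedBall (0 : E) 1, w x ≠ 0 := fun x hx h =>
    hno x hx (sub_eq_zero.1 h).symm
  set D : E → ℝ := fun x => ⟪x, w x⟫ ^ 2 + ‖w x‖ ^ 2 * (1 - ‖x‖ ^ 2) with hD
  have hin : ∀ x, ‖x‖ = 1 → w x ≠ 0 → ‖p x‖ ≤ 1 → 0 < ⟪x, w x⟫ := by
    intro x hx hwx hpx
    have h1 : ‖w x‖ ^ 2 = 1 - 2 * ⟪x, p x⟫ + ‖p x‖ ^ 2 := by
      rw [hw]
      simp only
      rw [norm_sub_sq_real, hx]
      norm_num
    have h2 : 0 < ‖w x‖ ^ 2 := by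
      have := norm_pos_iff.2 hwx
      positivity
    have h3 : ‖p x‖ ^ 2 ≤ 1 := by
      have := norm_nonneg (p x)
      nlinarith
    have h4 : ⟪x, w x⟫ = 1 - ⟪x, p x⟫ := by
      rw [hw]
      simp only
      rw [inner_sub_right, real_inner_self_eq_norm_sq, hx]
      norm_num
    rw [h4]
    linarith
  have hD0 : ∀ x ∈ closedBall (0 : E) 1, 0 < D x := by
    intro x hx
    have hwx := norm_pos_iff.2 (hw0 x hx)
    have hx1 : ‖x‖ ≤ 1 := mem_closedBall_zero_iff.1 hx
    rcases lt_or_eq_of_le hx1 with h | h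
    · have h1 : 0 < 1 - ‖x‖ ^ 2 := by nlinarith [norm_nonneg x]
      have h2 : 0 < ‖w x‖ ^ 2 * (1 - ‖x‖ ^ 2) := by positivity
      have h3 : 0 ≤ ⟪x, w x⟫ ^ 2 := sq_nonneg _
      simp only [hD]
      linarith
    · have h1 := hin x h (hw0 x hx) (hpB x hx)
      simp only [hD, h]
      have : 0 < ⟪x, w x⟫ ^ 2 := by positivity
      linarith
  set lam : E → ℝ := fun x => (-⟪x, w x⟫ + Real.sqrt (D x)) / ‖w x‖ ^ 2 with hlam
  set f : E → E := fun x => x + lam x • w x with hf
  refine no_retraction (f := f) ?_ ?_ ?_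
  · intro x hx
    have hwc : ContDiffAt ℝ 1 w x := contDiffAt_id.sub hp.contDiffAt
    have hin1 : ContDiffAt ℝ 1 (fun x => (⟪x, w x⟫ : ℝ)) x := contDiffAt_id.inner ℝ hwc
    have hn2 : ContDiffAt ℝ 1 (fun x => ‖w x‖ ^ 2) x := hwc.norm_sq ℝ
    have hn3 : ContDiffAt ℝ 1 (fun x : E => ‖x‖ ^ 2) x := contDiffAt_id.norm_sq ℝ
    have hDc : ContDiffAt ℝ 1 D x :=
      (hin1.pow 2).add (hn2.mul (contDiffAt_const.sub hn3))
    have hsq : ContDiffAt ℝ 1 (fun x => Real.sqrt (D x)) x := hDc.sqrt (hD0 x hx).ne'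
    have hn4 : ‖w x‖ ^ 2 ≠ 0 := by
      have := norm_pos_iff.2 (hw0 x hx)
      positivity
    have hlc : ContDiffAt ℝ 1 lam x := (hin1.neg.add hsq).div hn2 hn4
    exact contDiffAt_id.add (hlc.smul hwc)
  · intro x hx
    have hwx := norm_pos_iff.2 (hw0 x hx)
    have h1 : ‖f x‖ ^ 2 = 1 := by
      simp only [hf]
      rw [norm_add_sq_real, inner_smul_right, norm_smul, mul_pow, Real.norm_eq_abs, sq_abs]
      have h2 : lam x * ‖w x‖ ^ 2 = -⟪x, w x⟫ + Real.sqrt (D x) := by
        simp only [hlam]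
        field_simp
      have h3 : Real.sqrt (D x) ^ 2 = D x := Real.sq_sqrt (hD0 x hx).le
      have h4 : (lam x * ‖w x‖ ^ 2 + ⟪x, w x⟫) ^ 2 = D x := by
        rw [h2]; linear_combination h3
      have h5 : ‖w x‖ ^ 2 * (‖x‖ ^ 2 + 2 * (lam x * ⟪x, w x⟫) + lam x ^ 2 * ‖w x‖ ^ 2)
          = ‖w x‖ ^ 2 * 1 := by
        have h6 : (lam x * ‖w x‖ ^ 2 + ⟪x, w x⟫) ^ 2
            = ⟪x, w x⟫ ^ 2 + ‖w x‖ ^ 2 * (1 - ‖x‖ ^ 2) := h4
        linear_combination h6
      exact mul_left_cancel₀ (by positivity) h5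
    nlinarith [norm_nonneg (f x)]
  · intro x hx
    have hxB : x ∈ closedBall (0 : E) 1 := mem_closedBall_zero_iff.2 hx.le
    have h1 := hin x hx (hw0 x hxB) (hpB x hxB)
    have h2 : D x = ⟪x, w x⟫ ^ 2 := by
      simp only [hD, hx]
      norm_num
    have h3 : lam x = 0 := by
      simp only [hlam, h2, Real.sqrt_sq h1.le]
      simp
    simp [hf, h3]

end Ball

section Proj

variable {E : Type*} [NormedAddCommGroup E] [InnerProductSpace ℝ E] [FiniteDimensional ℝ E]

/-- Existence of the nearest-point projection onto a nonempty closed convex set, as a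
`1`-Lipschitz map characterised by the variational inequality. -/
theorem exists_proj {K : Set E} (hK : IsClosed K) (hc : Convex ℝ K) (hne : K.Nonempty) :
    ∃ π : E → E, (∀ x, π x ∈ K) ∧ (∀ x, ∀ y ∈ K, ⟪x - π x, y - π x⟫ ≤ 0) ∧
      (∀ x ∈ K, π x = x) ∧ LipschitzWith 1 π ∧ Continuous π := by
  choose π hπK hπ using exists_norm_eq_iInf_of_complete_convex hne hK.isComplete hc
  have hvi : ∀ x, ∀ y ∈ K, (⟪x - π x, y - π x⟫ : ℝ) ≤ 0 := fun x =>
    (norm_eq_iInf_iff_real_inner_le_zero hc (hπK x)).1 (hπ x)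
  have hlip : LipschitzWith 1 π := by
    refine LipschitzWith.of_dist_le_mul fun x y => ?_
    rw [dist_eq_norm, dist_eq_norm, NNReal.coe_one, one_mul]
    have h1 := hvi x (π y) (hπK y)
    have h2 := hvi y (π x) (hπK x)
    have h3 : ‖π x - π y‖ ^ 2 ≤ ⟪x - y, π x - π y⟫ := by
      have e1 : ⟪x - y, π x - π y⟫ - ‖π x - π y‖ ^ 2 =
          -⟪x - π x, π y - π x⟫ - ⟪y - π y, π x - π y⟫ := by
        rw [← real_inner_self_eq_norm_sq]
        simp only [inner_sub_left, inner_sub_right]
        ring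
      linarith
    have h4 : (⟪x - y, π x - π y⟫ : ℝ) ≤ ‖x - y‖ * ‖π x - π y‖ := real_inner_le_norm _ _
    by_contra hlt
    push Not at hlt
    have h5 := norm_nonneg (x - y)
    have h6 : 0 < ‖π x - π y‖ := lt_of_le_of_lt h5 hlt
    nlinarith
  refine ⟨π, hπK, hvi, fun x hx => ?_, hlip, hlip.continuous⟩
  have h1 := hvi x x hx
  rw [real_inner_self_eq_norm_sq] at h1
  have h2 : ‖x - π x‖ = 0 := by
    have := sq_nonneg ‖x - π x‖
    have h3 : ‖x - π x‖ ^ 2 = 0 := le_antisymm h1 this
    exact pow_eq_zero_iff (two_ne_zero) |>.1 h3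
  exact (sub_eq_zero.1 (norm_eq_zero.1 h2)).symm

end Proj

section Main

variable {E : Type*} [NormedAddCommGroup E] [InnerProductSpace ℝ E] [FiniteDimensional ℝ E]

/-- Brouwer on the closed unit ball, for maps uniformly continuous on the whole space. -/
theorem unif_fixed {F : E → E} (hF : UniformContinuous F) (hFB : ∀ x, ‖F x‖ ≤ 1) :
    ∃ x ∈ closedBall (0 : E) 1, F x = x := by
  by_contra hno
  push Not at hno
  have hcont : ContinuousOn (fun x => ‖F x - x‖) (closedBall (0 : E) 1) :=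
    ((hF.continuous.sub continuous_id).norm).continuousOn
  obtain ⟨x0, hx0, hmin⟩ := (isCompact_closedBall (0 : E) 1).exists_isMinOn
    ⟨0, by simp⟩ hcont
  set δ : ℝ := ‖F x0 - x0‖ with hδ
  have hδ0 : 0 < δ := norm_pos_iff.2 (sub_ne_zero.2 (hno x0 hx0))
  have hδx : ∀ x ∈ closedBall (0 : E) 1, δ ≤ ‖F x - x‖ := fun x hx => hmin hx
  obtain ⟨h, hh, hhF⟩ := hF.exists_contDiff_dist_le (ε := δ / 4) (by positivity)
  set a : ℝ := 1 / (1 + δ / 4) with ha
  have ha0 : 0 < a := by positivity
  have ha1 : a * (1 + δ / 4) = 1 := by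
    rw [ha]; field_simp
  set p : E → E := fun x => a • h x with hp
  have hpc : ContDiff ℝ 1 p := (contDiff_const.smul hh).of_le (by exact_mod_cast le_top)
  have hhn : ∀ x, ‖h x‖ ≤ 1 + δ / 4 := by
    intro x
    have h1 := (hhF x).le
    rw [dist_eq_norm] at h1
    calc ‖h x‖ = ‖(h x - F x) + F x‖ := by rw [sub_add_cancel]
      _ ≤ ‖h x - F x‖ + ‖F x‖ := norm_add_le _ _
      _ ≤ δ / 4 + 1 := add_le_add h1 (hFB x)
      _ = 1 + δ / 4 := by ring
  have hpB : ∀ x ∈ closedBall (0 : E) 1, ‖p x‖ ≤ 1 := by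
    intro x _
    simp only [hp]
    rw [norm_smul, Real.norm_eq_abs, abs_of_pos ha0]
    calc a * ‖h x‖ ≤ a * (1 + δ / 4) := mul_le_mul_of_nonneg_left (hhn x) ha0.le
      _ = 1 := ha1
  obtain ⟨x, hx, hpx⟩ := smooth_fixed hpc hpB
  have h1 := hδx x hx
  have h2 : ‖F x - x‖ ≤ δ / 4 + δ / 4 := by
    have e1 : F x - x = (F x - h x) + (1 - a) • h x := by
      have : x = a • h x := hpx.symm
      conv_lhs => rw [this]
      rw [sub_smul, one_smul, ← this]
      abel
    rw [e1]
    have e2 : ‖F x - h x‖ ≤ δ / 4 := by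
      have := (hhF x).le
      rwa [dist_comm, dist_eq_norm] at this
    have e3 : ‖(1 - a) • h x‖ ≤ δ / 4 := by
      have ha2 : 0 ≤ 1 - a := by
        have : a * 1 ≤ a * (1 + δ / 4) := mul_le_mul_of_nonneg_left (by linarith) ha0.le
        linarith
      rw [norm_smul, Real.norm_eq_abs, abs_of_nonneg ha2]
      calc (1 - a) * ‖h x‖ ≤ (1 - a) * (1 + δ / 4) := mul_le_mul_of_nonneg_left (hhn x) ha2
        _ = δ / 4 := by
          have : (1 - a) * (1 + δ / 4) = 1 + δ / 4 - a * (1 + δ / 4) := by ring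
          rw [this, ha1]; ring
    exact (norm_add_le _ _).trans (add_le_add e2 e3)
  linarith

end Main

end BrouwerAux

open Set Metric

/-- **Brouwer's fixed point theorem** for a nonempty compact convex subset of a
finite-dimensional real inner product space. -/
theorem brouwer {E : Type*} [NormedAddCommGroup E] [InnerProductSpace ℝ E]
    [FiniteDimensional ℝ E] {K : Set E} (hK : IsCompact K) (hc : Convex ℝ K)
    (hne : K.Nonempty) {f : E → E} (hf : ContinuousOn f K) (hfK : MapsTo f K K) :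
    ∃ x ∈ K, f x = x := by
  obtain ⟨π, hπK, -, hπid, hπL, hπc⟩ := BrouwerAux.exists_proj hK.isClosed hc hne
  obtain ⟨R, hR0, hR⟩ : ∃ R : ℝ, 0 < R ∧ ∀ x ∈ K, ‖x‖ ≤ R := by
    obtain ⟨R, hR⟩ := hK.isBounded.exists_norm_le
    exact ⟨max R 1, lt_of_lt_of_le one_pos (le_max_right _ _),
      fun x hx => (hR x hx).trans (le_max_left _ _)⟩
  set F : E → E := fun x => R⁻¹ • f (π (R • x)) with hF
  have hu1 : UniformContinuousOn f K := hK.uniformContinuousOn_of_continuous hf
  have hu2 : UniformContinuous (fun x : E => π (R • x)) :=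
    hπL.uniformContinuous.comp (uniformContinuous_const_smul R)
  have hu3 : UniformContinuous (fun x : E => f (π (R • x))) := by
    rw [Metric.uniformContinuous_iff]
    intro ε hε
    obtain ⟨δ, hδ, h1⟩ := Metric.uniformContinuousOn_iff.1 hu1 ε hε
    obtain ⟨η, hη, h2⟩ := Metric.uniformContinuous_iff.1 hu2 δ hδ
    exact ⟨η, hη, fun _ _ h => h1 _ (hπK _) _ (hπK _) (h2 h)⟩
  have hFu : UniformContinuous F := (uniformContinuous_const_smul R⁻¹).comp hu3
  have hFB : ∀ x, ‖F x‖ ≤ 1 := by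
    intro x
    simp only [hF]
    rw [norm_smul, Real.norm_eq_abs, abs_of_pos (by positivity)]
    rw [inv_mul_le_iff₀ hR0, mul_one]
    exact hR _ (hfK (hπK _))
  obtain ⟨x, -, hx⟩ := BrouwerAux.unif_fixed hFu hFB
  have hy : f (π (R • x)) = R • x := by
    have : R • F x = R • x := by rw [hx]
    simp only [hF] at this
    rwa [smul_smul, mul_inv_cancel₀ hR0.ne', one_smul] at this
  have hyK : R • x ∈ K := by
    rw [← hy]
    exact hfK (hπK _)
  rw [hπid _ hyK] at hy
  exact ⟨R • x, hyK, hy⟩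

/-- **Hartman-Stampacchia**: a continuous vector field on a nonempty compact convex set has a
solution of the variational inequality. -/
theorem exists_variational {E : Type*} [NormedAddCommGroup E] [InnerProductSpace ℝ E]
    [FiniteDimensional ℝ E] {K : Set E} (hK : IsCompact K) (hc : Convex ℝ K)
    (hne : K.Nonempty) {Φ : E → E} (hΦ : ContinuousOn Φ K) :
    ∃ x ∈ K, ∀ y ∈ K, 0 ≤ inner ℝ (Φ x) (y - x) := by
  obtain ⟨π, hπK, hvi, hπid, hπL, hπc⟩ := BrouwerAux.exists_proj hK.isClosed hc hne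
  have h1 : ContinuousOn (fun x => π (x - Φ x)) K :=
    hπc.comp_continuousOn (continuousOn_id.sub hΦ)
  obtain ⟨x, hx, hxf⟩ := brouwer hK hc hne h1 (fun x _ => hπK _)
  refine ⟨x, hx, fun y hy => ?_⟩
  have h2 := hvi (x - Φ x) y hy
  rw [hxf] at h2
  have h3 : x - Φ x - x = - Φ x := by abel
  rw [h3, inner_neg_left] at h2
  linarith

end Vale.Agent.P371
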