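import Vale.Agent.P371.GT

/-!
# P371: the combined Gibbs (Klein) and Golden-Thompson inequality
-/

namespace Vale.Agent.P371

open Matrix
open scoped ComplexOrder

namespace GGT

variable {n : Type*} [Fintype n] [DecidableEq n]

/-- Functional calculus through the spectral theorem. -/
theorem cfc_spec {A : Matrix n n ℂ} (hA : A.IsHermitian) (f : ℝ → ℝ) :
    cfc f A = (hA.eigenvectorUnitary : Matrix n n ℂ) *
      diagonal (fun i => (f (hA.eigenvalues i) : ℂ)) *
        (hA.eigenvectorUnitary : Matrix n n ℂ)ᴴ := by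
  rw [hA.cfc_eq f, Matrix.IsHermitian.cfc, Unitary.conjStarAlgAut_apply]
  rfl

/-- `exp` of a functional calculus. -/
theorem exp_cfc {A : Matrix n n ℂ} (hA : A.IsHermitian) (f : ℝ → ℝ) :
    NormedSpace.exp (cfc f A) = cfc (fun x => Real.exp (f x)) A := by
  set U := hA.eigenvectorUnitary with hU
  have h1 : (U : Matrix n n ℂ)⁻¹ = (U : Matrix n n ℂ)ᴴ :=
    Matrix.inv_eq_left_inv (Unitary.coe_star_mul_self U)
  have hU1 : IsUnit (U : Matrix n n ℂ) :=
    ⟨⟨U, star (U : Matrix n n ℂ), Unitary.coe_mul_star_self U, Unitary.coe_star_mul_self U⟩, rfl⟩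
  rw [cfc_spec hA, cfc_spec hA, ← hU, ← h1, Matrix.exp_conj _ _ hU1, Matrix.exp_diagonal]
  congr 3
  funext i
  rw [Pi.coe_exp]
  change NormedSpace.exp ((f (hA.eigenvalues i) : ℝ) : ℂ) = _
  rw [← Complex.exp_eq_exp_ℂ, Complex.ofReal_exp]

/-- Traces of products of functional calculi, in terms of a doubly stochastic matrix. -/
theorem trace_cfc_mul_cfc {A B : Matrix n n ℂ} (hA : A.IsHermitian) (hB : B.IsHermitian) :
    ∃ p : n → n → ℝ, (∀ i j, 0 ≤ p i j) ∧ (∀ i, ∑ j, p i j = 1) ∧ (∀ j, ∑ i, p i j = 1) ∧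
      ∀ f g : ℝ → ℝ, (trace (cfc f A * cfc g B)).re =
        ∑ i, ∑ j, p i j * (f (hA.eigenvalues i) * g (hB.eigenvalues j)) := by
  set U := (hA.eigenvectorUnitary : Matrix n n ℂ) with hU
  set V := (hB.eigenvectorUnitary : Matrix n n ℂ) with hV
  have hU1 : U * Uᴴ = 1 := Unitary.coe_mul_star_self _
  have hU2 : Uᴴ * U = 1 := Unitary.coe_star_mul_self _
  have hV1 : V * Vᴴ = 1 := Unitary.coe_mul_star_self _
  have hV2 : Vᴴ * V = 1 := Unitary.coe_star_mul_self _
  set S := Uᴴ * V with hS
  have hSS : Sᴴ = Vᴴ * U := by rw [hS, conjTranspose_mul, conjTranspose_conjTranspose]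
  have hS1 : S * Sᴴ = 1 := by
    rw [hSS, hS]
    calc Uᴴ * V * (Vᴴ * U) = Uᴴ * (V * Vᴴ) * U := by simp only [Matrix.mul_assoc]
      _ = 1 := by rw [hV1, Matrix.mul_one, hU2]
  have hS2 : Sᴴ * S = 1 := by
    rw [hSS, hS]
    calc Vᴴ * U * (Uᴴ * V) = Vᴴ * (U * Uᴴ) * V := by simp only [Matrix.mul_assoc]
      _ = 1 := by rw [hU1, Matrix.mul_one, hV2]
  refine ⟨fun i j => ‖S i j‖ ^ 2, fun i j => by positivity, fun i => ?_, fun j => ?_,
    fun f g => ?_⟩
  · have := congrFun (congrFun hS1 i) i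
    rw [Matrix.mul_apply, Matrix.one_apply_eq] at this
    have h2 : ((∑ j, ‖S i j‖ ^ 2 : ℝ) : ℂ) = 1 := by
      rw [← this, Complex.ofReal_sum]
      refine Finset.sum_congr rfl fun j _ => ?_
      rw [conjTranspose_apply, Complex.star_def, Complex.mul_conj, Complex.normSq_eq_norm_sq]
    exact_mod_cast h2
  · have := congrFun (congrFun hS2 j) j
    rw [Matrix.mul_apply, Matrix.one_apply_eq] at this
    have h2 : ((∑ i, ‖S i j‖ ^ 2 : ℝ) : ℂ) = 1 := by
      rw [← this, Complex.ofReal_sum]
      refine Finset.sum_congr rfl fun i _ => ?_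
      rw [conjTranspose_apply, Complex.star_def, mul_comm, Complex.mul_conj,
        Complex.normSq_eq_norm_sq]
    exact_mod_cast h2
  · have htr : trace (cfc f A * cfc g B) =
        ((∑ i, ∑ j, ‖S i j‖ ^ 2 * (f (hA.eigenvalues i) * g (hB.eigenvalues j)) : ℝ) : ℂ) := by
      rw [cfc_spec hA, cfc_spec hB, ← hU, ← hV]
      set Da := diagonal (fun i => (f (hA.eigenvalues i) : ℂ)) with hDa
      set Db := diagonal (fun i => (g (hB.eigenvalues i) : ℂ)) with hDb
      have e1 : trace (U * Da * Uᴴ * (V * Db * Vᴴ)) = trace (Da * S * Db * Sᴴ) := by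
        calc trace (U * Da * Uᴴ * (V * Db * Vᴴ)) = trace (U * (Da * Uᴴ * (V * Db * Vᴴ))) := by
              simp only [Matrix.mul_assoc]
          _ = trace (Da * Uᴴ * (V * Db * Vᴴ) * U) := trace_mul_comm _ _
          _ = _ := by rw [hSS, hS]; simp only [Matrix.mul_assoc]
      rw [e1, trace, Complex.ofReal_sum]
      refine Finset.sum_congr rfl fun i _ => ?_
      rw [diag_apply, Matrix.mul_apply, Complex.ofReal_sum]
      refine Finset.sum_congr rfl fun j _ => ?_
      rw [hDa, hDb, mul_diagonal, diagonal_mul, conjTranspose_apply, Complex.star_def,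
        Complex.ofReal_mul, Complex.ofReal_mul, ← Complex.normSq_eq_norm_sq, ← Complex.mul_conj]
      ring
    rw [htr, Complex.ofReal_re]

/-- The scalar inequality behind Klein's inequality. -/
theorem scalar_klein {x y : ℝ} (hx : 0 < x) : x + x * (y - Real.log x) ≤ Real.exp y := by
  have h1 := Real.add_one_le_exp (y - Real.log x)
  have h2 : Real.exp y = x * Real.exp (y - Real.log x) := by
    rw [Real.exp_sub, Real.exp_log hx]
    field_simp
  rw [h2]
  nlinarith

/-- Klein (Gibbs) inequality: `Tr T + Tr T (H - log T) ≤ Tr exp H`. -/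
theorem klein {T H : Matrix n n ℂ} (hT : T.PosDef) (hH : H.IsHermitian) :
    (trace T).re + (trace (T * (H - cfc Real.log T))).re ≤
      (trace (NormedSpace.exp H)).re := by
  obtain ⟨p, hp, hrow, hcol, hf⟩ := trace_cfc_mul_cfc hT.1 hH
  set t := hT.1.eigenvalues with ht
  set h := hH.eigenvalues with hh
  have hTs : IsSelfAdjoint T := hT.1
  have hHs : IsSelfAdjoint H := hH
  have hidT : cfc (fun x : ℝ => x) T = T := cfc_id' ℝ T hTs
  have hidH : cfc (fun x : ℝ => x) H = H := cfc_id' ℝ H hHs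
  have honeT : cfc (fun _ : ℝ => (1 : ℝ)) T = 1 := cfc_const_one ℝ T hTs
  have honeH : cfc (fun _ : ℝ => (1 : ℝ)) H = 1 := cfc_const_one ℝ H hHs
  have e1 : (trace T).re = ∑ i, ∑ j, p i j * (t i * 1) := by
    have := hf (fun x => x) (fun _ => 1)
    rw [hidT, honeH, Matrix.mul_one] at this
    exact this
  have e2 : (trace (T * H)).re = ∑ i, ∑ j, p i j * (t i * h j) := by
    have := hf (fun x => x) (fun x => x)
    rw [hidT, hidH] at this
    exact this
  have e3 : (trace (T * cfc Real.log T)).re = ∑ i, ∑ j, p i j * ((t i * Real.log (t i)) * 1) := by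
    have := hf (fun x => x * Real.log x) (fun _ => 1)
    rw [honeH, Matrix.mul_one] at this
    rw [← this]
    congr 2
    have hc : cfc (fun x : ℝ => x * Real.log x) T =
        cfc (fun x : ℝ => x) T * cfc Real.log T := by
      rw [cfc_spec hT.1, cfc_spec hT.1, cfc_spec hT.1]
      set U := (hT.1.eigenvectorUnitary : Matrix n n ℂ) with hU
      have hU2 : Uᴴ * U = 1 := Unitary.coe_star_mul_self _
      have : ∀ D E : Matrix n n ℂ, U * D * Uᴴ * (U * E * Uᴴ) = U * (D * E) * Uᴴ := by
        intro D E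
        calc U * D * Uᴴ * (U * E * Uᴴ) = U * D * (Uᴴ * U) * E * Uᴴ := by
              simp only [Matrix.mul_assoc]
          _ = _ := by rw [hU2, Matrix.mul_one]; simp only [Matrix.mul_assoc]
      rw [this, diagonal_mul_diagonal]
      congr 3
      funext i
      push_cast
      rfl
    rw [hc, hidT]
  have e4 : (trace (NormedSpace.exp H)).re = ∑ i, ∑ j, p i j * (1 * Real.exp (h j)) := by
    have := hf (fun _ => 1) Real.exp
    rw [honeT, Matrix.one_mul] at this
    rw [← this]
    congr 2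
    conv_lhs => rw [← hidH]
    exact exp_cfc hH _
  rw [Matrix.mul_sub, trace_sub, Complex.sub_re, e1, e2, e3, e4, ← Finset.sum_sub_distrib,
    ← Finset.sum_add_distrib]
  refine Finset.sum_le_sum fun i _ => ?_
  rw [← Finset.sum_sub_distrib, ← Finset.sum_add_distrib]
  refine Finset.sum_le_sum fun j _ => ?_
  have hti : 0 < t i := hT.eigenvalues_pos i
  have := mul_le_mul_of_nonneg_left (scalar_klein (y := h j) hti) (hp i j)
  linarith

end GGT

/-- **Gibbs-Golden-Thompson**: for positive definite `P, M, T`,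
`Tr T + Tr T (log P + log M - log T) ≤ Tr (P M)`. -/
theorem gibbs_gt {n : Type*} [Fintype n] [DecidableEq n] {P M T : Matrix n n ℂ}
    (hP : P.PosDef) (hM : M.PosDef) (hT : T.PosDef) :
    (trace T).re + (trace (T * (cfc Real.log P + cfc Real.log M - cfc Real.log T))).re ≤
      (trace (P * M)).re := by
  have h1 : (cfc Real.log P + cfc Real.log M).IsHermitian := by
    have hp : (cfc Real.log P).IsHermitian := cfc_predicate Real.log P
    have hm : (cfc Real.log M).IsHermitian := cfc_predicate Real.log M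
    exact hp.add hm
  exact (GGT.klein hT h1).trans (golden_thompson_log hP hM)

end Vale.Agent.P371
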