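import Vale.Agent.P371.KDefs
import Vale.Agent.P371.GibbsGT

/-!
# P371 [CALIB]: continuity of functional calculi, derivative of trace functions
-/

open Matrix Set Filter
open scoped Topology ComplexOrder

namespace Vale.Agent.P371
namespace Cal

variable {n : Type*} [Fintype n] [DecidableEq n]

theorem spectrum_subset_Ioi {A : Matrix n n ℂ} (hA : A.PosDef) : spectrum ℝ A ⊆ Ioi 0 := by
  rw [hA.1.spectrum_real_eq_range_eigenvalues]
  rintro _ ⟨i, rfl⟩
  exact hA.eigenvalues_pos i

open scoped Matrix.Norms.L2Operator in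
/-- continuity of the functional calculus of a function continuous on `(0,∞)`, on positive
definite matrices -/
theorem continuousOn_cfc_pos {X : Type*} [TopologicalSpace X] {f : ℝ → ℝ}
    (hf : ContinuousOn f (Ioi 0)) {a : X → Matrix n n ℂ} {t : Set X}
    (ha : ContinuousOn a t) (hp : ∀ x ∈ t, (a x).PosDef) :
    ContinuousOn (fun x => cfc f (a x)) t := by
  refine ContinuousOn.cfc_of_mem_nhdsSet (s := Ioi (0:ℝ)) f ?_ ha (fun x hx => (hp x hx).1) hf
  refine isOpen_Ioi.mem_nhdsSet.2 ?_
  simp only [iUnion_subset_iff]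
  exact fun x hx => spectrum_subset_Ioi (hp x hx)

open scoped Matrix.Norms.L2Operator in
/-- continuity of the functional calculus of a continuous function, on Hermitian matrices -/
theorem continuousOn_cfc_herm {X : Type*} [TopologicalSpace X] {f : ℝ → ℝ}
    (hf : Continuous f) {a : X → Matrix n n ℂ} {t : Set X}
    (ha : ContinuousOn a t) (hp : ∀ x ∈ t, (a x).IsHermitian) :
    ContinuousOn (fun x => cfc f (a x)) t := by
  refine ContinuousOn.cfc_of_mem_nhdsSet (s := univ) f ?_ ha (fun x hx => (hp x hx))
    hf.continuousOn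
  exact isOpen_univ.mem_nhdsSet.2 (subset_univ _)

end Cal
end Vale.Agent.P371
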