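import Vale.Agent.P371.CalibCont

/-!
# P371 [CALIB]: Klein's inequality and the derivative of trace functions
-/

open Matrix Set Filter
open scoped Topology ComplexOrder

namespace Vale.Agent.P371
namespace Cal

variable {n : Type*} [Fintype n] [DecidableEq n]

theorem cfc_mul_herm {A : Matrix n n ℂ} (hA : A.IsHermitian) (f g : ℝ → ℝ) :
    cfc f A * cfc g A = cfc (fun x => f x * g x) A := by
  rw [GGT.cfc_spec hA, GGT.cfc_spec hA, GGT.cfc_spec hA]
  set U := (hA.eigenvectorUnitary : Matrix n n ℂ) with hU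
  have hU2 : Uᴴ * U = 1 := Unitary.coe_star_mul_self _
  have : ∀ D E : Matrix n n ℂ, U * D * Uᴴ * (U * E * Uᴴ) = U * (D * E) * Uᴴ := by
    intro D E
    calc U * D * Uᴴ * (U * E * Uᴴ) = U * D * (Uᴴ * U) * E * Uᴴ := by
          simp only [Matrix.mul_assoc]
      _ = _ := by rw [hU2, Matrix.mul_one]; simp only [Matrix.mul_assoc]
  rw [this, diagonal_mul_diagonal]
  congr 3
  funext i
  push_cast
  rfl

theorem cfc_one_herm {A : Matrix n n ℂ} (hA : A.IsHermitian) :
    cfc (fun _ : ℝ => (1 : ℝ)) A = 1 := cfc_const_one ℝ A hA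

theorem cfc_id_herm {A : Matrix n n ℂ} (hA : A.IsHermitian) :
    cfc (fun x : ℝ => x) A = A := cfc_id' ℝ A hA

/-- **Klein's inequality.** -/
theorem klein_le {f f' : ℝ → ℝ} {s : Set ℝ}
    (h : ∀ x ∈ s, ∀ y ∈ s, f' x * (y - x) ≤ f y - f x) {A B : Matrix n n ℂ}
    (hA : A.IsHermitian) (hB : B.IsHermitian) (hAs : ∀ i, hA.eigenvalues i ∈ s)
    (hBs : ∀ i, hB.eigenvalues i ∈ s) :
    (trace (cfc f' A * (B - A))).re ≤ (trace (cfc f B)).re - (trace (cfc f A)).re := by
  obtain ⟨p, hp, hrow, hcol, hf⟩ := GGT.trace_cfc_mul_cfc hA hB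
  have e1 : (trace (cfc f' A * B)).re = ∑ i, ∑ j, p i j * (f' (hA.eigenvalues i) *
      hB.eigenvalues j) := by
    have := hf f' (fun x => x)
    rwa [cfc_id_herm hB] at this
  have e2 : (trace (cfc f' A * A)).re = ∑ i, ∑ j, p i j * (f' (hA.eigenvalues i) *
      hA.eigenvalues i * 1) := by
    have := hf (fun x => f' x * x) (fun _ => 1)
    rwa [cfc_one_herm hB, Matrix.mul_one, ← cfc_mul_herm hA f' (fun x => x),
      cfc_id_herm hA] at this
  have e3 : (trace (cfc f B)).re = ∑ i, ∑ j, p i j * (1 * f (hB.eigenvalues j)) := by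
    have := hf (fun _ => 1) f
    rwa [cfc_one_herm hA, Matrix.one_mul] at this
  have e4 : (trace (cfc f A)).re = ∑ i, ∑ j, p i j * (f (hA.eigenvalues i) * 1) := by
    have := hf f (fun _ => 1)
    rwa [cfc_one_herm hB, Matrix.mul_one] at this
  rw [Matrix.mul_sub, trace_sub, Complex.sub_re, e1, e2, e3, e4, ← Finset.sum_sub_distrib,
    ← Finset.sum_sub_distrib]
  refine Finset.sum_le_sum fun i _ => ?_
  rw [← Finset.sum_sub_distrib, ← Finset.sum_sub_distrib]
  refine Finset.sum_le_sum fun j _ => ?_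
  have := mul_le_mul_of_nonneg_left (h _ (hAs i) _ (hBs j)) (hp i j)
  linarith

theorem tendsto_matrix {Y : Type*} {l : Filter Y} {F : Y → Matrix n n ℂ} {A : Matrix n n ℂ}
    (h : ∀ i j, Tendsto (fun y => F y i j) l (𝓝 (A i j))) : Tendsto F l (𝓝 A) :=
  tendsto_pi_nhds.2 fun i => tendsto_pi_nhds.2 fun j => h i j

theorem continuousOn_matrix {Y : Type*} [TopologicalSpace Y] {s : Set Y} {F : Y → Matrix n n ℂ}
    (h : ∀ i j, ContinuousOn (fun y => F y i j) s) : ContinuousOn F s :=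
  fun y hy => tendsto_matrix fun i j => h i j y hy

theorem continuousOn_cfc_posDef {f : ℝ → ℝ} (hf : ContinuousOn f (Ioi 0)) :
    ContinuousOn (cfc f) {A : Matrix n n ℂ | A.PosDef} :=
  continuousOn_cfc_pos hf continuousOn_id fun _ hx => hx

theorem continuous_retrace : Continuous fun A : Matrix n n ℂ => (trace A).re :=
  Complex.continuous_re.comp (continuous_id.matrix_trace)

/-- derivative of `y ↦ Tr f(X y)` along a path of positive definite matrices -/
theorem hasDerivWithinAt_trace_cfc {f f' : ℝ → ℝ}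
    (h : ∀ x ∈ Ioi (0:ℝ), ∀ y ∈ Ioi (0:ℝ), f' x * (y - x) ≤ f y - f x)
    (hf' : ContinuousOn f' (Ioi 0)) {X : ℝ → Matrix n n ℂ} {X' : Matrix n n ℂ} {I : Set ℝ} {x : ℝ}
    (hx : x ∈ I) (hp : ∀ y ∈ I, (X y).PosDef)
    (hd : ∀ i j, HasDerivWithinAt (fun y => X y i j) (X' i j) I x) :
    HasDerivWithinAt (fun y => (trace (cfc f (X y))).re) ((trace (cfc f' (X x) * X')).re) I x := by
  rw [hasDerivWithinAt_iff_tendsto_slope]
  have hsl : Tendsto (fun y => (((y - x)⁻¹ : ℝ) : ℂ) • (X y - X x)) (𝓝[I \ {x}] x) (𝓝 X') := by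
    refine tendsto_matrix fun i j => ?_
    have := (hasDerivWithinAt_iff_tendsto_slope.1 (hd i j))
    refine this.congr fun y => ?_
    rw [slope_def_module, Matrix.smul_apply, Matrix.sub_apply, Complex.real_smul, smul_eq_mul]
  have hXc : Tendsto X (𝓝[I] x) (𝓝 (X x)) :=
    tendsto_matrix fun i j => (hd i j).continuousWithinAt
  have hc : Tendsto (fun y => cfc f' (X y)) (𝓝[I \ {x}] x) (𝓝 (cfc f' (X x))) := by
    have h1 : Tendsto (cfc f') (𝓝[{A : Matrix n n ℂ | A.PosDef}] (X x)) (𝓝 (cfc f' (X x))) :=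
      continuousOn_cfc_posDef hf' (X x) (hp x hx)
    refine h1.comp (tendsto_nhdsWithin_iff.2 ⟨hXc.mono_left (nhdsWithin_mono _ diff_subset), ?_⟩)
    filter_upwards [self_mem_nhdsWithin] with y hy
    exact hp y hy.1
  have hL : Tendsto (fun y => (trace (cfc f' (X x) * ((((y - x)⁻¹ : ℝ) : ℂ) • (X y - X x)))).re)
      (𝓝[I \ {x}] x) (𝓝 ((trace (cfc f' (X x) * X')).re)) :=
    (continuous_retrace.tendsto _).comp (tendsto_const_nhds.mul hsl)
  have hU : Tendsto (fun y => (trace (cfc f' (X y) * ((((y - x)⁻¹ : ℝ) : ℂ) • (X y - X x)))).re)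
      (𝓝[I \ {x}] x) (𝓝 ((trace (cfc f' (X x) * X')).re)) :=
    (continuous_retrace.tendsto _).comp (hc.mul hsl)
  have key : ∀ y ∈ I \ {x},
      min ((trace (cfc f' (X x) * ((((y - x)⁻¹ : ℝ) : ℂ) • (X y - X x)))).re)
        ((trace (cfc f' (X y) * ((((y - x)⁻¹ : ℝ) : ℂ) • (X y - X x)))).re) ≤
        slope (fun y => (trace (cfc f (X y))).re) x y ∧
      slope (fun y => (trace (cfc f (X y))).re) x y ≤
      max ((trace (cfc f' (X x) * ((((y - x)⁻¹ : ℝ) : ℂ) • (X y - X x)))).re)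
        ((trace (cfc f' (X y) * ((((y - x)⁻¹ : ℝ) : ℂ) • (X y - X x)))).re) := by
    intro y hy
    have hxy : y ≠ x := hy.2
    have hpy := hp y hy.1
    have hpx := hp x hx
    have k1 := klein_le (A := X x) (B := X y) h hpx.1 hpy.1 hpx.eigenvalues_pos hpy.eigenvalues_pos
    have k2 := klein_le (A := X y) (B := X x) h hpy.1 hpx.1 hpy.eigenvalues_pos hpx.eigenvalues_pos
    have e0 : ∀ C : Matrix n n ℂ, (trace (C * ((((y - x)⁻¹ : ℝ) : ℂ) • (X y - X x)))).re =
        (y - x)⁻¹ * (trace (C * (X y - X x))).re := by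
      intro C
      rw [Matrix.mul_smul, trace_smul, smul_eq_mul, Complex.re_ofReal_mul]
    have e1 : (trace (cfc f' (X y) * (X x - X y))).re = -(trace (cfc f' (X y) * (X y - X x))).re := by
      rw [← neg_sub (X y) (X x), Matrix.mul_neg, trace_neg, Complex.neg_re]
    rw [e1] at k2
    rw [e0, e0, slope_def_field, div_eq_inv_mul]
    rcases lt_or_gt_of_ne hxy with hlt | hgt
    · have hneg : (y - x)⁻¹ ≤ 0 := inv_nonpos.2 (by linarith)
      constructor
      · refine (min_le_right _ _).trans ?_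
        exact mul_le_mul_of_nonpos_left (by linarith) hneg
      · refine le_trans ?_ (le_max_left _ _)
        exact mul_le_mul_of_nonpos_left (by linarith) hneg
    · have hpos : 0 ≤ (y - x)⁻¹ := inv_nonneg.2 (by linarith)
      constructor
      · refine (min_le_left _ _).trans ?_
        exact mul_le_mul_of_nonneg_left (by linarith) hpos
      · refine le_trans ?_ (le_max_right _ _)
        exact mul_le_mul_of_nonneg_left (by linarith) hpos
  have hmin := hL.min hU
  have hmax := hL.max hU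
  rw [min_self] at hmin
  rw [max_self] at hmax
  refine tendsto_of_tendsto_of_tendsto_of_le_of_le' hmin hmax ?_ ?_
  · filter_upwards [self_mem_nhdsWithin] with y hy
    exact (key y hy).1
  · filter_upwards [self_mem_nhdsWithin] with y hy
    exact (key y hy).2

end Cal
end Vale.Agent.P371
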