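import Vale.Agent.P371.Defs2

/-!
# P371: the constant `L_r` in closed form
-/

open MeasureTheory Matrix Finset
open scoped ComplexOrder ENNReal Topology

namespace Vale.Agent.P371

namespace ConstAux

theorem real_beta {a b : ℝ} (ha : 0 < a) (hb : 0 < b) :
    ∫ x in (0 : ℝ)..1, x ^ (a - 1) * (1 - x) ^ (b - 1) =
      Real.Gamma a * Real.Gamma b / Real.Gamma (a + b) := by
  have h := Complex.betaIntegral_eq_Gamma_mul_div (a : ℂ) (b : ℂ) (by simpa) (by simpa)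
  have h2 : Complex.betaIntegral (a : ℂ) (b : ℂ) =
      ((∫ x in (0 : ℝ)..1, x ^ (a - 1) * (1 - x) ^ (b - 1) : ℝ) : ℂ) := by
    rw [Complex.betaIntegral, ← intervalIntegral.integral_ofReal]
    refine intervalIntegral.integral_congr fun x hx => ?_
    rw [Set.uIcc_of_le zero_le_one] at hx
    have h1 : (0 : ℝ) ≤ 1 - x := by linarith [hx.2]
    rw [Complex.ofReal_mul, Complex.ofReal_cpow hx.1, Complex.ofReal_cpow h1]
    push_cast
    rfl
  rw [h2, ← Complex.ofReal_add, Complex.Gamma_ofReal, Complex.Gamma_ofReal, Complex.Gamma_ofReal]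
    at h
  exact_mod_cast h

theorem betaR_eq {r : ℝ} (hr0 : 0 < r) :
    betaR r = Real.sqrt Real.pi * Real.Gamma (r + 1) / Real.Gamma (r + 3 / 2) := by
  have h1 : betaR r = 2 * (4 ^ r * ∫ x in (0 : ℝ)..1, x ^ ((r + 1) - 1) * (1 - x) ^ ((r + 1) - 1)) := by
    have h := intervalIntegral.integral_comp_mul_add (a := (0 : ℝ)) (b := 1)
      (fun z : ℝ => (1 - z ^ 2) ^ r) (c := 2) two_ne_zero (-1)
    have h' : betaR r = 2 * ∫ x in (0 : ℝ)..1, (1 - (2 * x + -1) ^ 2) ^ r := by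
      rw [h, betaR, smul_eq_mul, ← mul_assoc]
      norm_num
    rw [h', ← intervalIntegral.integral_const_mul (4 ^ r : ℝ)]
    congr 1
    refine intervalIntegral.integral_congr fun x hx => ?_
    rw [Set.uIcc_of_le zero_le_one] at hx
    have h1 : (0 : ℝ) ≤ 1 - x := by linarith [hx.2]
    simp only [add_sub_cancel_right]
    rw [← Real.mul_rpow hx.1 h1, ← Real.mul_rpow (by norm_num) (mul_nonneg hx.1 h1)]
    congr 1
    ring
  rw [h1, real_beta (by linarith) (by linarith)]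
  have hd := Real.Gamma_mul_Gamma_add_half (r + 1)
  have e1 : r + 1 + 1 / 2 = r + 3 / 2 := by ring
  have e2 : 2 * (r + 1) = r + 1 + (r + 1) := by ring
  rw [e1, e2] at hd
  have hG1 : 0 < Real.Gamma (r + 1) := Real.Gamma_pos_of_pos (by linarith)
  have hG3 : 0 < Real.Gamma (r + 3 / 2) := Real.Gamma_pos_of_pos (by linarith)
  have hG2 : 0 < Real.Gamma (r + 1 + (r + 1)) := Real.Gamma_pos_of_pos (by linarith)
  have hp : (2 : ℝ) ^ (1 - (r + 1 + (r + 1))) * (2 * 4 ^ r) = 1 := by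
    have h4 : (4 : ℝ) ^ r = 2 ^ (2 * r) := by
      rw [Real.rpow_mul (by norm_num)]; norm_num
    have h2 : (2 : ℝ) * 2 ^ (2 * r) = 2 ^ (1 + 2 * r) := by
      rw [Real.rpow_add (by norm_num), Real.rpow_one]
    rw [h4, h2, ← Real.rpow_add (by norm_num)]
    rw [show 1 - (r + 1 + (r + 1)) + (1 + 2 * r) = 0 by ring, Real.rpow_zero]
  rw [mul_div_assoc', mul_div_assoc', div_eq_div_iff hG2.ne' hG3.ne']
  calc 2 * (4 ^ r * (Real.Gamma (r + 1) * Real.Gamma (r + 1))) * Real.Gamma (r + 3 / 2)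
      = 2 * 4 ^ r * Real.Gamma (r + 1) * (Real.Gamma (r + 1) * Real.Gamma (r + 3 / 2)) := by ring
    _ = ((2 : ℝ) ^ (1 - (r + 1 + (r + 1))) * (2 * 4 ^ r)) *
          (Real.sqrt Real.pi * Real.Gamma (r + 1) * Real.Gamma (r + 1 + (r + 1))) := by
        rw [hd]; ring
    _ = _ := by rw [hp, one_mul]

end ConstAux

open ConstAux

theorem Lr_eq {γ : ℝ} (hγ0 : 1 / 2 < γ) (hγ1 : γ < 3 / 2) :
    Lr (γ - 1 / 2) = 2 * ((γ - 1 / 2) / (γ + 1 / 2)) ^ (γ - 1 / 2) * Lcl γ := by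
  obtain ⟨r, hr⟩ : ∃ r : ℝ, r = γ - 1 / 2 := ⟨_, rfl⟩
  have hr0 : 0 < r := by linarith
  have e1 : γ + 1 / 2 = 1 + r := by linarith
  have e2 : γ + 1 = r + 3 / 2 := by linarith
  have e3 : γ + 3 / 2 = (r + 1) + 1 := by linarith
  rw [Lcl, ← hr, e1, e2, e3, Lr, kap, betaR_eq hr0, Real.Gamma_add_one (by linarith : r + 1 ≠ 0),
    Real.rpow_add (by linarith : (0 : ℝ) < 1 + r), Real.rpow_one,
    Real.div_rpow hr0.le (by linarith)]
  have hG1 : 0 < Real.Gamma (r + 1) := Real.Gamma_pos_of_pos (by linarith)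
  have hG3 : 0 < Real.Gamma (r + 3 / 2) := Real.Gamma_pos_of_pos (by linarith)
  have hpi : 0 < Real.sqrt Real.pi := Real.sqrt_pos.2 Real.pi_pos
  have hp : 0 < (1 + r) ^ r := Real.rpow_pos_of_pos (by linarith) _
  have h1r : (0 : ℝ) < 1 + r := by linarith
  have h1r' : (0 : ℝ) < r + 1 := by linarith
  field_simp
  ring

theorem Lr_pos {r : ℝ} (hr0 : 0 < r) : 0 < Lr r := by
  have hG1 : 0 < Real.Gamma (r + 1) := Real.Gamma_pos_of_pos (by linarith)
  have hG3 : 0 < Real.Gamma (r + 3 / 2) := Real.Gamma_pos_of_pos (by linarith)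
  have hpi : 0 < Real.sqrt Real.pi := Real.sqrt_pos.2 Real.pi_pos
  rw [Lr, kap, betaR_eq hr0]
  have h1 : 0 < r ^ r := Real.rpow_pos_of_pos hr0 _
  have h2 : 0 < (1 + r) ^ (1 + r) := Real.rpow_pos_of_pos (by linarith) _
  positivity

end Vale.Agent.P371
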