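import Vale.Agent.P371.Defs
import Vale.Agent.P371.Basic
import Vale.Agent.P371.AcAux

/-!
# P371 [YOUNG]: the trace Young inequality
-/

open MeasureTheory Matrix Finset
open scoped ComplexOrder ENNReal

namespace Vale.Agent.P371

/-- scalar Young inequality -/
theorem young_scalar (w r : ℝ) (hw : 0 ≤ w) (hr : 0 ≤ r) :
    w * r ≤ Real.pi ^ 2 / 4 * r ^ 3 + 4 / (3 * Real.sqrt 3 * Real.pi) * w ^ ((3:ℝ) / 2) := by
  have hpi := Real.pi_pos
  have h3 : (0:ℝ) < Real.sqrt 3 := Real.sqrt_pos.mpr (by norm_num)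
  have h33 : Real.sqrt 3 ^ 2 = 3 := Real.sq_sqrt (by norm_num)
  set s := Real.sqrt w with hs
  have hs0 : 0 ≤ s := Real.sqrt_nonneg w
  have hss : s ^ 2 = w := Real.sq_sqrt hw
  have hw32 : w ^ ((3:ℝ) / 2) = s ^ 3 := by
    rw [hs, Real.sqrt_eq_rpow, ← Real.rpow_natCast, ← Real.rpow_mul hw]
    norm_num
  rw [hw32, ← hss]
  obtain ⟨q, hq⟩ : ∃ q : ℝ, s = Real.sqrt 3 * Real.pi * q / 2 :=
    ⟨2 * s / (Real.sqrt 3 * Real.pi), by field_simp⟩
  have hq0 : 0 ≤ q := by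
    by_contra hneg
    push Not at hneg
    have : s < 0 := by
      rw [hq]
      have : Real.sqrt 3 * Real.pi * q < 0 := mul_neg_of_pos_of_neg (by positivity) hneg
      linarith
    linarith
  have e1 : s ^ 2 * r = Real.pi ^ 2 / 4 * (3 * q ^ 2 * r) := by
    rw [hq, div_pow, mul_pow, mul_pow, h33]; ring
  have e2 : 4 / (3 * Real.sqrt 3 * Real.pi) * s ^ 3 = Real.pi ^ 2 / 4 * (2 * q ^ 3) := by
    rw [hq]
    have : Real.sqrt 3 ^ 3 = 3 * Real.sqrt 3 := by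
      rw [pow_succ, h33]
    rw [div_pow, mul_pow, mul_pow, this]
    field_simp
    ring
  rw [e1, e2, ← mul_add]
  refine mul_le_mul_of_nonneg_left ?_ (by positivity)
  have : 0 ≤ (r - q) ^ 2 * (r + 2 * q) := by positivity
  nlinarith [this]

/-- spectral decomposition, in plain form -/
theorem spec_eq {m : ℕ} {A : Matrix (Fin m) (Fin m) ℂ} (hA : A.IsHermitian) :
    ∃ U : Matrix (Fin m) (Fin m) ℂ, U * Uᴴ = 1 ∧ Uᴴ * U = 1 ∧
      A = U * diagonal (fun i => (hA.eigenvalues i : ℂ)) * Uᴴ := by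
  refine ⟨hA.eigenvectorUnitary, ?_, ?_, ?_⟩
  · exact Unitary.mul_star_self_of_mem hA.eigenvectorUnitary.2
  · exact Unitary.star_mul_self_of_mem hA.eigenvectorUnitary.2
  · exact hA.spectral_theorem

theorem row_sum {m : ℕ} {S : Matrix (Fin m) (Fin m) ℂ} (h : S * Sᴴ = 1) (i : Fin m) :
    ∑ j, ‖S i j‖ ^ 2 = 1 := by
  have := congrFun (congrFun h i) i
  rw [Matrix.mul_apply, Matrix.one_apply_eq] at this
  have h2 : ((∑ j, ‖S i j‖ ^ 2 : ℝ) : ℂ) = 1 := by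
    rw [← this, Complex.ofReal_sum]
    refine Finset.sum_congr rfl fun j _ => ?_
    rw [conjTranspose_apply, Complex.star_def, Complex.mul_conj, Complex.normSq_eq_norm_sq]
  exact_mod_cast h2

theorem col_sum {m : ℕ} {S : Matrix (Fin m) (Fin m) ℂ} (h : Sᴴ * S = 1) (j : Fin m) :
    ∑ i, ‖S i j‖ ^ 2 = 1 := by
  have := congrFun (congrFun h j) j
  rw [Matrix.mul_apply, Matrix.one_apply_eq] at this
  have h2 : ((∑ i, ‖S i j‖ ^ 2 : ℝ) : ℂ) = 1 := by
    rw [← this, Complex.ofReal_sum]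
    refine Finset.sum_congr rfl fun i _ => ?_
    rw [conjTranspose_apply, Complex.star_def, mul_comm, Complex.mul_conj,
      Complex.normSq_eq_norm_sq]
  exact_mod_cast h2

theorem trace_diag_mul {m : ℕ} (w r : Fin m → ℝ) (S : Matrix (Fin m) (Fin m) ℂ) :
    trace (diagonal (fun i => (w i : ℂ)) * S * diagonal (fun i => (r i : ℂ)) * Sᴴ) =
      ((∑ i, ∑ j, ‖S i j‖ ^ 2 * (w i * r j) : ℝ) : ℂ) := by
  rw [trace, Complex.ofReal_sum]
  refine Finset.sum_congr rfl fun i _ => ?_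
  rw [diag_apply, Matrix.mul_apply, Complex.ofReal_sum]
  refine Finset.sum_congr rfl fun j _ => ?_
  rw [mul_diagonal, diagonal_mul, conjTranspose_apply, Complex.star_def, Complex.ofReal_mul,
    Complex.ofReal_mul, ← Complex.normSq_eq_norm_sq, ← Complex.mul_conj]
  ring

theorem trace_cube {m : ℕ} {A : Matrix (Fin m) (Fin m) ℂ} (hA : A.IsHermitian) :
    trace (A * A * A) = ((∑ i, hA.eigenvalues i ^ 3 : ℝ) : ℂ) := by
  obtain ⟨U, h1, h2, h3⟩ := spec_eq hA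
  set D := diagonal (fun i => (hA.eigenvalues i : ℂ)) with hD
  have e1 : A * A * A = U * (D * D * D) * Uᴴ := by
    rw [h3]
    calc U * D * Uᴴ * (U * D * Uᴴ) * (U * D * Uᴴ)
        = U * D * (Uᴴ * U) * D * (Uᴴ * U) * D * Uᴴ := by simp only [Matrix.mul_assoc]
      _ = U * (D * D * D) * Uᴴ := by rw [h2]; simp only [Matrix.mul_assoc, Matrix.one_mul]
  rw [e1, trace_mul_comm, ← Matrix.mul_assoc, h2, Matrix.one_mul, hD, diagonal_mul_diagonal,
    diagonal_mul_diagonal, trace_diagonal, Complex.ofReal_sum]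
  refine Finset.sum_congr rfl fun i _ => ?_
  push_cast
  ring

theorem trace_young {m : ℕ} (W R : Matrix (Fin m) (Fin m) ℂ) (hW : W.PosSemidef)
    (hR : R.PosSemidef) :
    (trace (W * R)).re ≤ Real.pi ^ 2 / 4 * (trace (R * R * R)).re +
      4 / (3 * Real.sqrt 3 * Real.pi) * trPow W (3 / 2) := by
  obtain ⟨U, hU1, hU2, hU3⟩ := spec_eq hW.1
  obtain ⟨V, hV1, hV2, hV3⟩ := spec_eq hR.1
  have hw : ∀ i, 0 ≤ hW.1.eigenvalues i := hW.eigenvalues_nonneg
  have hr : ∀ i, 0 ≤ hR.1.eigenvalues i := hR.eigenvalues_nonneg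
  set w := hW.1.eigenvalues with hwdef
  set r := hR.1.eigenvalues with hrdef
  set c := 4 / (3 * Real.sqrt 3 * Real.pi) with hc
  have hW32 : trPow W (3 / 2) = ∑ i, w i ^ ((3:ℝ) / 2) := by
    unfold trPow
    rw [dif_pos hW.1]
  rw [trace_cube hR.1, hW32, Complex.ofReal_re, ← hrdef]
  set S := Uᴴ * V with hS
  have hSS : Sᴴ = Vᴴ * U := by rw [hS, conjTranspose_mul, conjTranspose_conjTranspose]
  have hS1 : S * Sᴴ = 1 := by
    rw [hSS, hS]
    calc Uᴴ * V * (Vᴴ * U) = Uᴴ * (V * Vᴴ) * U := by simp only [Matrix.mul_assoc]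
      _ = 1 := by rw [hV1, Matrix.mul_one, hU2]
  have hS2 : Sᴴ * S = 1 := by
    rw [hSS, hS]
    calc Vᴴ * U * (Uᴴ * V) = Vᴴ * (U * Uᴴ) * V := by simp only [Matrix.mul_assoc]
      _ = 1 := by rw [hU1, Matrix.mul_one, hV2]
  have htr : trace (W * R) = ((∑ i, ∑ j, ‖S i j‖ ^ 2 * (w i * r j) : ℝ) : ℂ) := by
    rw [← trace_diag_mul]
    conv_lhs => rw [hU3, hV3]
    rw [hSS, hS]
    set Dw := diagonal (fun i => (w i : ℂ))
    set Dr := diagonal (fun i => (r i : ℂ))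
    calc trace (U * Dw * Uᴴ * (V * Dr * Vᴴ)) = trace (U * (Dw * Uᴴ * (V * Dr * Vᴴ))) := by
          simp only [Matrix.mul_assoc]
      _ = trace (Dw * Uᴴ * (V * Dr * Vᴴ) * U) := trace_mul_comm _ _
      _ = _ := by simp only [Matrix.mul_assoc]
  rw [htr, Complex.ofReal_re]
  have hrow := fun i => row_sum hS1 i
  have hcol := fun j => col_sum hS2 j
  calc ∑ i, ∑ j, ‖S i j‖ ^ 2 * (w i * r j)
      ≤ ∑ i, ∑ j, ‖S i j‖ ^ 2 * (Real.pi ^ 2 / 4 * r j ^ 3 + c * w i ^ ((3:ℝ) / 2)) :=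
        Finset.sum_le_sum fun i _ => Finset.sum_le_sum fun j _ =>
          mul_le_mul_of_nonneg_left (young_scalar _ _ (hw i) (hr j)) (by positivity)
    _ = ∑ i, ∑ j, (‖S i j‖ ^ 2 * (Real.pi ^ 2 / 4 * r j ^ 3)) +
        ∑ i, ∑ j, (‖S i j‖ ^ 2 * (c * w i ^ ((3:ℝ) / 2))) := by
        simp only [mul_add, Finset.sum_add_distrib]
    _ = _ := by
        congr 1
        · rw [Finset.sum_comm, Finset.mul_sum]
          refine Finset.sum_congr rfl fun j _ => ?_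
          rw [← Finset.sum_mul, hcol, one_mul]
        · rw [Finset.mul_sum]
          refine Finset.sum_congr rfl fun i _ => ?_
          rw [← Finset.sum_mul, hrow, one_mul]

theorem trace_dens {m N : ℕ} (u : Fin N → ℝ → Fin m → ℂ) (x : ℝ) :
    trace (dens u x * dens u x * dens u x) = trace (gram u x * gram u x * gram u x) ∧
    (dens u x).PosSemidef ∧ (gram u x).PosSemidef := by
  refine ⟨?_, Ac.dens_psd u x, Ac.gram_psd u x⟩
  rw [Ac.dens_eq, Ac.gram_eq]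
  set U := Ac.mat u x
  calc trace (U * Uᴴ * (U * Uᴴ) * (U * Uᴴ)) = trace (U * (Uᴴ * (U * Uᴴ) * (U * Uᴴ))) := by
        simp only [Matrix.mul_assoc]
    _ = trace ((Uᴴ * (U * Uᴴ) * (U * Uᴴ)) * U) := trace_mul_comm _ _
    _ = _ := by simp only [Matrix.mul_assoc]

end Vale.Agent.P371
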