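import Vale.Agent.P371.Defs2
import Vale.Agent.P371.Young
import Vale.Agent.P371.GibbsGT

/-!
# P371 [CONV]: Klein inequalities for the weights
-/

open MeasureTheory Matrix Finset
open scoped ComplexOrder ENNReal Topology

namespace Vale.Agent.P371

namespace ConvAux

theorem scalar_ge {γ l y : ℝ} (hγ : 1 ≤ γ) (hl : 0 < l) (hy : 0 ≤ y) :
    l ^ γ ≤ y ^ γ + γ * l ^ (γ - 1) * (l - y) := by
  have h1 : (-1 : ℝ) ≤ y / l - 1 := by
    have : 0 ≤ y / l := by positivity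
    linarith
  have h2 := one_add_mul_self_le_rpow_one_add h1 hγ
  have h3 : 1 + (y / l - 1) = y / l := by ring
  rw [h3, Real.div_rpow hy hl.le] at h2
  have h4 : 0 < l ^ γ := Real.rpow_pos_of_pos hl _
  have h5 : l ^ (γ - 1) = l ^ γ / l := by rw [Real.rpow_sub_one hl.ne']
  have h6 := mul_le_mul_of_nonneg_left h2 h4.le
  have h7 : l ^ γ * (y ^ γ / l ^ γ) = y ^ γ := by field_simp
  rw [h7] at h6
  rw [h5]
  have h8 : γ * (l ^ γ / l) * (l - y) = -(l ^ γ * (γ * (y / l - 1))) := by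
    field_simp
    ring
  rw [h8]
  linarith

theorem scalar_le {γ a b : ℝ} (hγ0 : 0 < γ) (hγ : γ ≤ 1) (ha : 0 < a) (hb : 0 ≤ b) :
    b ^ γ ≤ a ^ γ + γ * a ^ (γ - 1) * (b - a) := by
  have h1 : (-1 : ℝ) ≤ b / a - 1 := by
    have : 0 ≤ b / a := by positivity
    linarith
  have h2 := rpow_one_add_le_one_add_mul_self h1 hγ0.le hγ
  have h3 : 1 + (b / a - 1) = b / a := by ring
  rw [h3, Real.div_rpow hb ha.le] at h2
  have h4 : 0 < a ^ γ := Real.rpow_pos_of_pos ha _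
  have h5 : a ^ (γ - 1) = a ^ γ / a := by rw [Real.rpow_sub_one ha.ne']
  have h6 := mul_le_mul_of_nonneg_left h2 h4.le
  have h7 : a ^ γ * (b ^ γ / a ^ γ) = b ^ γ := by field_simp
  rw [h7] at h6
  rw [h5]
  have h8 : γ * (a ^ γ / a) * (b - a) = a ^ γ * (γ * (b / a - 1)) := by
    field_simp
  rw [h8]
  linarith

theorem add_rpow {γ a b : ℝ} (hγ0 : 0 < γ) (hγ : γ ≤ 1) (ha : 0 ≤ a) (hb : 0 ≤ b) :
    (a + b) ^ γ ≤ a ^ γ + b ^ γ := by
  exact_mod_cast NNReal.rpow_add_le_add_rpow ⟨a, ha⟩ ⟨b, hb⟩ hγ0.le hγ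

theorem scalar_le' {γ δ l s : ℝ} (hγ0 : 0 < γ) (hγ : γ ≤ 1) (hδ : 0 < δ) (hl : 0 < l)
    (hs : 0 ≤ s) :
    (l + δ) ^ γ - δ ^ γ ≤ s ^ (2 * γ) + γ * (s ^ 2 + δ) ^ (γ - 1) * (l - s ^ 2) := by
  have h1 := scalar_le (a := s ^ 2 + δ) (b := l + δ) hγ0 hγ (by positivity) (by positivity)
  have h2 := add_rpow hγ0 hγ (sq_nonneg s) hδ.le
  have h3 : (s ^ 2) ^ γ = s ^ (2 * γ) := by
    rw [← Real.rpow_natCast, ← Real.rpow_mul hs]
    norm_num
  rw [h3] at h2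
  have h4 : l + δ - (s ^ 2 + δ) = l - s ^ 2 := by ring
  rw [h4] at h1
  linarith

/-- conjugation by a unitary is multiplicative -/
theorem conj_mul {n : Type*} [Fintype n] [DecidableEq n] {U : Matrix n n ℂ} (h : Uᴴ * U = 1)
    (D E : Matrix n n ℂ) : U * D * Uᴴ * (U * E * Uᴴ) = U * (D * E) * Uᴴ := by
  calc U * D * Uᴴ * (U * E * Uᴴ) = U * D * (Uᴴ * U) * E * Uᴴ := by
        simp only [Matrix.mul_assoc]
    _ = _ := by rw [h, Matrix.mul_one]; simp only [Matrix.mul_assoc]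

theorem trace_conj {n : Type*} [Fintype n] [DecidableEq n] {U : Matrix n n ℂ} (h : Uᴴ * U = 1)
    (D : Matrix n n ℂ) : trace (U * D * Uᴴ) = trace D := by
  rw [trace_mul_comm, ← Matrix.mul_assoc, h, Matrix.one_mul]

end ConvAux

open ConvAux

/-- `γ ≥ 1` -/
theorem conv_ge {N : ℕ} {γ : ℝ} (hγ : 1 ≤ γ) {lam : Fin N → ℝ} (hlam : ∀ j, 0 < lam j)
    {S : Matrix (Fin N) (Fin N) ℂ} (hS : S.PosSemidef) :
    ∑ j, lam j ^ γ ≤ trPow S (2 * γ) +
      (trace (Matrix.diagonal (fun j => ((γ * lam j ^ (γ - 1) : ℝ) : ℂ)) *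
        (Matrix.diagonal (fun j => ((lam j : ℝ) : ℂ)) - S * S))).re := by
  obtain ⟨U, h1, h2, h3⟩ := spec_eq hS.1
  have hs : ∀ i, 0 ≤ hS.1.eigenvalues i := hS.eigenvalues_nonneg
  have ht : trPow S (2 * γ) = ∑ i, hS.1.eigenvalues i ^ (2 * γ) := by
    unfold trPow
    rw [dif_pos hS.1]
  rw [ht]
  set s := hS.1.eigenvalues with hsdef
  have hSS : S * S = U * diagonal (fun i => ((s i ^ 2 : ℝ) : ℂ)) * Uᴴ := by
    conv_lhs => rw [h3]
    rw [conj_mul h2, diagonal_mul_diagonal]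
    congr 3
    funext i
    push_cast
    ring
  set c : Fin N → ℝ := fun j => γ * lam j ^ (γ - 1) with hc
  have e1 : trace (diagonal (fun j => ((c j : ℝ) : ℂ)) * (S * S)) =
      ((∑ i, ∑ j, ‖U i j‖ ^ 2 * (c i * s j ^ 2) : ℝ) : ℂ) := by
    rw [hSS, ← trace_diag_mul c (fun j => s j ^ 2) U]
    simp only [Matrix.mul_assoc]
  have e2 : trace (diagonal (fun j => ((c j : ℝ) : ℂ)) * diagonal (fun j => ((lam j : ℝ) : ℂ))) =
      ((∑ i, c i * lam i : ℝ) : ℂ) := by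
    rw [diagonal_mul_diagonal, trace_diagonal]
    push_cast
    rfl
  rw [Matrix.mul_sub, trace_sub, e1, e2, ← Complex.ofReal_sub, Complex.ofReal_re]
  have hrow := fun i => row_sum h1 i
  have hcol := fun j => col_sum h2 j
  have f1 : ∑ i, s i ^ (2 * γ) = ∑ i, ∑ j, ‖U i j‖ ^ 2 * (s j ^ (2 * γ)) := by
    rw [Finset.sum_comm]
    refine Finset.sum_congr rfl fun j _ => ?_
    rw [← Finset.sum_mul, hcol, one_mul]
  have f2 : ∑ i, c i * lam i = ∑ i, ∑ j, ‖U i j‖ ^ 2 * (c i * lam i) := by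
    refine Finset.sum_congr rfl fun i _ => ?_
    rw [← Finset.sum_mul, hrow, one_mul]
  have f3 : ∑ i, lam i ^ γ = ∑ i, ∑ j, ‖U i j‖ ^ 2 * (lam i ^ γ) := by
    refine Finset.sum_congr rfl fun i _ => ?_
    rw [← Finset.sum_mul, hrow, one_mul]
  rw [f1, f2, f3, ← Finset.sum_sub_distrib, ← Finset.sum_add_distrib]
  refine Finset.sum_le_sum fun i _ => ?_
  rw [← Finset.sum_sub_distrib, ← Finset.sum_add_distrib]
  refine Finset.sum_le_sum fun j _ => ?_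
  have h4 := scalar_ge (l := lam i) (y := s j ^ 2) hγ (hlam i) (sq_nonneg _)
  have h5 : (s j ^ 2) ^ γ = s j ^ (2 * γ) := by
    rw [← Real.rpow_natCast, ← Real.rpow_mul (hs j)]
    norm_num
  rw [h5] at h4
  have h6 := mul_le_mul_of_nonneg_left h4 (by positivity : 0 ≤ ‖U i j‖ ^ 2)
  simp only [hc]
  linarith

/-- `γ ≤ 1` -/
theorem conv_le {N : ℕ} {γ δ : ℝ} (hγ0 : 0 < γ) (hγ : γ ≤ 1) (hδ : 0 < δ) {lam : Fin N → ℝ}
    (hlam : ∀ j, 0 < lam j) {S : Matrix (Fin N) (Fin N) ℂ} (hS : S.PosSemidef) :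
    ∑ j, ((lam j + δ) ^ γ - δ ^ γ) ≤ trPow S (2 * γ) +
      (trace ((Dw γ δ S * Dw γ δ S) *
        (Matrix.diagonal (fun j => ((lam j : ℝ) : ℂ)) - S * S))).re := by
  set U := (hS.1.eigenvectorUnitary : Matrix (Fin N) (Fin N) ℂ) with hU
  have h1 : U * Uᴴ = 1 := Unitary.coe_mul_star_self _
  have h2 : Uᴴ * U = 1 := Unitary.coe_star_mul_self _
  have h3 : S = U * diagonal (fun i => (hS.1.eigenvalues i : ℂ)) * Uᴴ := hS.1.spectral_theorem
  have hs : ∀ i, 0 ≤ hS.1.eigenvalues i := hS.eigenvalues_nonneg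
  have ht : trPow S (2 * γ) = ∑ i, hS.1.eigenvalues i ^ (2 * γ) := by
    unfold trPow
    rw [dif_pos hS.1]
  have hD : Dw γ δ S = U * diagonal (fun i =>
      ((Real.sqrt (γ * (hS.1.eigenvalues i ^ 2 + δ) ^ (γ - 1)) : ℝ) : ℂ)) * Uᴴ :=
    GGT.cfc_spec hS.1 _
  rw [ht]
  set s := hS.1.eigenvalues with hsdef
  set c : Fin N → ℝ := fun j => γ * (s j ^ 2 + δ) ^ (γ - 1) with hc
  have hc0 : ∀ j, 0 ≤ c j := fun j => by
    have : 0 ≤ (s j ^ 2 + δ) ^ (γ - 1) := Real.rpow_nonneg (by positivity) _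
    simp only [hc]
    positivity
  have hSS : S * S = U * diagonal (fun i => ((s i ^ 2 : ℝ) : ℂ)) * Uᴴ := by
    conv_lhs => rw [h3]
    rw [conj_mul h2, diagonal_mul_diagonal]
    congr 3
    funext i
    push_cast
    ring
  have hDD : Dw γ δ S * Dw γ δ S = U * diagonal (fun i => ((c i : ℝ) : ℂ)) * Uᴴ := by
    rw [hD, conj_mul h2, diagonal_mul_diagonal]
    congr 3
    funext i
    rw [← Complex.ofReal_mul, Real.mul_self_sqrt (hc0 i)]
  have e1 : trace (Dw γ δ S * Dw γ δ S * diagonal (fun j => ((lam j : ℝ) : ℂ))) =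
      ((∑ i, ∑ j, ‖Uᴴ i j‖ ^ 2 * (c i * lam j) : ℝ) : ℂ) := by
    rw [hDD, ← trace_diag_mul c lam Uᴴ, conjTranspose_conjTranspose, trace_mul_comm]
    have : diagonal (fun j => ((lam j : ℝ) : ℂ)) * (U * diagonal (fun i => ((c i : ℝ) : ℂ)) * Uᴴ) =
        (diagonal (fun j => ((lam j : ℝ) : ℂ)) * U) * (diagonal (fun i => ((c i : ℝ) : ℂ)) * Uᴴ) := by
      simp only [Matrix.mul_assoc]
    rw [this, trace_mul_comm]
    simp only [Matrix.mul_assoc]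
  have e2 : trace (Dw γ δ S * Dw γ δ S * (S * S)) = ((∑ i, c i * s i ^ 2 : ℝ) : ℂ) := by
    rw [hDD, hSS, conj_mul h2, trace_conj h2, diagonal_mul_diagonal, trace_diagonal]
    push_cast
    rfl
  rw [Matrix.mul_sub, trace_sub, e1, e2, ← Complex.ofReal_sub, Complex.ofReal_re]
  have g1 : Uᴴ * (Uᴴ)ᴴ = 1 := by rw [conjTranspose_conjTranspose, h2]
  have g2 : (Uᴴ)ᴴ * Uᴴ = 1 := by rw [conjTranspose_conjTranspose, h1]
  have hrow := fun i => row_sum g1 i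
  have hcol := fun j => col_sum g2 j
  have f1 : ∑ i, s i ^ (2 * γ) = ∑ i, ∑ j, ‖Uᴴ i j‖ ^ 2 * (s i ^ (2 * γ)) := by
    refine Finset.sum_congr rfl fun i _ => ?_
    rw [← Finset.sum_mul, hrow, one_mul]
  have f2 : ∑ i, c i * s i ^ 2 = ∑ i, ∑ j, ‖Uᴴ i j‖ ^ 2 * (c i * s i ^ 2) := by
    refine Finset.sum_congr rfl fun i _ => ?_
    rw [← Finset.sum_mul, hrow, one_mul]
  have f3 : ∑ j, ((lam j + δ) ^ γ - δ ^ γ) =
      ∑ i, ∑ j, ‖Uᴴ i j‖ ^ 2 * ((lam j + δ) ^ γ - δ ^ γ) := by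
    rw [Finset.sum_comm]
    refine Finset.sum_congr rfl fun j _ => ?_
    rw [← Finset.sum_mul, hcol, one_mul]
  rw [f1, f2, f3, ← Finset.sum_sub_distrib, ← Finset.sum_add_distrib]
  refine Finset.sum_le_sum fun i _ => ?_
  rw [← Finset.sum_sub_distrib, ← Finset.sum_add_distrib]
  refine Finset.sum_le_sum fun j _ => ?_
  have h4 := scalar_le' (l := lam j) (s := s i) hγ0 hγ hδ (hlam j) (hs i)
  have h6 := mul_le_mul_of_nonneg_left h4 (by positivity : 0 ≤ ‖Uᴴ i j‖ ^ 2)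
  simp only [hc]
  linarith

end Vale.Agent.P371
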