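import Mathlib

/-!
# P371: matrix-valued Schroedinger operators on the line and the Lieb-Thirring constants

`W : ℝ → Matrix (Fin m) (Fin m) ℂ` is a matrix potential.  Functions `ℝ → Fin m → ℂ` play the
role of `ℂ^m`-valued functions.
-/

open MeasureTheory
open scoped ENNReal ComplexOrder

namespace Vale.Agent.P371

/-- The trace of the power `A ^ p` of a Hermitian matrix `A` (functional calculus): the sum of
the `p`-th powers of its eigenvalues, with multiplicity. -/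
noncomputable def trPow {m : ℕ} (A : Matrix (Fin m) (Fin m) ℂ) (p : ℝ) : ℝ :=
  open Classical in if h : A.IsHermitian then ∑ i, h.eigenvalues i ^ p else 0

/-- The standard inner product of `ℂ^m`, conjugate linear in the first variable. -/
def ip {m : ℕ} (v w : Fin m → ℂ) : ℂ := ∑ a, star (v a) * w a

/-- `∫ tr (W ^ (γ + 1/2))`. -/
noncomputable def potInt {m : ℕ} (γ : ℝ) (W : ℝ → Matrix (Fin m) (Fin m) ℂ) : ℝ≥0∞ :=
  ∫⁻ x, ENNReal.ofReal (trPow (W x) (γ + 1 / 2))

/-- `W` is a potential for the exponent `γ`: measurable, positive semidefinite, and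
`∫ tr (W ^ (γ + 1/2)) < ∞`. -/
structure IsPotential {m : ℕ} (γ : ℝ) (W : ℝ → Matrix (Fin m) (Fin m) ℂ) : Prop where
  measurable : ∀ a b, Measurable fun x => W x a b
  posSemidef : ∀ x, (W x).PosSemidef
  finite : potInt γ W < ∞

/-- `u` is (the continuous representative of) an element of `H¹(ℝ; ℂ^m)` with weak derivative
`du`: both are square integrable and `u` is a primitive of `du`. -/
def IsH1 {m : ℕ} (u du : ℝ → Fin m → ℂ) : Prop :=
  ∀ a, MemLp (fun x => u x a) 2 volume ∧ MemLp (fun x => du x a) 2 volume ∧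
    ∀ s t : ℝ, u t a - u s a = ∫ x in s..t, du x a

/-- The sesquilinear form `∫ ⟨v', u'⟩ - ∫ ⟨v, W u⟩` of `H_W = -d²/dx² - W`. -/
noncomputable def form {m : ℕ} (W : ℝ → Matrix (Fin m) (Fin m) ℂ) (v dv u du : ℝ → Fin m → ℂ) : ℂ :=
  (∫ x, ip (dv x) (du x)) - ∫ x, ip (v x) ((W x).mulVec (u x))

/-- `u` (with derivative `du`) is in the domain of `H_W` and `H_W u = E u` (weak form: the
operator associated with the form on `H¹`). -/
def IsEigen {m : ℕ} (W : ℝ → Matrix (Fin m) (Fin m) ℂ) (E : ℝ) (u du : ℝ → Fin m → ℂ) : Prop :=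
  IsH1 u du ∧ ∀ v dv, IsH1 v dv → form W v dv u du = E * ∫ x, ip (v x) (u x)

/-- `Tr (H_W)_-^γ`: the supremum of `∑ λ_j ^ γ` over all finite `L²`-orthonormal families of
eigenfunctions with eigenvalues `-λ_j < 0`, i.e. the sum over all negative eigenvalues counted
with multiplicity. -/
noncomputable def negSum {m : ℕ} (γ : ℝ) (W : ℝ → Matrix (Fin m) (Fin m) ℂ) : ℝ≥0∞ :=
  ⨆ (n : ℕ) (lam : Fin n → ℝ) (u : Fin n → ℝ → Fin m → ℂ) (du : Fin n → ℝ → Fin m → ℂ)
    (_ : ∀ j, 0 < lam j) (_ : ∀ j, IsEigen W (-(lam j)) (u j) (du j))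
    (_ : ∀ j k, ∫ x, ip (u j x) (u k x) = if j = k then 1 else 0),
    ∑ j, ENNReal.ofReal (lam j ^ γ)

/-- The Lieb-Thirring constant `L_γ(m)` for `m × m` matrix potentials. -/
noncomputable def LT (γ : ℝ) (m : ℕ) : ℝ≥0∞ :=
  ⨆ (W : ℝ → Matrix (Fin m) (Fin m) ℂ) (_ : IsPotential γ W) (_ : potInt γ W ≠ 0),
    negSum γ W / potInt γ W

/-- The one-bound-state constant `L_γ^(1)`: the supremum over scalar potentials `W ≠ 0` with only
the lowest eigenvalue `-λ_1` (equivalently: any one negative eigenvalue `-λ`) in the numerator. -/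
noncomputable def LTone (γ : ℝ) : ℝ≥0∞ :=
  ⨆ (W : ℝ → Matrix (Fin 1) (Fin 1) ℂ) (_ : IsPotential γ W) (_ : potInt γ W ≠ 0)
    (lam : ℝ) (u : ℝ → Fin 1 → ℂ) (du : ℝ → Fin 1 → ℂ) (_ : 0 < lam)
    (_ : IsEigen W (-lam) u du) (_ : u ≠ 0),
    ENNReal.ofReal (lam ^ γ) / potInt γ W

/-- The semiclassical constant `L^cl_γ`. -/
noncomputable def Lcl (γ : ℝ) : ℝ :=
  Real.Gamma (γ + 1) / (2 * Real.sqrt Real.pi * Real.Gamma (γ + 3 / 2))

end Vale.Agent.P371
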