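import Vale.Agent.P371.Defs

/-!
# P371, general `γ`: definitions shared by STEP 1, CALIB, VERTEX, REDUCE

`r = γ - 1/2 ∈ (0,1)`.
-/

open MeasureTheory

namespace Vale.Agent.P371

/-- `A_t = (S² + t)^{1/2}`. -/
noncomputable def Amat {n : Type*} [Fintype n] [DecidableEq n] (S : Matrix n n ℂ) (t : ℝ) :
    Matrix n n ℂ :=
  cfc (fun s : ℝ => Real.sqrt (s ^ 2 + t)) S

/-- `k_t = log (A_t + Z) + log (A_t - Z) - log t`. -/
noncomputable def kmat {n : Type*} [Fintype n] [DecidableEq n] (S Z : Matrix n n ℂ) (t : ℝ) :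
    Matrix n n ℂ :=
  cfc Real.log (Amat S t + Z) + cfc Real.log (Amat S t - Z) - ((Real.log t : ℝ) : ℂ) • 1

/-- `β_r = ∫_{-1}^1 (1 - z²)^r dz`. -/
noncomputable def betaR (r : ℝ) : ℝ := ∫ z in (-1:ℝ)..1, (1 - z ^ 2) ^ r

/-- `κ_r = r^r / (1+r)^{1+r}`. -/
noncomputable def kap (r : ℝ) : ℝ := r ^ r / (1 + r) ^ (1 + r)

/-- `I_r = ∫_0^∞ t^{r-1} log (1 + 1/t) dt`. -/
noncomputable def Ir (r : ℝ) : ℝ := ∫ t in Set.Ioi (0:ℝ), t ^ (r - 1) * Real.log (1 + 1 / t)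

end Vale.Agent.P371
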