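import Vale.Agent.P371.Gram
import Vale.Agent.P371.AcAux
import Vale.Agent.P371.KDefs

/-!
# P371: definitions for the proof for all `γ ∈ (1/2, 3/2)` (`r = γ - 1/2`)
-/

open MeasureTheory Matrix Finset
open scoped ComplexOrder ENNReal

namespace Vale.Agent.P371

/-- `A_t = (S² + t)^{1/2}` -/
noncomputable def At {n : Type*} [Fintype n] [DecidableEq n] (S : Matrix n n ℂ) (t : ℝ) :
    Matrix n n ℂ := cfc (fun x : ℝ => Real.sqrt (x ^ 2 + t)) S

/-- matrix logarithm -/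
noncomputable def mlog {n : Type*} [Fintype n] [DecidableEq n] (P : Matrix n n ℂ) :
    Matrix n n ℂ := cfc Real.log P

/-- `k_t = log (A_t + Z) + log (A_t - Z) - log t` -/
noncomputable def kt {n : Type*} [Fintype n] [DecidableEq n] (S Z : Matrix n n ℂ) (t : ℝ) :
    Matrix n n ℂ := mlog (At S t + Z) + mlog (At S t - Z) - ((Real.log t : ℝ) : ℂ) • 1

/-- `Tr η(P)`, `η(x) = x log x - x` -/
noncomputable def teta {n : Type*} [Fintype n] [DecidableEq n] (P : Matrix n n ℂ) : ℝ :=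
  (trace (P * mlog P)).re - (trace P).re

/-- `G_t(Z) = -(Tr η(A_t + Z) - Tr η(A_t - Z) - log t Tr Z)` -/
noncomputable def Gt {n : Type*} [Fintype n] [DecidableEq n] (S Z : Matrix n n ℂ) (t : ℝ) : ℝ :=
  -(teta (At S t + Z) - teta (At S t - Z) - Real.log t * (trace Z).re)

/-- `m(t) = Tr k_t (Y + t) - Tr Y`, `Y = S² - Z²` -/
noncomputable def mt {n : Type*} [Fintype n] [DecidableEq n] (S Z : Matrix n n ℂ) (t : ℝ) : ℝ :=
  (trace (kt S Z t * (S * S - Z * Z + ((t : ℝ) : ℂ) • 1))).re - (trace (S * S - Z * Z)).re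

/-- `L_r = κ_r / β_r`, the constant -/
noncomputable def Lr (r : ℝ) : ℝ := kap r / betaR r

/-- `s_r = (L_r (1+r))^{-1/r}` -/
noncomputable def sR (r : ℝ) : ℝ := (Lr r * (1 + r)) ^ (-(1 / r))

/-- `∫_{-s}^s log (1 + (s² - z²)/t) dz` -/
noncomputable def gs (s t : ℝ) : ℝ := ∫ z in (-s)..s, Real.log (1 + (s ^ 2 - z ^ 2) / t)

/-- matrix power of a positive semidefinite matrix -/
noncomputable def mpow {n : Type*} [Fintype n] [DecidableEq n] (V : Matrix n n ℂ) (q : ℝ) :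
    Matrix n n ℂ := cfc (fun x : ℝ => x ^ q) V

/-- `V(x) = C^{1/2} gram(x) C^{1/2}`, with `D = C^{1/2}` -/
noncomputable def Vx {m N : ℕ} (D : Matrix (Fin N) (Fin N) ℂ) (u : Fin N → ℝ → Fin m → ℂ) (x : ℝ) :
    Matrix (Fin N) (Fin N) ℂ := D * gram u x * D

/-- the square root of the weight `C(S) = γ (S² + δ)^{γ-1}` -/
noncomputable def Dw {n : Type*} [Fintype n] [DecidableEq n] (γ δ : ℝ) (S : Matrix n n ℂ) :
    Matrix n n ℂ := cfc (fun x : ℝ => Real.sqrt (γ * (x ^ 2 + δ) ^ (γ - 1))) S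

end Vale.Agent.P371
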