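import Vale.Agent.P371.Basic

/-!
# P371 [DIAG]: the two trace sums in an eigenbasis of `M`
-/

open MeasureTheory Matrix Finset
open scoped ComplexOrder

namespace Vale.Agent.P371

variable {n : Type*} [Fintype n] [DecidableEq n]

namespace DiagAux

/-- diagonalisation of a Hermitian matrix -/
theorem exists_diag (M : Matrix n n ℂ) (hM : M.IsHermitian) :
    ∃ U : Matrix n n ℂ, U * Uᴴ = 1 ∧ Uᴴ * U = 1 ∧
      M = U * diagonal (fun i => ((hM.eigenvalues i : ℝ) : ℂ)) * Uᴴ := by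
  refine ⟨hM.eigenvectorUnitary, ?_, ?_, ?_⟩
  · exact Unitary.coe_mul_star_self hM.eigenvectorUnitary
  · exact Unitary.coe_star_mul_self hM.eigenvectorUnitary
  · have h := hM.spectral_theorem
    rw [Unitary.conjStarAlgAut_apply] at h
    exact h

section conj
variable {U D Z M X : Matrix n n ℂ}

theorem conj_mul (hU : Uᴴ * U = 1) (A B : Matrix n n ℂ) :
    (U * A * Uᴴ) * (U * B * Uᴴ) = U * (A * B) * Uᴴ := by
  calc (U * A * Uᴴ) * (U * B * Uᴴ) = U * A * (Uᴴ * U) * B * Uᴴ := by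
        simp only [Matrix.mul_assoc]
    _ = _ := by rw [hU, Matrix.mul_one]; simp only [Matrix.mul_assoc]

theorem conj_pow (hU : Uᴴ * U = 1) (hU' : U * Uᴴ = 1) (A : Matrix n n ℂ) (k : ℕ) :
    (U * A * Uᴴ) ^ k = U * A ^ k * Uᴴ := by
  induction k with
  | zero => simp [hU']
  | succ k ih => rw [pow_succ, ih, conj_mul hU, ← pow_succ]

omit [DecidableEq n] in
theorem conj_sum {ι : Type*} (s : Finset ι) (A : ι → Matrix n n ℂ) :
    ∑ k ∈ s, U * A k * Uᴴ = U * (∑ k ∈ s, A k) * Uᴴ := by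
  rw [Finset.mul_sum, Finset.sum_mul]

omit [DecidableEq n] in
theorem conj_smul (c : ℂ) (A : Matrix n n ℂ) : c • (U * A * Uᴴ) = U * (c • A) * Uᴴ := by
  rw [Matrix.mul_smul, Matrix.smul_mul]

omit [DecidableEq n] in
theorem conj_add (A B : Matrix n n ℂ) : U * A * Uᴴ + U * B * Uᴴ = U * (A + B) * Uᴴ := by
  rw [Matrix.mul_add, Matrix.add_mul]

theorem conj_Tf (hU : Uᴴ * U = 1) (hU' : U * Uᴴ = 1) (f : Polynomial ℝ) :
    Tf f (U * D * Uᴴ) (U * Z * Uᴴ) = U * Tf f D Z * Uᴴ := by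
  unfold Tf
  simp only [Polynomial.sum_def, conj_pow hU hU', conj_mul hU, conj_smul, conj_sum]

theorem conj_dPow (hU : Uᴴ * U = 1) (hU' : U * Uᴴ = 1) (k : ℕ) :
    dPow (U * D * Uᴴ) (U * Z * Uᴴ) k = U * dPow D Z k * Uᴴ := by
  unfold dPow
  simp only [conj_pow hU hU', conj_mul hU, conj_sum]

theorem conj_dTf (hU : Uᴴ * U = 1) (hU' : U * Uᴴ = 1) (f : Polynomial ℝ) :
    dTf f (U * D * Uᴴ) (U * Z * Uᴴ) (U * Z * Uᴴ) = U * dTf f D Z Z * Uᴴ := by
  unfold dTf
  simp only [Polynomial.sum_def, conj_pow hU hU', conj_mul hU, conj_smul, conj_sum,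
    conj_dPow hU hU', conj_add]

theorem trace_conj (hU : Uᴴ * U = 1) (A : Matrix n n ℂ) :
    trace (U * A * Uᴴ) = trace A := by
  rw [Matrix.trace_mul_comm, ← Matrix.mul_assoc, hU, Matrix.one_mul]

end conj

/-! ### diagonal `M` -/

section diag
variable (d : n → ℝ) (Z : Matrix n n ℂ)

/-- the diagonal matrix -/
noncomputable def dg : Matrix n n ℂ := diagonal fun i => ((d i : ℝ) : ℂ)

theorem dg_pow (k : ℕ) : dg d ^ k = diagonal fun i => ((d i : ℝ) : ℂ) ^ k := by
  unfold dg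
  rw [Matrix.diagonal_pow]
  rfl

theorem dg_mul_mul (k l : ℕ) (A : Matrix n n ℂ) (i j : n) :
    (dg d ^ k * A * dg d ^ l) i j = ((d i : ℝ) : ℂ) ^ k * A i j * ((d j : ℝ) : ℂ) ^ l := by
  rw [dg_pow, dg_pow, Matrix.mul_diagonal, Matrix.diagonal_mul]

theorem Tf_dg (f : Polynomial ℝ) (i j : n) :
    Tf f (dg d) Z i j = ((f.eval (d i + d j) : ℝ) : ℂ) * Z i j := by
  unfold Tf
  rw [Polynomial.eval_eq_sum, Polynomial.sum_def, Polynomial.sum_def, Matrix.sum_apply]
  push_cast
  rw [Finset.sum_mul]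
  refine Finset.sum_congr rfl fun m _ => ?_
  rw [Matrix.sum_apply, add_pow, Finset.mul_sum, Finset.sum_mul]
  refine Finset.sum_congr rfl fun k _ => ?_
  rw [Matrix.smul_apply, dg_mul_mul, smul_eq_mul]
  ring

/-- `h_k(a,c) = ∑_{j<k} a^j c^(k-1-j)` -/
def hk (k : ℕ) (a c : ℝ) : ℝ := ∑ j ∈ range k, a ^ j * c ^ (k - 1 - j)

theorem dPow_dg (k : ℕ) (i j : n) :
    dPow (dg d) Z k i j = ((hk k (d i) (d j) : ℝ) : ℂ) * Z i j := by
  unfold dPow hk
  rw [Matrix.sum_apply]
  push_cast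
  rw [Finset.sum_mul]
  refine Finset.sum_congr rfl fun m _ => ?_
  rw [dg_mul_mul]
  ring

/-- the divided difference of `x ↦ f (x + b)` -/
noncomputable def ddf (f : Polynomial ℝ) (a c b : ℝ) : ℝ :=
  f.sum fun m r => ∑ k ∈ range (m + 1), r * (m.choose k : ℝ) * (hk k a c * b ^ (m - k))

theorem hk_mul (k : ℕ) (a c : ℝ) : hk k a c * (a - c) = a ^ k - c ^ k := by
  unfold hk
  exact (Commute.all a c).geom_sum₂_mul k

theorem ddf_mul (f : Polynomial ℝ) (a c b : ℝ) :
    ddf f a c b * (a - c) = f.eval (a + b) - f.eval (c + b) := by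
  unfold ddf
  rw [Polynomial.eval_eq_sum, Polynomial.eval_eq_sum, Polynomial.sum_def, Polynomial.sum_def,
    Polynomial.sum_def, ← Finset.sum_sub_distrib, Finset.sum_mul]
  refine Finset.sum_congr rfl fun m _ => ?_
  rw [add_pow, add_pow, Finset.mul_sum, Finset.mul_sum, ← Finset.sum_sub_distrib, Finset.sum_mul]
  refine Finset.sum_congr rfl fun k _ => ?_
  have := hk_mul k a c
  linear_combination (f.coeff m * (m.choose k : ℝ) * b ^ (m - k)) * this

theorem hk_self (k : ℕ) (a : ℝ) : hk k a a = k * a ^ (k - 1) := by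
  unfold hk
  have : ∀ j ∈ range k, a ^ j * a ^ (k - 1 - j) = a ^ (k - 1) := by
    intro j hj
    have hj := Finset.mem_range.1 hj
    rw [← pow_add]
    congr 1
    omega
  rw [Finset.sum_congr rfl this]
  simp

theorem ddf_self (f : Polynomial ℝ) (a b : ℝ) :
    ddf f a a b = (Polynomial.derivative f).eval (b + a) := by
  have h1 : HasDerivAt (fun x => f.eval (x + b)) ((Polynomial.derivative f).eval (a + b)) a := by
    exact (f.hasDerivAt (a + b)).comp_add_const a b
  have h2 : HasDerivAt (fun x => f.eval (x + b)) (ddf f a a b) a := by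
    have e : (fun x : ℝ => f.eval (x + b)) = fun x => ∑ m ∈ f.support,
        ∑ k ∈ range (m + 1), f.coeff m * (m.choose k : ℝ) * (x ^ k * b ^ (m - k)) := by
      funext x
      rw [Polynomial.eval_eq_sum, Polynomial.sum_def]
      refine Finset.sum_congr rfl fun m _ => ?_
      rw [add_pow, Finset.mul_sum]
      refine Finset.sum_congr rfl fun k _ => ?_
      ring
    rw [e]
    unfold ddf
    rw [Polynomial.sum_def]
    refine HasDerivAt.fun_sum fun m _ => HasDerivAt.fun_sum fun k _ => ?_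
    rw [hk_self]
    exact ((hasDerivAt_pow k a).mul_const _).const_mul _
  rw [h2.unique h1, add_comm]

theorem dd_eq (f : Polynomial ℝ) (a c b : ℝ) : dd f a c b = ddf f a c b := by
  by_cases h : a = c
  · subst h
    unfold dd
    rw [ddf_self]
    simp
  · have hac : a - c ≠ 0 := sub_ne_zero.2 h
    have h1 : dd f a c b * (a - c) = f.eval (a + b) - f.eval (c + b) := by
      unfold dd
      rw [← intervalIntegral.integral_mul_const]
      have hd : ∀ t ∈ Set.uIcc (0:ℝ) 1, HasDerivAt (fun t => f.eval (b + c + t * (a - c)))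
          ((Polynomial.derivative f).eval (b + c + t * (a - c)) * (a - c)) t := by
        intro t _
        have h2 : HasDerivAt (fun t : ℝ => b + c + t * (a - c)) (a - c) t := by
          have := ((hasDerivAt_id t).mul_const (a - c)).const_add (b + c)
          simpa using this
        exact (f.hasDerivAt (b + c + t * (a - c))).comp t h2
      rw [intervalIntegral.integral_eq_sub_of_hasDerivAt hd]
      · congr 2 <;> ring
      · refine Continuous.intervalIntegrable ?_ _ _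
        fun_prop
    have h2 := ddf_mul f a c b
    exact mul_right_cancel₀ hac (h1.trans h2.symm)

theorem trace_one (k l : ℕ) :
    trace (Z * (dPow (dg d) Z k * Z * dg d ^ l)) =
      ∑ i, ∑ j, ∑ p, ((hk k (d i) (d p) * d j ^ l : ℝ) : ℂ) * (Z j i * Z i p * Z p j) := by
  have h1 : ∀ i j, (dPow (dg d) Z k * Z * dg d ^ l) i j =
      ∑ p, ((hk k (d i) (d p) : ℝ) : ℂ) * Z i p * Z p j * ((d j : ℝ) : ℂ) ^ l := by
    intro i j
    rw [dg_pow, Matrix.mul_diagonal, Matrix.mul_apply, Finset.sum_mul]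
    refine Finset.sum_congr rfl fun p _ => ?_
    rw [dPow_dg]
  unfold Matrix.trace
  simp only [Matrix.diag_apply, Matrix.mul_apply (M := Z), h1, Finset.mul_sum]
  rw [Finset.sum_comm]
  refine Finset.sum_congr rfl fun i _ => Finset.sum_congr rfl fun j _ =>
    Finset.sum_congr rfl fun p _ => ?_
  push_cast
  ring

theorem trace_two (k l : ℕ) :
    trace (Z * (dg d ^ k * Z * dPow (dg d) Z l)) =
      ∑ i, ∑ j, ∑ p, ((hk l (d i) (d p) * d j ^ k : ℝ) : ℂ) * (Z j i * Z i p * Z p j) := by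
  rw [← trace_one d Z l k]
  have e1 : Z * (dg d ^ k * Z * dPow (dg d) Z l) = (Z * dg d ^ k) * (Z * dPow (dg d) Z l) := by
    simp only [Matrix.mul_assoc]
  have e2 : Z * (dPow (dg d) Z l * Z * dg d ^ k) = (Z * dPow (dg d) Z l) * (Z * dg d ^ k) := by
    simp only [Matrix.mul_assoc]
  rw [e1, e2, Matrix.trace_mul_comm]

theorem sum_reflect' (m : ℕ) (F : ℕ → ℕ → ℂ) :
    ∑ k ∈ range (m + 1), F k (m - k) = ∑ k ∈ range (m + 1), F (m - k) k := by
  rw [← Finset.sum_range_reflect]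
  refine Finset.sum_congr rfl fun k hk => ?_
  have hk := Finset.mem_range.1 hk
  have e1 : m + 1 - 1 - k = m - k := by omega
  have e2 : m - (m - k) = k := by omega
  rw [e1, e2]

theorem trace_ddf (f : Polynomial ℝ) :
    trace (Z * dTf f (dg d) Z Z) =
      2 * ∑ i, ∑ j, ∑ l, ((ddf f (d i) (d l) (d j) : ℝ) : ℂ) * (Z j i * Z i l * Z l j) := by
  -- the basic sum
  set B : ℕ → ℕ → ℂ := fun k l =>
    ∑ i, ∑ j, ∑ p, ((hk k (d i) (d p) * d j ^ l : ℝ) : ℂ) * (Z j i * Z i p * Z p j) with hB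
  have hL : trace (Z * dTf f (dg d) Z Z) = ∑ m ∈ f.support, ∑ k ∈ range (m + 1),
      ((f.coeff m * (m.choose k : ℝ) : ℝ) : ℂ) * (B k (m - k) + B (m - k) k) := by
    unfold dTf
    rw [Polynomial.sum_def, Finset.mul_sum, Matrix.trace_sum]
    refine Finset.sum_congr rfl fun m _ => ?_
    rw [Finset.mul_sum, Matrix.trace_sum]
    refine Finset.sum_congr rfl fun k _ => ?_
    rw [Matrix.mul_smul, Matrix.trace_smul, Matrix.mul_add, Matrix.trace_add, trace_one, trace_two,
      smul_eq_mul]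
  have hR : ∑ i, ∑ j, ∑ l, ((ddf f (d i) (d l) (d j) : ℝ) : ℂ) * (Z j i * Z i l * Z l j)
      = ∑ m ∈ f.support, ∑ k ∈ range (m + 1), ((f.coeff m * (m.choose k : ℝ) : ℝ) : ℂ) *
        B k (m - k) := by
    have e : ∀ i j l, ((ddf f (d i) (d l) (d j) : ℝ) : ℂ) * (Z j i * Z i l * Z l j)
        = ∑ m ∈ f.support, ∑ k ∈ range (m + 1), ((f.coeff m * (m.choose k : ℝ) : ℝ) : ℂ) *
          (((hk k (d i) (d l) * d j ^ (m - k) : ℝ) : ℂ) * (Z j i * Z i l * Z l j)) := by
      intro i j l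
      unfold ddf
      rw [Polynomial.sum_def]
      push_cast
      rw [Finset.sum_mul]
      refine Finset.sum_congr rfl fun m _ => ?_
      rw [Finset.sum_mul]
      refine Finset.sum_congr rfl fun k _ => ?_
      ring
    simp only [e, hB, Finset.mul_sum]
    simp only [Finset.sum_comm (s := (Finset.univ : Finset n)) (t := f.support)]
    refine Finset.sum_congr rfl fun m _ => ?_
    simp only [Finset.sum_comm (s := (Finset.univ : Finset n)) (t := range (m + 1))]
  rw [hL, hR, Finset.mul_sum]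
  refine Finset.sum_congr rfl fun m _ => ?_
  simp only [mul_add]
  rw [Finset.sum_add_distrib, two_mul]
  congr 1
  rw [sum_reflect' m (fun k l => ((f.coeff m * (m.choose k : ℝ) : ℝ) : ℂ) * B l k)]
  refine Finset.sum_congr rfl fun k hk' => ?_
  have hk' := Finset.mem_range.1 hk'
  rw [Nat.choose_symm (by omega : k ≤ m)]

end diag

omit [DecidableEq n] in
theorem trace_three (A B C : Matrix n n ℂ) :
    trace (A * B * C) = ∑ i, ∑ j, ∑ l, A j i * B i l * C l j := by
  have h : trace (A * B * C) = ∑ j, ∑ l, ∑ i, A j i * B i l * C l j := by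
    unfold Matrix.trace
    simp only [Matrix.diag_apply, Matrix.mul_apply, Finset.sum_mul]
  rw [h]
  calc ∑ j, ∑ l, ∑ i, A j i * B i l * C l j = ∑ j, ∑ i, ∑ l, A j i * B i l * C l j :=
        Finset.sum_congr rfl fun j _ => Finset.sum_comm
    _ = _ := Finset.sum_comm

end DiagAux

open DiagAux

theorem diag_tr (f : Polynomial ℝ) (M X : Matrix n n ℂ) (hM : M.PosSemidef)
    (hM1 : (1 - M).PosSemidef) (hX : X.PosSemidef) :
    ∃ (d : n → ℝ) (Z : Matrix n n ℂ), (∀ i, 0 ≤ d i) ∧ (∀ i, d i ≤ 1) ∧ Z.PosSemidef ∧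
      trace (X * X * X) = ∑ i, ∑ j, ∑ l, Z j i * Z i l * Z l j ∧
      trace (X * dTf f M X X) =
        2 * ∑ i, ∑ j, ∑ l, ((dd f (d i) (d l) (d j) : ℝ) : ℂ) * (Z j i * Z i l * Z l j) ∧
      trace (Tf f M X * X * Tf f M X) =
        ∑ i, ∑ j, ∑ l, ((f.eval (d i + d j) * f.eval (d l + d j) : ℝ) : ℂ) *
          (Z j i * Z i l * Z l j) := by
  obtain ⟨U, hU', hU, hMU⟩ := exists_diag M hM.1
  set d := hM.1.eigenvalues with hd
  have hMU' : M = U * dg d * Uᴴ := hMU
  set Z := Uᴴ * X * U with hZ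
  have hXU : X = U * Z * Uᴴ := by
    rw [hZ]
    calc X = (U * Uᴴ) * X * (U * Uᴴ) := by rw [hU', Matrix.one_mul, Matrix.mul_one]
      _ = _ := by simp only [Matrix.mul_assoc]
  have hZpos : Z.PosSemidef := hX.conjTranspose_mul_mul_same U
  refine ⟨d, Z, fun i => hM.eigenvalues_nonneg i, fun i => ?_, hZpos, ?_, ?_, ?_⟩
  · have h1 : (Uᴴ * (1 - M) * U).PosSemidef := hM1.conjTranspose_mul_mul_same U
    have e : Uᴴ * (1 - M) * U = 1 - dg d := by
      rw [Matrix.mul_sub, Matrix.sub_mul, Matrix.mul_one, hU]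
      congr 1
      calc Uᴴ * M * U = Uᴴ * (U * dg d * Uᴴ) * U := by rw [← hMU']
        _ = (Uᴴ * U) * dg d * (Uᴴ * U) := by simp only [Matrix.mul_assoc]
        _ = _ := by rw [hU, Matrix.one_mul, Matrix.mul_one]
    rw [e] at h1
    have h2 := h1.diag_nonneg (i := i)
    simp only [dg, Matrix.sub_apply, Matrix.one_apply_eq, Matrix.diagonal_apply_eq] at h2
    have h3 : ((d i : ℝ) : ℂ) ≤ ((1 : ℝ) : ℂ) := by
      have := sub_nonneg.1 h2
      simpa using this
    exact_mod_cast h3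
  · rw [hXU, conj_mul hU, conj_mul hU, trace_conj hU, trace_three]
  · rw [hMU', hXU, conj_dTf hU hU', conj_mul hU, trace_conj hU, trace_ddf]
    simp only [dd_eq]
  · rw [hMU', hXU, conj_Tf hU hU', conj_mul hU, conj_mul hU, trace_conj hU, trace_three]
    refine Finset.sum_congr rfl fun i _ => Finset.sum_congr rfl fun j _ =>
      Finset.sum_congr rfl fun l _ => ?_
    rw [Tf_dg, Tf_dg, add_comm (d j) (d i)]
    push_cast
    ring

end Vale.Agent.P371
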