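import Vale.Agent.P371.AcCore

/-!
# P371: integration by parts for `H¹` functions on the line
-/

open MeasureTheory Matrix Finset Filter
open scoped ComplexOrder ENNReal Topology

namespace Vale.Agent.P371

namespace Ac

theorem CAC.integral_eq {P Q : ℝ → ℂ} {s t : ℝ} (h : CAC P s t)
    (hQ : IntervalIntegrable Q volume s t)
    (hd : ∀ᵐ x, x ∈ Set.uIcc s t → HasDerivAt P (Q x) x) :
    ∫ x in s..t, Q x = P t - P s := by
  have hre : ∫ x in s..t, (Q x).re = (P t).re - (P s).re := by
    rw [← h.1.integral_deriv_eq_sub]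
    refine intervalIntegral.integral_congr_ae ?_
    filter_upwards [hd] with x hx hxs
    have h1 := hx (Set.uIoc_subset_uIcc hxs)
    have h2 : HasDerivAt (fun x => (P x).re) (Q x).re x := by
      exact Complex.reCLM.hasFDerivAt.comp_hasDerivAt x h1
    exact h2.deriv.symm
  have him : ∫ x in s..t, (Q x).im = (P t).im - (P s).im := by
    rw [← h.2.integral_deriv_eq_sub]
    refine intervalIntegral.integral_congr_ae ?_
    filter_upwards [hd] with x hx hxs
    have h1 := hx (Set.uIoc_subset_uIcc hxs)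
    have h2 : HasDerivAt (fun x => (P x).im) (Q x).im x := by
      exact Complex.imCLM.hasFDerivAt.comp_hasDerivAt x h1
    exact h2.deriv.symm
  apply Complex.ext
  · rw [Complex.sub_re, ← hre]
    exact (Complex.reCLM.intervalIntegral_comp_comm hQ).symm
  · rw [Complex.sub_im, ← him]
    exact (Complex.imCLM.intervalIntegral_comp_comm hQ).symm

/-- an integrable function with a limit at `+∞` tends to zero -/
theorem lim_eq_zero {P : ℝ → ℂ} (hP : Integrable P) {L : ℂ} (h : Tendsto P atTop (𝓝 L)) :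
    L = 0 := by
  by_contra hL
  have hL' : 0 < ‖L‖ := norm_pos_iff.2 hL
  have h1 : ∀ᶠ x in atTop, ‖L‖ / 2 < ‖P x‖ :=
    h.norm.eventually (lt_mem_nhds (by linarith))
  obtain ⟨R, hR⟩ := eventually_atTop.1 h1
  have h2 : IntegrableOn (fun _ : ℝ => ‖L‖ / 2) (Set.Ioi R) := by
    refine Integrable.mono' (hP.norm.integrableOn (s := Set.Ioi R)) (by fun_prop) ?_
    refine (ae_restrict_iff' measurableSet_Ioi).2 (Eventually.of_forall fun x hx => ?_)
    have := hR x (le_of_lt hx)
    rw [Real.norm_of_nonneg (by positivity)]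
    exact this.le
  rw [integrableOn_const_iff] at h2
  rcases h2 with h2 | h2
  · have : ‖L‖ / 2 ≠ 0 := by positivity
    exact this (enorm_eq_zero.1 h2)
  · simp at h2

theorem integral_eq_zero {P Q : ℝ → ℂ} (hP : Integrable P) (hQ : Integrable Q)
    (h : ∀ s t : ℝ, ∫ x in s..t, Q x = P t - P s) : ∫ x, Q x = 0 := by
  have htop : Tendsto P atTop (𝓝 (P 0 + ∫ x in Set.Ioi 0, Q x)) := by
    have h1 := intervalIntegral_tendsto_integral_Ioi (0 : ℝ) (f := Q) hQ.integrableOn tendsto_id
    have h2 := h1.const_add (P 0)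
    refine h2.congr fun x => ?_
    rw [id, h 0 x]
    ring
  have hbot : Tendsto (fun x => P (-x)) atTop (𝓝 (P 0 - ∫ x in Set.Iic 0, Q x)) := by
    have h1 := intervalIntegral_tendsto_integral_Iic (0 : ℝ) (f := Q) hQ.integrableOn
      tendsto_neg_atTop_atBot
    have h2 := h1.const_sub (P 0)
    refine h2.congr fun x => ?_
    rw [h (-x) 0]
    ring
  have e1 := lim_eq_zero hP htop
  have e2 := lim_eq_zero hP.comp_neg hbot
  have e3 : ∫ x, Q x = (∫ x in Set.Iic 0, Q x) + ∫ x in Set.Ioi 0, Q x :=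
    (intervalIntegral.integral_Iic_add_Ioi hQ.integrableOn hQ.integrableOn).symm
  rw [e3]
  linear_combination e1 - e2

variable {m : ℕ}

theorem ip_int' {v w : ℝ → Fin m → ℂ} (hv : ∀ a, MemLp (fun x => v x a) 2 volume)
    (hw : ∀ a, MemLp (fun x => w x a) 2 volume) :
    Integrable fun x => ip (v x) (w x) := by
  unfold ip
  refine integrable_finsetSum _ fun a _ => ?_
  exact MemLp.integrable_mul (p := 2) (q := 2) (hv a).star (hw a)

/-- **integration by parts on the line** -/
theorem parts {v dv w dw : ℝ → Fin m → ℂ} (hv : IsH1 v dv) (hw : IsH1 w dw) :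
    ∫ x, ip (dv x) (w x) = -∫ x, ip (v x) (dw x) := by
  have hP : Integrable fun x => ip (v x) (w x) := ip_int hv hw
  have hQ1 : Integrable fun x => ip (dv x) (w x) :=
    ip_int' (fun a => (hv a).2.1) fun a => (hw a).1
  have hQ2 : Integrable fun x => ip (v x) (dw x) :=
    ip_int' (fun a => (hv a).1) fun a => (hw a).2.1
  have hQ : Integrable fun x => ip (dv x) (w x) + ip (v x) (dw x) := hQ1.add hQ2
  have key : ∀ s t : ℝ, ∫ x in s..t, (ip (dv x) (w x) + ip (v x) (dw x)) =
      ip (v t) (w t) - ip (v s) (w s) := by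
    intro s t
    have hc : CAC (fun x => ip (v x) (w x)) s t := by
      unfold ip
      exact CAC.sum _ fun a _ => (u_ac hv a s t).star.mul (u_ac hw a s t)
    refine hc.integral_eq hQ.intervalIntegrable ?_
    have hdv : ∀ᵐ x, ∀ a, x ∈ Set.uIcc s t → HasDerivAt (fun x => v x a) (dv x a) x := by
      rw [ae_all_iff]; intro a
      exact u_deriv hv a s t
    have hdw : ∀ᵐ x, ∀ a, x ∈ Set.uIcc s t → HasDerivAt (fun x => w x a) (dw x a) x := by
      rw [ae_all_iff]; intro a
      exact u_deriv hw a s t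
    filter_upwards [hdv, hdw] with x h1 h2 hx
    simp only [ip]
    rw [← Finset.sum_add_distrib]
    exact HasDerivAt.fun_sum fun a _ => (h1 a hx).star.mul (h2 a hx)
  have h0 := integral_eq_zero hP hQ key
  rw [integral_add hQ1 hQ2] at h0
  exact eq_neg_of_add_eq_zero_left h0

end Ac

end Vale.Agent.P371
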