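import Vale.Agent.P371.Upper
import Vale.Agent.P371.Parts

/-!
# P371: the form matrix of an orthonormal family of eigenfunctions
-/

open MeasureTheory Matrix Finset
open scoped ComplexOrder ENNReal

namespace Vale.Agent.P371

namespace Eig

variable {m N : ℕ}

theorem ip_eq_dot (v w : Fin m → ℂ) : ip v w = star v ⬝ᵥ w := by
  simp [ip, dotProduct]

theorem ip_mulVec_sq (B : Matrix (Fin m) (Fin m) ℂ) (v w : Fin m → ℂ) :
    ip v ((Bᴴ * B) *ᵥ w) = ip (B *ᵥ v) (B *ᵥ w) := by
  rw [ip_eq_dot, ip_eq_dot, ← Matrix.mulVec_mulVec, Matrix.dotProduct_mulVec, Matrix.star_mulVec]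

theorem norm_ip_le (v w : Fin m → ℂ) : ‖ip v w‖ ≤ ((ip v v).re + (ip w w).re) / 2 := by
  rw [Up.ip_self, Up.ip_self, Complex.ofReal_re, Complex.ofReal_re, ← Finset.sum_add_distrib,
    Finset.sum_div]
  refine (norm_sum_le _ _).trans (Finset.sum_le_sum fun a _ => ?_)
  rw [norm_mul, norm_star]
  nlinarith [sq_nonneg (‖v a‖ - ‖w a‖)]

theorem norm_ip_mulVec_le {A : Matrix (Fin m) (Fin m) ℂ} (hA : A.PosSemidef)
    (v w : Fin m → ℂ) :
    ‖ip v (A *ᵥ w)‖ ≤ ((ip v (A *ᵥ v)).re + (ip w (A *ᵥ w)).re) / 2 := by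
  obtain ⟨B, hB⟩ : ∃ B : Matrix (Fin m) (Fin m) ℂ, A = Bᴴ * B := by
    open scoped MatrixOrder in
    obtain ⟨B, hB⟩ := CStarAlgebra.nonneg_iff_eq_star_mul_self.mp hA.nonneg
    exact ⟨B, hB⟩
  rw [hB, ip_mulVec_sq, ip_mulVec_sq, ip_mulVec_sq]
  exact norm_ip_le _ _

theorem meas_ip {W : ℝ → Matrix (Fin m) (Fin m) ℂ} (hW : ∀ a b, Measurable fun x => W x a b)
    {u v du dv : ℝ → Fin m → ℂ} (hu : IsH1 u du) (hv : IsH1 v dv) :
    Measurable fun x => ip (u x) ((W x).mulVec (v x)) := by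
  unfold ip Matrix.mulVec dotProduct
  refine Finset.measurable_fun_sum _ fun a _ => ?_
  refine ((continuous_star.comp (Ac.u_cont hu a)).measurable).mul ?_
  exact Finset.measurable_fun_sum _ fun b _ => (hW a b).mul (Ac.u_cont hv b).measurable

/-- integrability of the mixed terms -/
theorem int_ip {W : ℝ → Matrix (Fin m) (Fin m) ℂ} {γ : ℝ} (hW : IsPotential γ W)
    {u v du dv : ℝ → Fin m → ℂ} (hu : IsH1 u du) (hv : IsH1 v dv)
    (h1 : Integrable fun x => ip (u x) ((W x).mulVec (u x)))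
    (h2 : Integrable fun x => ip (v x) ((W x).mulVec (v x))) :
    Integrable fun x => ip (u x) ((W x).mulVec (v x)) := by
  refine ((h1.re.add h2.re).div_const 2).mono' (meas_ip hW.measurable hu hv).aestronglyMeasurable
    (Filter.Eventually.of_forall fun x => ?_)
  exact norm_ip_mulVec_le (hW.posSemidef x) _ _

/-- the form matrix -/
theorem form_matrix {γ : ℝ} {W : ℝ → Matrix (Fin m) (Fin m) ℂ} (hW : IsPotential γ W)
    {lam : Fin N → ℝ} {u du : Fin N → ℝ → Fin m → ℂ} (hlam : ∀ j, 0 < lam j)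
    (hE : ∀ j, IsEigen W (-(lam j)) (u j) (du j))
    (hon : ∀ j k, ∫ x, ip (u j x) (u k x) = if j = k then 1 else 0) (j k : Fin N) :
    Integrable (fun x => ip (u j x) ((W x).mulVec (u k x))) ∧
    ((∫ x, ip (u j x) ((W x).mulVec (u k x))) - ∫ x, ip (du j x) (du k x)) =
      if j = k then (lam k : ℂ) else 0 := by
  have hen := fun j => Up.energy (hlam j) (hE j) (by simpa using hon j j)
  refine ⟨int_ip hW (hE j).1 (hE k).1 (hen j).1 (hen k).1, ?_⟩
  have h1 := (hE k).2 (u j) (du j) (hE j).1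
  rw [form, hon j k] at h1
  have h2 : ((-(lam k) : ℝ) : ℂ) * (if j = k then 1 else 0) =
      -(if j = k then (lam k : ℂ) else 0) := by
    split_ifs <;> push_cast <;> ring
  rw [h2] at h1
  linear_combination -h1

/-- `Tr (D² diag λ) = ∫ Tr (W · M D² Mᴴ) - ∫ Tr (D M'ᴴ M' D)`. -/
theorem weighted {γ : ℝ} {W : ℝ → Matrix (Fin m) (Fin m) ℂ} (hW : IsPotential γ W)
    {lam : Fin N → ℝ} {u du : Fin N → ℝ → Fin m → ℂ} (hlam : ∀ j, 0 < lam j)
    (hE : ∀ j, IsEigen W (-(lam j)) (u j) (du j))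
    (hon : ∀ j k, ∫ x, ip (u j x) (u k x) = if j = k then 1 else 0)
    (C : Matrix (Fin N) (Fin N) ℂ) :
    Integrable (fun x => trace (W x * (Ac.mat u x * C * (Ac.mat u x)ᴴ))) ∧
    Integrable (fun x => trace (C * ((Ac.mat du x)ᴴ * Ac.mat du x))) ∧
    trace (C * diagonal fun j => (lam j : ℂ)) =
      (∫ x, trace (W x * (Ac.mat u x * C * (Ac.mat u x)ᴴ))) -
        ∫ x, trace (C * ((Ac.mat du x)ᴴ * Ac.mat du x)) := by
  have hf := form_matrix hW hlam hE hon
  have e1 : ∀ x, trace (W x * (Ac.mat u x * C * (Ac.mat u x)ᴴ)) =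
      ∑ j, ∑ k, C j k * ip (u k x) ((W x).mulVec (u j x)) := by
    intro x
    have : trace (W x * (Ac.mat u x * C * (Ac.mat u x)ᴴ)) =
        trace (C * ((Ac.mat u x)ᴴ * W x * Ac.mat u x)) := by
      calc trace (W x * (Ac.mat u x * C * (Ac.mat u x)ᴴ))
          = trace ((W x * Ac.mat u x * C) * (Ac.mat u x)ᴴ) := by simp only [Matrix.mul_assoc]
        _ = trace ((Ac.mat u x)ᴴ * (W x * Ac.mat u x * C)) := trace_mul_comm _ _
        _ = trace (((Ac.mat u x)ᴴ * W x * Ac.mat u x) * C) := by simp only [Matrix.mul_assoc]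
        _ = _ := trace_mul_comm _ _
    rw [this, trace]
    refine Finset.sum_congr rfl fun j _ => ?_
    rw [diag_apply, Matrix.mul_apply]
    refine Finset.sum_congr rfl fun k _ => ?_
    congr 1
    rw [Matrix.mul_assoc, Matrix.mul_apply]
    simp only [ip, conjTranspose_apply, Ac.mat, Matrix.of_apply, Matrix.mulVec, dotProduct,
      Matrix.mul_apply]
  have e2 : ∀ x, trace (C * ((Ac.mat du x)ᴴ * Ac.mat du x)) =
      ∑ j, ∑ k, C j k * ip (du k x) (du j x) := by
    intro x
    rw [trace]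
    refine Finset.sum_congr rfl fun j _ => ?_
    rw [diag_apply, Matrix.mul_apply]
    refine Finset.sum_congr rfl fun k _ => ?_
    congr 1
  have i2 : ∀ j k, Integrable fun x => ip (du k x) (du j x) := fun j k =>
    Ac.ip_int' (fun a => ((hE k).1 a).2.1) fun a => ((hE j).1 a).2.1
  refine ⟨?_, ?_, ?_⟩
  · simp only [e1]
    exact integrable_finsetSum _ fun j _ => integrable_finsetSum _ fun k _ =>
      (hf k j).1.const_mul _
  · simp only [e2]
    exact integrable_finsetSum _ fun j _ => integrable_finsetSum _ fun k _ =>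
      (i2 j k).const_mul _
  · have f1 : (∫ x, trace (W x * (Ac.mat u x * C * (Ac.mat u x)ᴴ))) =
        ∑ j, ∑ k, C j k * ∫ x, ip (u k x) ((W x).mulVec (u j x)) := by
      rw [integral_congr_ae (Filter.Eventually.of_forall e1),
        integral_finsetSum _ fun j _ => integrable_finsetSum _ fun k _ =>
          (hf k j).1.const_mul (C j k)]
      refine Finset.sum_congr rfl fun j _ => ?_
      rw [integral_finsetSum _ fun k _ => (hf k j).1.const_mul (C j k)]
      exact Finset.sum_congr rfl fun k _ => integral_const_mul _ _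
    have f2 : (∫ x, trace (C * ((Ac.mat du x)ᴴ * Ac.mat du x))) =
        ∑ j, ∑ k, C j k * ∫ x, ip (du k x) (du j x) := by
      rw [integral_congr_ae (Filter.Eventually.of_forall e2),
        integral_finsetSum _ fun j _ => integrable_finsetSum _ fun k _ =>
          (i2 j k).const_mul (C j k)]
      refine Finset.sum_congr rfl fun j _ => ?_
      rw [integral_finsetSum _ fun k _ => (i2 j k).const_mul (C j k)]
      exact Finset.sum_congr rfl fun k _ => integral_const_mul _ _
    rw [f1, f2, ← Finset.sum_sub_distrib, trace]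
    refine Finset.sum_congr rfl fun j _ => ?_
    rw [← Finset.sum_sub_distrib, diag_apply, Matrix.mul_apply]
    refine Finset.sum_congr rfl fun k _ => ?_
    rw [← mul_sub, (hf k j).2, diagonal_apply]
    congr 1
    split_ifs with h
    · rw [h]
    · rfl

end Eig

end Vale.Agent.P371
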