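import Vale.Agent.P371.Grad

/-!
# P371 [ENDS]: the end values of `G_t`
-/

open MeasureTheory Matrix Finset
open scoped ComplexOrder ENNReal Topology

namespace Vale.Agent.P371

namespace EndsAux

theorem cfc_cfc {n : Type*} [Fintype n] [DecidableEq n] {S : Matrix n n ℂ} (hS : S.IsHermitian)
    (f g : ℝ → ℝ) : cfc f (cfc g S) = cfc (fun x => f (g x)) S := by
  have hfin : (spectrum ℝ S).Finite := Matrix.finite_real_spectrum
  have h := cfc_comp f g S (hS : IsSelfAdjoint S)
    ((hfin.image g).continuousOn f) (hfin.continuousOn g)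
  exact h.symm

/-- the scalar identity -/
theorem scalar {s t : ℝ} (hs : 0 ≤ s) (ht : 0 < t) :
    gs s t = 2 * (Cal.eta (Real.sqrt (s ^ 2 + t) + s) - Cal.eta (Real.sqrt (s ^ 2 + t) - s)) -
      2 * s * Real.log t := by
  obtain ⟨a, ha⟩ : ∃ a, a = Real.sqrt (s ^ 2 + t) := ⟨_, rfl⟩
  have ha2 : a ^ 2 = s ^ 2 + t := by rw [ha, Real.sq_sqrt (by positivity)]
  have has : s < a := by
    rw [ha]
    exact Real.lt_sqrt_of_sq_lt (by linarith)
  rw [← ha]
  have h1 : gs s t = ∫ z in (-s)..s, (Real.log (a + z) + Real.log (a - z) - Real.log t) := by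
    rw [gs]
    refine intervalIntegral.integral_congr fun z hz => ?_
    rw [Set.uIcc_of_le (by linarith)] at hz
    have h1 : 0 < a + z := by linarith [hz.1]
    have h2 : 0 < a - z := by linarith [hz.2]
    rw [← Real.log_mul h1.ne' h2.ne', ← Real.log_div (mul_pos h1 h2).ne' ht.ne']
    congr 1
    field_simp
    linarith
  have hi1 : IntervalIntegrable (fun z => Real.log (a + z)) volume (-s) s := by
    refine ContinuousOn.intervalIntegrable ?_
    rw [Set.uIcc_of_le (by linarith)]
    intro z hz
    have h1 : 0 < a + z := by linarith [hz.1]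
    exact ((continuousAt_const.add continuousAt_id).log h1.ne').continuousWithinAt
  have hi2 : IntervalIntegrable (fun z => Real.log (a - z)) volume (-s) s := by
    refine ContinuousOn.intervalIntegrable ?_
    rw [Set.uIcc_of_le (by linarith)]
    intro z hz
    have h1 : 0 < a - z := by linarith [hz.2]
    exact ((continuousAt_const.sub continuousAt_id).log h1.ne').continuousWithinAt
  rw [h1, intervalIntegral.integral_sub (hi1.add hi2) intervalIntegrable_const,
    intervalIntegral.integral_add hi1 hi2, intervalIntegral.integral_const,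
    intervalIntegral.integral_comp_add_left (fun x => Real.log x),
    intervalIntegral.integral_comp_sub_left (fun x => Real.log x), integral_log, integral_log]
  simp only [Cal.eta, smul_eq_mul]
  ring_nf

end EndsAux

open EndsAux

theorem Gt_ends {n : Type*} [Fintype n] [DecidableEq n] {S : Matrix n n ℂ} (hS : S.PosSemidef)
    {t : ℝ} (ht : 0 < t) : Gt S (-S) t - Gt S S t = ∑ i, gs (hS.1.eigenvalues i) t := by
  have hA : At S t = cfc (fun x : ℝ => Real.sqrt (x ^ 2 + t)) S := rfl
  have hp : At S t + S = cfc (fun x : ℝ => Real.sqrt (x ^ 2 + t) + x) S := by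
    rw [← Cal.cfc_add_herm hS.1, Cal.cfc_id_herm hS.1, hA]
  have hm : At S t - S = cfc (fun x : ℝ => Real.sqrt (x ^ 2 + t) - x) S := by
    rw [← Cal.cfc_sub_herm hS.1, Cal.cfc_id_herm hS.1, hA]
  have hpH : (At S t + S).IsHermitian := by rw [hp]; exact cfc_predicate _ _
  have hmH : (At S t - S).IsHermitian := by rw [hm]; exact cfc_predicate _ _
  have h1 : teta (At S t + S) =
      ∑ i, Cal.eta (Real.sqrt (hS.1.eigenvalues i ^ 2 + t) + hS.1.eigenvalues i) := by
    rw [Cal.teta_eq hpH, hp, cfc_cfc hS.1, Cal.trace_cfc hS.1, Complex.ofReal_re]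
  have h2 : teta (At S t - S) =
      ∑ i, Cal.eta (Real.sqrt (hS.1.eigenvalues i ^ 2 + t) - hS.1.eigenvalues i) := by
    rw [Cal.teta_eq hmH, hm, cfc_cfc hS.1, Cal.trace_cfc hS.1, Complex.ofReal_re]
  have h3 : (trace S).re = ∑ i, hS.1.eigenvalues i := by
    have := Cal.trace_cfc hS.1 (fun x => x)
    rw [Cal.cfc_id_herm hS.1] at this
    rw [this, Complex.ofReal_re]
  have h4 : ∑ i, gs (hS.1.eigenvalues i) t =
      2 * (teta (At S t + S) - teta (At S t - S)) - 2 * Real.log t * (trace S).re := by
    rw [h1, h2, h3, ← Finset.sum_sub_distrib, Finset.mul_sum, Finset.mul_sum,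
      ← Finset.sum_sub_distrib]
    refine Finset.sum_congr rfl fun i _ => ?_
    rw [scalar (hS.eigenvalues_nonneg i) ht]
    ring
  rw [h4, Gt, Gt]
  simp only [sub_neg_eq_add, ← sub_eq_add_neg, trace_neg, Complex.neg_re]
  ring

end Vale.Agent.P371
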