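import Vale.Agent.P371.Ac

/-!
# P371 [KIN]: passage to the whole line
-/

open MeasureTheory Matrix Finset Filter Topology
open scoped ComplexOrder ENNReal

namespace Vale.Agent.P371

namespace Kin

variable {m N : ℕ}

/-! ### Elementary bounds -/

theorem pow_entry {N : ℕ} (A : ℝ) (hA : 0 ≤ A) (M : Matrix (Fin N) (Fin N) ℂ)
    (hM : ∀ i j, ‖M i j‖ ≤ A) (k : ℕ) : ∀ i j, ‖(M ^ k) i j‖ ≤ (N * A) ^ k := by
  induction k with
  | zero =>
    intro i j
    rw [pow_zero, pow_zero, Matrix.one_apply]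
    split_ifs <;> simp
  | succ k ih =>
    intro i j
    rw [pow_succ, Matrix.mul_apply]
    refine (norm_sum_le _ _).trans ?_
    have h1 : ∀ l ∈ (Finset.univ : Finset (Fin N)), ‖(M ^ k) i l * M l j‖ ≤ (N * A) ^ k * A := by
      intro l _
      rw [norm_mul]
      exact mul_le_mul (ih i l) (hM l j) (norm_nonneg _) (by positivity)
    refine (Finset.sum_le_sum h1).trans ?_
    rw [Finset.sum_const, Finset.card_univ, Fintype.card_fin, nsmul_eq_mul, pow_succ]
    apply le_of_eq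
    ring

theorem mul_entry {N : ℕ} (a b : ℝ) (ha : 0 ≤ a) (A B : Matrix (Fin N) (Fin N) ℂ)
    (hA : ∀ i j, ‖A i j‖ ≤ a) (hB : ∀ i j, ‖B i j‖ ≤ b) :
    ∀ i j, ‖(A * B) i j‖ ≤ N * (a * b) := by
  intro i j
  rw [Matrix.mul_apply]
  refine (norm_sum_le _ _).trans ?_
  have h1 : ∀ l ∈ (Finset.univ : Finset (Fin N)), ‖A i l * B l j‖ ≤ a * b := by
    intro l _
    rw [norm_mul]
    exact mul_le_mul (hA i l) (hB l j) (norm_nonneg _) ha
  refine (Finset.sum_le_sum h1).trans ?_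
  rw [Finset.sum_const, Finset.card_univ, Fintype.card_fin, nsmul_eq_mul]

theorem trace_bound {N : ℕ} (b : ℝ) (A : Matrix (Fin N) (Fin N) ℂ)
    (hA : ∀ i j, ‖A i j‖ ≤ b) : ‖trace A‖ ≤ N * b := by
  rw [trace]
  refine (norm_sum_le _ _).trans ?_
  have h1 : ∀ l ∈ (Finset.univ : Finset (Fin N)), ‖A.diag l‖ ≤ b := fun l _ => hA l l
  refine (Finset.sum_le_sum h1).trans ?_
  rw [Finset.sum_const, Finset.card_univ, Fintype.card_fin, nsmul_eq_mul]

theorem Tf_entry {N : ℕ} (f : Polynomial ℝ) (A : ℝ) (hA : 0 ≤ A) :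
    ∃ K : ℝ, 0 ≤ K ∧ ∀ (M X : Matrix (Fin N) (Fin N) ℂ) (b : ℝ), 0 ≤ b →
      (∀ i j, ‖M i j‖ ≤ A) → (∀ i j, ‖X i j‖ ≤ b) → ∀ i j, ‖Tf f M X i j‖ ≤ K * b := by
  refine ⟨f.sum fun d c => ∑ k ∈ range (d + 1),
    |c * (d.choose k : ℝ)| * (N * (N * ((N * A) ^ k) * (N * A) ^ (d - k))), ?_, ?_⟩
  · rw [Polynomial.sum]
    exact Finset.sum_nonneg fun d _ => Finset.sum_nonneg fun k _ => by positivity
  · intro M X b hb hM hX i j
    rw [Tf, Polynomial.sum, Polynomial.sum, Matrix.sum_apply, Finset.sum_mul]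
    refine (norm_sum_le _ _).trans ?_
    refine Finset.sum_le_sum fun d _ => ?_
    rw [Matrix.sum_apply, Finset.sum_mul]
    refine (norm_sum_le _ _).trans ?_
    refine Finset.sum_le_sum fun k _ => ?_
    rw [Matrix.smul_apply, smul_eq_mul, norm_mul, Complex.norm_real, Real.norm_eq_abs]
    have h1 := mul_entry ((N * A) ^ k) b (by positivity) (M ^ k) X (pow_entry A hA M hM k) hX
    have h2 := mul_entry (N * ((N * A) ^ k * b)) ((N * A) ^ (d - k)) (by positivity)
      (M ^ k * X) (M ^ (d - k)) h1 (pow_entry A hA M hM (d - k)) i j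
    refine (mul_le_mul_of_nonneg_left h2 (abs_nonneg (f.coeff d * (d.choose k : ℝ)))).trans
      (le_of_eq ?_)
    ring

theorem V_bound {N : ℕ} (f : Polynomial ℝ) (A : ℝ) (hA : 0 ≤ A) :
    ∃ K : ℝ, 0 ≤ K ∧ ∀ (M X : Matrix (Fin N) (Fin N) ℂ) (b : ℝ), 0 ≤ b →
      (∀ i j, ‖M i j‖ ≤ A) → (∀ i j, ‖X i j‖ ≤ b) →
      |(trace (X * Tf f M X)).re| ≤ K * b ^ 2 := by
  obtain ⟨K, hK, h⟩ := Tf_entry (N := N) f A hA
  refine ⟨N * (N * K), by positivity, fun M X b hb hM hX => ?_⟩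
  refine (Complex.abs_re_le_norm _).trans ?_
  have h1 := mul_entry b (K * b) hb X (Tf f M X) hX (h M X b hb hM hX)
  refine (trace_bound _ _ h1).trans (le_of_eq ?_)
  ring

/-! ### The scalar density -/

/-- `P(x) = ∑_j |u_j(x)|²` -/
noncomputable def P (u : Fin N → ℝ → Fin m → ℂ) (x : ℝ) : ℝ := ∑ j, ∑ a, ‖u j x a‖ ^ 2

theorem P_nonneg (u : Fin N → ℝ → Fin m → ℂ) (x : ℝ) : 0 ≤ P u x :=
  Finset.sum_nonneg fun _ _ => Finset.sum_nonneg fun _ _ => by positivity

theorem P_int {u du : Fin N → ℝ → Fin m → ℂ} (hu : ∀ j, IsH1 (u j) (du j)) :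
    Integrable (P u) :=
  integrable_finsetSum _ fun j _ => integrable_finsetSum _ fun a _ =>
    (hu j a).1.integrable_norm_pow (by norm_num)

theorem P_cont {u du : Fin N → ℝ → Fin m → ℂ} (hu : ∀ j, IsH1 (u j) (du j)) :
    Continuous (P u) :=
  continuous_finsetSum _ fun j _ => continuous_finsetSum _ fun a _ =>
    ((Ac.u_cont (hu j) a).norm.pow 2)

theorem gram_le (u : Fin N → ℝ → Fin m → ℂ) (x : ℝ) (j k : Fin N) :
    ‖gram u x j k‖ ≤ P u x := by
  rw [gram, Matrix.of_apply, ip]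
  refine (norm_sum_le _ _).trans ?_
  have h0 : ∀ l : Fin N, ∑ a, ‖u l x a‖ ^ 2 ≤ P u x := by
    intro l
    exact Finset.single_le_sum (f := fun l => ∑ a, ‖u l x a‖ ^ 2)
      (fun i _ => Finset.sum_nonneg fun _ _ => by positivity) (Finset.mem_univ l)
  have h1 : ∀ a ∈ (Finset.univ : Finset (Fin m)), ‖star (u j x a) * u k x a‖ ≤
      (1 / 2) * ‖u j x a‖ ^ 2 + (1 / 2) * ‖u k x a‖ ^ 2 := by
    intro a _
    rw [norm_mul, norm_star]
    nlinarith [sq_nonneg (‖u j x a‖ - ‖u k x a‖)]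
  refine (Finset.sum_le_sum h1).trans ?_
  rw [Finset.sum_add_distrib, ← Finset.mul_sum, ← Finset.mul_sum]
  have := h0 j
  have := h0 k
  linarith

theorem gram_trace_le (u : Fin N → ℝ → Fin m → ℂ) (x : ℝ) :
    ‖(trace (gram u x * gram u x * gram u x)).re‖ ≤ N ^ 3 * P u x ^ 3 := by
  rw [Real.norm_eq_abs]
  refine (Complex.abs_re_le_norm _).trans ?_
  have h1 := mul_entry (P u x) (P u x) (P_nonneg u x) (gram u x) (gram u x) (gram_le u x)
    (gram_le u x)
  have h2 := mul_entry (N * (P u x * P u x)) (P u x)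
    (by have := P_nonneg u x; positivity) (gram u x * gram u x) (gram u x) h1 (gram_le u x)
  refine (trace_bound _ _ h2).trans (le_of_eq ?_)
  ring

theorem cum_le {u du : Fin N → ℝ → Fin m → ℂ} (hu : ∀ j, IsH1 (u j) (du j)) (x : ℝ)
    (j k : Fin N) : ‖cum u x j k‖ ≤ ∫ t, P u t := by
  rw [cum, Matrix.of_apply]
  refine (norm_integral_le_integral_norm _).trans ?_
  refine (setIntegral_mono ((Ac.ip_int (hu j) (hu k)).norm.integrableOn)
    (P_int hu).integrableOn fun t => ?_).trans ?_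
  · have := gram_le u t j k
    rwa [gram, Matrix.of_apply] at this
  · exact setIntegral_le_integral (P_int hu) (Filter.Eventually.of_forall (P_nonneg u))

/-! ### Sequences going to infinity -/

theorem exists_small (p : ℝ → ℝ) (hp : ∀ x, 0 ≤ p x) (hi : Integrable p) (T ε : ℝ) (hε : 0 < ε) :
    ∃ t, T ≤ t ∧ p t ≤ ε := by
  by_contra hcon
  push Not at hcon
  obtain ⟨n, hn⟩ := exists_nat_gt ((∫ x, p x) / ε)
  have h1 : ∫ x in T..(T + n), (ε : ℝ) ≤ ∫ x in T..(T + n), p x := by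
    refine intervalIntegral.integral_mono_on (by simp) ?_ hi.intervalIntegrable ?_
    · exact intervalIntegrable_const
    · intro x hx
      exact (hcon x hx.1).le
  rw [intervalIntegral.integral_const, smul_eq_mul, add_sub_cancel_left] at h1
  have h2 : ∫ x in T..(T + n), p x ≤ ∫ x, p x := by
    rw [intervalIntegral.integral_of_le (by simp)]
    exact setIntegral_le_integral hi (Filter.Eventually.of_forall hp)
  rw [div_lt_iff₀ hε] at hn
  linarith

theorem exists_seq (p : ℝ → ℝ) (hp : ∀ x, 0 ≤ p x) (hi : Integrable p) :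
    ∃ t : ℕ → ℝ, (∀ n, 0 ≤ t n) ∧ Tendsto t atTop atTop ∧ Tendsto (fun n => p (t n)) atTop (𝓝 0) := by
  choose t ht1 ht2 using fun n : ℕ => exists_small p hp hi n (1 / ((n : ℝ) + 1)) (by positivity)
  refine ⟨t, fun n => le_trans (Nat.cast_nonneg n) (ht1 n),
    tendsto_atTop_mono ht1 tendsto_natCast_atTop_atTop, ?_⟩
  exact squeeze_zero (fun n => hp _) ht2 tendsto_one_div_add_atTop_nhds_zero_nat

/-! ### Boundedness of `H¹` functions -/

theorem bounded {u du : ℝ → Fin m → ℂ} (h : IsH1 u du) (a : Fin m) :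
    ∃ B : ℝ, ∀ x, ‖u x a‖ ≤ B := by
  have hui : Integrable fun x => ‖u x a‖ ^ 2 := (h a).1.integrable_norm_pow (by norm_num)
  have hdi : Integrable fun x => ‖du x a‖ ^ 2 := Ac.du_sq_int h a
  refine ⟨Real.sqrt (∫ x, ‖u x a‖ ^ 2) + (1 + ∫ x, ‖du x a‖ ^ 2) / 2, fun x => ?_⟩
  -- a good point
  have h1 : ∃ s, x ≤ s ∧ s ≤ x + 1 ∧ ‖u s a‖ ^ 2 ≤ ∫ x, ‖u x a‖ ^ 2 := by
    by_contra hcon
    push Not at hcon
    have hc : Continuous fun x => ‖u x a‖ ^ 2 := (Ac.u_cont h a).norm.pow 2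
    have h3 : ∫ y in x..(x + 1), (∫ x, ‖u x a‖ ^ 2) < ∫ y in x..(x + 1), ‖u y a‖ ^ 2 := by
      refine intervalIntegral.integral_lt_integral_of_continuousOn_of_le_of_exists_lt (by linarith)
        continuousOn_const hc.continuousOn (fun y hy => (hcon y hy.1.le hy.2).le)
        ⟨x, ⟨le_refl _, by linarith⟩, hcon x (le_refl _) (by linarith)⟩
    have h4 : ∫ y in x..(x + 1), ‖u y a‖ ^ 2 ≤ ∫ x, ‖u x a‖ ^ 2 := by
      rw [intervalIntegral.integral_of_le (by linarith)]
      exact setIntegral_le_integral hui (Filter.Eventually.of_forall fun _ => by positivity)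
    rw [intervalIntegral.integral_const, smul_eq_mul] at h3
    linarith
  obtain ⟨s, hs1, hs2, hs3⟩ := h1
  have h2 : ‖u s a‖ ≤ Real.sqrt (∫ x, ‖u x a‖ ^ 2) := Real.le_sqrt_of_sq_le hs3
  have h3 : ‖u s a - u x a‖ ≤ (1 + ∫ x, ‖du x a‖ ^ 2) / 2 := by
    rw [(h a).2.2 x s]
    refine (intervalIntegral.norm_integral_le_integral_norm hs1).trans ?_
    have h4 : ∫ y in x..s, ‖du y a‖ ≤ ∫ y in x..s, (1 / 2 * 1 + 1 / 2 * ‖du y a‖ ^ 2) := by
      refine intervalIntegral.integral_mono_on hs1 (Ac.du_int h a x s).norm ?_ ?_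
      · exact intervalIntegrable_const.add ((hdi.const_mul _).intervalIntegrable)
      · intro y _
        nlinarith [sq_nonneg (‖du y a‖ - 1)]
    refine h4.trans ?_
    rw [intervalIntegral.integral_add intervalIntegrable_const
      ((hdi.const_mul _).intervalIntegrable), intervalIntegral.integral_const,
      intervalIntegral.integral_const_mul, smul_eq_mul]
    have h5 : ∫ y in x..s, ‖du y a‖ ^ 2 ≤ ∫ x, ‖du x a‖ ^ 2 := by
      rw [intervalIntegral.integral_of_le hs1]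
      exact setIntegral_le_integral hdi (Filter.Eventually.of_forall fun _ => by positivity)
    linarith
  have h6 : ‖u x a‖ ≤ ‖u s a‖ + ‖u s a - u x a‖ := by
    have := norm_sub_le (u s a) (u s a - u x a)
    simpa using this
  linarith

theorem P_bounded {u du : Fin N → ℝ → Fin m → ℂ} (hu : ∀ j, IsH1 (u j) (du j)) :
    ∃ B : ℝ, 0 ≤ B ∧ ∀ x, P u x ≤ B := by
  choose B hB using fun (j : Fin N) (a : Fin m) => bounded (hu j) a
  refine ⟨∑ j, ∑ a, B j a ^ 2, Finset.sum_nonneg fun _ _ => Finset.sum_nonneg fun _ _ => by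
    positivity, fun x => ?_⟩
  exact Finset.sum_le_sum fun j _ => Finset.sum_le_sum fun a _ =>
    pow_le_pow_left₀ (norm_nonneg _) (hB j a x) 2

theorem gram_trace_int {u du : Fin N → ℝ → Fin m → ℂ} (hu : ∀ j, IsH1 (u j) (du j)) :
    Integrable (fun x => (trace (gram u x * gram u x * gram u x)).re) := by
  obtain ⟨B, hB0, hB⟩ := P_bounded hu
  have hc : Continuous (fun x => (trace (gram u x * gram u x * gram u x)).re) := by
    have hg : Continuous (gram u) := by
      refine continuous_matrix fun j k => ?_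
      exact Ac.ip_cont (hu j) (hu k)
    exact Complex.continuous_re.comp (((hg.mul hg).mul hg).matrix_trace)
  refine Integrable.mono' ((P_int hu).const_mul (N ^ 3 * B ^ 2)) hc.aestronglyMeasurable
    (Filter.Eventually.of_forall fun x => (gram_trace_le u x).trans ?_)
  have h0 := P_nonneg u x
  have h1 := hB x
  have h2 : P u x ^ 2 ≤ B ^ 2 := pow_le_pow_left₀ h0 h1 2
  have h3 : P u x ^ 3 ≤ B ^ 2 * P u x := by
    calc P u x ^ 3 = P u x ^ 2 * P u x := by ring
      _ ≤ B ^ 2 * P u x := mul_le_mul_of_nonneg_right h2 h0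
  calc (N : ℝ) ^ 3 * P u x ^ 3 ≤ (N : ℝ) ^ 3 * (B ^ 2 * P u x) :=
        mul_le_mul_of_nonneg_left h3 (by positivity)
    _ = _ := by ring

end Kin

open Kin in
/-- the kinetic inequality, given the pointwise inequality -/
theorem kinetic_of
    (hp : ∀ (N : ℕ) (c : ℝ), c < Real.pi ^ 2 / 4 →
      ∃ f : Polynomial ℝ, ∀ (M X : Matrix (Fin N) (Fin N) ℂ), M.PosSemidef → (1 - M).PosSemidef →
      X.PosSemidef →
      (1 / 2) * (trace (X * dTf f M X X)).re + (trace (Tf f M X * X * Tf f M X)).re +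
        c * (trace (X * X * X)).re ≤ 0)
    {m N : ℕ} (u du : Fin N → ℝ → Fin m → ℂ) (hu : ∀ j, IsH1 (u j) (du j))
    (hon : ∀ j k, ∫ x, ip (u j x) (u k x) = if j = k then 1 else 0) :
    Integrable (fun x => (trace (gram u x * gram u x * gram u x)).re) ∧
    Integrable (fun x => ∑ j, ∑ a, ‖du j x a‖ ^ 2) ∧
    Real.pi ^ 2 / 4 * (∫ x, (trace (gram u x * gram u x * gram u x)).re) ≤
      ∫ x, ∑ j, ∑ a, ‖du j x a‖ ^ 2 := by
  refine ⟨gram_trace_int hu, Ac.kin_int hu, ?_⟩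
  set I := ∫ x, (trace (gram u x * gram u x * gram u x)).re with hI
  set J := ∫ x, ∑ j, ∑ a, ‖du j x a‖ ^ 2 with hJ
  -- for each c
  have key : ∀ c, c < Real.pi ^ 2 / 4 → c * I ≤ J := by
    intro c hc
    obtain ⟨f, hf⟩ := hp N c hc
    obtain ⟨K, hK0, hK⟩ := V_bound (N := N) f (∫ t, P u t) (integral_nonneg (P_nonneg u))
    obtain ⟨t, ht0, ht1, ht2⟩ := exists_seq (P u) (P_nonneg u) (P_int hu)
    obtain ⟨s, hs0, hs1, hs2⟩ := exists_seq (fun x => P u (-x)) (fun x => P_nonneg u _)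
      (P_int hu).comp_neg
    have hV : ∀ x, |(trace (gram u x * Tf f (cum u x) (gram u x))).re| ≤ K * P u x ^ 2 :=
      fun x => hK _ _ _ (P_nonneg u x) (cum_le hu x) (gram_le u x)
    have hstep : ∀ n : ℕ, c * (∫ x in (-(s n))..(t n), (trace (gram u x * gram u x * gram u x)).re)
        - (1 / 2) * (K * P u (t n) ^ 2) - (1 / 2) * (K * P u (-(s n)) ^ 2) ≤ J := by
      intro n
      have hst : -(s n) ≤ t n := by have := ht0 n; have := hs0 n; linarith
      have h1 := step f c hf u du hu hon (-(s n)) (t n) hst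
      have h2 := abs_le.1 (hV (t n))
      have h3 := abs_le.1 (hV (-(s n)))
      have h4 : ∫ x in (-(s n))..(t n), ∑ j, ∑ a, ‖du j x a‖ ^ 2 ≤ J := by
        rw [intervalIntegral.integral_of_le hst]
        exact setIntegral_le_integral (Ac.kin_int hu) (Filter.Eventually.of_forall fun _ =>
          Finset.sum_nonneg fun _ _ => Finset.sum_nonneg fun _ _ => by positivity)
      linarith [h2.1, h3.2]
    have hlim : Tendsto (fun n : ℕ =>
        c * (∫ x in (-(s n))..(t n), (trace (gram u x * gram u x * gram u x)).re)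
        - (1 / 2) * (K * P u (t n) ^ 2) - (1 / 2) * (K * P u (-(s n)) ^ 2)) atTop
        (𝓝 (c * I - (1 / 2) * (K * 0 ^ 2) - (1 / 2) * (K * 0 ^ 2))) := by
      refine Tendsto.sub (Tendsto.sub ?_ ?_) ?_
      · refine Tendsto.const_mul _ ?_
        exact intervalIntegral_tendsto_integral (gram_trace_int hu)
          (tendsto_neg_atTop_atBot.comp hs1) ht1
      · exact (((ht2.pow 2).const_mul _).const_mul _)
      · exact (((hs2.pow 2).const_mul _).const_mul _)
    have := le_of_tendsto' hlim hstep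
    simpa using this
  have hlim2 : Tendsto (fun n : ℕ => (Real.pi ^ 2 / 4 - 1 / ((n : ℝ) + 1)) * I) atTop
      (𝓝 ((Real.pi ^ 2 / 4 - 0) * I)) :=
    (tendsto_const_nhds.sub tendsto_one_div_add_atTop_nhds_zero_nat).mul_const _
  rw [sub_zero] at hlim2
  refine le_of_tendsto' hlim2 fun n => key _ ?_
  have : 0 < 1 / ((n : ℝ) + 1) := by positivity
  linarith

end Vale.Agent.P371
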