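import Vale.Agent.P371.Pow
import Vale.Agent.P371.KinCore

/-!
# P371 [FIELD]: the potential `s V^{1/r}` satisfies the hypotheses of `vertex`
-/

open MeasureTheory Matrix Finset
open scoped ComplexOrder ENNReal Topology

namespace Vale.Agent.P371

namespace FieldAux

open PowAux

/-- `Tr D G D ≤ Tr D² Tr G` -/
theorem trace_DGD {N : ℕ} {D G : Matrix (Fin N) (Fin N) ℂ} (hD : D.IsHermitian)
    (hG : G.PosSemidef) : (trace (D * G * D)).re ≤ (trace (D * D)).re * (trace G).re := by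
  obtain ⟨p, hp0, hp1, -, hp⟩ := GGT.trace_cfc_mul_cfc hD hG.1
  have e1 : D * D = cfc (fun x : ℝ => x * x) D := by
    conv_lhs => rw [← cfc_id_eq hD]
    rw [cfc_mul_cfc hD]
  have e2 : trace (D * G * D) = trace (D * D * G) := by
    rw [Matrix.mul_assoc, trace_mul_comm, Matrix.mul_assoc, trace_mul_comm]
  have e3 := hp (fun x => x * x) (fun x => x)
  rw [cfc_id_eq hG.1, ← e1] at e3
  rw [e2, e3, trace_eq hG.1]
  have e4 : (trace (D * D)).re = ∑ i, hD.eigenvalues i * hD.eigenvalues i := by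
    rw [e1, trace_cfc hD]
  rw [e4, Finset.sum_mul_sum]
  refine Finset.sum_le_sum (fun i _ => Finset.sum_le_sum (fun j _ => ?_))
  have h1 : p i j ≤ 1 := by
    rw [← hp1 i]
    exact Finset.single_le_sum (fun k _ => hp0 i k) (Finset.mem_univ j)
  have h2 : 0 ≤ hD.eigenvalues i * hD.eigenvalues i * hG.1.eigenvalues j :=
    mul_nonneg (mul_self_nonneg _) (hG.eigenvalues_nonneg j)
  nlinarith

theorem trace_gram {m N : ℕ} (u : Fin N → ℝ → Fin m → ℂ) (x : ℝ) :
    (trace (gram u x)).re = Kin.P u x := by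
  unfold Kin.P
  rw [trace, Complex.re_sum]
  refine Finset.sum_congr rfl (fun j _ => ?_)
  rw [diag_apply, gram, Matrix.of_apply, ip, Complex.re_sum]
  refine Finset.sum_congr rfl (fun a _ => ?_)
  rw [Complex.star_def, mul_comm, Complex.mul_conj, Complex.normSq_eq_norm_sq, Complex.ofReal_re]

theorem Vx_psd {m N : ℕ} {D : Matrix (Fin N) (Fin N) ℂ} (hD : D.IsHermitian)
    (u : Fin N → ℝ → Fin m → ℂ) (x : ℝ) : (Vx D u x).PosSemidef := by
  unfold Vx
  have h := (Ac.gram_psd u x).mul_mul_conjTranspose_same D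
  rwa [hD.eq] at h

theorem trace_nonneg_psd {N : ℕ} {V : Matrix (Fin N) (Fin N) ℂ} (hV : V.PosSemidef) :
    0 ≤ (trace V).re := by
  rw [trace_eq hV.1]
  exact Finset.sum_nonneg (fun i _ => hV.eigenvalues_nonneg i)

theorem trace_mpow {N : ℕ} {V : Matrix (Fin N) (Fin N) ℂ} (hV : V.PosSemidef) (q : ℝ) :
    (trace (mpow V q)).re = trPow V q := by
  unfold mpow trPow
  rw [trace_cfc hV.1, dif_pos hV.1]

theorem sR_nonneg {r : ℝ} (hr0 : 0 < r) : 0 ≤ sR r := by
  unfold sR Lr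
  have h1 : 0 ≤ betaR r := by
    unfold betaR
    apply intervalIntegral.integral_nonneg (by norm_num)
    intro z hz
    apply Real.rpow_nonneg
    have h2 : z ^ 2 ≤ 1 := by
      rw [sq_le_one_iff_abs_le_one]
      exact abs_le.2 hz
    linarith
  have h2 : 0 ≤ kap r := by
    unfold kap
    positivity
  exact Real.rpow_nonneg (by positivity) _

theorem gram_cont {m N : ℕ} {u du : Fin N → ℝ → Fin m → ℂ} (hu : ∀ j, IsH1 (u j) (du j)) :
    Continuous (gram u) :=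
  continuous_matrix fun j k => Ac.ip_cont (hu j) (hu k)

theorem psd_smul {N : ℕ} {V : Matrix (Fin N) (Fin N) ℂ} (hV : V.PosSemidef) {s : ℝ}
    (hs : 0 ≤ s) : (((s : ℝ) : ℂ) • V).PosSemidef := by
  apply hV.smul
  exact_mod_cast hs

theorem trace_bound {m N : ℕ} {r : ℝ} (hr0 : 0 < r) (hr1 : r < 1)
    {D : Matrix (Fin N) (Fin N) ℂ} (hD : D.IsHermitian) {c : ℝ} (hc : (trace (D * D)).re ≤ c)
    (u : Fin N → ℝ → Fin m → ℂ) {B : ℝ} (hB : ∀ x, Kin.P u x ≤ B) (x : ℝ) :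
    (trace (((sR r : ℝ) : ℂ) • mpow (Vx D u x) (1 / r))).re ≤ sR r * (c * B) ^ (1 / r) := by
  rw [trace_smul, smul_eq_mul, Complex.re_ofReal_mul, trace_mpow (Vx_psd hD u x)]
  apply mul_le_mul_of_nonneg_left _ (sR_nonneg hr0)
  have hq : 1 ≤ 1 / r := by
    rw [le_div_iff₀ hr0]
    linarith
  refine (trPow_le (Vx_psd hD u x) hq).trans ?_
  apply Real.rpow_le_rpow (trace_nonneg_psd (Vx_psd hD u x)) _ (by positivity)
  unfold Vx
  refine (trace_DGD hD (Ac.gram_psd u x)).trans ?_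
  rw [trace_gram]
  have h1 : 0 ≤ (trace (D * D)).re := by
    have h2 : (D * D).PosSemidef := by
      have := posSemidef_self_mul_conjTranspose D
      rwa [hD.eq] at this
    exact trace_nonneg_psd h2
  exact mul_le_mul hc (hB x) (Kin.P_nonneg u x) (h1.trans hc)

theorem Dw_herm {N : ℕ} (γ δ : ℝ) (S : Matrix (Fin N) (Fin N) ℂ) : (Dw γ δ S).IsHermitian :=
  cfc_isHermitian _ S

theorem Dw_cont {N : ℕ} (γ : ℝ) {δ : ℝ} (hδ : 0 < δ) :
    ContinuousOn (fun S : Matrix (Fin N) (Fin N) ℂ => Dw γ δ S) {S | S.IsHermitian} := by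
  unfold Dw
  apply cfc_continuousOn
  apply Real.continuous_sqrt.comp
  apply continuous_const.mul
  apply Continuous.rpow_const (by fun_prop)
  intro x
  left
  positivity

theorem Dw_trace {N : ℕ} {γ δ : ℝ} (hγ0 : 0 < γ) (hγ : γ ≤ 1) (hδ : 0 < δ)
    {S : Matrix (Fin N) (Fin N) ℂ} (hS : S.IsHermitian) :
    (trace (Dw γ δ S * Dw γ δ S)).re ≤ N * (γ * δ ^ (γ - 1)) := by
  unfold Dw
  rw [cfc_mul_cfc hS, trace_cfc hS]
  have h1 : ∀ i ∈ (Finset.univ : Finset (Fin N)),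
      Real.sqrt (γ * (hS.eigenvalues i ^ 2 + δ) ^ (γ - 1)) *
        Real.sqrt (γ * (hS.eigenvalues i ^ 2 + δ) ^ (γ - 1)) ≤ γ * δ ^ (γ - 1) := by
    intro i _
    rw [Real.mul_self_sqrt (by positivity)]
    apply mul_le_mul_of_nonneg_left _ hγ0.le
    apply Real.rpow_le_rpow_of_nonpos hδ
    · nlinarith [sq_nonneg (hS.eigenvalues i)]
    · linarith
  refine (Finset.sum_le_sum h1).trans ?_
  simp

end FieldAux

open FieldAux PowAux

/-- weight depending on `S` (`γ < 1`) -/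
theorem field_le {m N : ℕ} {γ δ r : ℝ} (hγ0 : 0 < γ) (hγ : γ ≤ 1) (hδ : 0 < δ) (hr0 : 0 < r)
    (hr1 : r < 1) (u du : Fin N → ℝ → Fin m → ℂ) (hu : ∀ j, IsH1 (u j) (du j)) :
    ∃ B : ℝ,
    ContinuousOn (fun p : ℝ × Matrix (Fin N) (Fin N) ℂ =>
      ((sR r : ℝ) : ℂ) • mpow (Vx (Dw γ δ p.2) u p.1) (1 / r)) {p | p.2.PosSemidef} ∧
    (∀ (x : ℝ) (S : Matrix (Fin N) (Fin N) ℂ), S.PosSemidef →
      (((sR r : ℝ) : ℂ) • mpow (Vx (Dw γ δ S) u x) (1 / r)).PosSemidef) ∧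
    (∀ (x : ℝ) (S : Matrix (Fin N) (Fin N) ℂ), S.PosSemidef →
      (trace (((sR r : ℝ) : ℂ) • mpow (Vx (Dw γ δ S) u x) (1 / r))).re ≤ B) := by
  obtain ⟨B, hB0, hB⟩ := Kin.P_bounded hu
  refine ⟨sR r * ((N * (γ * δ ^ (γ - 1))) * B) ^ (1 / r), ?_, ?_, ?_⟩
  · have h1 : ContinuousOn (fun p : ℝ × Matrix (Fin N) (Fin N) ℂ => Dw γ δ p.2)
        {p | p.2.PosSemidef} :=
      (Dw_cont γ hδ).comp continuousOn_snd (fun p hp => hp.1)
    have h2 : ContinuousOn (fun p : ℝ × Matrix (Fin N) (Fin N) ℂ => gram u p.1)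
        {p | p.2.PosSemidef} := ((gram_cont hu).comp continuous_fst).continuousOn
    have h3 : ContinuousOn (fun p : ℝ × Matrix (Fin N) (Fin N) ℂ => Vx (Dw γ δ p.2) u p.1)
        {p | p.2.PosSemidef} := by
      unfold Vx
      exact ContinuousOn.mul (ContinuousOn.mul h1 h2) h1
    have h4 := (mpow_cont (q := 1 / r) (by positivity)).comp h3
      (fun p _ => Vx_psd (Dw_herm γ δ p.2) u p.1)
    exact h4.const_smul ((sR r : ℝ) : ℂ)
  · intro x S _
    exact psd_smul (mpow_posSemidef (Vx_psd (Dw_herm γ δ S) u x) _) (sR_nonneg hr0)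
  · intro x S hS
    exact trace_bound hr0 hr1 (Dw_herm γ δ S) (Dw_trace hγ0 hγ hδ hS.1) u hB x

/-- constant weight (`γ ≥ 1`) -/
theorem field_ge {m N : ℕ} {r : ℝ} (hr0 : 0 < r) (hr1 : r < 1) (D : Matrix (Fin N) (Fin N) ℂ)
    (hD : D.IsHermitian) (u du : Fin N → ℝ → Fin m → ℂ) (hu : ∀ j, IsH1 (u j) (du j)) :
    ∃ B : ℝ,
    (Continuous fun x : ℝ => ((sR r : ℝ) : ℂ) • mpow (Vx D u x) (1 / r)) ∧
    (∀ x : ℝ, (((sR r : ℝ) : ℂ) • mpow (Vx D u x) (1 / r)).PosSemidef) ∧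
    (∀ x : ℝ, (trace (((sR r : ℝ) : ℂ) • mpow (Vx D u x) (1 / r))).re ≤ B) := by
  obtain ⟨B, hB0, hB⟩ := Kin.P_bounded hu
  refine ⟨sR r * ((trace (D * D)).re * B) ^ (1 / r), ?_, ?_, ?_⟩
  · have h3 : Continuous (fun x : ℝ => Vx D u x) := by
      unfold Vx
      exact (continuous_const.matrix_mul (gram_cont hu)).matrix_mul continuous_const
    have h4 : Continuous (fun x : ℝ => mpow (Vx D u x) (1 / r)) := by
      rw [← continuousOn_univ]
      exact (mpow_cont (q := 1 / r) (by positivity)).comp h3.continuousOn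
        (fun x _ => Vx_psd hD u x)
    exact h4.const_smul ((sR r : ℝ) : ℂ)
  · intro x
    exact psd_smul (mpow_posSemidef (Vx_psd hD u x) _) (sR_nonneg hr0)
  · intro x
    exact trace_bound hr0 hr1 hD le_rfl u hB x

/-- integrability and decay of `V` (for a bounded family of weights: `Tr C ≤ c`) -/
theorem V_decay {m N : ℕ} {q : ℝ} (hq : 1 ≤ q) (u du : Fin N → ℝ → Fin m → ℂ)
    (hu : ∀ j, IsH1 (u j) (du j)) (c : ℝ) :
    ∃ P : ℝ → ℝ, Integrable P ∧ (∀ x, 0 ≤ P x) ∧ ∀ (D : Matrix (Fin N) (Fin N) ℂ),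
      D.IsHermitian → (trace (D * D)).re ≤ c → ∀ x,
        trPow (Vx D u x) q ≤ P x ∧ (trace (Vx D u x)).re ≤ P x := by
  obtain ⟨B, hB0, hB⟩ := Kin.P_bounded hu
  set c' := max c 0 with hc'
  have hc0 : 0 ≤ c' := le_max_right _ _
  refine ⟨fun x => (1 + (c' * B) ^ (q - 1)) * c' * Kin.P u x, (Kin.P_int hu).const_mul _,
    fun x => ?_, ?_⟩
  · have := Kin.P_nonneg u x
    positivity
  · intro D hD hDc x
    have hP := Kin.P_nonneg u x
    have hV := Vx_psd hD u x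
    have h1 : (trace (Vx D u x)).re ≤ c' * Kin.P u x := by
      unfold Vx
      refine (trace_DGD hD (Ac.gram_psd u x)).trans ?_
      rw [trace_gram]
      exact mul_le_mul_of_nonneg_right (hDc.trans (le_max_left _ _)) hP
    have h0 := trace_nonneg_psd hV
    have hpow : 0 ≤ (c' * B) ^ (q - 1) := by positivity
    have hcP : 0 ≤ c' * Kin.P u x := by positivity
    constructor
    · refine (trPow_le hV hq).trans ?_
      have h2 : (trace (Vx D u x)).re ^ q ≤ (c' * Kin.P u x) ^ q :=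
        Real.rpow_le_rpow h0 h1 (by linarith)
      have h3 : (c' * Kin.P u x) ^ q ≤ (c' * Kin.P u x) * (c' * B) ^ (q - 1) := by
        conv_lhs => rw [show q = 1 + (q - 1) by ring]
        rw [Real.rpow_add_of_nonneg hcP zero_le_one (by linarith), Real.rpow_one]
        apply mul_le_mul_of_nonneg_left _ hcP
        apply Real.rpow_le_rpow hcP _ (by linarith)
        exact mul_le_mul_of_nonneg_left (hB x) hc0
      nlinarith
    · nlinarith [mul_nonneg hpow hcP]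

end Vale.Agent.P371
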