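import Vale.Agent.P371.Parts

/-!
# P371 [SECH]: the optimal potential
-/

open MeasureTheory Matrix Finset Filter
open scoped ComplexOrder ENNReal Topology

namespace Vale.Agent.P371

/-- the optimal potential `3 sech² (2x)` in the first diagonal entry -/
noncomputable def Wopt (m : ℕ) (x : ℝ) : Matrix (Fin m) (Fin m) ℂ :=
  Matrix.diagonal fun a => if a.val = 0 then ((3 / Real.cosh (2 * x) ^ 2 : ℝ) : ℂ) else 0

noncomputable def uopt (m : ℕ) (x : ℝ) : Fin m → ℂ :=
  fun a => if a.val = 0 then ((Real.sqrt (2 / Real.pi) / Real.sqrt (Real.cosh (2 * x)) : ℝ) : ℂ) else 0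

noncomputable def duopt (m : ℕ) (x : ℝ) : Fin m → ℂ :=
  fun a => if a.val = 0 then
    ((-Real.sqrt (2 / Real.pi) * Real.sinh (2 * x) /
      (Real.cosh (2 * x) * Real.sqrt (Real.cosh (2 * x))) : ℝ) : ℂ) else 0

namespace SechAux

/-! ### calculus of `cosh` -/

theorem one_add_sq_le_cosh (x : ℝ) : 1 + x ^ 2 ≤ Real.cosh (2 * x) := by
  have h1 : Real.cosh (2 * x) = 1 + 2 * Real.sinh x ^ 2 := by
    rw [Real.cosh_two_mul]
    have := Real.cosh_sq x
    linarith
  have h2 : |x| ≤ |Real.sinh x| := by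
    rw [Real.abs_sinh]
    exact Real.self_le_sinh_iff.2 (abs_nonneg x)
  have h3 : x ^ 2 ≤ Real.sinh x ^ 2 := sq_le_sq.2 h2
  rw [h1]
  nlinarith [sq_nonneg x]

theorem cosh_pos' (x : ℝ) : 0 < Real.cosh (2 * x) := Real.cosh_pos _

theorem hasDerivAt_cosh2 (x : ℝ) :
    HasDerivAt (fun x : ℝ => Real.cosh (2 * x)) (2 * Real.sinh (2 * x)) x := by
  have := ((hasDerivAt_id x).const_mul (2 : ℝ)).cosh
  simpa [mul_comm] using this

theorem hasDerivAt_sinh2 (x : ℝ) :
    HasDerivAt (fun x : ℝ => Real.sinh (2 * x)) (2 * Real.cosh (2 * x)) x := by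
  have := ((hasDerivAt_id x).const_mul (2 : ℝ)).sinh
  simpa [mul_comm] using this

theorem integrable_inv_cosh : Integrable fun x : ℝ => 1 / Real.cosh (2 * x) := by
  refine integrable_inv_one_add_sq.mono' ?_ (Eventually.of_forall fun x => ?_)
  · exact (continuous_const.div (by fun_prop) fun x => (cosh_pos' x).ne').aestronglyMeasurable
  · rw [Real.norm_of_nonneg (by have := cosh_pos' x; positivity), one_div]
    exact inv_anti₀ (by positivity) (one_add_sq_le_cosh x)

theorem tendsto_sinh_top : Tendsto (fun x : ℝ => Real.sinh (2 * x)) atTop atTop := by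
  refine tendsto_atTop_mono' _ ?_ tendsto_id
  filter_upwards [eventually_ge_atTop (0 : ℝ)] with x hx
  have := Real.self_le_sinh_iff.2 (show 0 ≤ 2 * x by linarith)
  simp only [id]
  linarith

theorem tendsto_sinh_bot : Tendsto (fun x : ℝ => Real.sinh (2 * x)) atBot atBot := by
  refine tendsto_atBot_mono' _ ?_ tendsto_id
  filter_upwards [eventually_le_atBot (0 : ℝ)] with x hx
  have := Real.sinh_le_self_iff.2 (show 2 * x ≤ 0 by linarith)
  simp only [id]
  linarith

theorem tendsto_arctan_top :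
    Tendsto (fun x : ℝ => Real.arctan (Real.sinh (2 * x))) atTop (𝓝 (Real.pi / 2)) :=
  (tendsto_nhds_of_tendsto_nhdsWithin Real.tendsto_arctan_atTop).comp tendsto_sinh_top

theorem tendsto_arctan_bot :
    Tendsto (fun x : ℝ => Real.arctan (Real.sinh (2 * x))) atBot (𝓝 (-(Real.pi / 2))) :=
  (tendsto_nhds_of_tendsto_nhdsWithin Real.tendsto_arctan_atBot).comp tendsto_sinh_bot

theorem hasDerivAt_arctan (x : ℝ) :
    HasDerivAt (fun x : ℝ => Real.arctan (Real.sinh (2 * x))) (2 / Real.cosh (2 * x)) x := by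
  have h1 := (hasDerivAt_sinh2 x).arctan
  refine h1.congr_deriv ?_
  have h2 := Real.cosh_sq (2 * x)
  have h3 := cosh_pos' x
  have h4 : 1 + Real.sinh (2 * x) ^ 2 = Real.cosh (2 * x) ^ 2 := by linarith
  rw [h4]
  field_simp

theorem integral_inv_cosh : ∫ x : ℝ, 1 / Real.cosh (2 * x) = Real.pi / 2 := by
  have h1 : ∫ x : ℝ, 2 / Real.cosh (2 * x) = Real.pi / 2 - -(Real.pi / 2) := by
    refine integral_of_hasDerivAt_of_tendsto hasDerivAt_arctan ?_ tendsto_arctan_bot
      tendsto_arctan_top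
    have := integrable_inv_cosh.const_mul 2
    refine this.congr (Eventually.of_forall fun x => ?_)
    simp only
    ring
  have h2 : ∀ x : ℝ, 2 / Real.cosh (2 * x) = 2 * (1 / Real.cosh (2 * x)) := fun x => by ring
  simp only [h2] at h1
  rw [integral_const_mul] at h1
  linarith

theorem integrable_inv_cosh_cube : Integrable fun x : ℝ => 1 / Real.cosh (2 * x) ^ 3 := by
  refine integrable_inv_cosh.mono' ?_ (Eventually.of_forall fun x => ?_)
  · exact (continuous_const.div (by fun_prop) fun x =>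
      pow_ne_zero _ (cosh_pos' x).ne').aestronglyMeasurable
  · have h1 := cosh_pos' x
    rw [Real.norm_of_nonneg (by positivity)]
    have h2 : 1 ≤ Real.cosh (2 * x) := Real.one_le_cosh _
    apply one_div_le_one_div_of_le h1
    exact le_self_pow₀ h2 (by norm_num)

theorem tendsto_ratio (l : Filter ℝ) (hl : Tendsto (fun x : ℝ => |x|) l atTop) :
    Tendsto (fun x : ℝ => Real.sinh (2 * x) / Real.cosh (2 * x) ^ 2) l (𝓝 0) := by
  have h1 : Tendsto (fun x : ℝ => 1 / (1 + |x| ^ 2)) l (𝓝 0) := by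
    have h2 : Tendsto (fun x : ℝ => 1 + |x| ^ 2) l atTop :=
      tendsto_atTop_add_const_left _ _ ((tendsto_pow_atTop (by norm_num : (2 : ℕ) ≠ 0)).comp hl)
    refine h2.inv_tendsto_atTop.congr fun x => ?_
    simp [one_div]
  refine squeeze_zero_norm (fun x => ?_) h1
  have h3 := cosh_pos' x
  have h4 : |Real.sinh (2 * x)| ≤ Real.cosh (2 * x) := by
    have := Real.cosh_sq (2 * x)
    exact abs_le_of_sq_le_sq (by linarith) h3.le
  rw [Real.norm_eq_abs, abs_div, abs_of_pos (by positivity : 0 < Real.cosh (2 * x) ^ 2), sq_abs]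
  calc |Real.sinh (2 * x)| / Real.cosh (2 * x) ^ 2 ≤ Real.cosh (2 * x) / Real.cosh (2 * x) ^ 2 := by
        gcongr
    _ = 1 / Real.cosh (2 * x) := by field_simp
    _ ≤ 1 / (1 + x ^ 2) := one_div_le_one_div_of_le (by positivity) (one_add_sq_le_cosh x)

theorem integral_inv_cosh_cube : ∫ x : ℝ, 1 / Real.cosh (2 * x) ^ 3 = Real.pi / 4 := by
  have hd : ∀ x : ℝ, HasDerivAt (fun x : ℝ => Real.sinh (2 * x) / Real.cosh (2 * x) ^ 2 +
      Real.arctan (Real.sinh (2 * x))) (4 * (1 / Real.cosh (2 * x) ^ 3)) x := by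
    intro x
    have h3 := cosh_pos' x
    have h1 := ((hasDerivAt_sinh2 x).div ((hasDerivAt_cosh2 x).pow 2) (pow_ne_zero 2 h3.ne')).add
      (hasDerivAt_arctan x)
    refine h1.congr_deriv ?_
    have h2 := Real.cosh_sq (2 * x)
    have h4 : Real.sinh (2 * x) ^ 2 = Real.cosh (2 * x) ^ 2 - 1 := by linarith
    simp only [Pi.pow_apply]
    field_simp
    push_cast
    rw [h4]
    ring
  have htop := (tendsto_ratio atTop tendsto_abs_atTop_atTop).add tendsto_arctan_top
  have hbot := (tendsto_ratio atBot tendsto_abs_atBot_atTop).add tendsto_arctan_bot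
  have h1 := integral_of_hasDerivAt_of_tendsto hd (integrable_inv_cosh_cube.const_mul 4) hbot htop
  rw [integral_const_mul] at h1
  linarith

/-! ### the trace of powers of a diagonal matrix -/

theorem trPow_diagonal {m : ℕ} (d : Fin m → ℝ) (p : ℝ) :
    trPow (Matrix.diagonal fun a => ((d a : ℝ) : ℂ)) p = ∑ a, d a ^ p := by
  have h : (Matrix.diagonal fun a => ((d a : ℝ) : ℂ)).IsHermitian := by
    rw [Matrix.isHermitian_diagonal_iff]
    intro a
    simp [IsSelfAdjoint]
  unfold trPow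
  rw [dif_pos h]
  have h1 := h.roots_charpoly_eq_eigenvalues
  rw [Matrix.charpoly_diagonal, Polynomial.roots_prod _ _
    (Finset.prod_ne_zero_iff.2 fun i _ => Polynomial.X_sub_C_ne_zero _)] at h1
  simp only [Polynomial.roots_X_sub_C, Multiset.bind_singleton] at h1
  have h2 := congrArg (fun s => (s.map fun z : ℂ => z.re ^ p).sum) h1
  simp only [Multiset.map_map, Function.comp_def] at h2
  simp only [Complex.ofReal_re, Complex.coe_algebraMap] at h2
  exact h2.symm

/-! ### functions supported in the first coordinate -/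

/-- the vector function with first coordinate `f` and zeros elsewhere -/
noncomputable def vec (m : ℕ) (f : ℝ → ℝ) (x : ℝ) : Fin m → ℂ :=
  fun a => if a.val = 0 then ((f x : ℝ) : ℂ) else 0

theorem isH1_vec {m : ℕ} {f f' : ℝ → ℝ} (hf : ∀ x, HasDerivAt f (f' x) x) (hc : Continuous f')
    (h2 : Integrable fun x => f x ^ 2) (h2' : Integrable fun x => f' x ^ 2) :
    IsH1 (vec m f) (vec m f') := by
  have hfc : Continuous f := continuous_iff_continuousAt.2 fun x => (hf x).continuousAt
  have hmem : ∀ g : ℝ → ℝ, Continuous g → Integrable (fun x => g x ^ 2) →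
      ∀ a : Fin m, MemLp (fun x => vec m g x a) 2 volume := by
    intro g hg hi a
    by_cases ha : a.val = 0
    · have e : (fun x => vec m g x a) = fun x => ((g x : ℝ) : ℂ) := by
        funext x; simp [vec, ha]
      rw [e]
      exact ((memLp_two_iff_integrable_sq hg.aestronglyMeasurable).2 hi).ofReal
    · have e : (fun x => vec m g x a) = fun x => 0 := by
        funext x; simp [vec, ha]
      rw [e]
      exact MemLp.zero
  intro a
  refine ⟨hmem f hfc h2 a, hmem f' hc h2' a, fun s t => ?_⟩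
  by_cases ha : a.val = 0
  · simp only [vec, ha, if_true]
    rw [← Complex.ofReal_sub, intervalIntegral.integral_ofReal]
    congr 1
    exact (intervalIntegral.integral_eq_sub_of_hasDerivAt (fun x _ => hf x)
      (hc.intervalIntegrable s t)).symm
  · simp [vec, ha]

/-- constant -/
noncomputable def c0 : ℝ := Real.sqrt (2 / Real.pi)

theorem c0_sq : c0 ^ 2 = 2 / Real.pi := Real.sq_sqrt (by positivity)

noncomputable def U (x : ℝ) : ℝ := c0 / Real.sqrt (Real.cosh (2 * x))

noncomputable def D (x : ℝ) : ℝ :=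
  -c0 * Real.sinh (2 * x) / (Real.cosh (2 * x) * Real.sqrt (Real.cosh (2 * x)))

noncomputable def DD (x : ℝ) : ℝ := U x - 3 / Real.cosh (2 * x) ^ 2 * U x

theorem sqrt_sq' (x : ℝ) : Real.sqrt (Real.cosh (2 * x)) ^ 2 = Real.cosh (2 * x) :=
  Real.sq_sqrt (cosh_pos' x).le

theorem hasDerivAt_U (x : ℝ) : HasDerivAt U (D x) x := by
  have h3 := cosh_pos' x
  have h4 : 0 < Real.sqrt (Real.cosh (2 * x)) := Real.sqrt_pos.2 h3
  have h5 := sqrt_sq' x
  have h1 := ((hasDerivAt_cosh2 x).sqrt h3.ne').fun_inv h4.ne'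
  have h2 := h1.const_mul c0
  have e : U = fun x => c0 * (Real.sqrt (Real.cosh (2 * x)))⁻¹ := by
    funext y; rw [U, div_eq_mul_inv]
  rw [e]
  refine h2.congr_deriv ?_
  unfold D
  rw [h5]
  field_simp

theorem hasDerivAt_D (x : ℝ) : HasDerivAt D (DD x) x := by
  have h3 := cosh_pos' x
  have h4 : 0 < Real.sqrt (Real.cosh (2 * x)) := Real.sqrt_pos.2 h3
  have h5 := sqrt_sq' x
  have h1 := (hasDerivAt_cosh2 x).fun_mul ((hasDerivAt_cosh2 x).sqrt h3.ne')
  have h2 := ((hasDerivAt_sinh2 x).const_mul (-c0)).fun_div h1 (by positivity)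
  refine h2.congr_deriv ?_
  unfold DD U
  have h6 := Real.cosh_sq (2 * x)
  have h7 : Real.sinh (2 * x) ^ 2 = Real.cosh (2 * x) ^ 2 - 1 := by linarith
  set c := Real.cosh (2 * x) with hc
  set s := Real.sinh (2 * x) with hs
  set q := Real.sqrt c with hq
  have h8 : c = q ^ 2 := h5.symm
  rw [h8] at h7 ⊢
  field_simp
  rw [h7]
  ring

theorem U_sq (x : ℝ) : U x ^ 2 = (2 / Real.pi) * (1 / Real.cosh (2 * x)) := by
  unfold U
  rw [div_pow, sqrt_sq', c0_sq]
  ring

theorem D_sq_le (x : ℝ) : D x ^ 2 ≤ (2 / Real.pi) * (1 / Real.cosh (2 * x)) := by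
  have h3 := cosh_pos' x
  have h6 := Real.cosh_sq (2 * x)
  have h7 : D x ^ 2 = (2 / Real.pi) * (Real.sinh (2 * x) ^ 2 / Real.cosh (2 * x) ^ 3) := by
    unfold D
    rw [div_pow, mul_pow, mul_pow, sqrt_sq', neg_sq, c0_sq]
    field_simp
  rw [h7]
  have h8 : Real.sinh (2 * x) ^ 2 / Real.cosh (2 * x) ^ 3 ≤ 1 / Real.cosh (2 * x) := by
    rw [div_le_div_iff₀ (by positivity) h3]
    nlinarith [mul_pos h3 (mul_pos h3 h3)]
  exact mul_le_mul_of_nonneg_left h8 (by positivity)

theorem DD_sq_le (x : ℝ) : DD x ^ 2 ≤ 4 * ((2 / Real.pi) * (1 / Real.cosh (2 * x))) := by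
  have h3 := cosh_pos' x
  have h1 : 1 ≤ Real.cosh (2 * x) := Real.one_le_cosh _
  have h2 : DD x = (1 - 3 / Real.cosh (2 * x) ^ 2) * U x := by unfold DD; ring
  rw [h2, mul_pow, U_sq]
  have h4 : (1 - 3 / Real.cosh (2 * x) ^ 2) ^ 2 ≤ 4 := by
    have h5 : 0 < 3 / Real.cosh (2 * x) ^ 2 := by positivity
    have h6 : 3 / Real.cosh (2 * x) ^ 2 ≤ 3 := by
      apply div_le_self (by norm_num)
      exact one_le_pow₀ h1
    nlinarith
  exact mul_le_mul_of_nonneg_right h4 (by positivity)

theorem cont_U : Continuous U := continuous_iff_continuousAt.2 fun x => (hasDerivAt_U x).continuousAt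

theorem cont_D : Continuous D := continuous_iff_continuousAt.2 fun x => (hasDerivAt_D x).continuousAt

theorem cont_DD : Continuous DD := by
  unfold DD
  refine cont_U.sub ((continuous_const.div (by fun_prop) fun x =>
      pow_ne_zero _ (cosh_pos' x).ne').mul cont_U)

theorem int_U : Integrable fun x => U x ^ 2 := by
  simp only [U_sq]
  exact integrable_inv_cosh.const_mul _

theorem int_D : Integrable fun x => D x ^ 2 := by
  refine (integrable_inv_cosh.const_mul (2 / Real.pi)).mono'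
    (cont_D.pow 2).aestronglyMeasurable (Eventually.of_forall fun x => ?_)
  rw [Real.norm_of_nonneg (sq_nonneg _)]
  exact D_sq_le x

theorem int_DD : Integrable fun x => DD x ^ 2 := by
  refine ((integrable_inv_cosh.const_mul (2 / Real.pi)).const_mul 4).mono'
    (cont_DD.pow 2).aestronglyMeasurable (Eventually.of_forall fun x => ?_)
  rw [Real.norm_of_nonneg (sq_nonneg _)]
  exact DD_sq_le x

theorem uopt_eq (m : ℕ) : uopt m = vec m U := rfl

theorem duopt_eq (m : ℕ) : duopt m = vec m D := rfl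

theorem h1U (m : ℕ) : IsH1 (uopt m) (duopt m) := by
  rw [uopt_eq, duopt_eq]
  exact isH1_vec hasDerivAt_U cont_D int_U int_D

theorem h1D (m : ℕ) : IsH1 (duopt m) (vec m DD) := by
  rw [duopt_eq]
  exact isH1_vec hasDerivAt_D cont_DD int_D int_DD

theorem mulVec_eq (m : ℕ) (x : ℝ) :
    (Wopt m x).mulVec (uopt m x) = fun a => uopt m x a - vec m DD x a := by
  funext a
  rw [Wopt, Matrix.mulVec_diagonal]
  by_cases ha : a.val = 0
  · simp only [ha, if_true, uopt_eq, vec, DD]
    push_cast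
    ring
  · simp [ha, uopt_eq, vec]

theorem isEigen_opt (m : ℕ) : IsEigen (Wopt m) (-1) (uopt m) (duopt m) := by
  refine ⟨h1U m, fun v dv hv => ?_⟩
  unfold form
  rw [Ac.parts hv (h1D m)]
  have hvU : Integrable fun x => ip (v x) (uopt m x) := Ac.ip_int hv (h1U m)
  have hvD : Integrable fun x => ip (v x) (vec m DD x) :=
    Ac.ip_int' (fun a => (hv a).1) fun a => (h1D m a).2.1
  have e : ∀ x, ip (v x) ((Wopt m x).mulVec (uopt m x)) =
      ip (v x) (uopt m x) - ip (v x) (vec m DD x) := by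
    intro x
    rw [mulVec_eq]
    simp only [ip, mul_sub, Finset.sum_sub_distrib]
  simp only [e]
  rw [integral_sub hvU hvD]
  push_cast
  ring

theorem trPow_opt {m : ℕ} (hm : 1 ≤ m) (x : ℝ) :
    trPow (Wopt m x) (1 + 1 / 2) = 3 * Real.sqrt 3 * (1 / Real.cosh (2 * x) ^ 3) := by
  have h3 := cosh_pos' x
  have e : Wopt m x = Matrix.diagonal fun a : Fin m =>
      (((if a.val = 0 then 3 / Real.cosh (2 * x) ^ 2 else 0 : ℝ)) : ℂ) := by
    unfold Wopt
    congr 1
    funext a
    by_cases ha : a.val = 0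
    · simp [ha]
    · simp [ha]
  rw [e, trPow_diagonal]
  have h0 : (0 : ℕ) < m := hm
  rw [Finset.sum_eq_single (⟨0, h0⟩ : Fin m)]
  · simp only [if_true]
    have e1 : 3 / Real.cosh (2 * x) ^ 2 = (Real.sqrt 3 / Real.cosh (2 * x)) ^ 2 := by
      rw [div_pow, Real.sq_sqrt (by norm_num)]
    have hnn : 0 ≤ Real.sqrt 3 / Real.cosh (2 * x) := by positivity
    rw [e1, ← Real.rpow_natCast, ← Real.rpow_mul hnn]
    have e2 : ((2 : ℕ) : ℝ) * (1 + 1 / 2) = ((3 : ℕ) : ℝ) := by norm_num
    rw [e2, Real.rpow_natCast, div_pow]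
    have e3 : Real.sqrt 3 ^ 3 = 3 * Real.sqrt 3 := by
      rw [pow_succ, Real.sq_sqrt (by norm_num)]
    rw [e3]
    ring
  · intro b _ hb
    have : b.val ≠ 0 := fun h => hb (Fin.ext h)
    rw [if_neg this]
    exact Real.zero_rpow (by norm_num)
  · intro h
    exact absurd (Finset.mem_univ _) h

theorem potInt_opt {m : ℕ} (hm : 1 ≤ m) :
    potInt 1 (Wopt m) = ENNReal.ofReal (3 * Real.sqrt 3 * Real.pi / 4) := by
  unfold potInt
  simp only [trPow_opt hm]
  rw [← ofReal_integral_eq_lintegral_ofReal (integrable_inv_cosh_cube.const_mul _)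
    (Eventually.of_forall fun x => by have := cosh_pos' x; positivity), integral_const_mul,
    integral_inv_cosh_cube]
  congr 1
  ring

theorem ip_opt {m : ℕ} (hm : 1 ≤ m) (x : ℝ) :
    ip (uopt m x) (uopt m x) = ((2 / Real.pi * (1 / Real.cosh (2 * x)) : ℝ) : ℂ) := by
  unfold ip
  rw [uopt_eq]
  have h0 : (0 : ℕ) < m := hm
  rw [Finset.sum_eq_single (⟨0, h0⟩ : Fin m)]
  · simp only [vec, if_true]
    rw [← U_sq, sq]
    simp
  · intro b _ hb
    have : b.val ≠ 0 := fun h => hb (Fin.ext h)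
    simp [vec, this]
  · intro h
    exact absurd (Finset.mem_univ _) h

end SechAux

open SechAux in
theorem sech_example (m : ℕ) (hm : 1 ≤ m) :
    IsPotential 1 (Wopt m) ∧ potInt 1 (Wopt m) = ENNReal.ofReal (3 * Real.sqrt 3 * Real.pi / 4) ∧
    IsEigen (Wopt m) (-1) (uopt m) (duopt m) ∧ ∫ x, ip (uopt m x) (uopt m x) = 1 := by
  refine ⟨⟨?_, ?_, ?_⟩, potInt_opt hm, isEigen_opt m, ?_⟩
  · intro a b
    by_cases hab : a = b
    · subst hab
      by_cases ha : a.val = 0
      · have e : (fun x => Wopt m x a a) =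
            fun x => ((3 / Real.cosh (2 * x) ^ 2 : ℝ) : ℂ) := by
          funext x; simp [Wopt, ha]
        rw [e]
        have : Continuous fun x : ℝ => (3 / Real.cosh (2 * x) ^ 2 : ℝ) :=
          continuous_const.div (by fun_prop) fun x => pow_ne_zero _ (cosh_pos' x).ne'
        exact (Complex.continuous_ofReal.comp this).measurable
      · have e : (fun x => Wopt m x a a) = fun x => 0 := by
          funext x; simp [Wopt, ha]
        rw [e]
        exact measurable_const
    · have e : (fun x => Wopt m x a b) = fun x => 0 := by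
        funext x; simp [Wopt, hab]
      rw [e]
      exact measurable_const
  · intro x
    unfold Wopt
    apply Matrix.PosSemidef.diagonal
    intro a
    simp only [Pi.zero_apply]
    have h3 := cosh_pos' x
    split_ifs
    · exact_mod_cast (by positivity : (0 : ℝ) ≤ 3 / Real.cosh (2 * x) ^ 2)
    · exact le_rfl
  · rw [potInt_opt hm]
    exact ENNReal.ofReal_lt_top
  · simp only [ip_opt hm]
    rw [integral_complex_ofReal, integral_const_mul, integral_inv_cosh]
    have := Real.pi_pos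
    have e : 2 / Real.pi * (Real.pi / 2) = 1 := by field_simp
    rw [e]
    simp

end Vale.Agent.P371
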