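import Vale.Agent.P371.Upper
import Vale.Agent.P371.Sech

/-!
# P371 [FIN]: from the bounds to the constants
-/

open MeasureTheory Matrix Finset
open scoped ComplexOrder ENNReal

namespace Vale.Agent.P371

namespace Fi

variable {m : ℕ}

theorem ip_smul_smul (c : ℂ) (v w : Fin m → ℂ) :
    ip (c • v) (c • w) = star c * c * ip v w := by
  simp only [ip, Pi.smul_apply, smul_eq_mul, Finset.mul_sum, star_mul']
  exact Finset.sum_congr rfl fun a _ => by ring

theorem ip_smul_right (c : ℂ) (v w : Fin m → ℂ) : ip v (c • w) = c * ip v w := by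
  simp only [ip, Pi.smul_apply, smul_eq_mul, Finset.mul_sum]
  exact Finset.sum_congr rfl fun a _ => by ring

theorem isH1_smul {u du : ℝ → Fin m → ℂ} (h : IsH1 u du) (c : ℂ) :
    IsH1 (fun x => c • u x) (fun x => c • du x) := by
  intro a
  obtain ⟨h1, h2, h3⟩ := h a
  refine ⟨h1.const_mul c, h2.const_mul c, fun s t => ?_⟩
  simp only [Pi.smul_apply, smul_eq_mul]
  rw [intervalIntegral.integral_const_mul, ← h3 s t]
  ring

theorem isEigen_smul {W : ℝ → Matrix (Fin m) (Fin m) ℂ} {E : ℝ} {u du : ℝ → Fin m → ℂ}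
    (h : IsEigen W E u du) (c : ℂ) :
    IsEigen W E (fun x => c • u x) (fun x => c • du x) := by
  refine ⟨isH1_smul h.1 c, fun v dv hv => ?_⟩
  have h1 := h.2 v dv hv
  rw [form] at h1 ⊢
  simp only [Matrix.mulVec_smul, ip_smul_right]
  rw [integral_const_mul, integral_const_mul, integral_const_mul, ← mul_sub, h1]
  ring

/-- a nonzero eigenfunction can be normalised -/
theorem normalise {W : ℝ → Matrix (Fin m) (Fin m) ℂ} {E : ℝ} {u du : ℝ → Fin m → ℂ}
    (h : IsEigen W E u du) (hu : u ≠ 0) :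
    ∃ u' du' : ℝ → Fin m → ℂ, IsEigen W E u' du' ∧ ∫ x, ip (u' x) (u' x) = 1 := by
  have hint : Integrable fun x => ip (u x) (u x) := Ac.ip_int h.1 h.1
  have hcont : Continuous fun x => ip (u x) (u x) := Ac.ip_cont h.1 h.1
  set f : ℝ → ℝ := fun x => ∑ a, ‖u x a‖ ^ 2 with hf
  have hfe : ∀ x, ip (u x) (u x) = (f x : ℂ) := fun x => Up.ip_self (u x)
  have hfint : Integrable f := by
    have := hint.re
    refine this.congr (Filter.Eventually.of_forall fun x => ?_)
    simp only [hfe]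
    exact Complex.ofReal_re _
  have hfcont : Continuous f := by
    have := Complex.continuous_re.comp hcont
    refine this.congr fun x => ?_
    simp only [Function.comp, hfe]
    exact Complex.ofReal_re _
  have hf0 : 0 ≤ f := fun x => Finset.sum_nonneg fun _ _ => by positivity
  have hne : ∃ x, f x ≠ 0 := by
    by_contra hcon
    push Not at hcon
    apply hu
    funext x a
    have h1 := hcon x
    rw [hf] at h1
    have h2 := (Finset.sum_eq_zero_iff_of_nonneg (fun _ _ => by positivity)).1 h1 a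
      (Finset.mem_univ a)
    simpa using h2
  have hpos : 0 < ∫ x, f x := by
    obtain ⟨x, hx⟩ := hne
    exact integral_pos_of_integrable_nonneg_nonzero hfcont hfint hf0 hx
  set c : ℝ := (Real.sqrt (∫ x, f x))⁻¹ with hc
  refine ⟨_, _, isEigen_smul h (c : ℂ), ?_⟩
  simp only [ip_smul_smul, hfe]
  rw [integral_const_mul, integral_complex_ofReal]
  have h1 : c * c * ∫ x, f x = 1 := by
    rw [hc, ← mul_inv, Real.mul_self_sqrt hpos.le]
    exact inv_mul_cancel₀ hpos.ne'
  have h2 : star (c : ℂ) = c := Complex.conj_ofReal c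
  rw [h2]
  exact_mod_cast h1

/-- From an upper bound for all finite families of eigenvalues and one extremal example to the
value of both constants. -/
theorem constants {γ C : ℝ} (hC : 0 < C)
    (hupper : ∀ (m N : ℕ) (W : ℝ → Matrix (Fin m) (Fin m) ℂ), IsPotential γ W →
      ∀ (lam : Fin N → ℝ) (u du : Fin N → ℝ → Fin m → ℂ), (∀ j, 0 < lam j) →
      (∀ j, IsEigen W (-(lam j)) (u j) (du j)) →
      (∀ j k, ∫ x, ip (u j x) (u k x) = if j = k then 1 else 0) →
      ∑ j, ENNReal.ofReal (lam j ^ γ) ≤ ENNReal.ofReal C * potInt γ W)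
    (hlower : ∀ m : ℕ, 1 ≤ m → ∃ (W : ℝ → Matrix (Fin m) (Fin m) ℂ) (u du : ℝ → Fin m → ℂ),
      IsPotential γ W ∧ potInt γ W = ENNReal.ofReal C⁻¹ ∧ IsEigen W (-1) u du ∧
      ∫ x, ip (u x) (u x) = 1) (m : ℕ) (hm : 1 ≤ m) :
    LT γ m = ENNReal.ofReal C ∧ LTone γ = ENNReal.ofReal C := by
  have hdiv : (1 : ℝ≥0∞) / ENNReal.ofReal C⁻¹ = ENNReal.ofReal C := by
    rw [ENNReal.ofReal_inv_of_pos hC, one_div, inv_inv]
  refine ⟨le_antisymm ?_ ?_, le_antisymm ?_ ?_⟩
  · refine iSup_le fun W => iSup_le fun hW => iSup_le fun _ => ?_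
    refine ENNReal.div_le_of_le_mul ?_
    refine iSup_le fun n => iSup_le fun lam => iSup_le fun u => iSup_le fun du =>
      iSup_le fun h1 => iSup_le fun h2 => iSup_le fun h3 => ?_
    exact hupper m n W hW lam u du h1 h2 h3
  · obtain ⟨W, u, du, hW, hp, hE, hn⟩ := hlower m hm
    have hp0 : potInt γ W ≠ 0 := by
      rw [hp]
      exact (ENNReal.ofReal_pos.2 (inv_pos.2 hC)).ne'
    refine le_trans ?_ (le_iSup_of_le W (le_iSup_of_le hW (le_iSup_of_le hp0 le_rfl)))
    rw [← hdiv, hp]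
    refine ENNReal.div_le_div_right ?_ _
    refine le_trans ?_ (le_iSup_of_le 1 (le_iSup_of_le (fun _ => (1 : ℝ)) (le_iSup_of_le
      (fun _ => u) (le_iSup_of_le (fun _ => du) (le_iSup_of_le (fun _ => one_pos)
      (le_iSup_of_le (fun _ => hE) (le_iSup_of_le (fun j k => ?_) le_rfl)))))))
    · simp
    · rw [hn, if_pos (Subsingleton.elim j k)]
  · refine iSup_le fun W => iSup_le fun hW => iSup_le fun _ => iSup_le fun lam =>
      iSup_le fun u => iSup_le fun du => iSup_le fun h1 => iSup_le fun h2 =>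
      iSup_le fun h3 => ?_
    refine ENNReal.div_le_of_le_mul ?_
    obtain ⟨u', du', hE, hn⟩ := normalise h2 h3
    have := hupper 1 1 W hW (fun _ => lam) (fun _ => u') (fun _ => du') (fun _ => h1)
      (fun _ => hE) (fun j k => by rw [hn, if_pos (Subsingleton.elim j k)])
    simpa using this
  · obtain ⟨W, u, du, hW, hp, hE, hn⟩ := hlower 1 le_rfl
    have hp0 : potInt γ W ≠ 0 := by
      rw [hp]
      exact (ENNReal.ofReal_pos.2 (inv_pos.2 hC)).ne'
    have hu : u ≠ 0 := by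
      rintro rfl
      simp [ip] at hn
    refine le_trans ?_ (le_iSup_of_le W (le_iSup_of_le hW (le_iSup_of_le hp0 (le_iSup_of_le
      (1 : ℝ) (le_iSup_of_le u (le_iSup_of_le du (le_iSup_of_le one_pos (le_iSup_of_le hE
      (le_iSup_of_le hu le_rfl)))))))))
    rw [← hdiv, hp]
    simp

end Fi

open Fi in
theorem gamma_one (m : ℕ) (hm : 1 ≤ m) :
    LT 1 m = ENNReal.ofReal (4 / (3 * Real.sqrt 3 * Real.pi)) ∧
    LTone 1 = ENNReal.ofReal (4 / (3 * Real.sqrt 3 * Real.pi)) := by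
  refine constants (by positivity) ?_ ?_ m hm
  · intro m N W hW lam u du h1 h2 h3
    have h := upper W hW lam u du h1 h2 h3
    rw [ENNReal.ofReal_sum_of_nonneg fun j _ => (h1 j).le] at h
    simpa only [Real.rpow_one] using h
  · intro m hm
    obtain ⟨h1, h2, h3, h4⟩ := sech_example m hm
    refine ⟨_, _, _, h1, ?_, h3, h4⟩
    rw [h2, inv_div]

/-- the numerical value in terms of the semiclassical constant -/
theorem Lcl_one : Lcl 1 = 2 / (3 * Real.pi) := by
  have h1 : Real.Gamma (1 + 1) = 1 := by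
    rw [Real.Gamma_add_one one_ne_zero, Real.Gamma_one, mul_one]
  have h2 : Real.Gamma (1 + 3 / 2) = 3 / 4 * Real.sqrt Real.pi := by
    have e1 : (1 : ℝ) + 3 / 2 = 1 / 2 + 1 + 1 := by norm_num
    rw [e1, Real.Gamma_add_one (by norm_num), Real.Gamma_add_one (by norm_num),
      Real.Gamma_one_half_eq]
    ring
  rw [Lcl, h1, h2]
  have hpi : Real.sqrt Real.pi * Real.sqrt Real.pi = Real.pi := Real.mul_self_sqrt Real.pi_pos.le
  have h3 : 2 * Real.sqrt Real.pi * (3 / 4 * Real.sqrt Real.pi) = 3 / 2 * Real.pi := by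
    calc 2 * Real.sqrt Real.pi * (3 / 4 * Real.sqrt Real.pi) =
        3 / 2 * (Real.sqrt Real.pi * Real.sqrt Real.pi) := by ring
      _ = 3 / 2 * Real.pi := by rw [hpi]
  rw [h3]
  have := Real.pi_pos
  field_simp

theorem value_one : 2 * (((1 : ℝ) - 1 / 2) / (1 + 1 / 2)) ^ ((1 : ℝ) - 1 / 2) * Lcl 1 =
    4 / (3 * Real.sqrt 3 * Real.pi) := by
  have h1 : (((1 : ℝ) - 1 / 2) / (1 + 1 / 2)) ^ ((1 : ℝ) - 1 / 2) = (Real.sqrt 3)⁻¹ := by
    have e1 : ((1 : ℝ) - 1 / 2) / (1 + 1 / 2) = 3⁻¹ := by norm_num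
    have e2 : (1 : ℝ) - 1 / 2 = 1 / 2 := by norm_num
    rw [e1, e2, ← Real.sqrt_eq_rpow, Real.sqrt_inv]
  rw [h1, Lcl_one]
  have h2 : Real.sqrt 3 ≠ 0 := by positivity
  have h3 := Real.pi_pos
  field_simp
  norm_num

end Vale.Agent.P371
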