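import Vale.Agent.P371.Defs2
import Vale.Agent.P371.Sech
import Vale.Agent.P371.Const

/-!
# P371 [SECH2]: the optimal potential for `γ ∈ (1/2, 3/2)`
-/

open MeasureTheory Matrix Finset Filter
open scoped ComplexOrder ENNReal Topology

namespace Vale.Agent.P371

namespace Sech2Aux

open SechAux

/-! ### one-dimensional integrals -/

theorem cosh_ge (y : ℝ) : Real.exp |y| / 2 ≤ Real.cosh y := by
  rw [← Real.cosh_abs, Real.cosh_eq]
  have := Real.exp_pos (-|y|)
  linarith

theorem integrable_exp_abs : Integrable fun x : ℝ => Real.exp (-2 * |x|) := by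
  have h1 : IntegrableOn (fun x : ℝ => Real.exp (-2 * |x|)) (Set.Iic 0) := by
    refine (integrableOn_exp_mul_Iic (a := 2) (by norm_num) 0).congr_fun (fun x hx => ?_)
      measurableSet_Iic
    simp only [Set.mem_Iic] at hx
    simp only [abs_of_nonpos hx]
    congr 1
    ring
  have h2 : IntegrableOn (fun x : ℝ => Real.exp (-2 * |x|)) (Set.Ioi 0) := by
    refine (integrableOn_exp_mul_Ioi (a := -2) (by norm_num) 0).congr_fun (fun x hx => ?_)
      measurableSet_Ioi
    simp only [Set.mem_Ioi] at hx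
    simp only [abs_of_pos hx]
  have := h1.union h2
  rwa [Set.Iic_union_Ioi, integrableOn_univ] at this

theorem cont_cosh_rpow (b p : ℝ) : Continuous fun x : ℝ => Real.cosh (b * x) ^ p := by
  refine Continuous.rpow_const (by fun_prop) fun x => Or.inl (Real.cosh_pos _).ne'

theorem integrable_cosh {r : ℝ} (hr0 : 0 < r) :
    Integrable fun x : ℝ => Real.cosh (1 / r * x) ^ (-(2 * r)) := by
  refine (integrable_exp_abs.const_mul ((1 / 2 : ℝ) ^ (-(2 * r)))).mono'
    (cont_cosh_rpow _ _).aestronglyMeasurable (Eventually.of_forall fun x => ?_)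
  have h1 := cosh_ge (1 / r * x)
  have h2 : 0 < Real.exp |1 / r * x| / 2 := by positivity
  rw [Real.norm_of_nonneg (Real.rpow_nonneg (Real.cosh_pos _).le _)]
  calc Real.cosh (1 / r * x) ^ (-(2 * r)) ≤ (Real.exp |1 / r * x| / 2) ^ (-(2 * r)) :=
        Real.rpow_le_rpow_of_nonpos h2 h1 (by linarith)
    _ = (1 / 2 : ℝ) ^ (-(2 * r)) * Real.exp (-2 * |x|) := by
        rw [div_eq_mul_one_div, mul_comm, Real.mul_rpow (by norm_num) (Real.exp_pos _).le,
          ← Real.exp_mul]
        congr 2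
        rw [abs_mul, abs_of_pos (by positivity : 0 < 1 / r)]
        field_simp

theorem integrable_cosh' {r : ℝ} (hr0 : 0 < r) :
    Integrable fun x : ℝ => Real.cosh (1 / r * x) ^ (-(2 * (1 + r))) := by
  refine (integrable_cosh hr0).mono'
    (cont_cosh_rpow _ _).aestronglyMeasurable (Eventually.of_forall fun x => ?_)
  rw [Real.norm_of_nonneg (Real.rpow_nonneg (Real.cosh_pos _).le _)]
  exact Real.rpow_le_rpow_of_exponent_le (Real.one_le_cosh _) (by linarith)

theorem integral_cosh_pos {r : ℝ} (hr0 : 0 < r) :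
    0 < ∫ x : ℝ, Real.cosh (1 / r * x) ^ (-(2 * r)) := by
  have h0 : ∀ x : ℝ, 0 < Real.cosh (1 / r * x) ^ (-(2 * r)) := fun x =>
    Real.rpow_pos_of_pos (Real.cosh_pos _) _
  rw [integral_pos_iff_support_of_nonneg (fun x => (h0 x).le) (integrable_cosh hr0)]
  have : Function.support (fun x : ℝ => Real.cosh (1 / r * x) ^ (-(2 * r))) = Set.univ :=
    Set.eq_univ_of_forall fun x => Function.mem_support.2 (h0 x).ne'
  rw [this]
  simp

theorem hasDerivAt_tanh (y : ℝ) : HasDerivAt Real.tanh (1 / Real.cosh y ^ 2) y := by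
  have h := (Real.hasDerivAt_sinh y).div (Real.hasDerivAt_cosh y) (Real.cosh_pos y).ne'
  have e : Real.tanh = fun x => Real.sinh x / Real.cosh x := by
    funext x; exact Real.tanh_eq_sinh_div_cosh x
  rw [e]
  refine h.congr_deriv ?_
  have := Real.cosh_sq y
  congr 1
  linarith

theorem one_sub_tanh_sq (y : ℝ) : 1 - Real.tanh y ^ 2 = 1 / Real.cosh y ^ 2 := by
  rw [Real.tanh_eq_sinh_div_cosh]
  have h := Real.cosh_sq y
  have hp := Real.cosh_pos y
  field_simp
  linarith

theorem integral_cosh_unit {r : ℝ} :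
    ∫ y : ℝ, Real.cosh y ^ (-(2 * (1 + r))) = betaR r := by
  have h := integral_image_eq_integral_abs_deriv_smul MeasurableSet.univ
    (fun y _ => (hasDerivAt_tanh y).hasDerivWithinAt) Real.tanh_injective.injOn
    (fun z : ℝ => (1 - z ^ 2) ^ r)
  rw [Real.tanh_bijOn.image_eq, Measure.restrict_univ] at h
  rw [betaR, intervalIntegral.integral_of_le (by norm_num), integral_Ioc_eq_integral_Ioo, h]
  refine integral_congr_ae (Eventually.of_forall fun y => ?_)
  have hp := Real.cosh_pos y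
  simp only [smul_eq_mul]
  rw [one_sub_tanh_sq, abs_of_pos (by positivity), Real.div_rpow (by norm_num) (by positivity),
    Real.one_rpow, ← Real.rpow_natCast, ← Real.rpow_mul hp.le, Real.rpow_neg hp.le,
    show 2 * (1 + r) = (2 : ℕ) + (2 : ℕ) * r by push_cast; ring, Real.rpow_add hp]
  field_simp

theorem integral_cosh' {r : ℝ} (hr0 : 0 < r) :
    ∫ x : ℝ, Real.cosh (1 / r * x) ^ (-(2 * (1 + r))) = r * betaR r := by
  rw [Measure.integral_comp_mul_left (fun y : ℝ => Real.cosh y ^ (-(2 * (1 + r)))) (1 / r),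
    integral_cosh_unit, smul_eq_mul, one_div, inv_inv, abs_of_pos hr0]

/-! ### the eigenfunction -/

variable (r c : ℝ)

noncomputable def U (x : ℝ) : ℝ := c * Real.cosh (1 / r * x) ^ (-r)

noncomputable def D (x : ℝ) : ℝ := -c * (Real.sinh (1 / r * x) * Real.cosh (1 / r * x) ^ (-r - 1))

noncomputable def DD (x : ℝ) : ℝ := U r c x - (1 + 1 / r) / Real.cosh (1 / r * x) ^ 2 * U r c x

theorem hasDerivAt_coshb (b x : ℝ) :
    HasDerivAt (fun x : ℝ => Real.cosh (b * x)) (b * Real.sinh (b * x)) x := by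
  have := ((hasDerivAt_id x).const_mul b).cosh
  simpa [mul_comm] using this

theorem hasDerivAt_sinhb (b x : ℝ) :
    HasDerivAt (fun x : ℝ => Real.sinh (b * x)) (b * Real.cosh (b * x)) x := by
  have := ((hasDerivAt_id x).const_mul b).sinh
  simpa [mul_comm] using this

variable {r c}

theorem hasDerivAt_U (hr0 : 0 < r) (x : ℝ) : HasDerivAt (U r c) (D r c x) x := by
  have h3 := Real.cosh_pos (1 / r * x)
  have h1 := ((hasDerivAt_coshb (1 / r) x).rpow_const (p := -r) (Or.inl h3.ne')).const_mul c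
  refine h1.congr_deriv ?_
  unfold D
  field_simp

theorem hasDerivAt_D (hr0 : 0 < r) (x : ℝ) : HasDerivAt (D r c) (DD r c x) x := by
  have h3 := Real.cosh_pos (1 / r * x)
  have h1 := ((hasDerivAt_coshb (1 / r) x).rpow_const (p := -r - 1) (Or.inl h3.ne'))
  have h2 := ((hasDerivAt_sinhb (1 / r) x).fun_mul h1).const_mul (-c)
  refine h2.congr_deriv ?_
  unfold DD U
  have h6 := Real.cosh_sq (1 / r * x)
  set k := Real.cosh (1 / r * x) with hk
  set s := Real.sinh (1 / r * x) with hs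
  have e1 : k ^ (-r - 1) = k ^ (-r) / k := by rw [Real.rpow_sub_one h3.ne']
  have e2 : k ^ (-r - 1 - 1) = k ^ (-r) / k / k := by
    rw [Real.rpow_sub_one h3.ne', Real.rpow_sub_one h3.ne']
  rw [e1, e2]
  have h7 : s ^ 2 = k ^ 2 - 1 := by linarith
  set K := k ^ (-r)
  field_simp
  rw [h7]
  ring

theorem U_sq (x : ℝ) : U r c x ^ 2 = c ^ 2 * Real.cosh (1 / r * x) ^ (-(2 * r)) := by
  unfold U
  have h3 := Real.cosh_pos (1 / r * x)
  rw [mul_pow, ← Real.rpow_natCast (Real.cosh (1 / r * x) ^ (-r)), ← Real.rpow_mul h3.le]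
  congr 2
  push_cast
  ring

theorem D_sq_le (x : ℝ) : D r c x ^ 2 ≤ U r c x ^ 2 := by
  have h3 := Real.cosh_pos (1 / r * x)
  have h6 := Real.cosh_sq (1 / r * x)
  unfold D U
  set k := Real.cosh (1 / r * x) with hk
  set s := Real.sinh (1 / r * x) with hs
  have e1 : k ^ (-r - 1) = k ^ (-r) / k := by rw [Real.rpow_sub_one h3.ne']
  rw [e1]
  set K := k ^ (-r)
  have h7 : s ^ 2 / k ^ 2 ≤ 1 := by
    rw [div_le_one (by positivity)]
    linarith
  have e2 : (-c * (s * (K / k))) ^ 2 = (c * K) ^ 2 * (s ^ 2 / k ^ 2) := by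
    field_simp
  rw [e2]
  exact mul_le_of_le_one_right (sq_nonneg _) h7

theorem DD_sq_le (hr0 : 0 < r) (x : ℝ) : DD r c x ^ 2 ≤ (1 + 1 / r) ^ 2 * U r c x ^ 2 := by
  have h3 := Real.cosh_pos (1 / r * x)
  have h1 : 1 ≤ Real.cosh (1 / r * x) := Real.one_le_cosh _
  have h2 : DD r c x = (1 - (1 + 1 / r) / Real.cosh (1 / r * x) ^ 2) * U r c x := by
    unfold DD; ring
  rw [h2, mul_pow]
  have hb : 0 < 1 / r := by positivity
  have h4 : (1 - (1 + 1 / r) / Real.cosh (1 / r * x) ^ 2) ^ 2 ≤ (1 + 1 / r) ^ 2 := by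
    have h5 : 0 < (1 + 1 / r) / Real.cosh (1 / r * x) ^ 2 := by positivity
    have h6 : (1 + 1 / r) / Real.cosh (1 / r * x) ^ 2 ≤ 1 + 1 / r := by
      apply div_le_self (by positivity)
      exact one_le_pow₀ h1
    apply sq_le_sq'
    · linarith
    · linarith
  exact mul_le_mul_of_nonneg_right h4 (by positivity)

theorem cont_U (hr0 : 0 < r) : Continuous (U r c) :=
  continuous_iff_continuousAt.2 fun x => (hasDerivAt_U hr0 x).continuousAt

theorem cont_D (hr0 : 0 < r) : Continuous (D r c) :=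
  continuous_iff_continuousAt.2 fun x => (hasDerivAt_D hr0 x).continuousAt

theorem cont_W : Continuous fun x : ℝ => (1 + 1 / r) / Real.cosh (1 / r * x) ^ 2 :=
  continuous_const.div (by fun_prop) fun x => pow_ne_zero _ (Real.cosh_pos _).ne'

theorem cont_DD (hr0 : 0 < r) : Continuous (DD r c) := by
  unfold DD
  exact (cont_U hr0).sub (cont_W.mul (cont_U hr0))

theorem int_U (hr0 : 0 < r) : Integrable fun x => U r c x ^ 2 := by
  simp only [U_sq]
  exact (integrable_cosh hr0).const_mul _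

theorem int_D (hr0 : 0 < r) : Integrable fun x => D r c x ^ 2 := by
  refine (int_U (c := c) hr0).mono'
    ((cont_D hr0).pow 2).aestronglyMeasurable (Eventually.of_forall fun x => ?_)
  rw [Real.norm_of_nonneg (sq_nonneg _)]
  exact D_sq_le x

theorem int_DD (hr0 : 0 < r) : Integrable fun x => DD r c x ^ 2 := by
  refine ((int_U (c := c) hr0).const_mul ((1 + 1 / r) ^ 2)).mono'
    ((cont_DD hr0).pow 2).aestronglyMeasurable (Eventually.of_forall fun x => ?_)
  rw [Real.norm_of_nonneg (sq_nonneg _)]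
  exact DD_sq_le hr0 x

/-- the potential -/
noncomputable def W2 (r : ℝ) (m : ℕ) (x : ℝ) : Matrix (Fin m) (Fin m) ℂ :=
  Matrix.diagonal fun a =>
    (((if a.val = 0 then (1 + 1 / r) / Real.cosh (1 / r * x) ^ 2 else 0 : ℝ)) : ℂ)

theorem h1U (hr0 : 0 < r) (m : ℕ) : IsH1 (SechAux.vec m (U r c)) (SechAux.vec m (D r c)) :=
  isH1_vec (hasDerivAt_U hr0) (cont_D hr0) (int_U hr0) (int_D hr0)

theorem h1D (hr0 : 0 < r) (m : ℕ) : IsH1 (SechAux.vec m (D r c)) (SechAux.vec m (DD r c)) :=
  isH1_vec (hasDerivAt_D hr0) (cont_DD hr0) (int_D hr0) (int_DD hr0)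

theorem mulVec_eq (m : ℕ) (x : ℝ) :
    (W2 r m x).mulVec (SechAux.vec m (U r c) x) = fun a => SechAux.vec m (U r c) x a - SechAux.vec m (DD r c) x a := by
  funext a
  rw [W2, Matrix.mulVec_diagonal]
  by_cases ha : a.val = 0
  · simp only [ha, if_true, SechAux.vec, DD]
    push_cast
    ring
  · simp [ha, SechAux.vec]

theorem isEigen_opt (hr0 : 0 < r) (m : ℕ) :
    IsEigen (W2 r m) (-1) (SechAux.vec m (U r c)) (SechAux.vec m (D r c)) := by
  refine ⟨h1U hr0 m, fun v dv hv => ?_⟩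
  unfold form
  rw [Ac.parts hv (h1D hr0 m)]
  have hvU : Integrable fun x => ip (v x) (SechAux.vec m (U r c) x) := Ac.ip_int hv (h1U hr0 m)
  have hvD : Integrable fun x => ip (v x) (SechAux.vec m (DD r c) x) :=
    Ac.ip_int' (fun a => (hv a).1) fun a => (h1D hr0 m a).2.1
  have e : ∀ x, ip (v x) ((W2 r m x).mulVec (SechAux.vec m (U r c) x)) =
      ip (v x) (SechAux.vec m (U r c) x) - ip (v x) (SechAux.vec m (DD r c) x) := by
    intro x
    rw [mulVec_eq]
    simp only [ip, mul_sub, Finset.sum_sub_distrib]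
  simp only [e]
  rw [integral_sub hvU hvD]
  push_cast
  ring

theorem trPow_opt (hr0 : 0 < r) {m : ℕ} (hm : 1 ≤ m) (x : ℝ) :
    trPow (W2 r m x) (1 + r) =
      (1 + 1 / r) ^ (1 + r) * Real.cosh (1 / r * x) ^ (-(2 * (1 + r))) := by
  have h3 := Real.cosh_pos (1 / r * x)
  unfold W2
  rw [trPow_diagonal]
  have h0 : (0 : ℕ) < m := hm
  rw [Finset.sum_eq_single (⟨0, h0⟩ : Fin m)]
  · simp only [if_true]
    rw [Real.div_rpow (by positivity) (by positivity), ← Real.rpow_natCast, ← Real.rpow_mul h3.le,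
      Real.rpow_neg h3.le]
    push_cast
    rw [div_eq_mul_inv]
  · intro b _ hb
    have : b.val ≠ 0 := fun h => hb (Fin.ext h)
    rw [if_neg this]
    exact Real.zero_rpow (by positivity)
  · intro h
    exact absurd (Finset.mem_univ _) h

theorem potInt_opt (hr0 : 0 < r) {m : ℕ} (hm : 1 ≤ m) :
    ∫⁻ x, ENNReal.ofReal (trPow (W2 r m x) (1 + r)) = ENNReal.ofReal (Lr r)⁻¹ := by
  simp only [trPow_opt hr0 hm]
  rw [← ofReal_integral_eq_lintegral_ofReal ((integrable_cosh' hr0).const_mul _)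
    (Eventually.of_forall fun x => by
      have := Real.cosh_pos (1 / r * x)
      have := Real.rpow_pos_of_pos this (-(2 * (1 + r)))
      positivity), integral_const_mul, integral_cosh' hr0]
  congr 1
  unfold Lr kap
  rw [inv_div, div_div_eq_mul_div]
  have h1 : (1 + 1 / r) = (1 + r) / r := by field_simp; ring
  have h2 : 0 < r ^ r := Real.rpow_pos_of_pos hr0 _
  rw [h1, Real.div_rpow (by positivity) hr0.le, Real.rpow_add hr0, Real.rpow_one]
  field_simp

theorem ip_opt {m : ℕ} (hm : 1 ≤ m) (x : ℝ) :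
    ip (SechAux.vec m (U r c) x) (SechAux.vec m (U r c) x) =
      ((c ^ 2 * Real.cosh (1 / r * x) ^ (-(2 * r)) : ℝ) : ℂ) := by
  unfold ip
  have h0 : (0 : ℕ) < m := hm
  rw [Finset.sum_eq_single (⟨0, h0⟩ : Fin m)]
  · simp only [SechAux.vec, if_true]
    rw [← U_sq, sq]
    simp
  · intro b _ hb
    have : b.val ≠ 0 := fun h => hb (Fin.ext h)
    simp [SechAux.vec, this]
  · intro h
    exact absurd (Finset.mem_univ _) h

end Sech2Aux

open Sech2Aux in
theorem sech2 {γ : ℝ} (hγ0 : 1 / 2 < γ) (hγ1 : γ < 3 / 2) (m : ℕ) (hm : 1 ≤ m) :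
    ∃ (W : ℝ → Matrix (Fin m) (Fin m) ℂ) (u du : ℝ → Fin m → ℂ),
      IsPotential γ W ∧ potInt γ W = ENNReal.ofReal (Lr (γ - 1 / 2))⁻¹ ∧ IsEigen W (-1) u du ∧
      ∫ x, ip (u x) (u x) = 1 := by
  obtain ⟨r, hr⟩ : ∃ r : ℝ, r = γ - 1 / 2 := ⟨_, rfl⟩
  have hr0 : 0 < r := by linarith
  rw [← hr]
  have hI := integral_cosh_pos hr0
  set I := ∫ x : ℝ, Real.cosh (1 / r * x) ^ (-(2 * r)) with hIdef
  have hpot : potInt γ (W2 r m) = ENNReal.ofReal (Lr r)⁻¹ := by
    unfold potInt
    rw [show γ + 1 / 2 = 1 + r by linarith]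
    exact potInt_opt hr0 hm
  refine ⟨W2 r m, SechAux.vec m (U r (Real.sqrt (1 / I))), SechAux.vec m (D r (Real.sqrt (1 / I))),
    ⟨?_, ?_, ?_⟩, hpot, isEigen_opt hr0 m, ?_⟩
  · intro a b
    by_cases hab : a = b
    · subst hab
      by_cases ha : a.val = 0
      · have e : (fun x => W2 r m x a a) =
            fun x => (((1 + 1 / r) / Real.cosh (1 / r * x) ^ 2 : ℝ) : ℂ) := by
          funext x; simp [W2, ha]
        rw [e]
        exact (Complex.continuous_ofReal.comp cont_W).measurable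
      · have e : (fun x => W2 r m x a a) = fun x => 0 := by
          funext x; simp [W2, ha]
        rw [e]
        exact measurable_const
    · have e : (fun x => W2 r m x a b) = fun x => 0 := by
        funext x; simp [W2, hab]
      rw [e]
      exact measurable_const
  · intro x
    unfold W2
    apply Matrix.PosSemidef.diagonal
    intro a
    simp only [Pi.zero_apply]
    have h3 := Real.cosh_pos (1 / r * x)
    split_ifs
    · exact_mod_cast (by positivity : (0 : ℝ) ≤ (1 + 1 / r) / Real.cosh (1 / r * x) ^ 2)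
    · simp
  · rw [hpot]
    exact ENNReal.ofReal_lt_top
  · simp only [ip_opt hm]
    rw [integral_complex_ofReal, integral_const_mul, ← hIdef, Real.sq_sqrt (by positivity)]
    have e : 1 / I * I = 1 := by field_simp
    rw [e]
    simp

end Vale.Agent.P371
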