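import Vale.Agent.P371.Reduce
import Vale.Agent.P371.Fin
import Vale.Agent.P371.Sech2

/-!
# P371: the sharp constants for all `γ ∈ (1/2, 3/2)` and all matrix sizes
-/

open MeasureTheory Matrix Finset
open scoped ComplexOrder ENNReal

namespace Vale.Agent.P371

theorem all_gamma {γ : ℝ} (hγ0 : 1 / 2 < γ) (hγ1 : γ < 3 / 2) (m : ℕ) (hm : 1 ≤ m) :
    LT γ m = ENNReal.ofReal (2 * ((γ - 1 / 2) / (γ + 1 / 2)) ^ (γ - 1 / 2) * Lcl γ) ∧
    LTone γ = ENNReal.ofReal (2 * ((γ - 1 / 2) / (γ + 1 / 2)) ^ (γ - 1 / 2) * Lcl γ) := by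
  rw [← Lr_eq hγ0 hγ1]
  exact Fi.constants (Lr_pos (by linarith))
    (fun m N W hW lam u du h1 h2 h3 => upper2 hγ0 hγ1 m N W hW lam u du h1 h2 h3)
    (fun m hm => sech2 hγ0 hγ1 m hm) m hm

end Vale.Agent.P371
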