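import Vale.Agent.P371.Brouwer
import Vale.Agent.P371.GibbsGT

/-!
# P371: truncated matrix Riccati flow, clamp, variational inequality for matrices
-/

namespace Vale.Agent.P371

open Matrix Set Filter
open scoped Topology NNReal ComplexOrder

namespace Flow

/-- Global existence, and joint continuity in time and parameter, for a family of bounded
globally Lipschitz vector fields. -/
theorem exists_flow {E P : Type*} [NormedAddCommGroup E] [NormedSpace ℝ E] [CompleteSpace E]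
    [TopologicalSpace P] {D : Set P} {a b : ℝ} (hab : a ≤ b) (F : P → ℝ → E → E) (z0 : P → E)
    (K : ℝ≥0) (M : P → ℝ)
    (hLip : ∀ p ∈ D, ∀ x ∈ Icc a b, LipschitzWith K (F p x))
    (hbd : ∀ p ∈ D, ∀ x ∈ Icc a b, ∀ z, ‖F p x z‖ ≤ M p)
    (hcont : ∀ z, ContinuousOn (fun q : P × ℝ => F q.1 q.2 z) (D ×ˢ Icc a b))
    (hz0 : ContinuousOn z0 D) :
    ∃ Z : P → ℝ → E, (∀ p ∈ D, Z p a = z0 p ∧
        ∀ x ∈ Icc a b, HasDerivWithinAt (Z p) (F p x (Z p x)) (Icc a b) x) ∧
      ContinuousOn (fun q : P × ℝ => Z q.1 q.2) (D ×ˢ Icc a b) := by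
  classical
  have hex : ∀ p ∈ D, ∃ α : ℝ → E, α a = z0 p ∧
      ∀ x ∈ Icc a b, HasDerivWithinAt α (F p x (α x)) (Icc a b) x := by
    intro p hp
    set L : ℝ≥0 := ⟨max (M p) 0, le_max_right _ _⟩ with hL
    set A : ℝ≥0 := L * ⟨b - a, sub_nonneg.2 hab⟩ with hA
    have hPL : IsPicardLindelof (F p) (⟨a, left_mem_Icc.2 hab⟩ : Icc a b) (z0 p) A 0 L K := by
      refine ⟨fun t ht => (hLip p hp t ht).lipschitzOnWith, fun z _ => ?_, fun t ht z _ => ?_, ?_⟩
      · exact (hcont z).comp (continuousOn_const.prodMk continuousOn_id)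
          (fun t ht => ⟨hp, ht⟩)
      · exact (hbd p hp t ht z).trans (le_max_left _ _)
      · simp only [sub_self, NNReal.coe_zero, sub_zero]
        rw [max_eq_left (sub_nonneg.2 hab), hA]
        exact le_refl _
    exact hPL.exists_eq_forall_mem_Icc_hasDerivWithinAt₀
  choose! Z hZa hZd using hex
  refine ⟨Z, fun p hp => ⟨hZa p hp, hZd p hp⟩, ?_⟩
  have hZc : ∀ p ∈ D, ContinuousOn (Z p) (Icc a b) := fun p hp x hx =>
    (hZd p hp x hx).continuousWithinAt
  -- joint continuity of the vector field along a fixed trajectory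
  have hjoint : ∀ q ∈ D, ContinuousOn (Function.uncurry fun p x => F p x (Z q x))
      (D ×ˢ Icc a b) := by
    rintro q hq ⟨p0, x0⟩ ⟨hp0, hx0⟩
    rw [Metric.continuousWithinAt_iff']
    intro ε hε
    have h1 := Metric.continuousWithinAt_iff'.1 (hcont (Z q x0) (p0, x0) ⟨hp0, hx0⟩) (ε / 2)
      (half_pos hε)
    have hKp : (0 : ℝ) < K + 1 := by positivity
    have h2 := Metric.continuousWithinAt_iff'.1 (hZc q hq x0 hx0) (ε / (2 * (K + 1)))
      (by positivity)
    have h3 : ∀ᶠ w : P × ℝ in 𝓝[D ×ˢ Icc a b] (p0, x0),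
        dist (Z q w.2) (Z q x0) < ε / (2 * (K + 1)) := by
      have ht : Tendsto (fun w : P × ℝ => w.2) (𝓝[D ×ˢ Icc a b] (p0, x0)) (𝓝[Icc a b] x0) := by
        refine tendsto_nhdsWithin_of_tendsto_nhds_of_eventually_within _ ?_ ?_
        · exact (continuous_snd.tendsto _).mono_left nhdsWithin_le_nhds
        · filter_upwards [self_mem_nhdsWithin] with w hw
          exact hw.2
      exact ht.eventually h2
    filter_upwards [h1, h3, self_mem_nhdsWithin] with w hw1 hw3 hw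
    simp only [Function.uncurry]
    have h4 := (hLip w.1 hw.1 w.2 hw.2).dist_le_mul (Z q w.2) (Z q x0)
    calc dist (F w.1 w.2 (Z q w.2)) (F p0 x0 (Z q x0))
        ≤ dist (F w.1 w.2 (Z q w.2)) (F w.1 w.2 (Z q x0)) +
          dist (F w.1 w.2 (Z q x0)) (F p0 x0 (Z q x0)) := dist_triangle _ _ _
      _ < ε / 2 + ε / 2 := by
          refine add_lt_add_of_le_of_lt (h4.trans ?_) hw1
          calc (K : ℝ) * dist (Z q w.2) (Z q x0) ≤ (K + 1) * (ε / (2 * (K + 1))) := by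
                refine mul_le_mul (by linarith) hw3.le dist_nonneg hKp.le
            _ = ε / 2 := by field_simp
      _ = ε := by ring
  rintro ⟨q, x0⟩ ⟨hq, hx0⟩
  rw [Metric.continuousWithinAt_iff']
  intro ε hε
  -- Gronwall constant
  set G : ℝ := Real.exp (K * (b - a)) with hG
  have hG1 : 1 ≤ G := Real.one_le_exp (by
    have := sub_nonneg.2 hab
    positivity)
  have hgb : ∃ η : ℝ, 0 < η ∧ ∀ t ∈ Icc a b, gronwallBound η K η (t - a) ≤ ε / 4 := by
    have hc1 : Continuous fun η : ℝ => gronwallBound η K η (b - a) := by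
      by_cases hK0 : (K : ℝ) = 0
      · rw [hK0]
        simp only [gronwallBound_K0]
        fun_prop
      · simp only [gronwallBound_of_K_ne_0 hK0]
        fun_prop
    have hc2 : gronwallBound 0 K 0 (b - a) = 0 := gronwallBound_ε0_δ0 _ _
    have h1 : ∀ᶠ η in 𝓝 (0 : ℝ), gronwallBound η K η (b - a) < ε / 4 := by
      have := hc1.tendsto 0
      rw [hc2] at this
      exact this.eventually (gt_mem_nhds (by positivity))
    obtain ⟨δ, hδ, hδ2⟩ := Metric.eventually_nhds_iff.1 h1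
    refine ⟨δ / 2, half_pos hδ, fun t ht => ?_⟩
    have h2 := hδ2 (y := δ / 2) (by
      rw [Real.dist_eq, sub_zero, abs_of_pos (half_pos hδ)]; linarith)
    refine (gronwallBound_mono (half_pos hδ).le (half_pos hδ).le K.2 ?_).trans h2.le
    linarith [ht.2]
  obtain ⟨η, hη, hηb⟩ := hgb
  have hu := IsCompact.mem_uniformity_of_prod isCompact_Icc (hjoint q hq) hq
    (Metric.dist_mem_uniformity hη)
  obtain ⟨v, hv, hvu⟩ := hu
  have hz : ∀ᶠ p in 𝓝[D] q, dist (z0 p) (z0 q) < η :=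
    Metric.continuousWithinAt_iff'.1 (hz0 q hq) η hη
  have hmain : ∀ᶠ p in 𝓝[D] q, ∀ x ∈ Icc a b, dist (Z p x) (Z q x) ≤ ε / 4 := by
    filter_upwards [hv, hz, self_mem_nhdsWithin] with p hpv hpz hpD x hx
    have hI : ∀ t ∈ Ico a b, t ∈ Icc a b := fun t ht => Ico_subset_Icc_self ht
    have hmono : ∀ t ∈ Ico a b, 𝓝[Ici t] t ≤ 𝓝[Icc a b] t := by
      intro t ht
      rw [← nhdsWithin_Icc_eq_nhdsGE ht.2]
      exact nhdsWithin_mono _ (Icc_subset_Icc_left ht.1)
    have h1 := dist_le_of_approx_trajectories_ODE_of_mem (E := E) (v := fun x z => F p x z)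
      (s := fun _ => univ) (K := K) (f := Z p) (g := Z q) (f' := fun t => F p t (Z p t))
      (g' := fun t => F q t (Z q t)) (a := a) (b := b) (εf := 0) (εg := η) (δ := η)
      (fun t ht => (hLip p hpD t (hI t ht)).lipschitzOnWith) (hZc p hpD)
      (fun t ht => (hZd p hpD t (hI t ht)).mono_of_mem_nhdsWithin
        (hmono t ht self_mem_nhdsWithin)) (fun t _ => by simp)
      (fun _ _ => mem_univ _) (hZc q hq)
      (fun t ht => (hZd q hq t (hI t ht)).mono_of_mem_nhdsWithin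
        (hmono t ht self_mem_nhdsWithin))
      (fun t ht => by
        have := hvu p hpv t (hI t ht)
        rw [dist_comm]
        exact this.le) (fun _ _ => mem_univ _)
      (by rw [hZa p hpD, hZa q hq]; exact hpz.le) x hx
    rw [zero_add] at h1
    exact h1.trans (hηb x hx)
  have hc0 : ∀ᶠ x in 𝓝[Icc a b] x0, dist (Z q x) (Z q x0) < ε / 4 :=
    Metric.continuousWithinAt_iff'.1 (hZc q hq x0 hx0) _ (by positivity)
  rw [nhdsWithin_prod_eq]
  filter_upwards [hmain.prod_mk hc0, prod_mem_prod self_mem_nhdsWithin self_mem_nhdsWithin]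
    with w hw1 hw2
  have h1 := hw1.1 w.2 hw2.2
  have h2 := hw1.2
  calc dist (Z w.1 w.2) (Z q x0) ≤ dist (Z w.1 w.2) (Z q w.2) + dist (Z q w.2) (Z q x0) :=
        dist_triangle _ _ _
    _ < ε := by linarith

/-! ### Functional calculus lemmas -/

variable {N : ℕ}

theorem cfc_mul_cfc {A : Matrix (Fin N) (Fin N) ℂ} (hA : A.IsHermitian) (f g : ℝ → ℝ) :
    cfc f A * cfc g A = cfc (fun x => f x * g x) A := by
  rw [GGT.cfc_spec hA, GGT.cfc_spec hA, GGT.cfc_spec hA]
  set U := (hA.eigenvectorUnitary : Matrix (Fin N) (Fin N) ℂ) with hU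
  have hU2 : Uᴴ * U = 1 := Unitary.coe_star_mul_self _
  have : ∀ D E : Matrix (Fin N) (Fin N) ℂ, U * D * Uᴴ * (U * E * Uᴴ) = U * (D * E) * Uᴴ := by
    intro D E
    calc U * D * Uᴴ * (U * E * Uᴴ) = U * D * (Uᴴ * U) * E * Uᴴ := by
          simp only [Matrix.mul_assoc]
      _ = _ := by rw [hU2, Matrix.mul_one]; simp only [Matrix.mul_assoc]
  rw [this, diagonal_mul_diagonal]
  congr 3
  funext i
  push_cast
  rfl

theorem cfc_herm (A : Matrix (Fin N) (Fin N) ℂ) (f : ℝ → ℝ) : (cfc f A).IsHermitian :=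
  cfc_predicate f A

theorem cfc_id_eq {A : Matrix (Fin N) (Fin N) ℂ} (hA : A.IsHermitian) :
    cfc (fun x : ℝ => x) A = A := cfc_id' ℝ A hA

theorem cfc_one_eq {A : Matrix (Fin N) (Fin N) ℂ} (hA : A.IsHermitian) :
    cfc (fun _ : ℝ => (1 : ℝ)) A = 1 := cfc_const_one ℝ A hA

/-- Functional calculus with a Lipschitz function is Lipschitz for the Frobenius norm. -/
theorem cfc_lip {A B : Matrix (Fin N) (Fin N) ℂ} (hA : A.IsHermitian) (hB : B.IsHermitian)
    {f : ℝ → ℝ} {c : ℝ} (hf : ∀ x y, |f x - f y| ≤ c * |x - y|) :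
    (trace ((cfc f A - cfc f B) * (cfc f A - cfc f B))).re ≤
      c ^ 2 * (trace ((A - B) * (A - B))).re := by
  obtain ⟨p, hp, hrow, hcol, hpf⟩ := GGT.trace_cfc_mul_cfc hA hB
  set a := hA.eigenvalues with ha
  set b := hB.eigenvalues with hb
  have key : ∀ g : ℝ → ℝ, (trace ((cfc g A - cfc g B) * (cfc g A - cfc g B))).re =
      ∑ i, ∑ j, p i j * (g (a i) - g (b j)) ^ 2 := by
    intro g
    have e1 : (trace (cfc g A * cfc g A)).re = ∑ i, ∑ j, p i j * ((g (a i) * g (a i)) * 1) := by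
      have := hpf (fun x => g x * g x) (fun _ => 1)
      rw [cfc_one_eq hB, Matrix.mul_one, ← cfc_mul_cfc hA] at this
      exact this
    have e2 : (trace (cfc g B * cfc g B)).re = ∑ i, ∑ j, p i j * (1 * (g (b j) * g (b j))) := by
      have := hpf (fun _ => 1) (fun x => g x * g x)
      rw [cfc_one_eq hA, Matrix.one_mul, ← cfc_mul_cfc hB] at this
      exact this
    have e3 := hpf g g
    have e4 : (trace ((cfc g A - cfc g B) * (cfc g A - cfc g B))).re =
        (trace (cfc g A * cfc g A)).re - 2 * (trace (cfc g A * cfc g B)).re +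
          (trace (cfc g B * cfc g B)).re := by
      rw [Matrix.sub_mul, Matrix.mul_sub, Matrix.mul_sub, trace_sub, trace_sub, trace_sub,
        trace_mul_comm (cfc g B) (cfc g A)]
      simp only [Complex.sub_re]
      ring
    rw [e4, e1, e2, e3, Finset.mul_sum, ← Finset.sum_sub_distrib, ← Finset.sum_add_distrib]
    refine Finset.sum_congr rfl fun i _ => ?_
    rw [Finset.mul_sum, ← Finset.sum_sub_distrib, ← Finset.sum_add_distrib]
    refine Finset.sum_congr rfl fun j _ => ?_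
    ring
  have h2 := key (fun x => x)
  rw [cfc_id_eq hA, cfc_id_eq hB] at h2
  rw [key f, h2, Finset.mul_sum]
  refine Finset.sum_le_sum fun i _ => ?_
  rw [Finset.mul_sum]
  refine Finset.sum_le_sum fun j _ => ?_
  have h3 := hf (a i) (b j)
  have h4 : (f (a i) - f (b j)) ^ 2 ≤ c ^ 2 * (a i - b j) ^ 2 := by
    rw [← sq_abs (f (a i) - f (b j)), ← sq_abs (a i - b j), ← mul_pow]
    exact pow_le_pow_left₀ (abs_nonneg _) h3 2
  calc p i j * (f (a i) - f (b j)) ^ 2 ≤ p i j * (c ^ 2 * (a i - b j) ^ 2) :=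
        mul_le_mul_of_nonneg_left h4 (hp i j)
    _ = c ^ 2 * (p i j * (a i - b j) ^ 2) := by ring

/-- Functional calculus on an eigenvector. -/
theorem cfc_mulVec {A : Matrix (Fin N) (Fin N) ℂ} (hA : A.IsHermitian) (f : ℝ → ℝ)
    {v : Fin N → ℂ} {c : ℝ} (hv : A.mulVec v = (c : ℂ) • v) :
    (cfc f A).mulVec v = (f c : ℂ) • v := by
  set U := (hA.eigenvectorUnitary : Matrix (Fin N) (Fin N) ℂ) with hU
  have hU1 : U * Uᴴ = 1 := Unitary.coe_mul_star_self _
  have hU2 : Uᴴ * U = 1 := Unitary.coe_star_mul_self _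
  set w := Uᴴ.mulVec v with hw
  have hvw : v = U.mulVec w := by
    rw [hw, Matrix.mulVec_mulVec, hU1, Matrix.one_mulVec]
  have hspec : ∀ g : ℝ → ℝ, (cfc g A).mulVec v =
      U.mulVec ((diagonal fun i => (g (hA.eigenvalues i) : ℂ)).mulVec w) := by
    intro g
    rw [GGT.cfc_spec hA, ← hU, ← Matrix.mulVec_mulVec, ← Matrix.mulVec_mulVec, ← hw]
  have h1 := hspec (fun x => x)
  rw [cfc_id_eq hA, hv] at h1
  have h2 : ∀ i, (c : ℂ) * w i = (hA.eigenvalues i : ℂ) * w i := by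
    have h3 : Uᴴ.mulVec ((c : ℂ) • v) =
        (diagonal fun i => (hA.eigenvalues i : ℂ)).mulVec w := by
      rw [h1, Matrix.mulVec_mulVec, hU2, Matrix.one_mulVec]
    rw [Matrix.mulVec_smul, ← hw] at h3
    intro i
    have := congrFun h3 i
    rw [Matrix.mulVec_diagonal] at this
    simpa using this
  rw [hspec f]
  have h4 : (diagonal fun i => (f (hA.eigenvalues i) : ℂ)).mulVec w = (f c : ℂ) • w := by
    funext i
    rw [Matrix.mulVec_diagonal, Pi.smul_apply, smul_eq_mul]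
    by_cases hwi : w i = 0
    · rw [hwi]; simp
    · have := mul_right_cancel₀ hwi (h2 i)
      have h5 : c = hA.eigenvalues i := by exact_mod_cast this
      rw [h5]
  rw [h4, Matrix.mulVec_smul, ← hvw]

/-- Positivity of the functional calculus. -/
theorem cfc_psd {A : Matrix (Fin N) (Fin N) ℂ} (hA : A.IsHermitian) {f : ℝ → ℝ}
    (hf : ∀ i, 0 ≤ f (hA.eigenvalues i)) : (cfc f A).PosSemidef := by
  rw [GGT.cfc_spec hA]
  refine Matrix.PosSemidef.mul_mul_conjTranspose_same ?_ _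
  refine Matrix.PosSemidef.diagonal fun i => ?_
  change (0 : ℂ) ≤ _
  exact_mod_cast hf i

/-- Difference of functional calculi. -/
theorem cfc_sub_cfc {A : Matrix (Fin N) (Fin N) ℂ} (hA : A.IsHermitian) (f g : ℝ → ℝ) :
    cfc f A - cfc g A = cfc (fun x => f x - g x) A := by
  rw [GGT.cfc_spec hA, GGT.cfc_spec hA, GGT.cfc_spec hA, ← Matrix.sub_mul, ← Matrix.mul_sub,
    diagonal_sub]
  congr 3
  funext i
  push_cast
  rfl

theorem cfc_const_eq {A : Matrix (Fin N) (Fin N) ℂ} (hA : A.IsHermitian) (c : ℝ) :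
    cfc (fun _ : ℝ => c) A = (c : ℂ) • (1 : Matrix (Fin N) (Fin N) ℂ) := by
  rw [GGT.cfc_spec hA]
  have hU1 : (hA.eigenvectorUnitary : Matrix (Fin N) (Fin N) ℂ) *
      (hA.eigenvectorUnitary : Matrix (Fin N) (Fin N) ℂ)ᴴ = 1 := Unitary.coe_mul_star_self _
  have : (diagonal fun _ : Fin N => (c : ℂ)) = (c : ℂ) • (1 : Matrix (Fin N) (Fin N) ℂ) := by
    rw [smul_one_eq_diagonal]
  rw [this, Matrix.mul_smul, Matrix.mul_one, Matrix.smul_mul, hU1]

/-- If the eigenvalues satisfy `f = g`, the functional calculi agree. -/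
theorem cfc_congr_eig {A : Matrix (Fin N) (Fin N) ℂ} (hA : A.IsHermitian) {f g : ℝ → ℝ}
    (h : ∀ i, f (hA.eigenvalues i) = g (hA.eigenvalues i)) : cfc f A = cfc g A := by
  rw [GGT.cfc_spec hA, GGT.cfc_spec hA]
  congr 3
  funext i
  rw [h i]

end Flow

/-- The truncated square `min (Z², K²)`. -/
noncomputable def gK {N : ℕ} (K : ℝ) (Z : Matrix (Fin N) (Fin N) ℂ) : Matrix (Fin N) (Fin N) ℂ :=
  cfc (fun x : ℝ => min (x ^ 2) (K ^ 2)) Z

section gK

variable {N : ℕ} {K : ℝ} {Z : Matrix (Fin N) (Fin N) ℂ}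

theorem gK_herm (K : ℝ) (Z : Matrix (Fin N) (Fin N) ℂ) : (gK K Z).IsHermitian :=
  Flow.cfc_herm _ _

theorem gK_psd (hZ : Z.IsHermitian) : (gK K Z).PosSemidef :=
  Flow.cfc_psd hZ fun _ => le_min (sq_nonneg _) (sq_nonneg _)

theorem gK_le (hZ : Z.IsHermitian) :
    (((K ^ 2 : ℝ) : ℂ) • (1 : Matrix (Fin N) (Fin N) ℂ) - gK K Z).PosSemidef := by
  rw [gK, ← Flow.cfc_const_eq hZ, Flow.cfc_sub_cfc hZ]
  exact Flow.cfc_psd hZ fun _ => sub_nonneg.2 (min_le_right _ _)

theorem gK_mulVec (hZ : Z.IsHermitian) {v : Fin N → ℂ} {c : ℝ}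
    (hv : Z.mulVec v = (c : ℂ) • v) :
    (gK K Z).mulVec v = ((min (c ^ 2) (K ^ 2) : ℝ) : ℂ) • v :=
  Flow.cfc_mulVec hZ _ hv

/-- The truncation is inactive between `-K` and `K`. -/
theorem gK_eq (hZ : Z.IsHermitian)
    (h1 : ((K : ℂ) • (1 : Matrix (Fin N) (Fin N) ℂ) - Z).PosSemidef)
    (h2 : ((K : ℂ) • (1 : Matrix (Fin N) (Fin N) ℂ) + Z).PosSemidef) : gK K Z = Z * Z := by
  have h3 : Z * Z = cfc (fun x : ℝ => x * x) Z := by
    rw [← Flow.cfc_mul_cfc hZ (fun x => x) (fun x => x), Flow.cfc_id_eq hZ]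
  rw [h3, gK]
  refine Flow.cfc_congr_eig hZ fun i => ?_
  set c := hZ.eigenvalues i with hc
  set v : Fin N → ℂ := ⇑(hZ.eigenvectorBasis i) with hv
  have hZv : Z.mulVec v = (c : ℂ) • v := by
    have := hZ.mulVec_eigenvectorBasis i
    rw [hv, this]
    funext j
    simp [hc]
  have hvv : 0 < (star v ⬝ᵥ v).re := by
    have h0 : v ≠ 0 := by
      intro h
      have h5 : hZ.eigenvectorBasis i = 0 := by
        ext j
        exact congrFun h j
      have h6 := hZ.eigenvectorBasis.orthonormal.1 i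
      rw [h5, norm_zero] at h6
      exact zero_ne_one h6
    have h7 : (0 : ℂ) < star v ⬝ᵥ v := dotProduct_star_self_pos_iff.2 h0
    exact (Complex.lt_def.1 h7).1
  have hre : ∀ M : Matrix (Fin N) (Fin N) ℂ, M.PosSemidef → 0 ≤ (star v ⬝ᵥ M.mulVec v).re :=
    fun M hM => (Complex.le_def.1 (hM.dotProduct_mulVec_nonneg v)).1
  have a1 := hre _ h1
  have a2 := hre _ h2
  rw [Matrix.sub_mulVec, hZv, Matrix.smul_mulVec, Matrix.one_mulVec, dotProduct_sub,
    dotProduct_smul, dotProduct_smul, Complex.sub_re, smul_eq_mul, smul_eq_mul,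
    Complex.re_ofReal_mul, Complex.re_ofReal_mul] at a1
  rw [Matrix.add_mulVec, hZv, Matrix.smul_mulVec, Matrix.one_mulVec, dotProduct_add,
    dotProduct_smul, dotProduct_smul, Complex.add_re, smul_eq_mul, smul_eq_mul,
    Complex.re_ofReal_mul, Complex.re_ofReal_mul] at a2
  have b1 : c ≤ K := by nlinarith
  have b2 : -K ≤ c := by nlinarith
  have b3 : c ^ 2 ≤ K ^ 2 := by nlinarith
  rw [min_eq_left b3, pow_two]

theorem gK_scalar_lip (hK : 0 ≤ K) (x y : ℝ) :
    |min (x ^ 2) (K ^ 2) - min (y ^ 2) (K ^ 2)| ≤ (2 * K) * |x - y| := by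
  have e : ∀ x : ℝ, min (x ^ 2) (K ^ 2) = (min |x| K) ^ 2 := by
    intro x
    rcases le_total |x| K with h | h
    · rw [min_eq_left h, sq_abs, min_eq_left]
      rw [← sq_abs x]
      exact pow_le_pow_left₀ (abs_nonneg _) h 2
    · rw [min_eq_right h, min_eq_right]
      rw [← sq_abs x]
      exact pow_le_pow_left₀ hK h 2
  rw [e, e]
  have h1 : |min |x| K - min |y| K| ≤ |x - y| := by
    refine (abs_min_sub_min_le_max _ _ _ _).trans ?_
    simp only [sub_self, abs_zero]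
    exact max_le (abs_abs_sub_abs_le_abs_sub x y) (abs_nonneg _)
  have h2 : |min |x| K + min |y| K| ≤ 2 * K := by
    rw [abs_of_nonneg (add_nonneg (le_min (abs_nonneg _) hK) (le_min (abs_nonneg _) hK))]
    linarith [min_le_right |x| K, min_le_right |y| K]
  have e2 : min |x| K ^ 2 - min |y| K ^ 2 = (min |x| K + min |y| K) * (min |x| K - min |y| K) := by
    ring
  rw [e2, abs_mul]
  exact mul_le_mul h2 h1 (abs_nonneg _) (by linarith)

end gK

namespace Flow

variable {N : ℕ}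

section Frobenius

open scoped Matrix.Norms.Frobenius

/-- The Frobenius norm is the trace norm. -/
theorem frob_sq (A : Matrix (Fin N) (Fin N) ℂ) : ‖A‖ ^ 2 = (trace (Aᴴ * A)).re := by
  rw [Matrix.frobenius_norm_def, ← Real.sqrt_eq_rpow, Real.sq_sqrt (by positivity), trace,
    Complex.re_sum, Finset.sum_comm]
  refine Finset.sum_congr rfl fun j _ => ?_
  rw [diag_apply, Matrix.mul_apply, Complex.re_sum]
  refine Finset.sum_congr rfl fun i _ => ?_
  rw [conjTranspose_apply, Complex.star_def, mul_comm, Complex.mul_conj, Complex.ofReal_re,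
    Complex.normSq_eq_norm_sq]
  norm_num

/-- The Hermitian part. -/
noncomputable def hp (A : Matrix (Fin N) (Fin N) ℂ) : Matrix (Fin N) (Fin N) ℂ :=
  (1 / 2 : ℂ) • (A + Aᴴ)

theorem hp_herm (A : Matrix (Fin N) (Fin N) ℂ) : (hp A).IsHermitian := by
  rw [IsHermitian, hp, conjTranspose_smul, conjTranspose_add, conjTranspose_conjTranspose,
    add_comm]
  norm_num

theorem hp_eq {A : Matrix (Fin N) (Fin N) ℂ} (hA : A.IsHermitian) : hp A = A := by
  rw [hp, hA.eq, ← two_smul ℂ A, smul_smul]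
  norm_num

theorem hp_lip (A B : Matrix (Fin N) (Fin N) ℂ) : ‖hp A - hp B‖ ≤ ‖A - B‖ := by
  have e : hp A - hp B = (1 / 2 : ℂ) • ((A - B) + (A - B)ᴴ) := by
    rw [hp, hp, ← smul_sub, conjTranspose_sub]
    congr 1
    abel
  rw [e, norm_smul]
  have h1 : ‖(A - B) + (A - B)ᴴ‖ ≤ ‖A - B‖ + ‖A - B‖ := by
    refine (norm_add_le _ _).trans ?_
    rw [Matrix.frobenius_norm_conjTranspose]
  have h2 : ‖(1 / 2 : ℂ)‖ = 1 / 2 := by norm_num
  rw [h2]
  linarith

theorem gK_hp_lip {K : ℝ} (hK : 0 ≤ K) (A B : Matrix (Fin N) (Fin N) ℂ) :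
    ‖gK K (hp A) - gK K (hp B)‖ ≤ 2 * K * ‖A - B‖ := by
  have h1 := cfc_lip (hp_herm A) (hp_herm B) (gK_scalar_lip hK)
  have h2 : ‖gK K (hp A) - gK K (hp B)‖ ^ 2 ≤ (2 * K) ^ 2 * ‖hp A - hp B‖ ^ 2 := by
    rw [frob_sq, frob_sq]
    have e1 : (gK K (hp A) - gK K (hp B))ᴴ = gK K (hp A) - gK K (hp B) :=
      ((gK_herm _ _).sub (gK_herm _ _)).eq
    have e2 : (hp A - hp B)ᴴ = hp A - hp B := ((hp_herm _).sub (hp_herm _)).eq
    rw [e1, e2]
    exact h1
  rw [← mul_pow] at h2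
  have h3 : ‖gK K (hp A) - gK K (hp B)‖ ≤ 2 * K * ‖hp A - hp B‖ :=
    le_of_sq_le_sq h2 (by positivity)
  exact h3.trans (mul_le_mul_of_nonneg_left (hp_lip A B) (by positivity))

theorem gK_bd {K : ℝ} {Z : Matrix (Fin N) (Fin N) ℂ} (hZ : Z.IsHermitian) :
    ‖gK K Z‖ ^ 2 ≤ N * K ^ 4 := by
  rw [frob_sq, (gK_herm K Z).eq]
  have h1 : gK K Z * gK K Z = cfc (fun x : ℝ => min (x ^ 2) (K ^ 2) * min (x ^ 2) (K ^ 2)) Z :=
    cfc_mul_cfc hZ _ _
  obtain ⟨p, hp, hrow, hcol, hpf⟩ := GGT.trace_cfc_mul_cfc hZ hZ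
  have h2 := hpf (fun x => min (x ^ 2) (K ^ 2)) (fun x => min (x ^ 2) (K ^ 2))
  change (trace (cfc (fun x : ℝ => min (x ^ 2) (K ^ 2)) Z *
    cfc (fun x : ℝ => min (x ^ 2) (K ^ 2)) Z)).re ≤ _
  rw [h2]
  calc ∑ i, ∑ j, p i j * (min (hZ.eigenvalues i ^ 2) (K ^ 2) *
        min (hZ.eigenvalues j ^ 2) (K ^ 2)) ≤ ∑ i, ∑ j, p i j * K ^ 4 := by
        refine Finset.sum_le_sum fun i _ => Finset.sum_le_sum fun j _ =>
          mul_le_mul_of_nonneg_left ?_ (hp i j)
        calc min (hZ.eigenvalues i ^ 2) (K ^ 2) * min (hZ.eigenvalues j ^ 2) (K ^ 2)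
            ≤ K ^ 2 * K ^ 2 := mul_le_mul (min_le_right _ _) (min_le_right _ _)
              (le_min (sq_nonneg _) (sq_nonneg _)) (sq_nonneg _)
          _ = K ^ 4 := by ring
    _ = N * K ^ 4 := by
        simp only [← Finset.sum_mul, hrow, Finset.sum_const, Finset.card_univ, Fintype.card_fin,
          nsmul_eq_mul, mul_one]

end Frobenius

end Flow

section

open scoped Matrix.Norms.Frobenius

/-- The truncated matrix Riccati flow. -/
theorem Flow.riccati_flow_aux {N : ℕ} {K R : ℝ} (hK : 0 ≤ K) (hR : 0 ≤ R)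
    {D : Set (Matrix (Fin N) (Fin N) ℂ)} (hD : ∀ S ∈ D, S.IsHermitian)
    (WW : ℝ → Matrix (Fin N) (Fin N) ℂ → Matrix (Fin N) (Fin N) ℂ)
    (hWc : ContinuousOn (fun q : Matrix (Fin N) (Fin N) ℂ × ℝ => WW q.2 q.1) (D ×ˢ Icc (-R) R))
    (hWh : ∀ x ∈ Icc (-R) R, ∀ S ∈ D, (WW x S).IsHermitian) :
    ∃ Z : Matrix (Fin N) (Fin N) ℂ → ℝ → Matrix (Fin N) (Fin N) ℂ,
      (∀ S ∈ D, Z S (-R) = S ∧ ∀ x ∈ Icc (-R) R, (Z S x).IsHermitian ∧
        ∀ i j, HasDerivWithinAt (fun y => Z S y i j)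
          ((S * S - gK K (Z S x) - WW x S) i j) (Icc (-R) R) x) ∧
      ContinuousOn (fun q : Matrix (Fin N) (Fin N) ℂ × ℝ => Z q.1 q.2) (D ×ˢ Icc (-R) R) := by
  have hab : -R ≤ R := by linarith
  set F : Matrix (Fin N) (Fin N) ℂ → ℝ → Matrix (Fin N) (Fin N) ℂ → Matrix (Fin N) (Fin N) ℂ :=
    fun S x Z => S * S - gK K (Flow.hp Z) - WW x S with hF
  have hWb : ∀ S ∈ D, ∃ C : ℝ, ∀ x ∈ Icc (-R) R, ‖WW x S‖ ≤ C := by
    intro S hS
    have h1 : ContinuousOn (fun x => WW x S) (Icc (-R) R) :=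
      hWc.comp (continuousOn_const.prodMk continuousOn_id) (fun t ht => ⟨hS, ht⟩)
    obtain ⟨C, hC⟩ := (isCompact_Icc.bddAbove_image h1.norm)
    exact ⟨C, fun x hx => hC ⟨x, hx, rfl⟩⟩
  choose! C hC using hWb
  obtain ⟨Z, hZ, hZc⟩ := Flow.exists_flow (D := D) hab F (fun S => S) ⟨2 * K, by positivity⟩
    (fun S => ‖S * S‖ + Real.sqrt (N * K ^ 4) + C S)
    (fun S _ x _ => by
      refine LipschitzWith.of_dist_le_mul fun A B => ?_
      rw [dist_eq_norm, dist_eq_norm]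
      have : F S x A - F S x B = -(gK K (Flow.hp A) - gK K (Flow.hp B)) := by
        simp only [hF]; abel
      rw [this, norm_neg]
      exact Flow.gK_hp_lip hK A B)
    (fun S hS x hx A => by
      simp only [hF]
      refine (norm_sub_le _ _).trans (add_le_add ((norm_sub_le _ _).trans
        (add_le_add le_rfl ?_)) (hC S hS x hx))
      exact Real.le_sqrt_of_sq_le (Flow.gK_bd (Flow.hp_herm A)))
    (fun A => by
      simp only [hF]
      refine ContinuousOn.sub (ContinuousOn.sub ?_ continuousOn_const) hWc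
      exact (continuous_fst.mul continuous_fst).continuousOn)
    continuousOn_id
  -- Hermitian symmetry
  have hherm : ∀ S ∈ D, ∀ x ∈ Icc (-R) R, (Z S x).IsHermitian := by
    intro S hS
    have hder : ∀ x ∈ Icc (-R) R,
        HasDerivWithinAt (fun y => Z S y - (Z S y)ᴴ) 0 (Icc (-R) R) x := by
      intro x hx
      have h1 := (hZ S hS).2 x hx
      have h2 : HasDerivWithinAt (fun y => (Z S y)ᴴ) (F S x (Z S x))ᴴ (Icc (-R) R) x :=
        h1.star
      have h3 : (F S x (Z S x))ᴴ = F S x (Z S x) := by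
        simp only [hF]
        rw [conjTranspose_sub, conjTranspose_sub, conjTranspose_mul, (hD S hS).eq,
          (gK_herm _ _).eq, (hWh x hx S hS).eq]
      rw [h3] at h2
      have h4 := h1.sub h2
      rwa [sub_self] at h4
    have hcon : ∀ x ∈ Icc (-R) R, Z S x - (Z S x)ᴴ = Z S (-R) - (Z S (-R))ᴴ :=
      constant_of_has_deriv_right_zero (fun x hx => (hder x hx).continuousWithinAt)
        (fun x hx => (hder x (Ico_subset_Icc_self hx)).mono_of_mem_nhdsWithin
          (Icc_mem_nhdsGE_of_mem hx))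
    intro x hx
    have h5 := hcon x hx
    rw [(hZ S hS).1, (hD S hS).eq, sub_self, sub_eq_zero] at h5
    exact h5.symm
  refine ⟨Z, fun S hS => ⟨(hZ S hS).1, fun x hx => ⟨hherm S hS x hx, fun i j => ?_⟩⟩, hZc⟩
  have h1 := (hZ S hS).2 x hx
  have h2 : F S x (Z S x) = S * S - gK K (Z S x) - WW x S := by
    simp only [hF]
    rw [Flow.hp_eq (hherm S hS x hx)]
  rw [h2] at h1
  set L : Matrix (Fin N) (Fin N) ℂ →L[ℝ] ℂ :=
    { toFun := fun A => A i j
      map_add' := fun _ _ => rfl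
      map_smul' := fun _ _ => rfl
      cont := by fun_prop } with hLdef
  exact L.hasFDerivAt.comp_hasDerivWithinAt x h1

/-- Variational inequality on compact convex sets of complex matrices, transported from
Euclidean space. -/
theorem Flow.matrix_variational_aux {N : ℕ} {KK : Set (Matrix (Fin N) (Fin N) ℂ)}
    (hK : IsCompact KK) (hc : Convex ℝ KK) (hne : KK.Nonempty)
    {Φ : Matrix (Fin N) (Fin N) ℂ → Matrix (Fin N) (Fin N) ℂ} (hΦ : ContinuousOn Φ KK) :
    ∃ X ∈ KK, ∀ Y ∈ KK, 0 ≤ (trace ((Φ X)ᴴ * (Y - X))).re := by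
  let e : EuclideanSpace ℂ (Fin N × Fin N) ≃ₗ[ℝ] Matrix (Fin N) (Fin N) ℂ :=
    { toFun := fun v i j => v (i, j)
      invFun := fun A => WithLp.toLp 2 fun q => A q.1 q.2
      map_add' := fun _ _ => rfl
      map_smul' := fun _ _ => rfl
      left_inv := fun _ => rfl
      right_inv := fun _ => rfl }
  have hec : Continuous e := e.toLinearMap.continuous_of_finiteDimensional
  have hes : Continuous e.symm := e.symm.toLinearMap.continuous_of_finiteDimensional
  have hK' : IsCompact (e ⁻¹' KK) := by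
    have : e ⁻¹' KK = e.symm '' KK := by
      ext v
      constructor
      · intro hv
        exact ⟨e v, hv, e.symm_apply_apply v⟩
      · rintro ⟨A, hA, rfl⟩
        change e (e.symm A) ∈ KK
        rwa [e.apply_symm_apply]
    rw [this]
    exact hK.image hes
  have hc' : Convex ℝ (e ⁻¹' KK) := hc.linear_preimage e.toLinearMap
  have hne' : (e ⁻¹' KK).Nonempty := by
    obtain ⟨A, hA⟩ := hne
    refine ⟨e.symm A, ?_⟩
    change e (e.symm A) ∈ KK
    rwa [e.apply_symm_apply]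
  have hΦ' : ContinuousOn (fun v => e.symm (Φ (e v))) (e ⁻¹' KK) :=
    hes.comp_continuousOn (hΦ.comp hec.continuousOn fun _ hv => hv)
  obtain ⟨v, hv, hvar⟩ := exists_variational hK' hc' hne' hΦ'
  refine ⟨e v, hv, fun Y hY => ?_⟩
  have h1 := hvar (e.symm Y) (by
    change e (e.symm Y) ∈ KK
    rwa [e.apply_symm_apply])
  have h2 : inner ℝ (e.symm (Φ (e v))) (e.symm Y - v) = (trace ((Φ (e v))ᴴ * (Y - e v))).re := by
    rw [PiLp.inner_apply, trace, Complex.re_sum, Fintype.sum_prod_type, Finset.sum_comm]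
    refine Finset.sum_congr rfl fun j _ => ?_
    rw [diag_apply, Matrix.mul_apply, Complex.re_sum]
    refine Finset.sum_congr rfl fun i _ => ?_
    rw [conjTranspose_apply]
    change inner ℝ (Φ (e v) i j) ((Y - e v) i j) = _
    rw [Complex.inner, mul_comm]
    rfl
  rw [h2] at h1
  exact h1

end

/-- **The truncated matrix Riccati flow** `Z' = S² - min(Z², K²) - WW(x,S)`, `Z(-R) = S`: global
existence and joint continuity in `(S, x)`. -/
theorem riccati_flow {N : ℕ} {K R : ℝ} (hK : 0 ≤ K) (hR : 0 ≤ R)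
    {D : Set (Matrix (Fin N) (Fin N) ℂ)} (hD : ∀ S ∈ D, S.IsHermitian)
    (WW : ℝ → Matrix (Fin N) (Fin N) ℂ → Matrix (Fin N) (Fin N) ℂ)
    (hWc : ContinuousOn (fun q : Matrix (Fin N) (Fin N) ℂ × ℝ => WW q.2 q.1) (D ×ˢ Icc (-R) R))
    (hWh : ∀ x ∈ Icc (-R) R, ∀ S ∈ D, (WW x S).IsHermitian) :
    ∃ Z : Matrix (Fin N) (Fin N) ℂ → ℝ → Matrix (Fin N) (Fin N) ℂ,
      (∀ S ∈ D, Z S (-R) = S ∧ ∀ x ∈ Icc (-R) R, (Z S x).IsHermitian ∧
        ∀ i j, HasDerivWithinAt (fun y => Z S y i j)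
          ((S * S - gK K (Z S x) - WW x S) i j) (Icc (-R) R) x) ∧
      ContinuousOn (fun q : Matrix (Fin N) (Fin N) ℂ × ℝ => Z q.1 q.2) (D ×ˢ Icc (-R) R) :=
  Flow.riccati_flow_aux hK hR hD WW hWc hWh

/-- **Hartman-Stampacchia for matrices** with the real trace inner product. -/
theorem matrix_variational {N : ℕ} {KK : Set (Matrix (Fin N) (Fin N) ℂ)}
    (hK : IsCompact KK) (hc : Convex ℝ KK) (hne : KK.Nonempty)
    {Φ : Matrix (Fin N) (Fin N) ℂ → Matrix (Fin N) (Fin N) ℂ} (hΦ : ContinuousOn Φ KK) :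
    ∃ X ∈ KK, ∀ Y ∈ KK, 0 ≤ (trace ((Φ X)ᴴ * (Y - X))).re :=
  Flow.matrix_variational_aux hK hc hne hΦ

end Vale.Agent.P371
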