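import Mathlib

/-!
# The Golden-Thompson inequality

`Re Tr exp (A + B) ≤ Re Tr (exp A * exp B)` for Hermitian complex matrices.
-/

namespace Vale.Agent.P371
namespace GTAux

open Matrix Filter
open scoped Topology

variable {n : Type*} [Fintype n] [DecidableEq n]

omit [DecidableEq n] in
/-- `Tr (Nᴴ N) ≥ 0`. -/
theorem trace_self_nonneg (N : Matrix n n ℂ) : 0 ≤ (trace (Nᴴ * N)).re := by
  rw [trace, Complex.re_sum]
  refine Finset.sum_nonneg fun i _ => ?_
  rw [diag_apply, mul_apply, Complex.re_sum]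
  refine Finset.sum_nonneg fun j _ => ?_
  rw [conjTranspose_apply]
  have : (star (N j i) * N j i).re = Complex.normSq (N j i) := by
    rw [Complex.normSq_apply]
    simp [Complex.mul_re]
  rw [this]
  exact Complex.normSq_nonneg _

omit [DecidableEq n] in
/-- `Re Tr N² ≤ Tr Nᴴ N`. -/
theorem trace_sq_le (N : Matrix n n ℂ) : (trace (N * N)).re ≤ (trace (Nᴴ * N)).re := by
  have h := trace_self_nonneg (N - Nᴴ)
  have e : trace ((N - Nᴴ)ᴴ * (N - Nᴴ)) =
      trace (Nᴴ * N) + trace (N * Nᴴ) - trace (N * N) - trace (Nᴴ * Nᴴ) := by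
    rw [conjTranspose_sub, conjTranspose_conjTranspose, sub_mul, mul_sub, mul_sub, trace_sub,
      trace_sub, trace_sub]
    ring
  have e1 : trace (N * Nᴴ) = trace (Nᴴ * N) := trace_mul_comm _ _
  have e2 : (trace (Nᴴ * Nᴴ)).re = (trace (N * N)).re := by
    rw [← conjTranspose_mul, trace_conjTranspose]
    simp
  rw [e, e1, Complex.sub_re, Complex.sub_re, Complex.add_re, e2] at h
  linarith

omit [DecidableEq n] in
/-- `Re Tr H K ≤ (Tr H² + Tr K²)/2` for Hermitian `H, K`. -/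
theorem trace_mul_le {H K : Matrix n n ℂ} (hH : H.IsHermitian) (hK : K.IsHermitian) :
    2 * (trace (H * K)).re ≤ (trace (H * H)).re + (trace (K * K)).re := by
  have h := trace_self_nonneg (H - K)
  have e : trace ((H - K)ᴴ * (H - K)) =
      trace (H * H) + trace (K * K) - trace (H * K) - trace (K * H) := by
    rw [conjTranspose_sub, hH.eq, hK.eq, sub_mul, mul_sub, mul_sub, trace_sub,
      trace_sub, trace_sub]
    ring
  have e1 : trace (K * H) = trace (H * K) := trace_mul_comm _ _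
  rw [e, e1, Complex.sub_re, Complex.sub_re, Complex.add_re] at h
  linarith

/-- `Tr (U V) ^ k = Tr (V U) ^ k`. -/
theorem trace_pow_comm (U V : Matrix n n ℂ) (k : ℕ) :
    trace ((U * V) ^ k) = trace ((V * U) ^ k) := by
  cases k with
  | zero => simp
  | succ k =>
    have h : ∀ k : ℕ, (U * V) ^ (k + 1) = U * ((V * U) ^ k * V) := by
      intro k
      induction k with
      | zero => simp
      | succ k ih =>
        rw [pow_succ, ih, pow_succ (V * U)]
        simp only [mul_assoc]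
    rw [h, trace_mul_comm, mul_assoc, ← pow_succ]

theorem joint (j : ℕ) :
    (∀ X Y : Matrix n n ℂ, X.IsHermitian → Y.IsHermitian →
      (trace ((X * Y) ^ 2 ^ j)).re ≤ (trace (X ^ 2 ^ j * Y ^ 2 ^ j)).re) ∧
    (∀ A : Matrix n n ℂ,
      (trace ((A ^ 2 ^ j)ᴴ * A ^ 2 ^ j)).re ≤ (trace ((Aᴴ * A) ^ 2 ^ j)).re) := by
  induction j with
  | zero => exact ⟨fun X Y _ _ => by simp, fun A => by simp⟩
  | succ j ih =>
    obtain ⟨hP, hQ⟩ := ih
    have e2 : ∀ X : Matrix n n ℂ, (X * X) ^ 2 ^ j = X ^ 2 ^ (j + 1) := by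
      intro X
      rw [← pow_two, ← pow_mul, pow_succ 2 j, mul_comm 2]
    refine ⟨fun X Y hX hY => ?_, fun A => ?_⟩
    · have h1 : (trace ((X * Y) ^ 2 ^ (j + 1))).re ≤
          (trace (((X * Y) ^ 2 ^ j)ᴴ * (X * Y) ^ 2 ^ j)).re := by
        have := trace_sq_le ((X * Y) ^ 2 ^ j)
        rwa [← pow_two, ← pow_mul, ← pow_succ] at this
      have h2 := hQ (X * Y)
      have h3 : trace (((X * Y)ᴴ * (X * Y)) ^ 2 ^ j) = trace (((X * X) * (Y * Y)) ^ 2 ^ j) := by
        rw [conjTranspose_mul, hX.eq, hY.eq]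
        have e : Y * X * (X * Y) = Y * (X * X * Y) := by simp only [mul_assoc]
        rw [e, trace_pow_comm, mul_assoc (X * X)]
      have hXX : (X * X).IsHermitian := by
        rw [IsHermitian, conjTranspose_mul, hX.eq]
      have hYY : (Y * Y).IsHermitian := by
        rw [IsHermitian, conjTranspose_mul, hY.eq]
      have h4 := hP (X * X) (Y * Y) hXX hYY
      rw [e2, e2] at h4
      rw [h3] at h2
      linarith
    · have h1 := hQ (A * A)
      rw [e2] at h1
      have h2 : trace (((A * A)ᴴ * (A * A)) ^ 2 ^ j) =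
          trace (((Aᴴ * A) * (A * Aᴴ)) ^ 2 ^ j) := by
        rw [conjTranspose_mul]
        have e : Aᴴ * Aᴴ * (A * A) = Aᴴ * (Aᴴ * A * A) := by simp only [mul_assoc]
        rw [e, trace_pow_comm, mul_assoc (Aᴴ * A)]
      have hH : (Aᴴ * A).IsHermitian := isHermitian_conjTranspose_mul_self A
      have hK : (A * Aᴴ).IsHermitian := isHermitian_mul_conjTranspose_self A
      have h3 := hP _ _ hH hK
      have h4 := trace_mul_le (hH.pow (2 ^ j)) (hK.pow (2 ^ j))
      have e3 : ∀ X : Matrix n n ℂ, X ^ 2 ^ j * X ^ 2 ^ j = X ^ 2 ^ (j + 1) := by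
        intro X
        rw [← pow_add, pow_succ 2 j, mul_two]
      rw [e3, e3, trace_pow_comm A Aᴴ] at h4
      rw [h2] at h1
      linarith

section Trotter

open NormedSpace

variable {𝔸 : Type*} [NormedRing 𝔸] [NormedAlgebra ℝ 𝔸] [CompleteSpace 𝔸]

theorem exp_nsmul_real (k : ℕ) (x : 𝔸) : exp (k • x) = exp x ^ k := by
  let _ : NormedAlgebra ℚ 𝔸 := .restrictScalars ℚ ℝ 𝔸
  exact NormedSpace.exp_nsmul k x

omit [CompleteSpace 𝔸] in
theorem norm_exp_le [NormOneClass 𝔸] (x : 𝔸) : ‖exp x‖ ≤ Real.exp ‖x‖ := by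
  rw [exp_eq_tsum ℝ, Real.exp_eq_exp_ℝ, exp_eq_tsum ℝ]
  have hs : Summable fun k : ℕ => (k.factorial : ℝ)⁻¹ • ‖x‖ ^ k := expSeries_summable' (𝕂 := ℝ) ‖x‖
  refine tsum_of_norm_bounded hs.hasSum fun k => ?_
  rw [norm_smul, smul_eq_mul]
  refine mul_le_mul ?_ (norm_pow_le x k) (norm_nonneg _) (by positivity)
  rw [norm_inv, Real.norm_natCast]

omit [NormedAlgebra ℝ 𝔸] [CompleteSpace 𝔸] in
theorem norm_pow_sub_pow_le {S T : 𝔸} [NormOneClass 𝔸] {c : ℝ} (hc : 1 ≤ c) (hS : ‖S‖ ≤ c)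
    (hT : ‖T‖ ≤ c) (k : ℕ) : ‖S ^ k - T ^ k‖ ≤ k * c ^ k * ‖S - T‖ := by
  have hc0 : 0 ≤ c := by linarith
  induction k with
  | zero => simp
  | succ k ih =>
    have e : S ^ (k + 1) - T ^ (k + 1) = S ^ k * (S - T) + (S ^ k - T ^ k) * T := by
      rw [pow_succ, pow_succ, mul_sub, sub_mul]; abel
    rw [e]
    have h1 : ‖S ^ k * (S - T)‖ ≤ c ^ (k + 1) * ‖S - T‖ := by
      refine (norm_mul_le _ _).trans (mul_le_mul_of_nonneg_right ?_ (norm_nonneg _))
      calc ‖S ^ k‖ ≤ ‖S‖ ^ k := norm_pow_le _ _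
        _ ≤ c ^ k := pow_le_pow_left₀ (norm_nonneg _) hS k
        _ ≤ c ^ (k + 1) := pow_le_pow_right₀ hc (Nat.le_succ k)
    have h2 : ‖(S ^ k - T ^ k) * T‖ ≤ k * c ^ (k + 1) * ‖S - T‖ := by
      calc ‖(S ^ k - T ^ k) * T‖ ≤ ‖S ^ k - T ^ k‖ * ‖T‖ := norm_mul_le _ _
        _ ≤ (k * c ^ k * ‖S - T‖) * c := by
            refine mul_le_mul ih hT (norm_nonneg _) ?_
            have := norm_nonneg (S - T)
            positivity
        _ = k * c ^ (k + 1) * ‖S - T‖ := by rw [pow_succ]; ring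
    calc ‖S ^ k * (S - T) + (S ^ k - T ^ k) * T‖ ≤ _ := norm_add_le _ _
      _ ≤ c ^ (k + 1) * ‖S - T‖ + k * c ^ (k + 1) * ‖S - T‖ := add_le_add h1 h2
      _ = ((k + 1 : ℕ) : ℝ) * c ^ (k + 1) * ‖S - T‖ := by push_cast; ring

/-- The Lie-Trotter product formula. -/
theorem lie_trotter [NormOneClass 𝔸] (A B : 𝔸) :
    Tendsto (fun k : ℕ => (exp ((1 / (k : ℝ)) • A) * exp ((1 / (k : ℝ)) • B)) ^ k) atTop
      (𝓝 (exp (A + B))) := by
  set D : ℝ → 𝔸 := fun t => exp (t • A) * exp (t • B) - exp (t • (A + B)) with hD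
  have hder : HasDerivAt D 0 0 := by
    have hA := hasDerivAt_exp_smul_const (𝕂 := ℝ) A (0 : ℝ)
    have hB := hasDerivAt_exp_smul_const (𝕂 := ℝ) B (0 : ℝ)
    have hAB := hasDerivAt_exp_smul_const (𝕂 := ℝ) (A + B) (0 : ℝ)
    have h := (hA.mul hB).sub hAB
    have e : exp ((0 : ℝ) • A) * A * exp ((0 : ℝ) • B) +
        exp ((0 : ℝ) • A) * (exp ((0 : ℝ) • B) * B) - exp ((0 : ℝ) • (A + B)) * (A + B) = 0 := by
      simp [zero_smul, exp_zero]
    rw [e] at h
    exact h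
  have hD0 : D 0 = 0 := by simp [hD]
  have hlo := hder.isLittleO
  simp only [hD0, sub_zero, smul_zero] at hlo
  set L : ℝ := Real.exp (‖A‖ + ‖B‖) with hL
  have hL0 : 0 < L := Real.exp_pos _
  rw [Metric.tendsto_atTop]
  intro ε hε
  have h1 := hlo.def (c := ε / (2 * L)) (by positivity)
  rw [Metric.eventually_nhds_iff] at h1
  obtain ⟨δ, hδ, h2⟩ := h1
  obtain ⟨K, hK⟩ := exists_nat_gt (1 / δ)
  refine ⟨K + 1, fun k hk => ?_⟩
  have hk0 : (0 : ℝ) < k := by
    have : 0 < k := by omega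
    exact_mod_cast this
  have hkK : (K : ℝ) < k := by
    have : K < k := by omega
    exact_mod_cast this
  have hkd : 1 / (k : ℝ) < δ := by
    rw [div_lt_iff₀ hk0]
    rw [div_lt_iff₀ hδ] at hK
    nlinarith
  have h3 : ‖D (1 / k)‖ ≤ ε / (2 * L) * (1 / k) := by
    have := h2 (y := 1 / (k : ℝ)) (by
      rw [Real.dist_eq, sub_zero, abs_of_pos (by positivity)]; exact hkd)
    rwa [Real.norm_eq_abs (1 / (k : ℝ)), abs_of_pos (by positivity : (0 : ℝ) < 1 / k)] at this
  set S : 𝔸 := exp ((1 / (k : ℝ)) • A) * exp ((1 / (k : ℝ)) • B) with hS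
  set T : 𝔸 := exp ((1 / (k : ℝ)) • (A + B)) with hT
  set c : ℝ := Real.exp ((1 / k) * (‖A‖ + ‖B‖)) with hc
  have hc1 : 1 ≤ c := Real.one_le_exp (by positivity)
  have hSc : ‖S‖ ≤ c := by
    calc ‖S‖ ≤ ‖exp ((1 / (k : ℝ)) • A)‖ * ‖exp ((1 / (k : ℝ)) • B)‖ := norm_mul_le _ _
      _ ≤ Real.exp ‖(1 / (k : ℝ)) • A‖ * Real.exp ‖(1 / (k : ℝ)) • B‖ :=
          mul_le_mul (norm_exp_le _) (norm_exp_le _) (norm_nonneg _) (Real.exp_pos _).le
      _ = c := by
          rw [← Real.exp_add, norm_smul, norm_smul, Real.norm_eq_abs,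
            abs_of_pos (by positivity), hc]
          congr 1; ring
  have hTc : ‖T‖ ≤ c := by
    refine (norm_exp_le _).trans ?_
    rw [hc]
    apply Real.exp_le_exp.2
    rw [norm_smul, Real.norm_eq_abs, abs_of_pos (by positivity : (0 : ℝ) < 1 / k)]
    exact mul_le_mul_of_nonneg_left (norm_add_le _ _) (by positivity)
  have hTk : T ^ k = exp (A + B) := by
    have e : (k : ℕ) • ((1 / (k : ℝ)) • (A + B)) = A + B := by
      rw [← Nat.cast_smul_eq_nsmul ℝ, smul_smul, mul_one_div_cancel hk0.ne', one_smul]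
    rw [hT, ← exp_nsmul_real, e]
  have hck : c ^ k = L := by
    rw [hc, ← Real.exp_nat_mul, hL]
    congr 1
    field_simp
  rw [dist_eq_norm, ← hTk]
  calc ‖S ^ k - T ^ k‖ ≤ k * c ^ k * ‖S - T‖ := norm_pow_sub_pow_le hc1 hSc hTc k
    _ ≤ k * L * (ε / (2 * L) * (1 / k)) := by
        rw [hck]
        exact mul_le_mul_of_nonneg_left h3 (by positivity)
    _ = ε / 2 := by field_simp
    _ < ε := by linarith

end Trotter

section

open scoped Matrix.Norms.Operator

/-- The Lie-Trotter formula for matrices, along powers of two. -/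
theorem matrix_trotter [Nonempty n] (A B : Matrix n n ℂ) :
    Tendsto (fun j : ℕ => (NormedSpace.exp ((1 / ((2 ^ j : ℕ) : ℝ)) • A) *
      NormedSpace.exp ((1 / ((2 ^ j : ℕ) : ℝ)) • B)) ^ 2 ^ j) atTop
      (𝓝 (NormedSpace.exp (A + B))) := by
  have : NormOneClass (Matrix n n ℂ) := Matrix.linfty_opNormOneClass
  exact (lie_trotter A B).comp (tendsto_pow_atTop_atTop_of_one_lt (by norm_num : 1 < 2))

end

end GTAux

open Matrix Filter NormedSpace
open scoped Topology ComplexOrder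

/-- **Golden-Thompson inequality** for Hermitian complex matrices. -/
theorem golden_thompson {n : Type*} [Fintype n] [DecidableEq n] {A B : Matrix n n ℂ}
    (hA : A.IsHermitian) (hB : B.IsHermitian) :
    (trace (exp (A + B))).re ≤ (trace (exp A * exp B)).re := by
  rcases isEmpty_or_nonempty n with hn | hn
  · simp [Matrix.trace]
  have hlt := GTAux.matrix_trotter A B
  have hcont : Continuous fun M : Matrix n n ℂ => (trace M).re :=
    Complex.continuous_re.comp (continuous_id.matrix_trace)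
  have hlim := (hcont.tendsto _).comp hlt
  refine le_of_tendsto' hlim fun j => ?_
  have hX : (exp ((1 / ((2 ^ j : ℕ) : ℝ)) • A)).IsHermitian := by
    refine Matrix.IsHermitian.exp ?_
    rw [IsHermitian, conjTranspose_smul, hA.eq]
    simp
  have hY : (exp ((1 / ((2 ^ j : ℕ) : ℝ)) • B)).IsHermitian := by
    refine Matrix.IsHermitian.exp ?_
    rw [IsHermitian, conjTranspose_smul, hB.eq]
    simp
  have h1 := (GTAux.joint j).1 _ _ hX hY
  have e : ∀ C : Matrix n n ℂ, exp ((1 / ((2 ^ j : ℕ) : ℝ)) • C) ^ 2 ^ j = exp C := by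
    intro C
    have e1 : (2 ^ j : ℕ) • ((1 / ((2 ^ j : ℕ) : ℝ)) • C) = C := by
      rw [← Nat.cast_smul_eq_nsmul ℝ, smul_smul, mul_one_div_cancel (by positivity), one_smul]
    rw [← Matrix.exp_nsmul, e1]
  rw [e, e] at h1
  exact h1

/-- `exp (log Q) = Q` for a positive definite matrix. -/
theorem GTAux.exp_cfc_log {n : Type*} [Fintype n] [DecidableEq n] {Q : Matrix n n ℂ}
    (hQ : Q.PosDef) : exp (cfc Real.log Q) = Q := by
  set U := hQ.1.eigenvectorUnitary with hU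
  have h1 : (U : Matrix n n ℂ)⁻¹ = star (U : Matrix n n ℂ) :=
    Matrix.inv_eq_left_inv (Unitary.coe_star_mul_self U)
  have hU1 : IsUnit (U : Matrix n n ℂ) :=
    ⟨⟨U, star (U : Matrix n n ℂ), Unitary.coe_mul_star_self U, Unitary.coe_star_mul_self U⟩, rfl⟩
  have h2 := hQ.1.cfc_eq Real.log
  rw [h2, Matrix.IsHermitian.cfc, Unitary.conjStarAlgAut_apply, ← hU, ← h1,
    Matrix.exp_conj _ _ hU1, Matrix.exp_diagonal]
  have h3 := hQ.1.spectral_theorem
  rw [Unitary.conjStarAlgAut_apply, ← hU, ← h1] at h3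
  conv_rhs => rw [h3]
  congr 3
  funext i
  have hpos : 0 < hQ.1.eigenvalues i := hQ.eigenvalues_pos i
  rw [Pi.coe_exp]
  simp only [Function.comp_apply]
  rw [← Complex.exp_eq_exp_ℂ]
  change Complex.exp ((Real.log (hQ.1.eigenvalues i) : ℝ) : ℂ) = ((hQ.1.eigenvalues i : ℝ) : ℂ)
  rw [← Complex.ofReal_exp, Real.exp_log hpos]

/-- Golden-Thompson in logarithmic form: for positive definite `P, M`,
`Tr exp (log P + log M) ≤ Tr (P M)`. -/
theorem golden_thompson_log {n : Type*} [Fintype n] [DecidableEq n] {P M : Matrix n n ℂ}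
    (hP : P.PosDef) (hM : M.PosDef) :
    (trace (exp (cfc Real.log P + cfc Real.log M))).re ≤ (trace (P * M)).re := by
  have key : ∀ Q : Matrix n n ℂ, Q.PosDef →
      (cfc Real.log Q).IsHermitian ∧ exp (cfc Real.log Q) = Q := by
    intro Q hQ
    exact ⟨cfc_predicate Real.log Q, GTAux.exp_cfc_log hQ⟩
  obtain ⟨h1, h2⟩ := key P hP
  obtain ⟨h3, h4⟩ := key M hM
  have := golden_thompson h1 h3
  rwa [h2, h4] at this

end Vale.Agent.P371
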