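import Vale.Agent.P371.Pos

/-!
# P371 [GRAD]: derivative of the trace function `G_t`
-/

open Matrix Set Filter
open scoped Topology ComplexOrder

namespace Vale.Agent.P371

variable {n : Type*} [Fintype n] [DecidableEq n]

namespace Cal

/-- `η(x) = x log x - x` -/
noncomputable def eta (x : ℝ) : ℝ := x * Real.log x - x

theorem eta_klein {x y : ℝ} (hx : 0 < x) (hy : 0 < y) :
    Real.log x * (y - x) ≤ eta y - eta x := by
  unfold eta
  have h1 : Real.log (x / y) ≤ x / y - 1 := Real.log_le_sub_one_of_pos (div_pos hx hy)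
  rw [Real.log_div hx.ne' hy.ne'] at h1
  have h2 := mul_le_mul_of_nonneg_left h1 hy.le
  have h3 : y * (x / y - 1) = x - y := by field_simp
  rw [h3] at h2
  nlinarith

theorem teta_eq {P : Matrix n n ℂ} (hP : P.IsHermitian) :
    teta P = (trace (cfc eta P)).re := by
  unfold teta mlog eta
  have h1 : P * cfc Real.log P = cfc (fun x => x * Real.log x) P := by
    rw [← cfc_mul_herm hP (fun x => x) Real.log, cfc_id_herm hP]
  rw [h1, ← Complex.sub_re, ← trace_sub]
  conv_lhs => rw [show cfc (fun x => x * Real.log x) P - P =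
    cfc (fun x => x * Real.log x) P - cfc (fun x => x) P by rw [cfc_id_herm hP]]
  rw [cfc_sub_herm hP]

theorem hasDerivWithinAt_teta {P : ℝ → Matrix n n ℂ} {P' : Matrix n n ℂ} {I : Set ℝ} {x : ℝ}
    (hx : x ∈ I) (hP : ∀ i j, HasDerivWithinAt (fun t => P t i j) (P' i j) I x)
    (hp : ∀ y ∈ I, (P y).PosDef) :
    HasDerivWithinAt (fun t => teta (P t)) (trace (mlog (P x) * P')).re I x := by
  have hlog : ContinuousOn Real.log (Ioi 0) := by
    refine Real.continuousOn_log.mono fun x hx => ?_
    exact (ne_of_gt hx : x ≠ 0)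
  have h := hasDerivWithinAt_trace_cfc (f := eta) (f' := Real.log)
    (fun x hx y hy => eta_klein hx hy) hlog hx hp hP
  refine h.congr (fun y hy => teta_eq (hp y hy).1) (teta_eq (hp x hx).1)

end Cal

theorem hasDerivWithinAt_Gt {S : Matrix n n ℂ} {t : ℝ} {Z : ℝ → Matrix n n ℂ}
    {Z' : Matrix n n ℂ} {I : Set ℝ} {x : ℝ} (hx : x ∈ I)
    (hZ : ∀ i j, HasDerivWithinAt (fun y => Z y i j) (Z' i j) I x)
    (hp : ∀ y ∈ I, (Amat S t + Z y).PosDef) (hm : ∀ y ∈ I, (Amat S t - Z y).PosDef) :
    HasDerivWithinAt (fun y => Gt S (Z y) t) (-(trace (kmat S (Z x) t * Z')).re) I x := by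
  have h1 := Cal.hasDerivWithinAt_teta (P := fun y => Amat S t + Z y) (P' := Z') hx
    (fun i j => by
      simpa using (hZ i j).const_add (Amat S t i j)) hp
  have h2 := Cal.hasDerivWithinAt_teta (P := fun y => Amat S t - Z y) (P' := -Z') hx
    (fun i j => by
      simpa using (hZ i j).const_sub (Amat S t i j)) hm
  have h3 : HasDerivWithinAt (fun y => (trace (Z y)).re) (trace Z').re I x := by
    have h4 : HasDerivWithinAt (fun y => trace (Z y)) (trace Z') I x := by
      simp only [trace, diag_apply]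
      exact HasDerivWithinAt.fun_sum fun i _ => hZ i i
    exact Complex.reCLM.hasFDerivAt.comp_hasDerivWithinAt x h4
  have h5 := ((h1.sub h2).sub (h3.const_mul (Real.log t))).neg
  have e : -((trace (mlog (Amat S t + Z x) * Z')).re - (trace (mlog (Amat S t - Z x) * -Z')).re -
      Real.log t * (trace Z').re) = -(trace (kmat S (Z x) t * Z')).re := by
    unfold kmat mlog
    rw [Matrix.mul_neg, trace_neg, Complex.neg_re, Matrix.sub_mul, Matrix.add_mul, trace_sub,
      trace_add, Complex.sub_re, Complex.add_re, Matrix.smul_mul, Matrix.one_mul, trace_smul,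
      smul_eq_mul, Complex.re_ofReal_mul]
    ring
  rw [e] at h5
  exact h5

end Vale.Agent.P371
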