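import Vale.Agent.P371.Defs
import Vale.Agent.P371.Basic

/-!
# P371: Gram matrices (definitions)
-/

open MeasureTheory Matrix Finset
open scoped ComplexOrder ENNReal

namespace Vale.Agent.P371

/-- the Gram density `X(x)_{jk} = ⟨u_j(x), u_k(x)⟩`. -/
noncomputable def gram {m N : ℕ} (u : Fin N → ℝ → Fin m → ℂ) (x : ℝ) : Matrix (Fin N) (Fin N) ℂ :=
  Matrix.of fun j k => ip (u j x) (u k x)

/-- the density matrix `R(x)_{ab} = ∑_j u_j(x)_a conj(u_j(x)_b)`. -/
noncomputable def dens {m N : ℕ} (u : Fin N → ℝ → Fin m → ℂ) (x : ℝ) : Matrix (Fin m) (Fin m) ℂ :=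
  Matrix.of fun a b => ∑ j, u j x a * star (u j x b)

/-- the cumulative Gram matrix -/
noncomputable def cum {m N : ℕ} (u : Fin N → ℝ → Fin m → ℂ) (x : ℝ) : Matrix (Fin N) (Fin N) ℂ :=
  Matrix.of fun j k => ∫ t in Set.Iic x, ip (u j t) (u k t)

end Vale.Agent.P371
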