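import Vale.Agent.P371.Kwong

/-!
# P371 [TRIG]: the exact trigonometric inequality
-/

open MeasureTheory Matrix Finset Filter
open scoped ComplexOrder Topology

namespace Vale.Agent.P371

variable {n : Type*} [Fintype n] [DecidableEq n]

theorem G_neg (d : ℝ) : G (-d) = G d := by
  unfold G
  congr 1
  funext h
  rw [mul_neg, Real.cos_neg]

theorem G_mul (d : ℝ) : d ^ 3 * G d = 2 * (Real.sin d - d * Real.cos d) := by
  by_cases hd : d = 0
  · simp [hd]
  have h1 : G d = (2 * (Real.sin d - d * Real.cos d)) / d ^ 3 := by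
    unfold G
    have hder : ∀ h ∈ Set.uIcc (0 : ℝ) 1, HasDerivAt
        (fun h : ℝ => (1 - h ^ 2) * Real.sin (h * d) / d - 2 * h * Real.cos (h * d) / d ^ 2 +
          2 * Real.sin (h * d) / d ^ 3) ((1 - h ^ 2) * Real.cos (h * d)) h := by
      intro h _
      have hs : HasDerivAt (fun h : ℝ => Real.sin (h * d)) (Real.cos (h * d) * d) h := by
        have := ((hasDerivAt_id h).mul_const d).sin
        simpa using this
      have hc : HasDerivAt (fun h : ℝ => Real.cos (h * d)) (-Real.sin (h * d) * d) h := by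
        have := ((hasDerivAt_id h).mul_const d).cos
        simpa using this
      have hp : HasDerivAt (fun h : ℝ => 1 - h ^ 2) (-(2 * h)) h := by
        have := ((hasDerivAt_pow 2 h).const_sub 1)
        simpa using this
      have hq : HasDerivAt (fun h : ℝ => 2 * h) 2 h := by
        simpa using (hasDerivAt_id h).const_mul (2 : ℝ)
      have h3 := (((hp.mul hs).div_const d).sub ((hq.mul hc).div_const (d ^ 2))).add
        ((hs.const_mul 2).div_const (d ^ 3))
      refine h3.congr_deriv ?_
      field_simp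
      ring
    rw [intervalIntegral.integral_eq_sub_of_hasDerivAt hder
      ((by fun_prop : Continuous _).intervalIntegrable _ _)]
    field_simp
    simp
    ring
  rw [h1]
  field_simp

theorem coef_eq {a c b : ℝ} (h1 : 0 < a + b) (h2 : a + b < Real.pi) (h3 : 0 < c + b)
    (h4 : c + b < Real.pi) :
    -ics a c b + Real.cot (a + b) * Real.cot (c + b) + 1 =
      -((a - c) ^ 2 / 2 * G (a - c) / (Real.sin (a + b) * Real.sin (c + b))) := by
  have s1 : 0 < Real.sin (a + b) := Real.sin_pos_of_pos_of_lt_pi h1 h2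
  have s2 : 0 < Real.sin (c + b) := Real.sin_pos_of_pos_of_lt_pi h3 h4
  rw [Real.cot_eq_cos_div_sin, Real.cot_eq_cos_div_sin]
  by_cases hac : a = c
  · subst hac
    have : ics a a b = 1 / Real.sin (a + b) ^ 2 := by
      unfold ics
      simp [add_comm]
    rw [this]
    have h5 := Real.sin_sq_add_cos_sq (a + b)
    field_simp
    simp
    linarith
  · have hd : a - c ≠ 0 := sub_ne_zero.2 hac
    have hpos : ∀ t ∈ Set.uIcc (0 : ℝ) 1, 0 < Real.sin (b + c + t * (a - c)) := by
      intro t ht
      rw [Set.uIcc_of_le zero_le_one] at ht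
      have hcx := (convex_Ioo (0 : ℝ) Real.pi) (x := a + b) ⟨h1, h2⟩ (y := c + b) ⟨h3, h4⟩
        ht.1 (sub_nonneg.2 ht.2) (by ring)
      have e0 : b + c + t * (a - c) = t • (a + b) + (1 - t) • (c + b) := by
        simp only [smul_eq_mul]; ring
      rw [e0]
      exact Real.sin_pos_of_pos_of_lt_pi hcx.1 hcx.2
    have hics : ics a c b = Real.sin (a - c) / ((a - c) * (Real.sin (a + b) * Real.sin (c + b))) := by
      unfold ics
      have hder : ∀ t ∈ Set.uIcc (0 : ℝ) 1, HasDerivAt
          (fun t : ℝ => -(Real.cos (b + c + t * (a - c)) / Real.sin (b + c + t * (a - c))) / (a - c))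
          (1 / Real.sin (b + c + t * (a - c)) ^ 2) t := by
        intro t ht
        have hs0 := (hpos t ht).ne'
        have hl : HasDerivAt (fun t : ℝ => b + c + t * (a - c)) (a - c) t := by
          have := ((hasDerivAt_id t).mul_const (a - c)).const_add (b + c)
          simpa using this
        have h6 := ((hl.cos.div hl.sin hs0).neg).div_const (a - c)
        refine h6.congr_deriv ?_
        have h5 := Real.sin_sq_add_cos_sq (b + c + t * (a - c))
        field_simp
        linarith
      have hint : IntervalIntegrable (fun t : ℝ => 1 / Real.sin (b + c + t * (a - c)) ^ 2)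
          volume 0 1 := by
        apply ContinuousOn.intervalIntegrable
        refine ContinuousOn.div (by fun_prop) (by fun_prop) ?_
        intro t ht
        have := hpos t ht
        positivity
      rw [intervalIntegral.integral_eq_sub_of_hasDerivAt hder hint]
      have e1 : b + c + 1 * (a - c) = a + b := by ring
      have e2 : b + c + 0 * (a - c) = c + b := by ring
      rw [e1, e2]
      have e3 : Real.sin (a - c) = Real.sin (a + b) * Real.cos (c + b) -
          Real.cos (a + b) * Real.sin (c + b) := by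
        rw [← Real.sin_sub]
        congr 1
        ring
      rw [e3]
      field_simp
      ring
    rw [hics]
    have hG := G_mul (a - c)
    have e4 : Real.cos (a - c) = Real.cos (a + b) * Real.cos (c + b) +
        Real.sin (a + b) * Real.sin (c + b) := by
      rw [← Real.cos_sub]
      congr 1
      ring
    have e5 : Real.cos (a + b) / Real.sin (a + b) * (Real.cos (c + b) / Real.sin (c + b)) + 1 =
        Real.cos (a - c) / (Real.sin (a + b) * Real.sin (c + b)) := by
      rw [e4]
      field_simp
    have e6 : (a - c) ^ 2 / 2 * G (a - c) = (Real.sin (a - c) - (a - c) * Real.cos (a - c)) / (a - c) := by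
      field_simp
      linarith
    rw [add_assoc, e5, e6]
    field_simp
    ring

theorem rho_comm (x y : ℝ) : rho x y = rho y x := by
  unfold rho
  rw [add_comm, ← G_neg (x - y), neg_sub]

omit [DecidableEq n] in
theorem sum_cyc (F : n → n → n → ℂ) :
    ∑ a, ∑ b, ∑ c, F a b c = ∑ a, ∑ b, ∑ c, F b c a := by
  rw [Finset.sum_comm]
  have : ∀ b, ∑ a, ∑ c, F a b c = ∑ c, ∑ a, F a b c := fun b => Finset.sum_comm
  simp only [this]
  rw [Finset.sum_comm]
  -- now `∑ c, ∑ b, ∑ a, F a b c`
  refine Finset.sum_congr rfl fun a _ => ?_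
  rw [Finset.sum_comm]

theorem exact_ineq (x : n → ℝ) (hx : ∀ i, 0 < x i ∧ x i < Real.pi / 2) (Z : Matrix n n ℂ)
    (hZ : Z.PosSemidef) :
    (∑ i, ∑ j, ∑ l, ((-ics (x i) (x l) (x j) +
        Real.cot (x i + x j) * Real.cot (x l + x j) + 1 : ℝ) : ℂ) *
      (Z j i * Z i l * Z l j)).re ≤ 0 := by
  set s : n → n → ℝ := fun i j => Real.sin (x i + x j) with hs
  have hs0 : ∀ i j, (s i j : ℂ) ≠ 0 := by
    intro i j
    have : 0 < s i j := Real.sin_pos_of_pos_of_lt_pi (by linarith [(hx i).1, (hx j).1])
      (by linarith [(hx i).2, (hx j).2])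
    exact_mod_cast this.ne'
  have hsc : ∀ i j, s i j = s j i := fun i j => by simp only [hs, add_comm]
  set Y : n → n → ℂ := fun i j => Z i j / (s i j : ℂ) with hY
  set r : n → n → ℝ := fun i j => rho (x i) (x j) with hr
  have hrc : ∀ i j, r i j = r j i := fun i j => rho_comm _ _
  set T : n → n → n → ℂ := fun k i l => Y k i * Y i l * Y l k with hT
  have hTc : ∀ k i l, T k i l = T i l k := fun k i l => by simp only [hT]; ring
  -- the terms
  have hterm : ∀ i j l, ((-ics (x i) (x l) (x j) +
        Real.cot (x i + x j) * Real.cot (x l + x j) + 1 : ℝ) : ℂ) *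
      (Z j i * Z i l * Z l j) =
      -(1 / 2) * (((x i - x l) ^ 2 * r i l : ℝ) * T j i l) := by
    intro i j l
    rw [coef_eq (by linarith [(hx i).1, (hx j).1]) (by linarith [(hx i).2, (hx j).2])
      (by linarith [(hx l).1, (hx j).1]) (by linarith [(hx l).2, (hx j).2])]
    have e1 : r i l = s i l * G (x i - x l) := rfl
    have e2 : Real.sin (x i + x j) = s j i := by rw [hsc]
    have e3 : Real.sin (x l + x j) = s l j := rfl
    rw [e1, e2, e3]
    simp only [hT, hY]
    have n1 := hs0 j i
    have n2 := hs0 l j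
    have n3 := hs0 i l
    push_cast
    field_simp
  have hsum : ∑ i, ∑ j, ∑ l, (((x i - x l) ^ 2 * r i l : ℝ) * T j i l : ℂ) =
      ∑ k, ∑ i, ∑ l, (((x k - x i) * (x k - x l) * (r k i + r k l) : ℝ) * T k i l : ℂ) := by
    rw [Finset.sum_comm]
    have h1 : ∑ k, ∑ i, ∑ l, (((x k - x i) * (x k - x l) * (r k i + r k l) : ℝ) * T k i l : ℂ) =
        ∑ k, ∑ i, ∑ l, (((x k - x i) * (x k - x l) * r k i : ℝ) * T k i l : ℂ) +
        ∑ k, ∑ i, ∑ l, (((x k - x i) * (x k - x l) * r k l : ℝ) * T k i l : ℂ) := by
      simp only [← Finset.sum_add_distrib]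
      refine Finset.sum_congr rfl fun k _ => Finset.sum_congr rfl fun i _ =>
        Finset.sum_congr rfl fun l _ => ?_
      push_cast
      ring
    rw [h1, sum_cyc (fun k i l => (((x k - x i) * (x k - x l) * r k i : ℝ) * T k i l : ℂ)),
      sum_cyc (fun k i l => (((x k - x i) * (x k - x l) * r k l : ℝ) * T k i l : ℂ)),
      sum_cyc (fun a b c => (((x b - x c) * (x b - x a) * r b a : ℝ) * T b c a : ℂ))]
    simp only [← Finset.sum_add_distrib]
    refine Finset.sum_congr rfl fun j _ => Finset.sum_congr rfl fun i _ =>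
      Finset.sum_congr rfl fun l _ => ?_
    rw [← hTc j i l, hTc l j i, hrc l i]
    push_cast
    ring
  have hpsd : ∀ k, 0 ≤ (∑ i, ∑ l,
      (((x k - x i) * (x k - x l) * (r k i + r k l) : ℝ) * T k i l : ℂ)).re := by
    intro k
    have h1 := (kwong (x k) (hx k).1.le (hx k).2.le x hx).hadamard hZ
    set w : n → ℂ := fun l => ((x k - x l : ℝ) : ℂ) * Y l k with hw
    have h2 := h1.dotProduct_mulVec_nonneg w
    have h3 : star w ⬝ᵥ (((Matrix.of fun i j =>
        (((rho (x k) (x i) + rho (x k) (x j)) / Real.sin (x i + x j) : ℝ) : ℂ)) ⊙ Z) *ᵥ w) =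
        ∑ i, ∑ l, (((x k - x i) * (x k - x l) * (r k i + r k l) : ℝ) * T k i l : ℂ) := by
      simp only [dotProduct, mulVec, Finset.mul_sum]
      refine Finset.sum_congr rfl fun i _ => Finset.sum_congr rfl fun l _ => ?_
      have hZh : star (Z i k) = Z k i := by
        have := congrFun (congrFun hZ.1 k) i
        simpa using this
      have hYh : star (Y i k) = Y k i := by
        simp only [hY]
        rw [star_div₀, hZh, hsc i k]
        simp
      have e1 : star (w i) = ((x k - x i : ℝ) : ℂ) * Y k i := by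
        simp only [hw]
        rw [star_mul', hYh]
        simp
      rw [Pi.star_apply, e1]
      simp only [Matrix.hadamard_apply, Matrix.of_apply, hw, hT]
      have e2 : (((rho (x k) (x i) + rho (x k) (x l)) / Real.sin (x i + x l) : ℝ) : ℂ) * Z i l =
          ((r k i + r k l : ℝ) : ℂ) * Y i l := by
        simp only [hY, hr, hs]
        push_cast
        ring
      rw [e2]
      push_cast
      ring
    rw [h3] at h2
    exact (Complex.nonneg_iff.1 h2).1
  have hfin : ∑ i, ∑ j, ∑ l, ((-ics (x i) (x l) (x j) +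
        Real.cot (x i + x j) * Real.cot (x l + x j) + 1 : ℝ) : ℂ) *
      (Z j i * Z i l * Z l j) = -(1 / 2) *
      ∑ k, ∑ i, ∑ l, (((x k - x i) * (x k - x l) * (r k i + r k l) : ℝ) * T k i l : ℂ) := by
    rw [← hsum]
    simp only [Finset.mul_sum, hterm]
  rw [hfin]
  have h4 : 0 ≤ (∑ k, ∑ i, ∑ l,
      (((x k - x i) * (x k - x l) * (r k i + r k l) : ℝ) * T k i l : ℂ)).re := by
    rw [Complex.re_sum]
    exact Finset.sum_nonneg fun k _ => hpsd k
  have h5 : ∀ z : ℂ, (-(1 / 2) * z).re = -(1 / 2) * z.re := by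
    intro z
    have : (-(1 / 2) : ℂ) = ((-(1 / 2) : ℝ) : ℂ) := by push_cast; ring
    rw [this, Complex.re_ofReal_mul]
  rw [h5]
  linarith

end Vale.Agent.P371
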