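import Vale.Agent.P371.Diag
import Vale.Agent.P371.Trig
import Vale.Agent.P371.Approx

/-!
# P371 [POINT]: the pointwise matrix inequality
-/

open MeasureTheory Matrix Finset
open scoped ComplexOrder

namespace Vale.Agent.P371
variable {n : Type*} [Fintype n] [DecidableEq n]

set_option linter.unusedSectionVars false

/-! ### trace bounds -/

theorem exists_eig (Z : Matrix n n ℂ) (hZ : Z.PosSemidef) :
    ∃ z : n → ℝ, (∀ i, 0 ≤ z i) ∧ trace (Z * Z) = ((∑ i, z i ^ 2 : ℝ) : ℂ) ∧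
      trace (Z * Z * Z) = ((∑ i, z i ^ 3 : ℝ) : ℂ) := by
  obtain ⟨U, hU', hU, hM⟩ := DiagAux.exists_diag Z hZ.isHermitian
  have hnn := hZ.eigenvalues_nonneg
  generalize hZ.isHermitian.eigenvalues = z at hM hnn
  refine ⟨z, hnn, ?_, ?_⟩
  · rw [hM, DiagAux.conj_mul hU, DiagAux.trace_conj hU, diagonal_mul_diagonal, trace_diagonal]
    push_cast
    exact Finset.sum_congr rfl fun i _ => by ring
  · rw [hM, DiagAux.conj_mul hU, DiagAux.conj_mul hU, DiagAux.trace_conj hU,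
      diagonal_mul_diagonal, diagonal_mul_diagonal, trace_diagonal]
    push_cast
    exact Finset.sum_congr rfl fun i _ => by ring

theorem entry_bound (Z : Matrix n n ℂ) (hZ : Z.IsHermitian) (i j : n) :
    ‖Z i j‖ ^ 2 ≤ (trace (Z * Z)).re := by
  have h : (trace (Z * Z)).re = ∑ i, ∑ j, ‖Z i j‖ ^ 2 := by
    unfold trace
    rw [Complex.re_sum]
    refine Finset.sum_congr rfl fun a _ => ?_
    rw [diag_apply, mul_apply, Complex.re_sum]
    refine Finset.sum_congr rfl fun b _ => ?_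
    have : Z b a = star (Z a b) := by
      conv_lhs => rw [← hZ]
      rfl
    rw [this, ← Complex.normSq_eq_norm_sq]
    simp [Complex.mul_conj]
  rw [h]
  calc ‖Z i j‖ ^ 2 ≤ ∑ j, ‖Z i j‖ ^ 2 :=
        Finset.single_le_sum (f := fun j => ‖Z i j‖ ^ 2) (fun _ _ => by positivity) (mem_univ j)
    _ ≤ _ := Finset.single_le_sum (f := fun i => ∑ j, ‖Z i j‖ ^ 2)
        (fun _ _ => by positivity) (mem_univ i)

theorem cube_bound (N : ℕ) (Z : Matrix (Fin N) (Fin N) ℂ) (hZ : Z.PosSemidef) :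
    ∑ i, ∑ j, ∑ l, ‖Z j i‖ * ‖Z i l‖ * ‖Z l j‖ ≤ (N : ℝ) ^ 5 * (trace (Z * Z * Z)).re := by
  obtain ⟨z, hz, h2, h3⟩ := exists_eig Z hZ
  rw [h3, Complex.ofReal_re]
  set T := ∑ i, z i with hT
  have hT0 : 0 ≤ T := Finset.sum_nonneg fun i _ => hz i
  have hb : ∀ i j, ‖Z i j‖ ≤ T := by
    intro i j
    have h := entry_bound Z hZ.isHermitian i j
    rw [h2, Complex.ofReal_re] at h
    have h' : ∑ i, z i ^ 2 ≤ T ^ 2 := by
      calc ∑ i, z i ^ 2 ≤ ∑ i, z i * T := by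
            refine Finset.sum_le_sum fun i _ => ?_
            rw [sq]
            exact mul_le_mul_of_nonneg_left
              (Finset.single_le_sum (f := z) (fun i _ => hz i) (mem_univ i)) (hz i)
        _ = T ^ 2 := by rw [← Finset.sum_mul, sq]
    exact (sq_le_sq₀ (norm_nonneg _) hT0).1 (h.trans h')
  have hc : T ^ 3 ≤ (N : ℝ) ^ 2 * ∑ i, z i ^ 3 := by
    rcases Nat.eq_zero_or_pos N with h0 | h0
    · subst h0
      simp [hT]
    · have := pow_sum_div_card_le_sum_pow (s := (univ : Finset (Fin N))) (f := z)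
        (fun i _ => hz i) 2
      rw [Finset.card_univ, Fintype.card_fin, div_le_iff₀ (by positivity)] at this
      rw [hT]
      norm_num at this
      linarith
  calc ∑ i, ∑ j, ∑ l, ‖Z j i‖ * ‖Z i l‖ * ‖Z l j‖ ≤ ∑ _i : Fin N, ∑ _j : Fin N, ∑ _l : Fin N, T * T * T := by
        refine Finset.sum_le_sum fun i _ => Finset.sum_le_sum fun j _ => Finset.sum_le_sum fun l _ => ?_
        gcongr <;> exact hb _ _
    _ = (N : ℝ) ^ 3 * T ^ 3 := by
        simp
        ring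
    _ ≤ (N : ℝ) ^ 3 * ((N : ℝ) ^ 2 * ∑ i, z i ^ 3) := by gcongr
    _ = (N : ℝ) ^ 5 * ∑ i, z i ^ 3 := by ring

/-! ### choice of the parameters -/

theorem exists_a (c : ℝ) (hc : c < Real.pi ^ 2 / 4) :
    ∃ a : ℝ, 0 < a ∧ a < Real.pi / 2 ∧ c < a ^ 2 := by
  have hp := Real.pi_pos
  have h1 : max c 0 < Real.pi ^ 2 / 4 := max_lt hc (by positivity)
  have h0 : 0 ≤ max c 0 := le_max_right _ _
  refine ⟨Real.sqrt ((max c 0 + Real.pi ^ 2 / 4) / 2), ?_, ?_, ?_⟩
  · exact Real.sqrt_pos.2 (by linarith [sq_nonneg Real.pi])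
  · rw [Real.sqrt_lt' (by positivity)]
    nlinarith
  · rw [Real.sq_sqrt (by linarith)]
    have := le_max_left c 0
    linarith

theorem sin_pos_aux {a ε s : ℝ} (ha : 0 < a) (hε : 0 < ε) (h : a * (2 + ε) < Real.pi)
    (hs0 : 0 ≤ s) (hs : s ≤ 2) : 0 < Real.sin (a * (s + ε)) := by
  apply Real.sin_pos_of_pos_of_lt_pi
  · positivity
  · have : a * (s + ε) ≤ a * (2 + ε) := by gcongr
    linarith

theorem cot_bound (a ε : ℝ) (ha : 0 < a) (hε : 0 < ε) (h : a * (2 + ε) < Real.pi) :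
    ∃ A : ℝ, 0 ≤ A ∧ ∀ s ∈ Set.Icc (0:ℝ) 2, |a * Real.cot (a * (s + ε))| ≤ A := by
  have hcont : ContinuousOn (fun s : ℝ => a * Real.cot (a * (s + ε))) (Set.Icc 0 2) := by
    have : (fun s : ℝ => a * Real.cot (a * (s + ε))) =
        fun s => a * (Real.cos (a * (s + ε)) / Real.sin (a * (s + ε))) := by
      funext s
      rw [Real.cot_eq_cos_div_sin]
    rw [this]
    refine ContinuousOn.mul continuousOn_const (ContinuousOn.div (by fun_prop) (by fun_prop) ?_)
    intro s hs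
    exact (sin_pos_aux ha hε h hs.1 hs.2).ne'
  obtain ⟨A, hA⟩ := isCompact_Icc.exists_bound_of_continuousOn hcont
  exact ⟨|A|, abs_nonneg _, fun s hs => (hA s hs).trans (le_abs_self A)⟩

theorem dd_close {a ε δ : ℝ} (ha : 0 < a) (hε : 0 < ε) (h : a * (2 + ε) < Real.pi)
    (f : Polynomial ℝ)
    (hf : ∀ s ∈ Set.Icc (0:ℝ) 2,
      |(Polynomial.derivative f).eval s - (-(a ^ 2 / Real.sin (a * (s + ε)) ^ 2))| ≤ δ)
    {p q r : ℝ} (hp : 0 ≤ p ∧ p ≤ 1) (hq : 0 ≤ q ∧ q ≤ 1) (hr : 0 ≤ r ∧ r ≤ 1) :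
    |dd f p q r - (-(a ^ 2 * ics (a * (p + ε / 2)) (a * (q + ε / 2)) (a * (r + ε / 2))))| ≤ δ := by
  have hmem : ∀ t ∈ Set.Icc (0:ℝ) 1, r + q + t * (p - q) ∈ Set.Icc (0:ℝ) 2 := by
    intro t ht
    have h1 : 0 ≤ t * p := mul_nonneg ht.1 hp.1
    have h2 : t * p ≤ p := mul_le_of_le_one_left hp.1 ht.2
    have h3 : 0 ≤ (1 - t) * q := mul_nonneg (by linarith [ht.2]) hq.1
    have h4 : t * p ≤ t := mul_le_of_le_one_right ht.1 hp.2
    have h5 : (1 - t) * q ≤ 1 - t := mul_le_of_le_one_right (by linarith [ht.2]) hq.2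
    constructor <;> nlinarith
  have harg : ∀ t : ℝ, a * (r + ε / 2) + a * (q + ε / 2) + t * (a * (p + ε / 2) - a * (q + ε / 2)) =
      a * ((r + q + t * (p - q)) + ε) := by
    intro t
    ring
  have e : dd f p q r - (-(a ^ 2 * ics (a * (p + ε / 2)) (a * (q + ε / 2)) (a * (r + ε / 2)))) =
      ∫ t in (0:ℝ)..1, ((Polynomial.derivative f).eval (r + q + t * (p - q)) -
        (-(a ^ 2 / Real.sin (a * ((r + q + t * (p - q)) + ε)) ^ 2))) := by
    unfold dd ics
    rw [intervalIntegral.integral_sub, intervalIntegral.integral_neg,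
      ← intervalIntegral.integral_const_mul]
    · congr 2
      refine intervalIntegral.integral_congr fun t _ => ?_
      simp only [harg]
      ring
    · exact (by fun_prop : Continuous fun t : ℝ =>
        (Polynomial.derivative f).eval (r + q + t * (p - q))).intervalIntegrable _ _
    · apply ContinuousOn.intervalIntegrable
      rw [Set.uIcc_of_le (by norm_num : (0:ℝ) ≤ 1)]
      refine ContinuousOn.neg (ContinuousOn.div (by fun_prop) (by fun_prop) ?_)
      intro t ht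
      have := hmem t ht
      exact pow_ne_zero 2 (sin_pos_aux ha hε h this.1 this.2).ne'
  rw [e]
  have := intervalIntegral.norm_integral_le_of_norm_le_const (a := (0:ℝ)) (b := 1) (C := δ)
    (f := fun t => (Polynomial.derivative f).eval (r + q + t * (p - q)) -
        (-(a ^ 2 / Real.sin (a * ((r + q + t * (p - q)) + ε)) ^ 2))) (fun t ht => by
      rw [Set.uIoc_of_le (by norm_num : (0:ℝ) ≤ 1)] at ht
      exact hf _ (hmem t ⟨ht.1.le, ht.2⟩))
  simpa using this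

theorem prod_close {u v u' v' A δ : ℝ} (hu : |u - u'| ≤ δ) (hv : |v - v'| ≤ δ) (hu' : |u'| ≤ A)
    (hv' : |v'| ≤ A) (hδ0 : 0 ≤ δ) (hδ : δ ≤ 1) : |u * v - u' * v'| ≤ δ * (2 * A + 1) := by
  have e : u * v - u' * v' = (u - u') * (v - v') + (u - u') * v' + u' * (v - v') := by ring
  rw [e]
  have hA : 0 ≤ A := (abs_nonneg _).trans hu'
  calc |(u - u') * (v - v') + (u - u') * v' + u' * (v - v')|
      ≤ |(u - u') * (v - v')| + |(u - u') * v'| + |u' * (v - v')| := by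
        exact (abs_add_le _ _).trans (add_le_add_left (abs_add_le _ _) _)
    _ = |u - u'| * |v - v'| + |u - u'| * |v'| + |u'| * |v - v'| := by
        rw [abs_mul, abs_mul, abs_mul]
    _ ≤ δ * 1 + δ * A + A * δ := by
        gcongr
        exact hv.trans hδ
    _ = δ * (2 * A + 1) := by ring

theorem pointwise (N : ℕ) (c : ℝ) (hc : c < Real.pi ^ 2 / 4) :
    ∃ f : Polynomial ℝ, ∀ (M X : Matrix (Fin N) (Fin N) ℂ), M.PosSemidef → (1 - M).PosSemidef →
      X.PosSemidef →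
      (1 / 2) * (trace (X * dTf f M X X)).re + (trace (Tf f M X * X * Tf f M X)).re +
        c * (trace (X * X * X)).re ≤ 0 := by
  obtain ⟨a, ha, ha2, hca⟩ := exists_a c hc
  have hp := Real.pi_pos
  obtain ⟨ε, hε, hε2⟩ : ∃ ε : ℝ, 0 < ε ∧ a * (2 + ε) < Real.pi := by
    refine ⟨(Real.pi - 2 * a) / (2 * a), by apply div_pos <;> linarith, ?_⟩
    have : a * (2 + (Real.pi - 2 * a) / (2 * a)) = (Real.pi + 2 * a) / 2 := by
      field_simp
      ring
    rw [this]
    linarith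
  obtain ⟨A, hA0, hA⟩ := cot_bound a ε ha hε hε2
  set η := a ^ 2 - c with hη
  have hη0 : 0 < η := by rw [hη]; linarith
  obtain ⟨δ, hδ0, hδ1, hδ2⟩ : ∃ δ : ℝ, 0 < δ ∧ δ ≤ 1 ∧ δ * (2 * A + 2) * (N : ℝ) ^ 5 ≤ η := by
    refine ⟨min 1 (η / ((2 * A + 2) * ((N : ℝ) ^ 5 + 1))), lt_min one_pos (by positivity),
      min_le_left _ _, ?_⟩
    calc min 1 (η / ((2 * A + 2) * ((N : ℝ) ^ 5 + 1))) * (2 * A + 2) * (N : ℝ) ^ 5
        ≤ (η / ((2 * A + 2) * ((N : ℝ) ^ 5 + 1))) * (2 * A + 2) * ((N : ℝ) ^ 5 + 1) := by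
          gcongr
          · exact min_le_right _ _
          · linarith
      _ = η := by field_simp
  obtain ⟨f, hf⟩ := exists_poly a ε δ ha hε hε2 hδ0
  refine ⟨f, fun M X hM hM1 hX => ?_⟩
  obtain ⟨d, Z, hd0, hd1, hZ, h3, hdT, hT⟩ := diag_tr f M X hM hM1 hX
  have hx : ∀ i, 0 < a * (d i + ε / 2) ∧ a * (d i + ε / 2) < Real.pi / 2 := by
    intro i
    have h0 := hd0 i
    have h1 := hd1 i
    constructor
    · positivity
    · have : a * (d i + ε / 2) ≤ a * (1 + ε / 2) := by gcongr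
      nlinarith
  have hex := exact_ineq (fun i => a * (d i + ε / 2)) hx Z hZ
  have hcb := cube_bound N Z hZ
  have h3' : trace (Z * Z * Z) = ∑ i, ∑ j, ∑ l, Z j i * Z i l * Z l j := by
    unfold trace
    simp only [diag_apply, mul_apply, Finset.sum_mul]
    conv_rhs => rw [Finset.sum_comm]
    refine Finset.sum_congr rfl fun j _ => ?_
    rw [Finset.sum_comm]
  obtain ⟨z, hz, -, hz3⟩ := exists_eig Z hZ
  have htr : 0 ≤ (trace (Z * Z * Z)).re := by
    rw [hz3, Complex.ofReal_re]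
    exact Finset.sum_nonneg fun i _ => pow_nonneg (hz i) 3
  set y : Fin N → ℝ := fun i => a * (d i + ε / 2) with hy
  have hsum : ∀ i j, 0 ≤ d i + d j ∧ d i + d j ≤ 2 := fun i j =>
    ⟨add_nonneg (hd0 i) (hd0 j), by linarith [hd1 i, hd1 j]⟩
  have hcot : ∀ i j, a * Real.cot (y i + y j) = a * Real.cot (a * ((d i + d j) + ε)) := by
    intro i j
    congr 2
    rw [hy]
    ring
  set e : Fin N → Fin N → Fin N → ℝ := fun i j l =>
    (dd f (d i) (d l) (d j) + f.eval (d i + d j) * f.eval (d l + d j) + c) -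
      (a ^ 2 * (-ics (y i) (y l) (y j) + Real.cot (y i + y j) * Real.cot (y l + y j) + 1) - η)
    with he
  have heb : ∀ i j l, |e i j l| ≤ δ * (2 * A + 2) := by
    intro i j l
    have h1 := dd_close ha hε hε2 f (fun s hs => (hf s hs).2) ⟨hd0 i, hd1 i⟩ ⟨hd0 l, hd1 l⟩
      ⟨hd0 j, hd1 j⟩
    have h2 : |f.eval (d i + d j) * f.eval (d l + d j) -
        (a * Real.cot (y i + y j)) * (a * Real.cot (y l + y j))| ≤ δ * (2 * A + 1) := by
      rw [hcot, hcot]
      exact prod_close (hf _ (hsum i j)).1 (hf _ (hsum l j)).1 (hA _ (hsum i j)) (hA _ (hsum l j))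
        hδ0.le hδ1
    have h3 : e i j l = (dd f (d i) (d l) (d j) - (-(a ^ 2 * ics (y i) (y l) (y j)))) +
        (f.eval (d i + d j) * f.eval (d l + d j) -
          (a * Real.cot (y i + y j)) * (a * Real.cot (y l + y j))) := by
      rw [he]
      simp only [hη]
      ring
    rw [h3]
    calc _ ≤ δ + δ * (2 * A + 1) := (abs_add_le _ _).trans (add_le_add h1 h2)
      _ = δ * (2 * A + 2) := by ring
  have hre : ∀ g : Fin N → Fin N → Fin N → ℝ,
      (∑ i, ∑ j, ∑ l, ((g i j l : ℝ) : ℂ) * (Z j i * Z i l * Z l j)).re =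
        ∑ i, ∑ j, ∑ l, g i j l * (Z j i * Z i l * Z l j).re := by
    intro g
    simp only [Complex.re_sum, Complex.re_ofReal_mul]
  have hre1 : (∑ i, ∑ j, ∑ l, Z j i * Z i l * Z l j).re =
        ∑ i, ∑ j, ∑ l, (Z j i * Z i l * Z l j).re := by
    simp only [Complex.re_sum]
  have hkey : (1 / 2) * (trace (X * dTf f M X X)).re + (trace (Tf f M X * X * Tf f M X)).re +
        c * (trace (X * X * X)).re =
      a ^ 2 * (∑ i, ∑ j, ∑ l, ((-ics (y i) (y l) (y j) +
        Real.cot (y i + y j) * Real.cot (y l + y j) + 1 : ℝ) : ℂ) *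
        (Z j i * Z i l * Z l j)).re +
      (∑ i, ∑ j, ∑ l, ((e i j l : ℝ) : ℂ) * (Z j i * Z i l * Z l j)).re -
      η * (trace (Z * Z * Z)).re := by
    rw [hdT, hT, h3, h3', hre (fun i j l => f.eval (d i + d j) * f.eval (d l + d j)),
      hre e, hre (fun i j l => -ics (y i) (y l) (y j) + Real.cot (y i + y j) * Real.cot (y l + y j) + 1),
      hre1]
    have h2 : (2 * ∑ i, ∑ j, ∑ l, ((dd f (d i) (d l) (d j) : ℝ) : ℂ) *
        (Z j i * Z i l * Z l j)).re =
        2 * ∑ i, ∑ j, ∑ l, dd f (d i) (d l) (d j) * (Z j i * Z i l * Z l j).re := by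
      rw [← hre (fun i j l => dd f (d i) (d l) (d j))]
      simp
    rw [h2]
    simp only [Finset.mul_sum, ← Finset.sum_add_distrib, ← Finset.sum_sub_distrib]
    refine Finset.sum_congr rfl fun i _ => Finset.sum_congr rfl fun j _ =>
      Finset.sum_congr rfl fun l _ => ?_
    simp only [he, hη]
    ring
  rw [hkey]
  have h5 : (∑ i, ∑ j, ∑ l, ((e i j l : ℝ) : ℂ) * (Z j i * Z i l * Z l j)).re ≤
      η * (trace (Z * Z * Z)).re := by
    calc (∑ i, ∑ j, ∑ l, ((e i j l : ℝ) : ℂ) * (Z j i * Z i l * Z l j)).re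
        ≤ ‖∑ i, ∑ j, ∑ l, ((e i j l : ℝ) : ℂ) * (Z j i * Z i l * Z l j)‖ := Complex.re_le_norm _
      _ ≤ ∑ i, ∑ j, ∑ l, δ * (2 * A + 2) * (‖Z j i‖ * ‖Z i l‖ * ‖Z l j‖) := by
          refine (norm_sum_le _ _).trans (Finset.sum_le_sum fun i _ => ?_)
          refine (norm_sum_le _ _).trans (Finset.sum_le_sum fun j _ => ?_)
          refine (norm_sum_le _ _).trans (Finset.sum_le_sum fun l _ => ?_)
          rw [norm_mul, norm_mul, norm_mul, Complex.norm_real, Real.norm_eq_abs]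
          exact mul_le_mul_of_nonneg_right (heb i j l) (by positivity)
      _ = δ * (2 * A + 2) * ∑ i, ∑ j, ∑ l, (‖Z j i‖ * ‖Z i l‖ * ‖Z l j‖) := by
          simp only [Finset.mul_sum]
      _ ≤ δ * (2 * A + 2) * ((N : ℝ) ^ 5 * (trace (Z * Z * Z)).re) := by
          exact mul_le_mul_of_nonneg_left hcb (by positivity)
      _ = (δ * (2 * A + 2) * (N : ℝ) ^ 5) * (trace (Z * Z * Z)).re := by ring
      _ ≤ η * (trace (Z * Z * Z)).re := mul_le_mul_of_nonneg_right hδ2 htr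
  have h6 := mul_nonpos_of_nonneg_of_nonpos (sq_nonneg a) hex
  linarith

end Vale.Agent.P371
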