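import Vale.Agent.P371.KinCore
import Vale.Agent.P371.Point

/-!
# P371 [KIN]: the kinetic inequality
-/

open MeasureTheory Matrix Finset
open scoped ComplexOrder ENNReal

namespace Vale.Agent.P371

/-- the kinetic (dual) Lieb-Thirring inequality with the sharp constant -/
theorem kinetic {m N : ℕ} (u du : Fin N → ℝ → Fin m → ℂ) (hu : ∀ j, IsH1 (u j) (du j))
    (hon : ∀ j k, ∫ x, ip (u j x) (u k x) = if j = k then 1 else 0) :
    Integrable (fun x => (trace (gram u x * gram u x * gram u x)).re) ∧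
    Integrable (fun x => ∑ j, ∑ a, ‖du j x a‖ ^ 2) ∧
    Real.pi ^ 2 / 4 * (∫ x, (trace (gram u x * gram u x * gram u x)).re) ≤
      ∫ x, ∑ j, ∑ a, ‖du j x a‖ ^ 2 :=
  kinetic_of pointwise u du hu hon

end Vale.Agent.P371
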