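import Vale.Agent.P371.Basic

/-!
# P371 [PSD]: the Kwong-type kernel lemma
-/

open MeasureTheory Matrix Finset Filter
open scoped ComplexOrder Topology

namespace Vale.Agent.P371

variable {n : Type*} [Fintype n] [DecidableEq n]

/-- real positive semidefinite kernels on a finite set -/
def RP (k : n → n → ℝ) : Prop :=
  (∀ i j, k i j = k j i) ∧ ∀ v : n → ℝ, 0 ≤ ∑ i, ∑ j, v i * k i j * v j

namespace RP

omit [DecidableEq n] in
theorem toReal {k : n → n → ℝ} (h : RP k) : (Matrix.of k : Matrix n n ℝ).PosSemidef := by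
  rw [posSemidef_iff_dotProduct_mulVec]
  refine ⟨?_, fun v => ?_⟩
  · ext i j
    simp [h.1 j i]
  · have := h.2 v
    simpa [dotProduct, mulVec, Finset.mul_sum, mul_assoc] using this

omit [DecidableEq n] in
theorem ofReal {k : n → n → ℝ} (h : (Matrix.of k : Matrix n n ℝ).PosSemidef) : RP k := by
  rw [posSemidef_iff_dotProduct_mulVec] at h
  refine ⟨fun i j => ?_, fun v => ?_⟩
  · have := congrFun (congrFun h.1 j) i
    simpa using this
  · have := h.2 v
    simpa [dotProduct, mulVec, Finset.mul_sum, mul_assoc] using this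

omit [DecidableEq n] in
theorem mul {k l : n → n → ℝ} (hk : RP k) (hl : RP l) : RP fun i j => k i j * l i j := by
  have := hk.toReal.hadamard hl.toReal
  exact ofReal this

omit [DecidableEq n] in
theorem add {k l : n → n → ℝ} (hk : RP k) (hl : RP l) : RP fun i j => k i j + l i j := by
  refine ⟨fun i j => by simp only [hk.1 i j, hl.1 i j], fun v => ?_⟩
  have h := add_nonneg (hk.2 v) (hl.2 v)
  rw [← Finset.sum_add_distrib] at h
  refine h.trans_eq (Finset.sum_congr rfl fun i _ => ?_)
  rw [← Finset.sum_add_distrib]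
  exact Finset.sum_congr rfl fun j _ => by ring

omit [DecidableEq n] in
theorem smul {k : n → n → ℝ} (hk : RP k) {r : ℝ} (hr : 0 ≤ r) : RP fun i j => r * k i j := by
  refine ⟨fun i j => by simp only [hk.1 i j], fun v => ?_⟩
  have h := mul_nonneg hr (hk.2 v)
  rw [Finset.mul_sum] at h
  refine h.trans_eq (Finset.sum_congr rfl fun i _ => ?_)
  rw [Finset.mul_sum]
  exact Finset.sum_congr rfl fun j _ => by ring

omit [DecidableEq n] in
theorem rank_one (f : n → ℝ) : RP fun i j => f i * f j := by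
  refine ⟨fun i j => mul_comm _ _, fun v => ?_⟩
  have h : ∑ i, ∑ j, v i * (f i * f j) * v j = (∑ i, v i * f i) ^ 2 := by
    rw [sq, Finset.sum_mul_sum]
    exact Finset.sum_congr rfl fun i _ => Finset.sum_congr rfl fun j _ => by ring
  rw [h]
  positivity

omit [DecidableEq n] in
theorem const {r : ℝ} (hr : 0 ≤ r) : RP fun _ _ : n => r := by
  have := (rank_one (fun _ : n => (1 : ℝ))).smul hr
  simpa using this

omit [DecidableEq n] in
theorem congr {k l : n → n → ℝ} (hk : RP k) (h : ∀ i j, k i j = l i j) : RP l := by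
  have : k = l := by
    funext i j
    exact h i j
  rwa [← this]

omit [DecidableEq n] in
theorem lim {k : ℕ → n → n → ℝ} {l : n → n → ℝ} (hk : ∀ N, RP (k N))
    (h : ∀ i j, Tendsto (fun N => k N i j) atTop (𝓝 (l i j))) : RP l := by
  refine ⟨fun i j => ?_, fun v => ?_⟩
  · refine tendsto_nhds_unique (h i j) ?_
    have := h j i
    refine this.congr fun N => ?_
    exact (hk N).1 j i
  · have h1 : Tendsto (fun N => ∑ i, ∑ j, v i * k N i j * v j) atTop
        (𝓝 (∑ i, ∑ j, v i * l i j * v j)) :=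
      tendsto_finsetSum _ fun i _ => tendsto_finsetSum _ fun j _ =>
        ((h i j).const_mul _).mul_const _
    exact ge_of_tendsto' h1 fun N => (hk N).2 v

omit [DecidableEq n] in
theorem prod {k : ℕ → n → n → ℝ} (hk : ∀ m, RP (k m)) (N : ℕ) :
    RP fun i j => ∏ m ∈ range N, k m i j := by
  induction N with
  | zero => simpa using const (n := n) (zero_le_one)
  | succ N ih =>
    refine (ih.mul (hk N)).congr fun i j => ?_
    rw [Finset.prod_range_succ]

omit [DecidableEq n] in
theorem integral {k : ℝ → n → n → ℝ} (hc : ∀ i j, Continuous fun h => k h i j)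
    (hk : ∀ h, 0 < h → h < 1 → RP (k h)) : RP fun i j => ∫ h in (0 : ℝ)..1, k h i j := by
  have hrw : ∀ f : ℝ → ℝ, ∫ h in (0 : ℝ)..1, f h = ∫ h in Set.Ioo (0 : ℝ) 1, f h := by
    intro f
    rw [intervalIntegral.integral_of_le zero_le_one, integral_Ioc_eq_integral_Ioo]
  have hi : ∀ i j, IntegrableOn (fun h => k h i j) (Set.Ioo (0 : ℝ) 1) := fun i j =>
    ((hc i j).integrableOn_Icc (a := 0) (b := 1)).mono_set Set.Ioo_subset_Icc_self
  refine ⟨fun i j => ?_, fun v => ?_⟩
  · simp only [hrw]
    refine setIntegral_congr_fun measurableSet_Ioo fun h hh => ?_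
    exact (hk h hh.1 hh.2).1 i j
  · have h1 : ∑ i, ∑ j, v i * (∫ h in (0 : ℝ)..1, k h i j) * v j =
        ∫ h in Set.Ioo (0 : ℝ) 1, ∑ i, ∑ j, v i * k h i j * v j := by
      rw [integral_finsetSum _ fun i _ => integrable_finsetSum _ fun j _ =>
        ((hi i j).const_mul _).mul_const _]
      refine Finset.sum_congr rfl fun i _ => ?_
      rw [integral_finsetSum _ fun j _ => ((hi i j).const_mul _).mul_const _]
      refine Finset.sum_congr rfl fun j _ => ?_
      rw [hrw, integral_mul_const, integral_const_mul]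
    rw [h1]
    exact setIntegral_nonneg measurableSet_Ioo fun h hh => (hk h hh.1 hh.2).2 v

omit [DecidableEq n] in
theorem toComplex {k : n → n → ℝ} (h : RP k) :
    (Matrix.of fun i j => ((k i j : ℝ) : ℂ)).PosSemidef := by
  rw [posSemidef_iff_dotProduct_mulVec]
  refine ⟨?_, fun w => ?_⟩
  · ext i j
    simp [h.1 j i]
  · have e : star w ⬝ᵥ ((Matrix.of fun i j => ((k i j : ℝ) : ℂ)) *ᵥ w) =
        ∑ i, ∑ j, (starRingEnd ℂ (w i)) * ((k i j : ℝ) : ℂ) * w j := by
      simp [dotProduct, mulVec, Finset.mul_sum, mul_assoc]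
    rw [e, Complex.nonneg_iff]
    have h1 : ∀ i j, ((starRingEnd ℂ (w i)) * ((k i j : ℝ) : ℂ) * w j).re =
        (w i).re * k i j * (w j).re + (w i).im * k i j * (w j).im := by
      intro i j
      simp [Complex.mul_re, Complex.mul_im]
    have h2 : ∀ i j, ((starRingEnd ℂ (w i)) * ((k i j : ℝ) : ℂ) * w j).im =
        (w i).re * k i j * (w j).im - (w j).re * k j i * (w i).im := by
      intro i j
      simp [Complex.mul_re, Complex.mul_im, h.1 j i]
      ring
    constructor
    · rw [Complex.re_sum]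
      have h3 := add_nonneg (h.2 fun i => (w i).re) (h.2 fun i => (w i).im)
      rw [← Finset.sum_add_distrib] at h3
      refine h3.trans_eq (Finset.sum_congr rfl fun i _ => ?_)
      rw [Complex.re_sum, ← Finset.sum_add_distrib]
      exact Finset.sum_congr rfl fun j _ => (h1 i j).symm
    · rw [Complex.im_sum]
      simp only [Complex.im_sum, h2, Finset.sum_sub_distrib]
      rw [Finset.sum_comm (f := fun i j => (w j).re * k j i * (w i).im), sub_self]

omit [DecidableEq n] in
/-- the Cauchy kernel `1 / (p_i + p_j)` -/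
theorem cauchy {p : n → ℝ} (hp : ∀ i, 0 < p i) : RP fun i j => 1 / (p i + p j) := by
  refine ⟨fun i j => by simp only [add_comm], fun v => ?_⟩
  have hval : ∀ i j, 1 / (p i + p j) =
      ∫ s in Set.Ioi (0 : ℝ), Real.exp (-p i * s) * Real.exp (-p j * s) := by
    intro i j
    have h1 := integral_exp_mul_Ioi (a := -(p i + p j)) (by linarith [hp i, hp j]) 0
    have h2 : ∀ s : ℝ, Real.exp (-p i * s) * Real.exp (-p j * s) =
        Real.exp (-(p i + p j) * s) := by
      intro s
      rw [← Real.exp_add]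
      ring_nf
    simp only [h2]
    rw [h1, neg_div_neg_eq]
    simp
  have hint : ∀ i j, IntegrableOn
      (fun s => Real.exp (-p i * s) * Real.exp (-p j * s)) (Set.Ioi (0 : ℝ)) := by
    intro i j
    have h2 : ∀ s : ℝ, Real.exp (-p i * s) * Real.exp (-p j * s) =
        Real.exp (-(p i + p j) * s) := by
      intro s
      rw [← Real.exp_add]
      ring_nf
    simp only [h2]
    exact exp_neg_integrableOn_Ioi 0 (by linarith [hp i, hp j])
  have h1 : ∑ i, ∑ j, v i * (1 / (p i + p j)) * v j =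
      ∫ s in Set.Ioi (0 : ℝ), (∑ i, v i * Real.exp (-p i * s)) ^ 2 := by
    have h3 : ∀ s : ℝ, (∑ i, v i * Real.exp (-p i * s)) ^ 2 =
        ∑ i, ∑ j, v i * (Real.exp (-p i * s) * Real.exp (-p j * s)) * v j := by
      intro s
      rw [sq, Finset.sum_mul_sum]
      exact Finset.sum_congr rfl fun i _ => Finset.sum_congr rfl fun j _ => by ring
    simp only [h3]
    rw [integral_finsetSum _ fun i _ => integrable_finsetSum _ fun j _ =>
      ((hint i j).const_mul _).mul_const _]
    refine Finset.sum_congr rfl fun i _ => ?_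
    rw [integral_finsetSum _ fun j _ => ((hint i j).const_mul _).mul_const _]
    refine Finset.sum_congr rfl fun j _ => ?_
    rw [hval, integral_mul_const, integral_const_mul]
  rw [h1]
  exact setIntegral_nonneg measurableSet_Ioi fun s _ => by positivity

end RP

/-- the kernel `sin (c u) / sin u`, `u = y_i + y_j` -/
theorem RP_sin_div {c : ℝ} (hc0 : 0 < c) (hc1 : c < 1) {y : n → ℝ}
    (hy : ∀ i, 0 < y i ∧ y i < Real.pi / 2) :
    RP fun i j => Real.sin (c * (y i + y j)) / Real.sin (y i + y j) := by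
  have hpi := Real.pi_pos
  -- the factors
  have hfac : ∀ m : ℕ, RP fun i j =>
      (1 - (c * (y i + y j) / Real.pi) ^ 2 / ((m : ℝ) + 1) ^ 2) /
        (1 - ((y i + y j) / Real.pi) ^ 2 / ((m : ℝ) + 1) ^ 2) := by
    intro m
    have hm : (1 : ℝ) ≤ (m : ℝ) + 1 := by
      have : (0 : ℝ) ≤ m := Nat.cast_nonneg m
      linarith
    have hm0 : (0 : ℝ) < (m : ℝ) + 1 := by linarith
    set M : ℝ := (m : ℝ) + 1 with hM
    have hq : ∀ i, 0 < y i / (Real.pi * M) ∧ y i / (Real.pi * M) < 1 / 2 := by
      intro i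
      refine ⟨div_pos (hy i).1 (by positivity), ?_⟩
      rw [div_lt_iff₀ (by positivity)]
      have := (hy i).2
      nlinarith
    have h1 : RP fun i j => 1 / ((1 / 2 - y i / (Real.pi * M)) + (1 / 2 - y j / (Real.pi * M))) :=
      RP.cauchy fun i => by linarith [(hq i).2]
    have h2 : RP fun i j => 1 / ((1 / 2 + y i / (Real.pi * M)) + (1 / 2 + y j / (Real.pi * M))) :=
      RP.cauchy fun i => by linarith [(hq i).1]
    have h3 := (RP.const (n := n) (sq_nonneg c)).add ((h1.add h2).smul
      (show 0 ≤ (1 - c ^ 2) / 2 by nlinarith))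
    refine h3.congr fun i j => ?_
    have hw : 0 < (y i + y j) / (Real.pi * M) ∧ (y i + y j) / (Real.pi * M) < 1 := by
      rw [add_div]
      exact ⟨add_pos (hq i).1 (hq j).1, by linarith [(hq i).2, (hq j).2]⟩
    have e1 : (1 / 2 - y i / (Real.pi * M)) + (1 / 2 - y j / (Real.pi * M)) =
        1 - (y i + y j) / (Real.pi * M) := by ring
    have e2 : (1 / 2 + y i / (Real.pi * M)) + (1 / 2 + y j / (Real.pi * M)) =
        1 + (y i + y j) / (Real.pi * M) := by ring
    have e3 : (c * (y i + y j) / Real.pi) ^ 2 / M ^ 2 = c ^ 2 * ((y i + y j) / (Real.pi * M)) ^ 2 := by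
      field_simp
    have e4 : ((y i + y j) / Real.pi) ^ 2 / M ^ 2 = ((y i + y j) / (Real.pi * M)) ^ 2 := by
      field_simp
    rw [e1, e2, e3, e4]
    set w := (y i + y j) / (Real.pi * M) with hwdef
    have w1 : 1 - w ≠ 0 := by linarith [hw.2]
    have w2 : 1 + w ≠ 0 := by linarith [hw.1]
    have w3 : 1 - w ^ 2 ≠ 0 := by
      have : 1 - w ^ 2 = (1 - w) * (1 + w) := by ring
      rw [this]
      exact mul_ne_zero w1 w2
    rw [eq_div_iff w3]
    field_simp
    ring
  have hprod : ∀ N : ℕ, RP fun i j => c * ∏ m ∈ range N,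
      ((1 - (c * (y i + y j) / Real.pi) ^ 2 / ((m : ℝ) + 1) ^ 2) /
        (1 - ((y i + y j) / Real.pi) ^ 2 / ((m : ℝ) + 1) ^ 2)) := fun N =>
    (RP.prod hfac N).smul hc0.le
  refine RP.lim hprod fun i j => ?_
  have hu0 : 0 < y i + y j := add_pos (hy i).1 (hy j).1
  have hu1 : y i + y j < Real.pi := by linarith [(hy i).2, (hy j).2]
  have hs : 0 < Real.sin (y i + y j) := Real.sin_pos_of_pos_of_lt_pi hu0 hu1
  have t1 := Real.tendsto_euler_sin_prod (c * (y i + y j) / Real.pi)
  have t2 := Real.tendsto_euler_sin_prod ((y i + y j) / Real.pi)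
  have e1 : Real.pi * (c * (y i + y j) / Real.pi) = c * (y i + y j) := by field_simp
  have e2 : Real.pi * ((y i + y j) / Real.pi) = y i + y j := by field_simp
  rw [e1] at t1
  rw [e2] at t2
  have t3 := t1.div t2 hs.ne'
  refine t3.congr fun N => ?_
  simp only [Pi.div_apply]
  rw [Finset.prod_div_distrib, mul_assoc c, mul_div_assoc, mul_div_mul_left _ _ hu0.ne']

/-- the kernel `(sin (A + b y_i) + sin (A + b y_j)) / sin (y_i + y_j)` -/
theorem RP_sin_add {c A : ℝ} (hc0 : 0 < c) (hc1 : c < 1) (hA : 0 ≤ A)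
    (hA1 : A + c * Real.pi ≤ Real.pi) {y : n → ℝ}
    (hy : ∀ i, 0 < y i ∧ y i < Real.pi / 2) :
    RP fun i j => (Real.sin (A + 2 * c * y i) + Real.sin (A + 2 * c * y j)) /
      Real.sin (y i + y j) := by
  have hpi := Real.pi_pos
  have h1 := RP_sin_div hc0 hc1 hy
  have h2 := RP_sin_div hc0 hc1 (y := fun i => Real.pi / 2 - y i)
    (fun i => ⟨by linarith [(hy i).2], by linarith [(hy i).1]⟩)
  have hcpi : 0 < c * Real.pi := by positivity
  have hsc : 0 < Real.sin (c * Real.pi) :=
    Real.sin_pos_of_pos_of_lt_pi hcpi (by nlinarith)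
  have hs1 : 0 ≤ Real.sin (A + c * Real.pi) :=
    Real.sin_nonneg_of_nonneg_of_le_pi (by linarith) hA1
  have hs2 : 0 ≤ Real.sin A :=
    Real.sin_nonneg_of_nonneg_of_le_pi hA (by linarith)
  have h3 := ((h1.smul hs1).add (h2.smul hs2)).smul (inv_nonneg.2 hsc.le)
  have h4 := (RP.rank_one fun i => Real.cos (c * y i)).add (RP.rank_one fun i => Real.sin (c * y i))
  have h5 := (h3.mul h4).smul (zero_le_two : (0 : ℝ) ≤ 2)
  refine h5.congr fun i j => ?_
  have hu0 : 0 < y i + y j := add_pos (hy i).1 (hy j).1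
  have hu1 : y i + y j < Real.pi := by linarith [(hy i).2, (hy j).2]
  have hs : 0 < Real.sin (y i + y j) := Real.sin_pos_of_pos_of_lt_pi hu0 hu1
  have e1 : Real.pi / 2 - y i + (Real.pi / 2 - y j) = Real.pi - (y i + y j) := by ring
  rw [e1, Real.sin_pi_sub]
  have e2 : Real.cos (c * y i) * Real.cos (c * y j) + Real.sin (c * y i) * Real.sin (c * y j) =
      Real.cos (c * y i - c * y j) := (Real.cos_sub _ _).symm
  rw [e2]
  have e3 : Real.sin (A + c * Real.pi) * Real.sin (c * (y i + y j)) +
      Real.sin A * Real.sin (c * (Real.pi - (y i + y j))) =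
      Real.sin (c * Real.pi) * Real.sin (A + c * (y i + y j)) := by
    rw [mul_sub, Real.sin_sub (c * Real.pi), Real.sin_add A (c * Real.pi),
      Real.sin_add A (c * (y i + y j))]
    ring
  have e4 : Real.sin (A + 2 * c * y i) + Real.sin (A + 2 * c * y j) =
      2 * Real.sin (A + c * (y i + y j)) * Real.cos (c * y i - c * y j) := by
    have a1 : A + 2 * c * y i = (A + c * (y i + y j)) + (c * y i - c * y j) := by ring
    have a2 : A + 2 * c * y j = (A + c * (y i + y j)) - (c * y i - c * y j) := by ring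
    rw [a1, a2, Real.sin_add _ (c * y i - c * y j), Real.sin_sub _ (c * y i - c * y j)]
    ring
  rw [e4]
  have e5 : Real.sin (A + c * Real.pi) * (Real.sin (c * (y i + y j)) / Real.sin (y i + y j)) +
      Real.sin A * (Real.sin (c * (Real.pi - (y i + y j))) / Real.sin (y i + y j)) =
      Real.sin (c * Real.pi) * Real.sin (A + c * (y i + y j)) / Real.sin (y i + y j) := by
    rw [← e3]; ring
  rw [e5]
  field_simp

theorem rho_eq (x y : ℝ) : rho x y = ∫ h in (0 : ℝ)..1, (1 - h ^ 2) / 2 *
    (Real.sin ((1 + h) * x + (1 - h) * y) + Real.sin ((1 - h) * x + (1 + h) * y)) := by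
  unfold rho G
  rw [← intervalIntegral.integral_const_mul]
  congr 1
  funext h
  have a1 : (1 + h) * x + (1 - h) * y = (x + y) + h * (x - y) := by ring
  have a2 : (1 - h) * x + (1 + h) * y = (x + y) - h * (x - y) := by ring
  rw [a1, a2, Real.sin_add (x + y), Real.sin_sub (x + y)]
  ring

theorem kwong_RP (x : ℝ) (hx0 : 0 ≤ x) (hx1 : x ≤ Real.pi / 2) (y : n → ℝ)
    (hy : ∀ i, 0 < y i ∧ y i < Real.pi / 2) :
    RP fun i j => (rho x (y i) + rho x (y j)) / Real.sin (y i + y j) := by
  have hpi := Real.pi_pos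
  have hk : ∀ h : ℝ, 0 < h → h < 1 → RP fun i j => (1 - h ^ 2) / 2 *
      ((Real.sin ((1 + h) * x + 2 * ((1 - h) / 2) * y i) +
          Real.sin ((1 + h) * x + 2 * ((1 - h) / 2) * y j)) / Real.sin (y i + y j) +
        (Real.sin ((1 - h) * x + 2 * ((1 + h) / 2) * y i) +
          Real.sin ((1 - h) * x + 2 * ((1 + h) / 2) * y j)) / Real.sin (y i + y j)) := by
    intro h h0 h1
    refine RP.smul (RP.add ?_ ?_) (by nlinarith)
    · exact RP_sin_add (by linarith) (by linarith) (by positivity) (by nlinarith) hy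
    · exact RP_sin_add (by linarith) (by linarith)
        (mul_nonneg (by linarith) hx0) (by nlinarith) hy
  have hI := RP.integral (fun i j => by fun_prop) hk
  refine hI.congr fun i j => ?_
  rw [rho_eq, rho_eq, ← intervalIntegral.integral_add
    ((by fun_prop : Continuous _).intervalIntegrable _ _)
    ((by fun_prop : Continuous _).intervalIntegrable _ _),
    div_eq_mul_inv, ← intervalIntegral.integral_mul_const]
  congr 1
  funext h
  have a1 : 2 * ((1 - h) / 2) = 1 - h := by ring
  have a2 : 2 * ((1 + h) / 2) = 1 + h := by ring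
  rw [a1, a2]
  ring

/-- the Kwong-type kernel lemma -/
theorem kwong (x : ℝ) (hx0 : 0 ≤ x) (hx1 : x ≤ Real.pi / 2) (y : n → ℝ)
    (hy : ∀ i, 0 < y i ∧ y i < Real.pi / 2) :
    (Matrix.of fun i j => (((rho x (y i) + rho x (y j)) / Real.sin (y i + y j) : ℝ) : ℂ)).PosSemidef :=
  (kwong_RP x hx0 hx1 y hy).toComplex

end Vale.Agent.P371
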