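import Vale.Agent.P371.LogInt

/-!
# P371: derivative of the matrix logarithm
-/

open MeasureTheory Matrix Finset Filter Topology
open scoped ComplexOrder

namespace Vale.Agent.P371

namespace LI

variable {n : Type*} [Fintype n] [DecidableEq n]

set_option linter.unusedSectionVars false

theorem Q_cont {P : ℝ → Matrix n n ℂ} {s : Set ℝ} (hP : ContinuousOn P s) :
    ContinuousOn (fun z : ℝ × ℝ => Q (P z.1) z.2) (s ×ˢ Set.univ) := by
  unfold Q
  have h1 : ContinuousOn (fun z : ℝ × ℝ => P z.1) (s ×ˢ Set.univ) :=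
    hP.comp continuousOn_fst fun z hz => hz.1
  have h2 : ContinuousOn (fun z : ℝ × ℝ => ((z.2 : ℝ) : ℂ)) (s ×ˢ Set.univ) :=
    (Complex.continuous_ofReal.comp continuous_snd).continuousOn
  have h3 : ContinuousOn (fun z : ℝ × ℝ => ((1 - z.2 : ℝ) : ℂ)) (s ×ˢ Set.univ) :=
    (Complex.continuous_ofReal.comp (continuous_const.sub continuous_snd)).continuousOn
  exact (h3.smul continuousOn_const).add (h2.smul h1)

theorem Qinv_cont {P : ℝ → Matrix n n ℂ} {s : Set ℝ} (hP : ContinuousOn P s)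
    (hpd : ∀ t ∈ s, (P t).PosDef) :
    ContinuousOn (fun z : ℝ × ℝ => (Q (P z.1) z.2)⁻¹) (s ×ˢ Set.Icc 0 1) := by
  intro z hz
  have h1 : ContinuousWithinAt (fun z : ℝ × ℝ => Q (P z.1) z.2) (s ×ˢ Set.Icc 0 1) z :=
    ((Q_cont hP) z ⟨hz.1, Set.mem_univ _⟩).mono
      (Set.prod_mono le_rfl (Set.subset_univ _))
  have h2 := continuousAt_inv (Q_det (hpd z.1 hz.1) hz.2.1 hz.2.2)
  exact ContinuousAt.comp_continuousWithinAt (g := fun B : Matrix n n ℂ => B⁻¹) h2 h1

theorem matrix_contOn {X : Type*} [TopologicalSpace X] {A : X → Matrix n n ℂ} {s : Set X}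
    (h : ∀ i j, ContinuousOn (fun x => A x i j) s) : ContinuousOn A s := fun x hx =>
  tendsto_pi_nhds.2 fun a => tendsto_pi_nhds.2 fun b => h a b x hx

theorem entry_contOn {X : Type*} [TopologicalSpace X] {A : X → Matrix n n ℂ} {s : Set X}
    (h : ContinuousOn A s) (i j : n) : ContinuousOn (fun x => A x i j) s := fun x hx =>
  tendsto_pi_nhds.1 (tendsto_pi_nhds.1 (h x hx) i) j

/-- derivative of `(P - 1) Q⁻¹` -/
theorem hasDerivAt_F {P : ℝ → Matrix n n ℂ} {D : Matrix n n ℂ} {t : ℝ} (hP : (P t).PosDef)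
    (hD : ∀ i j, HasDerivAt (fun t => P t i j) (D i j) t) {v : ℝ} (hv0 : 0 ≤ v) (hv1 : v ≤ 1)
    (i j : n) :
    HasDerivAt (fun t => ((P t - 1) * (Q (P t) v)⁻¹) i j)
      (((Q (P t) v)⁻¹ * D * (Q (P t) v)⁻¹) i j) t := by
  have hdet := Q_det hP hv0 hv1
  have hQ : ∀ i j, HasDerivAt (fun t => Q (P t) v i j) ((((v : ℝ) : ℂ) • D) i j) t := by
    intro i j
    simp only [Q, Matrix.add_apply, Matrix.smul_apply, smul_eq_mul]
    exact ((hD i j).const_mul _).const_add _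
  have hinv := fun k => hasDerivAt_inv hQ hdet k j
  have hsum : HasDerivAt (fun t => ∑ k, (P t - 1) i k * (Q (P t) v)⁻¹ k j)
      (∑ k, (D i k * (Q (P t) v)⁻¹ k j + (P t - 1) i k *
        (-((Q (P t) v)⁻¹ * (((v : ℝ) : ℂ) • D) * (Q (P t) v)⁻¹)) k j)) t := by
    refine HasDerivAt.fun_sum fun k _ => ?_
    have h1 : HasDerivAt (fun t => (P t - 1) i k) (D i k) t := by
      simp only [Matrix.sub_apply]
      exact (hD i k).sub_const _
    exact h1.mul (hinv k)
  have e0 : (fun t => ((P t - 1) * (Q (P t) v)⁻¹) i j) =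
      fun t => ∑ k, (P t - 1) i k * (Q (P t) v)⁻¹ k j := by
    funext t
    rw [Matrix.mul_apply]
  rw [e0]
  refine hsum.congr_deriv ?_
  have e1 : (∑ k, (D i k * (Q (P t) v)⁻¹ k j + (P t - 1) i k *
        (-((Q (P t) v)⁻¹ * (((v : ℝ) : ℂ) • D) * (Q (P t) v)⁻¹)) k j)) =
      (D * (Q (P t) v)⁻¹ + (P t - 1) *
        (-((Q (P t) v)⁻¹ * (((v : ℝ) : ℂ) • D) * (Q (P t) v)⁻¹))) i j := by
    rw [Matrix.add_apply, Matrix.mul_apply, Matrix.mul_apply, Finset.sum_add_distrib]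
  rw [e1]
  refine congrFun (congrFun ?_ i) j
  set R := (Q (P t) v)⁻¹ with hR
  have hRQ : R * Q (P t) v = 1 := Matrix.nonsing_inv_mul _ hdet
  have hQR : Q (P t) v * R = 1 := Matrix.mul_nonsing_inv _ hdet
  have e2 : ((v : ℝ) : ℂ) • (P t - 1) = Q (P t) v - 1 := by
    rw [Q]
    push_cast
    module
  have e3 : ((v : ℝ) : ℂ) • ((P t - 1) * R) = 1 - R := by
    rw [← Matrix.smul_mul, e2, Matrix.sub_mul, hQR, Matrix.one_mul]
  have e4 : (P t - 1) * (-(R * (((v : ℝ) : ℂ) • D) * R)) =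
      -((((v : ℝ) : ℂ) • ((P t - 1) * R)) * D * R) := by
    rw [Matrix.mul_neg]
    congr 1
    simp only [Matrix.mul_smul, Matrix.smul_mul, Matrix.mul_assoc]
  rw [e4, e3, Matrix.sub_mul, Matrix.sub_mul, Matrix.one_mul]
  abel

/-- derivative of the matrix logarithm -/
theorem hasDerivAt_log {P D : ℝ → Matrix n n ℂ} {x : ℝ} {s : Set ℝ} (hs : s ∈ 𝓝 x)
    (hP : ∀ t ∈ s, (P t).PosDef)
    (hD : ∀ t ∈ s, ∀ i j, HasDerivAt (fun t => P t i j) (D t i j) t)
    (hDc : ∀ i j, ContinuousOn (fun t => D t i j) s) (i j : n) :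
    HasDerivAt (fun t => (cfc Real.log (P t)) i j)
      (∫ v in (0:ℝ)..1, ((Q (P x) v)⁻¹ * D x * (Q (P x) v)⁻¹) i j) x := by
  obtain ⟨δ, hδ, hball⟩ := Metric.nhds_basis_closedBall.mem_iff.1 hs
  set K := Metric.closedBall x δ with hK
  have hxK : x ∈ K := Metric.mem_closedBall_self hδ.le
  have hKn : K ∈ 𝓝 x := Metric.closedBall_mem_nhds x hδ
  have hPc : ContinuousOn P K := matrix_contOn fun i j t ht =>
    (hD t (hball ht) i j).continuousAt.continuousWithinAt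
  have hDc' : ContinuousOn D K := (matrix_contOn hDc).mono hball
  have hQc := Qinv_cont hPc fun t ht => hP t (hball ht)
  have hDp : ContinuousOn (fun z : ℝ × ℝ => D z.1) (K ×ˢ Set.Icc 0 1) :=
    hDc'.comp continuousOn_fst fun z hz => hz.1
  have hPp : ContinuousOn (fun z : ℝ × ℝ => P z.1) (K ×ˢ Set.Icc 0 1) :=
    hPc.comp continuousOn_fst fun z hz => hz.1
  have hF' : ContinuousOn (fun z : ℝ × ℝ =>
      ((Q (P z.1) z.2)⁻¹ * D z.1 * (Q (P z.1) z.2)⁻¹) i j) (K ×ˢ Set.Icc 0 1) :=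
    entry_contOn ((hQc.mul hDp).mul hQc) i j
  have hF : ContinuousOn (fun z : ℝ × ℝ => ((P z.1 - 1) * (Q (P z.1) z.2)⁻¹) i j)
      (K ×ˢ Set.Icc 0 1) :=
    entry_contOn ((hPp.sub continuousOn_const).mul hQc) i j
  have hcomp : IsCompact (K ×ˢ Set.Icc (0:ℝ) 1) := (isCompact_closedBall x δ).prod isCompact_Icc
  obtain ⟨C, hC⟩ := hcomp.exists_bound_of_continuousOn hF'
  have slice : ∀ {G : ℝ × ℝ → ℂ}, ContinuousOn G (K ×ˢ Set.Icc (0:ℝ) 1) → ∀ t ∈ K,
      ContinuousOn (fun v => G (t, v)) (Set.Icc 0 1) := by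
    intro G hG t ht
    exact hG.comp (f := fun v : ℝ => (t, v)) (by fun_prop) fun v hv => ⟨ht, hv⟩
  have meas : ∀ {G : ℝ × ℝ → ℂ}, ContinuousOn G (K ×ˢ Set.Icc (0:ℝ) 1) → ∀ t ∈ K,
      AEStronglyMeasurable (fun v => G (t, v)) (volume.restrict (Set.uIoc (0:ℝ) 1)) := by
    intro G hG t ht
    have h1 := (slice hG t ht).aestronglyMeasurable (μ := volume) measurableSet_Icc
    refine h1.mono_measure (Measure.restrict_mono ?_ le_rfl)
    rw [Set.uIoc_of_le zero_le_one]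
    exact Set.Ioc_subset_Icc_self
  have key := intervalIntegral.hasDerivAt_integral_of_dominated_loc_of_deriv_le
    (μ := volume) (a := (0:ℝ)) (b := 1) (bound := fun _ => C)
    (F := fun t v => ((P t - 1) * (Q (P t) v)⁻¹) i j)
    (F' := fun t v => ((Q (P t) v)⁻¹ * D t * (Q (P t) v)⁻¹) i j) (x₀ := x) (s := K) hKn
    (by filter_upwards [hKn] with t ht using meas hF t ht)
    (by
      refine ContinuousOn.intervalIntegrable ?_
      rw [Set.uIcc_of_le zero_le_one]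
      exact slice hF x hxK)
    (meas hF' x hxK)
    (by
      refine Eventually.of_forall fun v hv t ht => ?_
      rw [Set.uIoc_of_le zero_le_one] at hv
      exact hC (t, v) ⟨ht, Set.Ioc_subset_Icc_self hv⟩)
    intervalIntegrable_const
    (by
      refine Eventually.of_forall fun v hv t ht => ?_
      rw [Set.uIoc_of_le zero_le_one] at hv
      exact hasDerivAt_F (hP t (hball ht)) (hD t (hball ht)) hv.1.le hv.2 i j)
  refine key.2.congr_of_eventuallyEq ?_
  filter_upwards [hs] with t ht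
  exact log_entry (hP t ht) i j

end LI

end Vale.Agent.P371
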