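import Vale.Agent.P371.GibbsGT

/-!
# P371: integral representation and derivative of the matrix logarithm

`log P = ∫_0^1 (P - 1) (1 - v + v P)⁻¹ dv`.
-/

open MeasureTheory Matrix Finset Filter Topology
open scoped ComplexOrder

namespace Vale.Agent.P371

namespace LI

variable {n : Type*} [Fintype n] [DecidableEq n]

/-! ### Spectral frames -/

/-- `U * D * Uᴴ` products -/
theorem conj_mul {U : Matrix n n ℂ} (hU : Uᴴ * U = 1) (D E : Matrix n n ℂ) :
    U * D * Uᴴ * (U * E * Uᴴ) = U * (D * E) * Uᴴ := by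
  calc U * D * Uᴴ * (U * E * Uᴴ) = U * D * (Uᴴ * U) * E * Uᴴ := by
        simp only [Matrix.mul_assoc]
    _ = _ := by rw [hU, Matrix.mul_one]; simp only [Matrix.mul_assoc]

/-- the unitary of eigenvectors -/
noncomputable def eU {A : Matrix n n ℂ} (hA : A.IsHermitian) : Matrix n n ℂ :=
  (hA.eigenvectorUnitary : Matrix n n ℂ)

theorem eU_mul {A : Matrix n n ℂ} (hA : A.IsHermitian) : eU hA * (eU hA)ᴴ = 1 :=
  Unitary.coe_mul_star_self _

theorem eU_mul' {A : Matrix n n ℂ} (hA : A.IsHermitian) : (eU hA)ᴴ * eU hA = 1 :=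
  Unitary.coe_star_mul_self _

theorem cfc_eq {A : Matrix n n ℂ} (hA : A.IsHermitian) (f : ℝ → ℝ) :
    cfc f A = eU hA * diagonal (fun i => (f (hA.eigenvalues i) : ℂ)) * (eU hA)ᴴ :=
  GGT.cfc_spec hA f

theorem cfc_self {A : Matrix n n ℂ} (hA : A.IsHermitian) : cfc (fun x : ℝ => x) A = A :=
  cfc_id' ℝ A hA

theorem cfc_one {A : Matrix n n ℂ} (hA : A.IsHermitian) :
    cfc (fun _ : ℝ => (1 : ℝ)) A = 1 :=
  cfc_const_one ℝ A hA

theorem cfc_mul {A : Matrix n n ℂ} (hA : A.IsHermitian) (f g : ℝ → ℝ) :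
    cfc f A * cfc g A = cfc (fun x => f x * g x) A := by
  rw [cfc_eq hA, cfc_eq hA, cfc_eq hA, conj_mul (eU_mul' hA), diagonal_mul_diagonal]
  congr 3
  funext i
  push_cast
  rfl

theorem cfc_add {A : Matrix n n ℂ} (hA : A.IsHermitian) (f g : ℝ → ℝ) :
    cfc f A + cfc g A = cfc (fun x => f x + g x) A := by
  rw [cfc_eq hA, cfc_eq hA, cfc_eq hA, ← Matrix.add_mul, ← Matrix.mul_add, diagonal_add]
  congr 3
  funext i
  push_cast
  rfl

theorem cfc_sub {A : Matrix n n ℂ} (hA : A.IsHermitian) (f g : ℝ → ℝ) :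
    cfc f A - cfc g A = cfc (fun x => f x - g x) A := by
  rw [cfc_eq hA, cfc_eq hA, cfc_eq hA, ← Matrix.sub_mul, ← Matrix.mul_sub, diagonal_sub]
  congr 3
  funext i
  push_cast
  rfl

theorem cfc_smul {A : Matrix n n ℂ} (hA : A.IsHermitian) (c : ℝ) (f : ℝ → ℝ) :
    (c : ℂ) • cfc f A = cfc (fun x => c * f x) A := by
  rw [cfc_eq hA, cfc_eq hA, ← Matrix.smul_mul, ← Matrix.mul_smul]
  congr 2
  rw [← diagonal_smul]
  congr 1
  funext i
  simp

theorem cfc_congr' {A : Matrix n n ℂ} (hA : A.IsHermitian) {f g : ℝ → ℝ}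
    (h : ∀ i, f (hA.eigenvalues i) = g (hA.eigenvalues i)) : cfc f A = cfc g A := by
  rw [cfc_eq hA, cfc_eq hA]
  congr 3
  funext i
  rw [h i]

theorem cfc_herm {A : Matrix n n ℂ} (f : ℝ → ℝ) : (cfc f A).IsHermitian :=
  cfc_predicate f A

theorem trace_cfc {A : Matrix n n ℂ} (hA : A.IsHermitian) (f : ℝ → ℝ) :
    trace (cfc f A) = ((∑ i, f (hA.eigenvalues i) : ℝ) : ℂ) := by
  rw [cfc_eq hA, trace_mul_comm, ← Matrix.mul_assoc, eU_mul' hA, Matrix.one_mul, trace_diagonal]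
  push_cast
  rfl

/-- the diagonal of `X` in the eigenbasis of `A` -/
noncomputable def dg {A : Matrix n n ℂ} (hA : A.IsHermitian) (X : Matrix n n ℂ) (k : n) : ℂ :=
  ((eU hA)ᴴ * X * eU hA) k k

theorem trace_mul_cfc {A : Matrix n n ℂ} (hA : A.IsHermitian) (X : Matrix n n ℂ) (f : ℝ → ℝ) :
    trace (X * cfc f A) = ∑ k, dg hA X k * (f (hA.eigenvalues k) : ℂ) := by
  rw [cfc_eq hA]
  have e : trace (X * (eU hA * diagonal (fun i => (f (hA.eigenvalues i) : ℂ)) * (eU hA)ᴴ)) =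
      trace ((eU hA)ᴴ * X * eU hA * diagonal (fun i => (f (hA.eigenvalues i) : ℂ))) := by
    rw [← Matrix.mul_assoc, trace_mul_comm]
    simp only [Matrix.mul_assoc]
  rw [e, trace]
  refine Finset.sum_congr rfl fun k _ => ?_
  rw [diag_apply, mul_diagonal]
  rfl

theorem cfc_apply_entry {A : Matrix n n ℂ} (hA : A.IsHermitian) (f : ℝ → ℝ) (i j : n) :
    cfc f A i j = ∑ k, (f (hA.eigenvalues k) : ℂ) * (eU hA i k * star (eU hA j k)) := by
  rw [cfc_eq hA, Matrix.mul_apply]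
  refine Finset.sum_congr rfl fun k _ => ?_
  rw [mul_diagonal, conjTranspose_apply]
  ring

/-! ### The matrix `Q_v = 1 - v + v P` -/

/-- `Q_v = 1 - v + v P`. -/
noncomputable def Q (P : Matrix n n ℂ) (v : ℝ) : Matrix n n ℂ :=
  ((1 - v : ℝ) : ℂ) • 1 + ((v : ℝ) : ℂ) • P

theorem Q_eq {P : Matrix n n ℂ} (hP : P.IsHermitian) (v : ℝ) :
    Q P v = cfc (fun x => 1 - v + v * x) P := by
  rw [Q]
  conv_lhs => rw [← cfc_one hP]
  have : ((v : ℝ) : ℂ) • P = cfc (fun x => v * x) P := by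
    rw [← cfc_smul hP, cfc_self hP]
  rw [this, cfc_smul hP, cfc_add hP]
  simp only [mul_one]

theorem qpos {x v : ℝ} (hx : 0 < x) (hv0 : 0 ≤ v) (hv1 : v ≤ 1) : 0 < 1 - v + v * x := by
  rcases hv1.lt_or_eq with h | h
  · have : 0 ≤ v * x := by positivity
    linarith
  · rw [h]; linarith

theorem Q_inv {P : Matrix n n ℂ} (hP : P.PosDef) {v : ℝ} (hv0 : 0 ≤ v) (hv1 : v ≤ 1) :
    (Q P v)⁻¹ = cfc (fun x => 1 / (1 - v + v * x)) P := by
  apply Matrix.inv_eq_left_inv
  rw [Q_eq hP.1, cfc_mul hP.1, ← cfc_one hP.1]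
  refine cfc_congr' hP.1 fun i => ?_
  have := qpos (hP.eigenvalues_pos i) hv0 hv1
  field_simp

theorem Q_det {P : Matrix n n ℂ} (hP : P.PosDef) {v : ℝ} (hv0 : 0 ≤ v) (hv1 : v ≤ 1) :
    IsUnit (Q P v).det := by
  have h : (cfc (fun x => 1 / (1 - v + v * x)) P) * Q P v = 1 := by
    rw [Q_eq hP.1, cfc_mul hP.1, ← cfc_one hP.1]
    refine cfc_congr' hP.1 fun i => ?_
    have := qpos (hP.eigenvalues_pos i) hv0 hv1
    field_simp
  exact Matrix.isUnit_det_of_left_inverse h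

/-! ### Scalar integrals -/

theorem scalar_log {x : ℝ} (hx : 0 < x) :
    ∫ v in (0:ℝ)..1, (x - 1) * (1 / (1 - v + v * x)) = Real.log x := by
  have hd : ∀ v ∈ Set.uIcc (0:ℝ) 1,
      HasDerivAt (fun v => Real.log (1 - v + v * x)) ((x - 1) * (1 / (1 - v + v * x))) v := by
    intro v hv
    rw [Set.uIcc_of_le zero_le_one] at hv
    have hq := qpos hx hv.1 hv.2
    have h1 : HasDerivAt (fun v : ℝ => 1 - v + v * x) (x - 1) v := by
      have := ((hasDerivAt_id' v).const_sub 1).fun_add ((hasDerivAt_id' v).mul_const x)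
      exact this.congr_deriv (by ring)
    exact (h1.log hq.ne').congr_deriv (by ring)
  rw [intervalIntegral.integral_eq_sub_of_hasDerivAt hd]
  · simp
  · refine ContinuousOn.intervalIntegrable ?_
    refine continuousOn_const.mul (continuousOn_const.div (by fun_prop) ?_)
    intro v hv
    rw [Set.uIcc_of_le zero_le_one] at hv
    exact (qpos hx hv.1 hv.2).ne'

theorem scalar_sq {x : ℝ} (hx : 0 < x) :
    ∫ v in (0:ℝ)..1, x * (1 / (1 - v + v * x)) ^ 2 = 1 := by
  have hd : ∀ v ∈ Set.uIcc (0:ℝ) 1,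
      HasDerivAt (fun v => x * (v / (1 - v + v * x))) (x * (1 / (1 - v + v * x)) ^ 2) v := by
    intro v hv
    rw [Set.uIcc_of_le zero_le_one] at hv
    have hq := qpos hx hv.1 hv.2
    have h1 : HasDerivAt (fun v : ℝ => 1 - v + v * x) (x - 1) v := by
      have := ((hasDerivAt_id' v).const_sub 1).fun_add ((hasDerivAt_id' v).mul_const x)
      exact this.congr_deriv (by ring)
    refine (((hasDerivAt_id' v).fun_div h1 hq.ne').const_mul x).congr_deriv ?_
    field_simp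
    ring
  rw [intervalIntegral.integral_eq_sub_of_hasDerivAt hd]
  · simp [hx.ne']
  · refine ContinuousOn.intervalIntegrable ?_
    refine continuousOn_const.mul ((continuousOn_const.div (by fun_prop) ?_).pow 2)
    intro v hv
    rw [Set.uIcc_of_le zero_le_one] at hv
    exact (qpos hx hv.1 hv.2).ne'

/-! ### The logarithm as an integral -/

theorem log_entry {P : Matrix n n ℂ} (hP : P.PosDef) (i j : n) :
    (cfc Real.log P) i j = ∫ v in (0:ℝ)..1, ((P - 1) * (Q P v)⁻¹) i j := by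
  have h1 : ∫ v in (0:ℝ)..1, ((P - 1) * (Q P v)⁻¹) i j =
      ∫ v in (0:ℝ)..1, ∑ k, (((hP.1.eigenvalues k - 1) *
        (1 / (1 - v + v * hP.1.eigenvalues k)) : ℝ) : ℂ) *
          (eU hP.1 i k * star (eU hP.1 j k)) := by
    refine intervalIntegral.integral_congr fun v hv => ?_
    rw [Set.uIcc_of_le zero_le_one] at hv
    have e : (P - 1) = cfc (fun x : ℝ => x - 1) P := by
      rw [← cfc_sub hP.1 (fun x => x) (fun _ => 1), cfc_self hP.1, cfc_one hP.1]
    rw [Q_inv hP hv.1 hv.2]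
    conv_lhs => rw [e]
    rw [cfc_mul hP.1, cfc_apply_entry hP.1]
  rw [h1, intervalIntegral.integral_finsetSum, cfc_apply_entry hP.1]
  · refine Finset.sum_congr rfl fun k _ => ?_
    rw [intervalIntegral.integral_mul_const, intervalIntegral.integral_ofReal,
      scalar_log (hP.eigenvalues_pos k)]
  · intro k _
    refine ContinuousOn.intervalIntegrable ?_
    refine ContinuousOn.mul ?_ continuousOn_const
    refine Complex.continuous_ofReal.comp_continuousOn ?_
    refine continuousOn_const.mul (continuousOn_const.div (by fun_prop) ?_)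
    intro v hv
    rw [Set.uIcc_of_le zero_le_one] at hv
    exact (qpos (hP.eigenvalues_pos k) hv.1 hv.2).ne'

/-! ### Derivative of the inverse -/

theorem continuousAt_inv {A : Matrix n n ℂ} (h : IsUnit A.det) :
    ContinuousAt (fun B : Matrix n n ℂ => B⁻¹) A := by
  refine continuousAt_matrix_inv A ?_
  obtain ⟨u, hu⟩ := h
  rw [← hu]
  exact NormedRing.inverse_continuousAt u

theorem hasDerivAt_inv {A : ℝ → Matrix n n ℂ} {A' : Matrix n n ℂ} {x : ℝ}
    (hA : ∀ i j, HasDerivAt (fun t => A t i j) (A' i j) x) (hd : IsUnit (A x).det) (i j : n) :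
    HasDerivAt (fun t => (A t)⁻¹ i j) ((-((A x)⁻¹ * A' * (A x)⁻¹)) i j) x := by
  have hc : ContinuousAt A x :=
    tendsto_pi_nhds.2 fun a => tendsto_pi_nhds.2 fun b => (hA a b).continuousAt
  have hci : ContinuousAt (fun t => (A t)⁻¹) x :=
    ContinuousAt.comp (f := A) (g := fun B : Matrix n n ℂ => B⁻¹) (continuousAt_inv hd) hc
  have hne : ∀ᶠ t in 𝓝 x, IsUnit (A t).det := by
    have h0 : (A x).det ≠ 0 := hd.ne_zero
    have hcd : ContinuousAt (fun t => (A t).det) x :=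
      ContinuousAt.comp (f := A) (g := fun B : Matrix n n ℂ => B.det)
        (continuous_id.matrix_det).continuousAt hc
    filter_upwards [hcd.eventually_ne h0] with t ht
    exact isUnit_iff_ne_zero.2 ht
  rw [hasDerivAt_iff_tendsto_slope]
  have hs : ∀ a b, Tendsto (slope (fun t => A t a b) x) (𝓝[≠] x) (𝓝 (A' a b)) := fun a b =>
    (hasDerivAt_iff_tendsto_slope.1 (hA a b))
  have heq : ∀ᶠ t in 𝓝[≠] x, -∑ b, (∑ a, (A t)⁻¹ i a * slope (fun t => A t a b) x t) *
      (A x)⁻¹ b j = slope (fun t => (A t)⁻¹ i j) x t := by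
    filter_upwards [hne.filter_mono nhdsWithin_le_nhds, self_mem_nhdsWithin] with t ht htx
    have e1 : (A t)⁻¹ - (A x)⁻¹ = -((A t)⁻¹ * (A t - A x) * (A x)⁻¹) := by
      rw [Matrix.mul_sub, Matrix.sub_mul, Matrix.nonsing_inv_mul _ ht, Matrix.one_mul,
        Matrix.mul_assoc, Matrix.mul_nonsing_inv _ hd, Matrix.mul_one]
      abel
    have e2 : (A t)⁻¹ i j - (A x)⁻¹ i j =
        -∑ b, (∑ a, (A t)⁻¹ i a * (A t a b - A x a b)) * (A x)⁻¹ b j := by
      have := congrFun (congrFun e1 i) j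
      rw [Matrix.sub_apply, Matrix.neg_apply, Matrix.mul_apply] at this
      rw [this]
      simp only [Matrix.mul_apply, Matrix.sub_apply]
    simp only [slope_def_module]
    rw [e2, smul_neg, Finset.smul_sum]
    congr 1
    refine Finset.sum_congr rfl fun b _ => ?_
    rw [← smul_mul_assoc, Finset.smul_sum]
    congr 1
    refine Finset.sum_congr rfl fun a _ => ?_
    rw [mul_smul_comm]
  refine Tendsto.congr' heq ?_
  have e3 : (-((A x)⁻¹ * A' * (A x)⁻¹)) i j =
      -∑ b, (∑ a, (A x)⁻¹ i a * A' a b) * (A x)⁻¹ b j := by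
    simp only [Matrix.neg_apply, Matrix.mul_apply]
  rw [e3]
  refine Tendsto.neg (tendsto_finsetSum _ fun b _ => Tendsto.mul_const _ ?_)
  refine tendsto_finsetSum _ fun a _ => Tendsto.mul ?_ (hs a b)
  have h4 : ContinuousAt (fun t => (A t)⁻¹ i a) x := by
    exact tendsto_pi_nhds.1 (tendsto_pi_nhds.1 hci i) a
  exact h4.tendsto.mono_left nhdsWithin_le_nhds

end LI

end Vale.Agent.P371
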