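import Vale.Agent.P371.CalibDeriv
import Vale.Agent.P371.Defs2

/-!
# P371 [POS]: positivity of `A_t ± Z`, joint continuity of `k_t`
-/

open Matrix Set Filter
open scoped Topology ComplexOrder

namespace Vale.Agent.P371

variable {n : Type*} [Fintype n] [DecidableEq n]

namespace Cal

theorem cfc_posDef {S : Matrix n n ℂ} (hS : S.IsHermitian) {f : ℝ → ℝ}
    (hf : ∀ i, 0 < f (hS.eigenvalues i)) : (cfc f S).PosDef := by
  rw [GGT.cfc_spec hS f]
  have hU : IsUnit (hS.eigenvectorUnitary : Matrix n n ℂ) :=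
    ⟨⟨_, star (hS.eigenvectorUnitary : Matrix n n ℂ), Unitary.coe_mul_star_self _,
      Unitary.coe_star_mul_self _⟩, rfl⟩
  refine (hU.posDef_star_right_conjugate_iff).2 ?_
  rw [posDef_diagonal_iff]
  intro i
  exact_mod_cast hf i

theorem cfc_posSemidef {S : Matrix n n ℂ} (hS : S.IsHermitian) {f : ℝ → ℝ}
    (hf : ∀ i, 0 ≤ f (hS.eigenvalues i)) : (cfc f S).PosSemidef := by
  rw [GGT.cfc_spec hS f]
  refine PosSemidef.mul_mul_conjTranspose_same ?_ _
  rw [posSemidef_diagonal_iff]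
  intro i
  exact_mod_cast hf i

theorem cfc_add_herm {A : Matrix n n ℂ} (hA : A.IsHermitian) (f g : ℝ → ℝ) :
    cfc f A + cfc g A = cfc (fun x => f x + g x) A := by
  rw [GGT.cfc_spec hA, GGT.cfc_spec hA, GGT.cfc_spec hA, ← Matrix.add_mul, ← Matrix.mul_add,
    diagonal_add]
  congr 3
  funext i
  push_cast
  rfl

theorem cfc_sub_herm {A : Matrix n n ℂ} (hA : A.IsHermitian) (f g : ℝ → ℝ) :
    cfc f A - cfc g A = cfc (fun x => f x - g x) A := by
  rw [GGT.cfc_spec hA, GGT.cfc_spec hA, GGT.cfc_spec hA, ← Matrix.sub_mul, ← Matrix.mul_sub,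
    diagonal_sub]
  congr 3
  funext i
  push_cast
  rfl

theorem trace_cfc {A : Matrix n n ℂ} (hA : A.IsHermitian) (f : ℝ → ℝ) :
    trace (cfc f A) = ((∑ i, f (hA.eigenvalues i) : ℝ) : ℂ) := by
  rw [GGT.cfc_spec hA, trace_mul_comm, ← Matrix.mul_assoc]
  have hU2 : (hA.eigenvectorUnitary : Matrix n n ℂ)ᴴ * (hA.eigenvectorUnitary : Matrix n n ℂ) = 1 :=
    Unitary.coe_star_mul_self _
  rw [hU2, Matrix.one_mul, trace_diagonal]
  push_cast
  rfl

end Cal

theorem Amat_herm (S : Matrix n n ℂ) (t : ℝ) : (Amat S t).IsHermitian :=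
  cfc_predicate (fun x : ℝ => Real.sqrt (x ^ 2 + t)) S

theorem Amat_sub_posDef' {S : Matrix n n ℂ} (hS : S.PosSemidef) {t : ℝ} (ht : 0 < t) :
    (Amat S t - S).PosDef := by
  have h1 : Amat S t - S = cfc (fun x : ℝ => Real.sqrt (x ^ 2 + t) - x) S := by
    rw [← Cal.cfc_sub_herm hS.1, Cal.cfc_id_herm hS.1, Amat]
  rw [h1]
  refine Cal.cfc_posDef hS.1 fun i => ?_
  have := hS.eigenvalues_nonneg i
  rw [sub_pos]
  exact Real.lt_sqrt_of_sq_lt (by linarith)

theorem Amat_add_posDef {S Z : Matrix n n ℂ}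
    (hS : S.PosSemidef) (h2 : (S + Z).PosSemidef) {t : ℝ} (ht : 0 < t) :
    (Amat S t + Z).PosDef := by
  have : Amat S t + Z = (Amat S t - S) + (S + Z) := by abel
  rw [this]
  exact (Amat_sub_posDef' hS ht).add_posSemidef h2

theorem Amat_sub_posDef {S Z : Matrix n n ℂ}
    (hS : S.PosSemidef) (h1 : (S - Z).PosSemidef) {t : ℝ} (ht : 0 < t) :
    (Amat S t - Z).PosDef := by
  have : Amat S t - Z = (Amat S t - S) + (S - Z) := by abel
  rw [this]
  exact (Amat_sub_posDef' hS ht).add_posSemidef h1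

theorem Amat_continuous {S : Matrix n n ℂ} (hS : S.IsHermitian) :
    Continuous fun t : ℝ => Amat S t := by
  have : (fun t : ℝ => Amat S t) = fun t => (hS.eigenvectorUnitary : Matrix n n ℂ) *
      diagonal (fun i => ((Real.sqrt ((hS.eigenvalues i) ^ 2 + t) : ℝ) : ℂ)) *
        (hS.eigenvectorUnitary : Matrix n n ℂ)ᴴ := by
    funext t
    exact GGT.cfc_spec hS _
  rw [this]
  refine (continuous_const.matrix_mul (Continuous.matrix_diagonal ?_)).matrix_mul continuous_const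
  refine continuous_pi fun i => Complex.continuous_ofReal.comp ?_
  exact (continuous_const.add continuous_id).sqrt

/-- joint continuity of `k_t` -/
theorem kmat_cont {S : Matrix n n ℂ} (hS : S.IsHermitian)
    {Z : ℝ → Matrix n n ℂ} {I : Set ℝ} (hZ : ContinuousOn Z I)
    (hp : ∀ x ∈ I, ∀ t > 0, (Amat S t + Z x).PosDef)
    (hm : ∀ x ∈ I, ∀ t > 0, (Amat S t - Z x).PosDef) :
    ContinuousOn (fun p : ℝ × ℝ => kmat S (Z p.1) p.2) (I ×ˢ Set.Ioi 0) := by
  have hZ' : ContinuousOn (fun p : ℝ × ℝ => Z p.1) (I ×ˢ Set.Ioi 0) :=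
    hZ.comp continuousOn_fst fun p hp => hp.1
  have hA' : ContinuousOn (fun p : ℝ × ℝ => Amat S p.2) (I ×ˢ Set.Ioi 0) :=
    ((Amat_continuous hS).comp continuous_snd).continuousOn
  have hlog : ContinuousOn Real.log (Ioi 0) := by
    refine Real.continuousOn_log.mono fun x hx => ?_
    exact (ne_of_gt hx : x ≠ 0)
  have h1 : ContinuousOn (fun p : ℝ × ℝ => cfc Real.log (Amat S p.2 + Z p.1)) (I ×ˢ Set.Ioi 0) :=
    Cal.continuousOn_cfc_pos hlog (hA'.add hZ') fun p hp' => hp p.1 hp'.1 p.2 hp'.2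
  have h2 : ContinuousOn (fun p : ℝ × ℝ => cfc Real.log (Amat S p.2 - Z p.1)) (I ×ˢ Set.Ioi 0) :=
    Cal.continuousOn_cfc_pos hlog (hA'.sub hZ') fun p hp' => hm p.1 hp'.1 p.2 hp'.2
  have h3 : ContinuousOn (fun p : ℝ × ℝ => (((Real.log p.2 : ℝ) : ℂ) • (1 : Matrix n n ℂ)))
      (I ×ˢ Set.Ioi 0) := by
    have hc : ContinuousOn (fun p : ℝ × ℝ => ((Real.log p.2 : ℝ) : ℂ)) (I ×ˢ Set.Ioi 0) :=
      Complex.continuous_ofReal.comp_continuousOn
        (hlog.comp (continuousOn_snd (s := I ×ˢ Set.Ioi 0)) fun p hp' => hp'.2)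
    exact hc.smul (continuousOn_const (c := (1 : Matrix n n ℂ)))
  exact (h1.add h2).sub h3

theorem At_eq_Amat (S : Matrix n n ℂ) (t : ℝ) : At S t = Amat S t := rfl

theorem kt_eq_kmat (S Z : Matrix n n ℂ) (t : ℝ) : kt S Z t = kmat S Z t := rfl

theorem At_add_posDef {n : Type*} [Fintype n] [DecidableEq n] {S Z : Matrix n n ℂ}
    (hS : S.PosSemidef) (h2 : (S + Z).PosSemidef) {t : ℝ} (ht : 0 < t) :
    (At S t + Z).PosDef := Amat_add_posDef hS h2 ht

theorem At_sub_posDef {n : Type*} [Fintype n] [DecidableEq n] {S Z : Matrix n n ℂ}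
    (hS : S.PosSemidef) (h1 : (S - Z).PosSemidef) {t : ℝ} (ht : 0 < t) :
    (At S t - Z).PosDef := Amat_sub_posDef hS h1 ht

/-- joint continuity of `k_t` -/
theorem kt_cont {n : Type*} [Fintype n] [DecidableEq n] {S : Matrix n n ℂ} (hS : S.PosSemidef)
    {Z : ℝ → Matrix n n ℂ} {I : Set ℝ} (hZ : ContinuousOn Z I)
    (h1 : ∀ x ∈ I, (S - Z x).PosSemidef) (h2 : ∀ x ∈ I, (S + Z x).PosSemidef) :
    ContinuousOn (fun p : ℝ × ℝ => kt S (Z p.1) p.2) (I ×ˢ Set.Ioi 0) :=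
  kmat_cont hS.1 hZ (fun x hx _ ht => Amat_add_posDef hS (h2 x hx) ht)
    fun x hx _ ht => Amat_sub_posDef hS (h1 x hx) ht

end Vale.Agent.P371
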