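import Vale.Agent.P371.Defs2
import Vale.Agent.P371.GibbsGT

/-!
# P371 [POW]: matrix powers and trace powers
-/

open MeasureTheory Matrix Finset
open scoped ComplexOrder ENNReal Topology

namespace Vale.Agent.P371

namespace PowAux

theorem trPow_eq_roots {N : ℕ} {A : Matrix (Fin N) (Fin N) ℂ} (hA : A.IsHermitian) (q : ℝ) :
    trPow A q = (A.charpoly.roots.map (fun z : ℂ => z.re ^ q)).sum := by
  unfold trPow
  rw [dif_pos hA, hA.roots_charpoly_eq_eigenvalues, Multiset.map_map]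
  simp [Function.comp_def, List.sum_ofFn]

theorem cfc_isHermitian {N : ℕ} (f : ℝ → ℝ) (A : Matrix (Fin N) (Fin N) ℂ) :
    (cfc f A).IsHermitian := cfc_predicate f A

theorem trPow_cfc {N : ℕ} {A : Matrix (Fin N) (Fin N) ℂ} (hA : A.IsHermitian) (f : ℝ → ℝ)
    (p : ℝ) : trPow (cfc f A) p = ∑ i, f (hA.eigenvalues i) ^ p := by
  rw [trPow_eq_roots (cfc_isHermitian f A), hA.charpoly_cfc_eq, Polynomial.roots_prod _ _
    (Finset.prod_ne_zero_iff.2 fun i _ => Polynomial.X_sub_C_ne_zero _)]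
  simp [Function.comp_def, List.sum_ofFn]

theorem trace_cfc {N : ℕ} {A : Matrix (Fin N) (Fin N) ℂ} (hA : A.IsHermitian) (f : ℝ → ℝ) :
    (trace (cfc f A)).re = ∑ i, f (hA.eigenvalues i) := by
  rw [GGT.cfc_spec hA, trace_mul_comm, ← Matrix.mul_assoc]
  have h : (hA.eigenvectorUnitary : Matrix (Fin N) (Fin N) ℂ)ᴴ *
      (hA.eigenvectorUnitary : Matrix (Fin N) (Fin N) ℂ) = 1 := Unitary.coe_star_mul_self _
  rw [h, Matrix.one_mul, trace_diagonal, Complex.re_sum]
  simp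

theorem cfc_mul_cfc {N : ℕ} {A : Matrix (Fin N) (Fin N) ℂ} (hA : A.IsHermitian) (f g : ℝ → ℝ) :
    cfc f A * cfc g A = cfc (fun x => f x * g x) A := by
  have h : (hA.eigenvectorUnitary : Matrix (Fin N) (Fin N) ℂ)ᴴ *
      (hA.eigenvectorUnitary : Matrix (Fin N) (Fin N) ℂ) = 1 := Unitary.coe_star_mul_self _
  rw [GGT.cfc_spec hA, GGT.cfc_spec hA, GGT.cfc_spec hA]
  set U := (hA.eigenvectorUnitary : Matrix (Fin N) (Fin N) ℂ)
  calc U * diagonal (fun i => (f (hA.eigenvalues i) : ℂ)) * Uᴴ *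
        (U * diagonal (fun i => (g (hA.eigenvalues i) : ℂ)) * Uᴴ)
      = U * diagonal (fun i => (f (hA.eigenvalues i) : ℂ)) * (Uᴴ * U) *
          diagonal (fun i => (g (hA.eigenvalues i) : ℂ)) * Uᴴ := by
        simp only [Matrix.mul_assoc]
    _ = U * (diagonal (fun i => (f (hA.eigenvalues i) : ℂ)) *
          diagonal (fun i => (g (hA.eigenvalues i) : ℂ))) * Uᴴ := by
        rw [h]; simp only [Matrix.mul_assoc, Matrix.one_mul]
    _ = _ := by
        rw [diagonal_mul_diagonal]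
        simp only [Complex.ofReal_mul]

theorem smul_cfc {N : ℕ} {A : Matrix (Fin N) (Fin N) ℂ} (hA : A.IsHermitian) (f : ℝ → ℝ)
    (s : ℝ) : ((s : ℝ) : ℂ) • cfc f A = cfc (fun x => s * f x) A := by
  rw [GGT.cfc_spec hA, GGT.cfc_spec hA, ← Matrix.smul_mul, ← Matrix.mul_smul]
  congr 2
  rw [← diagonal_smul]
  congr 1
  funext i
  simp

theorem cfc_congr_eig {N : ℕ} {A : Matrix (Fin N) (Fin N) ℂ} (hA : A.IsHermitian) {f g : ℝ → ℝ}
    (h : ∀ i, f (hA.eigenvalues i) = g (hA.eigenvalues i)) : cfc f A = cfc g A := by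
  rw [GGT.cfc_spec hA, GGT.cfc_spec hA]
  simp only [h]

theorem cfc_id_eq {N : ℕ} {A : Matrix (Fin N) (Fin N) ℂ} (hA : A.IsHermitian) :
    cfc (fun x : ℝ => x) A = A := by
  rw [GGT.cfc_spec hA]
  exact hA.spectral_theorem.symm

theorem cfc_posSemidef {N : ℕ} {A : Matrix (Fin N) (Fin N) ℂ} (hA : A.IsHermitian) {f : ℝ → ℝ}
    (h : ∀ i, 0 ≤ f (hA.eigenvalues i)) : (cfc f A).PosSemidef := by
  rw [GGT.cfc_spec hA]
  apply PosSemidef.mul_mul_conjTranspose_same
  rw [posSemidef_diagonal_iff]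
  intro i
  exact_mod_cast h i

end PowAux

open PowAux

theorem mpow_posSemidef {N : ℕ} {V : Matrix (Fin N) (Fin N) ℂ} (hV : V.PosSemidef) (q : ℝ) :
    (mpow V q).PosSemidef := by
  unfold mpow
  exact cfc_posSemidef hV.1 (fun i => Real.rpow_nonneg (hV.eigenvalues_nonneg i) q)

theorem trPow_mpow {N : ℕ} {V : Matrix (Fin N) (Fin N) ℂ} (hV : V.PosSemidef) {q p : ℝ}
    (hq : 0 < q) (hp : 0 < p) {s : ℝ} (hs : 0 ≤ s) :
    trPow (((s : ℝ) : ℂ) • mpow V q) p = s ^ p * trPow V (q * p) := by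
  unfold mpow
  rw [smul_cfc hV.1, trPow_cfc hV.1]
  have h1 : trPow V (q * p) = ∑ i, hV.1.eigenvalues i ^ (q * p) := by
    unfold trPow
    rw [dif_pos hV.1]
  rw [h1, Finset.mul_sum]
  refine Finset.sum_congr rfl (fun i _ => ?_)
  have h2 := hV.eigenvalues_nonneg i
  rw [Real.mul_rpow hs (Real.rpow_nonneg h2 q), ← Real.rpow_mul h2]

theorem trace_mpow_mul {N : ℕ} {V : Matrix (Fin N) (Fin N) ℂ} (hV : V.PosSemidef) {q : ℝ}
    (hq : 0 < q) : (trace (mpow V q * V)).re = trPow V (q + 1) := by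
  have h1 : mpow V q * V = cfc (fun x : ℝ => x ^ q * x) V := by
    unfold mpow
    conv_lhs => rw [← cfc_id_eq hV.1]
    rw [← cfc_mul_cfc hV.1, cfc_id_eq hV.1]
  rw [h1, trace_cfc hV.1]
  unfold trPow
  rw [dif_pos hV.1]
  refine Finset.sum_congr rfl (fun i _ => ?_)
  have h2 := hV.eigenvalues_nonneg i
  rw [Real.rpow_add_of_nonneg h2 hq.le zero_le_one, Real.rpow_one]

/-- same nonzero eigenvalues -/
theorem trPow_comm {m N : ℕ} (D : Matrix (Fin N) (Fin N) ℂ) (hD : D.IsHermitian)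
    (F : Matrix (Fin m) (Fin N) ℂ) {q : ℝ} (hq : 0 < q) :
    trPow (F * (D * D) * Fᴴ) q = trPow (D * (Fᴴ * F) * D) q := by
  have e1 : F * (D * D) * Fᴴ = (F * D) * (F * D)ᴴ := by
    rw [conjTranspose_mul, hD.eq]
    simp only [Matrix.mul_assoc]
  have e2 : D * (Fᴴ * F) * D = (F * D)ᴴ * (F * D) := by
    rw [conjTranspose_mul, hD.eq]
    simp only [Matrix.mul_assoc]
  rw [e1, e2]
  set A := F * D with hA
  have h1 : (A * Aᴴ).IsHermitian := isHermitian_mul_conjTranspose_self A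
  have h2 : (Aᴴ * A).IsHermitian := isHermitian_conjTranspose_mul_self A
  rw [trPow_eq_roots h1, trPow_eq_roots h2]
  have h3 := charpoly_mul_comm' A Aᴴ
  have h4 : (A * Aᴴ).charpoly ≠ 0 := (charpoly_monic _).ne_zero
  have h5 : (Aᴴ * A).charpoly ≠ 0 := (charpoly_monic _).ne_zero
  have h6 := congrArg Polynomial.roots h3
  rw [Polynomial.roots_mul (mul_ne_zero (pow_ne_zero _ Polynomial.X_ne_zero) h4),
    Polynomial.roots_mul (mul_ne_zero (pow_ne_zero _ Polynomial.X_ne_zero) h5),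
    Polynomial.roots_X_pow, Polynomial.roots_X_pow] at h6
  have h7 := congrArg (fun s => (s.map fun z : ℂ => z.re ^ q).sum) h6
  simpa [Multiset.map_nsmul, Multiset.sum_nsmul, Real.zero_rpow hq.ne'] using h7

theorem trPow_nonneg {N : ℕ} {V : Matrix (Fin N) (Fin N) ℂ} (hV : V.PosSemidef) (q : ℝ) :
    0 ≤ trPow V q := by
  unfold trPow
  rw [dif_pos hV.1]
  exact Finset.sum_nonneg (fun i _ => Real.rpow_nonneg (hV.eigenvalues_nonneg i) q)

namespace PowAux

theorem trace_eq {N : ℕ} {V : Matrix (Fin N) (Fin N) ℂ} (hV : V.IsHermitian) :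
    (trace V).re = ∑ i, hV.eigenvalues i := by
  have h := trace_cfc hV (fun x => x)
  rwa [cfc_id_eq hV] at h

end PowAux

theorem trPow_le {N : ℕ} {V : Matrix (Fin N) (Fin N) ℂ} (hV : V.PosSemidef) {q : ℝ}
    (hq : 1 ≤ q) : trPow V q ≤ (trace V).re ^ q := by
  rw [trace_eq hV.1]
  unfold trPow
  rw [dif_pos hV.1]
  set T := ∑ i, hV.1.eigenvalues i with hT
  have h0 : ∀ i, 0 ≤ hV.1.eigenvalues i := hV.eigenvalues_nonneg
  have hT0 : 0 ≤ T := Finset.sum_nonneg (fun i _ => h0 i)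
  have h1 : ∀ i ∈ (Finset.univ : Finset (Fin N)), hV.1.eigenvalues i ^ q ≤
      hV.1.eigenvalues i * T ^ (q - 1) := by
    intro i _
    have h2 : hV.1.eigenvalues i ≤ T := Finset.single_le_sum (fun j _ => h0 j) (Finset.mem_univ i)
    have h3 : hV.1.eigenvalues i ^ q = hV.1.eigenvalues i * hV.1.eigenvalues i ^ (q - 1) := by
      conv_lhs => rw [show q = 1 + (q - 1) by ring]
      rw [Real.rpow_add_of_nonneg (h0 i) zero_le_one (by linarith), Real.rpow_one]
    rw [h3]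
    exact mul_le_mul_of_nonneg_left (Real.rpow_le_rpow (h0 i) h2 (by linarith)) (h0 i)
  refine (Finset.sum_le_sum h1).trans ?_
  rw [← Finset.sum_mul, ← hT]
  conv_rhs => rw [show q = 1 + (q - 1) by ring]
  rw [Real.rpow_add_of_nonneg hT0 zero_le_one (by linarith), Real.rpow_one]

/-- `Tr S` is controlled by `Tr S^p`, `p ≥ 1` -/
theorem trace_le_trPow {N : ℕ} {S : Matrix (Fin N) (Fin N) ℂ} (hS : S.PosSemidef) {p : ℝ}
    (hp : 1 ≤ p) : (trace S).re ≤ N + trPow S p := by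
  rw [trace_eq hS.1]
  unfold trPow
  rw [dif_pos hS.1]
  have h1 : ∀ i ∈ (Finset.univ : Finset (Fin N)), hS.1.eigenvalues i ≤
      1 + hS.1.eigenvalues i ^ p := by
    intro i _
    have h0 := hS.eigenvalues_nonneg i
    rcases le_total (hS.1.eigenvalues i) 1 with h | h
    · have := Real.rpow_nonneg h0 p
      linarith
    · have h2 := Real.rpow_le_rpow_of_exponent_le h hp
      rw [Real.rpow_one] at h2
      linarith
  refine (Finset.sum_le_sum h1).trans ?_
  rw [Finset.sum_add_distrib]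
  simp

namespace PowAux

open scoped Matrix.Norms.L2Operator in
theorem cfc_continuousOn {N : ℕ} {f : ℝ → ℝ} (hf : Continuous f) :
    ContinuousOn (fun V : Matrix (Fin N) (Fin N) ℂ => cfc f V) {V | V.IsHermitian} := by
  apply ContinuousOn.cfc (s := fun V : Matrix (Fin N) (Fin N) ℂ =>
    Set.Icc (-((‖V‖ + 1) * ‖(1 : Matrix (Fin N) (Fin N) ℂ)‖))
      ((‖V‖ + 1) * ‖(1 : Matrix (Fin N) (Fin N) ℂ)‖)) f
  · intro V _
    exact isCompact_Icc
  · exact continuousOn_id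
  · intro V0 _
    have h1 : ∀ᶠ V in 𝓝 V0, ‖V‖ < ‖V0‖ + 1 :=
      (continuous_norm.tendsto V0).eventually_lt_const (by linarith)
    filter_upwards [nhdsWithin_le_nhds h1] with V hV x hx
    have h2 := spectrum.norm_le_norm_mul_of_mem hx
    have h3 : ‖V‖ * ‖(1 : Matrix (Fin N) (Fin N) ℂ)‖ ≤
        (‖V0‖ + 1) * ‖(1 : Matrix (Fin N) (Fin N) ℂ)‖ :=
      mul_le_mul_of_nonneg_right hV.le (norm_nonneg _)
    rw [Set.mem_Icc, ← abs_le, ← Real.norm_eq_abs]
    exact h2.trans h3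
  · intro V hV
    exact hV

end PowAux

theorem mpow_cont {N : ℕ} {q : ℝ} (hq : 0 < q) :
    ContinuousOn (fun V : Matrix (Fin N) (Fin N) ℂ => mpow V q) {V | V.PosSemidef} := by
  unfold mpow
  exact (cfc_continuousOn (Real.continuous_rpow_const hq.le)).mono (fun V hV => hV.1)

theorem trPow_cont {N : ℕ} {q : ℝ} (hq : 0 < q) :
    ContinuousOn (fun V : Matrix (Fin N) (Fin N) ℂ => trPow V q) {V | V.PosSemidef} := by
  have h1 : ContinuousOn (fun V : Matrix (Fin N) (Fin N) ℂ => (trace (mpow V q)).re)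
      {V | V.PosSemidef} :=
    (Complex.continuous_re.comp (continuous_id.matrix_trace)).comp_continuousOn (mpow_cont hq)
  refine h1.congr (fun V hV => ?_)
  show trPow V q = (trace (mpow V q)).re
  unfold mpow trPow
  rw [trace_cfc (show V.IsHermitian from hV.1), dif_pos (show V.IsHermitian from hV.1)]

end Vale.Agent.P371
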