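import Vale.Agent.P371.Const

/-!
# P371: one-dimensional integrals
-/

open MeasureTheory Matrix Finset
open scoped ComplexOrder ENNReal Topology

namespace Vale.Agent.P371

namespace ScalarAux

theorem log_nonneg' {y t : ℝ} (hy : 0 ≤ y) (ht : 0 < t) : 0 ≤ Real.log (1 + y / t) :=
  Real.log_nonneg (by have := div_nonneg hy ht.le; linarith)

theorem log_le' {y t : ℝ} (hy : 0 ≤ y) (ht : 0 < t) : Real.log (1 + y / t) ≤ y / t := by
  have h := Real.log_le_sub_one_of_pos (show 0 < 1 + y / t by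
    have := div_nonneg hy ht.le; linarith)
  linarith

/-- near zero -/
theorem log_le_rpow {r y t : ℝ} (hr : 0 < r) (hy : 0 ≤ y) (ht : 0 < t) (ht1 : t ≤ 1) :
    Real.log (1 + y / t) ≤ (1 + y) ^ (r / 2) / (r / 2) * t ^ (-(r / 2)) := by
  have h1 : 1 + y / t ≤ (1 + y) / t := by
    rw [add_div]
    have : 1 ≤ 1 / t := by rw [le_div_iff₀ ht]; linarith
    linarith
  have h0 : 0 < 1 + y / t := by have := div_nonneg hy ht.le; linarith
  calc Real.log (1 + y / t) ≤ (1 + y / t) ^ (r / 2) / (r / 2) :=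
        Real.log_le_rpow_div h0.le (by linarith)
    _ ≤ ((1 + y) / t) ^ (r / 2) / (r / 2) := by gcongr
    _ = _ := by
        rw [Real.div_rpow (by linarith) ht.le, Real.rpow_neg ht.le]
        field_simp

theorem meas_one (r y : ℝ) : Measurable (fun t : ℝ => t ^ (r - 1) * Real.log (1 + y / t)) := by
  fun_prop

end ScalarAux

open ScalarAux

theorem Ir_integrable {r : ℝ} (hr0 : 0 < r) (hr1 : r < 1) (y : ℝ) (hy : 0 ≤ y) :
    IntegrableOn (fun t => t ^ (r - 1) * Real.log (1 + y / t)) (Set.Ioi 0) := by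
  rw [← Set.Ioc_union_Ioi_eq_Ioi (zero_le_one : (0 : ℝ) ≤ 1)]
  refine IntegrableOn.union ?_ ?_
  · have h1 : IntegrableOn (fun t : ℝ => (1 + y) ^ (r / 2) / (r / 2) * t ^ (r / 2 - 1))
        (Set.Ioc 0 1) := by
      have := (intervalIntegral.intervalIntegrable_rpow' (a := 0) (b := 1)
        (show -1 < r / 2 - 1 by linarith)).1
      exact this.const_mul _
    refine Integrable.mono' h1 (meas_one r y).aestronglyMeasurable ?_
    refine (ae_restrict_iff' measurableSet_Ioc).2 (Filter.Eventually.of_forall fun t ht => ?_)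
    have hl := log_le_rpow hr0 hy ht.1 ht.2
    have hp : 0 ≤ t ^ (r - 1) := Real.rpow_nonneg ht.1.le _
    rw [Real.norm_of_nonneg (mul_nonneg hp (log_nonneg' hy ht.1))]
    calc t ^ (r - 1) * Real.log (1 + y / t)
        ≤ t ^ (r - 1) * ((1 + y) ^ (r / 2) / (r / 2) * t ^ (-(r / 2))) := by gcongr
      _ = (1 + y) ^ (r / 2) / (r / 2) * (t ^ (r - 1) * t ^ (-(r / 2))) := by ring
      _ = _ := by rw [← Real.rpow_add ht.1]; ring_nf
  · have h1 : IntegrableOn (fun t : ℝ => y * t ^ (r - 2)) (Set.Ioi 1) :=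
      (integrableOn_Ioi_rpow_of_lt (by linarith) one_pos).const_mul _
    refine Integrable.mono' h1 (meas_one r y).aestronglyMeasurable ?_
    refine (ae_restrict_iff' measurableSet_Ioi).2 (Filter.Eventually.of_forall fun t ht => ?_)
    have ht0 : (0 : ℝ) < t := lt_trans one_pos ht
    have hp : 0 ≤ t ^ (r - 1) := Real.rpow_nonneg ht0.le _
    rw [Real.norm_of_nonneg (mul_nonneg hp (log_nonneg' hy ht0))]
    calc t ^ (r - 1) * Real.log (1 + y / t) ≤ t ^ (r - 1) * (y / t) := by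
          gcongr; exact log_le' hy ht0
      _ = y * (t ^ (r - 1) / t) := by ring
      _ = _ := by
          rw [show r - 2 = r - 1 - 1 by ring, Real.rpow_sub_one ht0.ne' (r - 1)]

theorem Ir_pos {r : ℝ} (hr0 : 0 < r) (hr1 : r < 1) : 0 < Ir r := by
  rw [Ir, setIntegral_pos_iff_support_of_nonneg_ae]
  · have hsub : Set.Ioi (0 : ℝ) ⊆
        Function.support (fun t : ℝ => t ^ (r - 1) * Real.log (1 + 1 / t)) ∩ Set.Ioi 0 := by
      intro t ht
      refine ⟨?_, ht⟩
      have ht' : (0 : ℝ) < t := ht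
      have h1 : 0 < t ^ (r - 1) := Real.rpow_pos_of_pos ht' _
      have h2 : 0 < Real.log (1 + 1 / t) := Real.log_pos (by
        have : 0 < 1 / t := by positivity
        linarith)
      exact (mul_pos h1 h2).ne'
    refine lt_of_lt_of_le ?_ (measure_mono hsub)
    simp
  · refine (ae_restrict_iff' measurableSet_Ioi).2 (Filter.Eventually.of_forall fun t ht => ?_)
    exact mul_nonneg (Real.rpow_nonneg (le_of_lt ht) _) (log_nonneg' zero_le_one ht)
  · exact Ir_integrable hr0 hr1 1 zero_le_one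

theorem Ir_scale {r : ℝ} (hr0 : 0 < r) (hr1 : r < 1) (y : ℝ) (hy : 0 ≤ y) :
    ∫ t in Set.Ioi (0 : ℝ), t ^ (r - 1) * Real.log (1 + y / t) = Ir r * y ^ r := by
  rcases hy.eq_or_lt with rfl | hy
  · simp [Real.zero_rpow hr0.ne']
  · have h := integral_comp_mul_left_Ioi (fun t : ℝ => t ^ (r - 1) * Real.log (1 + y / t)) 0 hy
    rw [mul_zero, smul_eq_mul] at h
    have h2 : ∫ x in Set.Ioi (0 : ℝ), (y * x) ^ (r - 1) * Real.log (1 + y / (y * x)) =
        y ^ (r - 1) * Ir r := by
      rw [Ir, ← integral_const_mul]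
      refine setIntegral_congr_fun measurableSet_Ioi fun t ht => ?_
      have ht' : (0 : ℝ) < t := ht
      rw [Real.mul_rpow hy.le ht'.le, div_mul_cancel_left₀ hy.ne', one_div, mul_assoc]
    rw [h2] at h
    have h3 : y ^ r = y * y ^ (r - 1) := by
      rw [Real.rpow_sub_one hy.ne']; field_simp
    rw [h3]
    field_simp at h
    linarith

namespace ScalarAux

/-- `h(y,t) = (y+t) log (1+y/t) - y` -/
noncomputable def hh (y t : ℝ) : ℝ := (y + t) * Real.log (1 + y / t) - y

theorem hh_nonneg {y t : ℝ} (hy : 0 ≤ y) (ht : 0 < t) : 0 ≤ hh y t := by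
  have h0 : 0 < 1 + y / t := by have := div_nonneg hy ht.le; linarith
  have h := Real.one_sub_inv_le_log_of_pos h0
  have h2 : (y + t) * (1 - (1 + y / t)⁻¹) = y := by
    have : y + t ≠ 0 := by positivity
    field_simp
    ring
  have h3 : (y + t) * (1 - (1 + y / t)⁻¹) ≤ (y + t) * Real.log (1 + y / t) := by gcongr
  unfold hh
  linarith

theorem hh_le {y t : ℝ} (hy : 0 ≤ y) (ht : 0 < t) : hh y t ≤ y * Real.log (1 + y / t) := by
  have h := log_le' hy ht
  have h2 : t * Real.log (1 + y / t) ≤ t * (y / t) := by gcongr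
  rw [mul_div_cancel₀ _ ht.ne'] at h2
  unfold hh
  linarith

theorem hasDerivAt_hh {y t : ℝ} (hy : 0 ≤ y) (ht : 0 < t) :
    HasDerivAt (fun t => hh y t) (Real.log (1 + y / t) - y / t) t := by
  have h0 : 0 < 1 + y / t := by have := div_nonneg hy ht.le; linarith
  have h1 : HasDerivAt (fun t : ℝ => 1 + y / t) (-(y / t ^ 2)) t := by
    have := ((hasDerivAt_inv ht.ne').const_mul y).const_add 1
    simpa [div_eq_mul_inv] using this
  have h2 := h1.log h0.ne'
  have h3 := (((hasDerivAt_id' t).const_add y).fun_mul h2).sub_const y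
  refine h3.congr_deriv ?_
  have : y + t ≠ 0 := by positivity
  have h4 : 1 + y / t = (y + t) / t := by field_simp; ring
  rw [h4]
  field_simp
  ring

theorem hasDerivAt_trh {r y t : ℝ} (hy : 0 ≤ y) (ht : 0 < t) :
    HasDerivAt (fun t => t ^ r * hh y t)
      ((1 + r) * (t ^ (r - 1) * hh y t) - y * (t ^ (r - 1) * Real.log (1 + y / t))) t := by
  have h := (Real.hasDerivAt_rpow_const (x := t) (p := r) (Or.inl ht.ne')).fun_mul
    (hasDerivAt_hh hy ht)
  refine h.congr_deriv ?_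
  have e : t ^ r = t * t ^ (r - 1) := by rw [Real.rpow_sub_one ht.ne']; field_simp
  rw [e, hh]
  field_simp
  ring

end ScalarAux

open ScalarAux

/-- used in STEP1 -/
theorem Ir_integrable' {r : ℝ} (hr0 : 0 < r) (hr1 : r < 1) (y : ℝ) (hy : 0 ≤ y) :
    IntegrableOn (fun t => t ^ (r - 1) * ((y + t) * Real.log (1 + y / t) - y)) (Set.Ioi 0) := by
  refine Integrable.mono' ((Ir_integrable hr0 hr1 y hy).const_mul y)
    (Measurable.aestronglyMeasurable (by fun_prop)) ?_
  refine (ae_restrict_iff' measurableSet_Ioi).2 (Filter.Eventually.of_forall fun t ht => ?_)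
  have ht' : (0 : ℝ) < t := ht
  have hp : 0 ≤ t ^ (r - 1) := Real.rpow_nonneg ht'.le _
  have h1 := hh_nonneg hy ht'
  have h2 := hh_le hy ht'
  unfold hh at h1 h2
  rw [Real.norm_of_nonneg (mul_nonneg hp h1)]
  calc t ^ (r - 1) * ((y + t) * Real.log (1 + y / t) - y)
      ≤ t ^ (r - 1) * (y * Real.log (1 + y / t)) := by gcongr
    _ = _ := by ring

/-- used in STEP1 -/
theorem Ir_scale' {r : ℝ} (hr0 : 0 < r) (hr1 : r < 1) (y : ℝ) (hy : 0 ≤ y) :
    ∫ t in Set.Ioi (0 : ℝ), t ^ (r - 1) * ((y + t) * Real.log (1 + y / t) - y) =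
      Ir r * y ^ (1 + r) / (1 + r) := by
  have hI1 := Ir_integrable hr0 hr1 y hy
  have hI2 := Ir_integrable' hr0 hr1 y hy
  have htop : Filter.Tendsto (fun t => t ^ r * hh y t) Filter.atTop (𝓝 0) := by
    have h1 : Filter.Tendsto (fun t : ℝ => y * y * t ^ (-(1 - r))) Filter.atTop (𝓝 (y * y * 0)) :=
      (tendsto_rpow_neg_atTop (by linarith)).const_mul _
    rw [mul_zero] at h1
    refine tendsto_of_tendsto_of_tendsto_of_le_of_le' tendsto_const_nhds h1 ?_ ?_
    · filter_upwards [Filter.eventually_gt_atTop 0] with t ht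
      exact mul_nonneg (Real.rpow_nonneg ht.le _) (hh_nonneg hy ht)
    · filter_upwards [Filter.eventually_gt_atTop 0] with t ht
      have hp : 0 ≤ t ^ r := Real.rpow_nonneg ht.le _
      calc t ^ r * hh y t ≤ t ^ r * (y * (y / t)) := by
            gcongr
            exact (hh_le hy ht).trans (by gcongr; exact log_le' hy ht)
        _ = y * y * (t ^ r / t) := by ring
        _ = _ := by rw [← Real.rpow_sub_one ht.ne']; ring_nf
  have hzero : Filter.Tendsto (fun t => t ^ r * hh y t) (𝓝[>] 0) (𝓝 0) := by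
    have h1 : Filter.Tendsto (fun t : ℝ => y * ((1 + y) ^ (r / 2) / (r / 2)) * t ^ (r / 2))
        (𝓝[>] 0) (𝓝 (y * ((1 + y) ^ (r / 2) / (r / 2)) * 0)) := by
      refine Filter.Tendsto.const_mul _ ?_
      have h := (Real.continuousAt_rpow_const 0 (r / 2) (Or.inr (by linarith))).tendsto
      rw [Real.zero_rpow (by linarith)] at h
      exact h.mono_left nhdsWithin_le_nhds
    rw [mul_zero] at h1
    refine tendsto_of_tendsto_of_tendsto_of_le_of_le' tendsto_const_nhds h1 ?_ ?_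
    · filter_upwards [self_mem_nhdsWithin] with t ht
      exact mul_nonneg (Real.rpow_nonneg (le_of_lt ht) _) (hh_nonneg hy ht)
    · filter_upwards [Ioc_mem_nhdsGT one_pos] with t ht
      have ht0 := ht.1
      have hp : 0 ≤ t ^ r := Real.rpow_nonneg ht0.le _
      calc t ^ r * hh y t
          ≤ t ^ r * (y * ((1 + y) ^ (r / 2) / (r / 2) * t ^ (-(r / 2)))) := by
            gcongr
            exact (hh_le hy ht0).trans (by gcongr; exact log_le_rpow hr0 hy ht0 ht.2)
        _ = y * ((1 + y) ^ (r / 2) / (r / 2)) * (t ^ r * t ^ (-(r / 2))) := by ring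
        _ = _ := by rw [← Real.rpow_add ht0]; ring_nf
  have hcont : ContinuousWithinAt (fun t => t ^ r * hh y t) (Set.Ici 0) 0 := by
    rw [← continuousWithinAt_Ioi_iff_Ici, ContinuousWithinAt, Real.zero_rpow hr0.ne', zero_mul]
    exact hzero
  have hI2' : IntegrableOn (fun t => t ^ (r - 1) * hh y t) (Set.Ioi 0) := hI2
  have hmain := integral_Ioi_of_hasDerivAt_of_tendsto hcont
    (fun t ht => hasDerivAt_trh (r := r) hy ht) ((hI2'.const_mul _).sub (hI1.const_mul _)) htop
  rw [integral_sub (hI2'.const_mul _) (hI1.const_mul _), integral_const_mul, integral_const_mul,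
    Ir_scale hr0 hr1 y hy, Real.zero_rpow hr0.ne', zero_mul, sub_zero] at hmain
  have h3 : y ^ (1 + r) = y * y ^ r := by
    rw [Real.rpow_add' hy (by linarith), Real.rpow_one]
  have h1r : (1 : ℝ) + r ≠ 0 := by linarith
  rw [eq_div_iff h1r, h3]
  unfold hh at hmain
  linarith

theorem betaR_pos {r : ℝ} (hr0 : 0 < r) : 0 < betaR r := by
  rw [ConstAux.betaR_eq hr0]
  have hG1 : 0 < Real.Gamma (r + 1) := Real.Gamma_pos_of_pos (by linarith)
  have hG3 : 0 < Real.Gamma (r + 3 / 2) := Real.Gamma_pos_of_pos (by linarith)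
  have hpi : 0 < Real.sqrt Real.pi := Real.sqrt_pos.2 Real.pi_pos
  positivity

theorem gs_cont {s : ℝ} (hs : 0 ≤ s) : ContinuousOn (gs s) (Set.Ioi 0) := by
  intro t0 ht0
  have ht0' : (0 : ℝ) < t0 := ht0
  refine ContinuousAt.continuousWithinAt ?_
  unfold gs
  refine intervalIntegral.continuousAt_of_dominated_interval (bound := fun _ => 2 * s ^ 2 / t0)
    ?_ ?_ ?_ ?_
  · filter_upwards [Ioi_mem_nhds ht0'] with t ht
    exact Measurable.aestronglyMeasurable (by fun_prop)
  · filter_upwards [Ioi_mem_nhds (show t0 / 2 < t0 by linarith)] with t ht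
    refine Filter.Eventually.of_forall fun z hz => ?_
    rw [Set.uIoc_of_le (by linarith)] at hz
    have ht' : t0 / 2 < t := ht
    have htp : 0 < t := by linarith
    have hz2 : z ^ 2 ≤ s ^ 2 := by
      apply sq_le_sq'
      · linarith [hz.1]
      · exact hz.2
    have h0 : 0 ≤ s ^ 2 - z ^ 2 := by linarith
    rw [Real.norm_of_nonneg (log_nonneg' h0 htp)]
    calc Real.log (1 + (s ^ 2 - z ^ 2) / t) ≤ (s ^ 2 - z ^ 2) / t := log_le' h0 htp
      _ ≤ s ^ 2 / (t0 / 2) := by
          gcongr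
          · nlinarith [sq_nonneg z]
      _ = _ := by field_simp
  · exact intervalIntegrable_const
  · refine Filter.Eventually.of_forall fun z hz => ?_
    rw [Set.uIoc_of_le (by linarith)] at hz
    have hz2 : z ^ 2 ≤ s ^ 2 := by
      apply sq_le_sq'
      · linarith [hz.1]
      · exact hz.2
    have h0 : 0 ≤ s ^ 2 - z ^ 2 := by linarith
    have h1 : 1 + (s ^ 2 - z ^ 2) / t0 ≠ 0 := by
      have := div_nonneg h0 ht0'.le
      linarith
    exact (continuousAt_const.add (continuousAt_const.div continuousAt_id ht0'.ne')).log h1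

namespace ScalarAux

theorem beta_scale {r : ℝ} (hr0 : 0 < r) {s : ℝ} (hs : 0 ≤ s) :
    ∫ z in (-s)..s, (s ^ 2 - z ^ 2) ^ r = s ^ (2 * r + 1) * betaR r := by
  rcases hs.eq_or_lt with rfl | hs
  · simp [Real.zero_rpow (by linarith : 2 * r + 1 ≠ 0)]
  · have h := intervalIntegral.integral_comp_mul_left (a := (-1 : ℝ)) (b := 1)
      (fun z : ℝ => (s ^ 2 - z ^ 2) ^ r) (c := s) hs.ne'
    rw [smul_eq_mul, mul_one, mul_neg, mul_one] at h
    have h2 : ∫ x in (-1 : ℝ)..1, (s ^ 2 - (s * x) ^ 2) ^ r = s ^ (2 * r) * betaR r := by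
      rw [betaR, ← intervalIntegral.integral_const_mul]
      refine intervalIntegral.integral_congr fun x hx => ?_
      rw [Set.uIcc_of_le (by norm_num)] at hx
      have hx2 : x ^ 2 ≤ 1 := by nlinarith [hx.1, hx.2]
      rw [show s ^ 2 - (s * x) ^ 2 = s ^ 2 * (1 - x ^ 2) by ring,
        Real.mul_rpow (by positivity) (by linarith), Real.rpow_mul hs.le, Real.rpow_two]
    rw [h2] at h
    rw [Real.rpow_add_one hs.ne']
    field_simp at h
    linarith

end ScalarAux

namespace ScalarAux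

theorem tendsto_trunc {g : ℝ → ℝ} (hg : IntegrableOn g (Set.Ioi 0)) :
    Filter.Tendsto (fun ε => ∫ t in ε..(1 / ε), g t) (𝓝[>] 0) (𝓝 (∫ t in Set.Ioi 0, g t)) := by
  have hc : AECover (volume.restrict (Set.Ioi (0 : ℝ))) (𝓝[>] (0 : ℝ))
      (fun ε : ℝ => Set.Ioc ε (1 / ε)) := by
    refine ⟨?_, fun ε => measurableSet_Ioc⟩
    refine (ae_restrict_iff' measurableSet_Ioi).2 (Filter.Eventually.of_forall fun x hx => ?_)
    have hx' : (0 : ℝ) < x := hx
    filter_upwards [Ioo_mem_nhdsGT (show (0 : ℝ) < min x (1 / x) by positivity)] with ε hε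
    refine ⟨hε.2.trans_le (min_le_left _ _), ?_⟩
    rw [le_div_iff₀ hε.1]
    have h := (hε.2.trans_le (min_le_right _ _)).le
    rw [le_div_iff₀ hx'] at h
    linarith
  have h := hc.integral_tendsto_of_countably_generated hg
  refine h.congr' ?_
  filter_upwards [Ioo_mem_nhdsGT (show (0 : ℝ) < 1 by norm_num)] with ε hε
  have h1 : ε ≤ 1 / ε := by
    rw [le_div_iff₀ hε.1]
    nlinarith [hε.1, hε.2]
  have h2 : Set.Ioc ε (1 / ε) ∩ Set.Ioi 0 = Set.Ioc ε (1 / ε) :=
    Set.inter_eq_left.2 (fun x hx => lt_trans hε.1 hx.1)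
  rw [intervalIntegral.integral_of_le h1, Measure.restrict_restrict measurableSet_Ioc, h2]

theorem integral_gs {r : ℝ} (hr0 : 0 < r) (hr1 : r < 1) {s : ℝ} (hs : 0 ≤ s) :
    IntegrableOn (fun t => t ^ (r - 1) * gs s t) (Set.Ioi 0) ∧
    ∫ t in Set.Ioi (0 : ℝ), t ^ (r - 1) * gs s t = Ir r * betaR r * s ^ (2 * r + 1) := by
  have hm : Measurable (fun p : ℝ × ℝ => p.1 ^ (r - 1) * Real.log (1 + (s ^ 2 - p.2 ^ 2) / p.1)) := by
    fun_prop
  have hz : ∀ z ∈ Set.Ioc (-s) s, 0 ≤ s ^ 2 - z ^ 2 := by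
    intro z hz
    have : z ^ 2 ≤ s ^ 2 := sq_le_sq' (by linarith [hz.1]) hz.2
    linarith
  have hnorm : ∀ z ∈ Set.Ioc (-s) s,
      ∫ t in Set.Ioi (0 : ℝ), ‖t ^ (r - 1) * Real.log (1 + (s ^ 2 - z ^ 2) / t)‖ =
        Ir r * (s ^ 2 - z ^ 2) ^ r := by
    intro z hzz
    rw [← Ir_scale hr0 hr1 _ (hz z hzz)]
    refine setIntegral_congr_fun measurableSet_Ioi fun t ht => ?_
    exact Real.norm_of_nonneg
      (mul_nonneg (Real.rpow_nonneg (le_of_lt ht) _) (log_nonneg' (hz z hzz) ht))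
  have hcont : IntegrableOn (fun z : ℝ => Ir r * (s ^ 2 - z ^ 2) ^ r) (Set.Ioc (-s) s) := by
    have h : Continuous (fun z : ℝ => Ir r * (s ^ 2 - z ^ 2) ^ r) :=
      continuous_const.mul ((by fun_prop : Continuous fun z : ℝ => s ^ 2 - z ^ 2).rpow_const
        (fun _ => Or.inr hr0.le))
    exact (h.integrableOn_Icc).mono_set Set.Ioc_subset_Icc_self
  have hF : Integrable (fun p : ℝ × ℝ => p.1 ^ (r - 1) * Real.log (1 + (s ^ 2 - p.2 ^ 2) / p.1))
      ((volume.restrict (Set.Ioi (0 : ℝ))).prod (volume.restrict (Set.Ioc (-s) s))) := by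
    rw [integrable_prod_iff' hm.aestronglyMeasurable]
    constructor
    · refine (ae_restrict_iff' measurableSet_Ioc).2 (Filter.Eventually.of_forall fun z hzz => ?_)
      exact Ir_integrable hr0 hr1 _ (hz z hzz)
    · refine Integrable.congr hcont ?_
      refine (ae_restrict_iff' measurableSet_Ioc).2 (Filter.Eventually.of_forall fun z hzz => ?_)
      exact (hnorm z hzz).symm
  have hgs : ∀ t, ∫ z in Set.Ioc (-s) s, t ^ (r - 1) * Real.log (1 + (s ^ 2 - z ^ 2) / t) =
      t ^ (r - 1) * gs s t := by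
    intro t
    rw [integral_const_mul, gs, intervalIntegral.integral_of_le (by linarith)]
  constructor
  · have h := hF.integral_prod_left
    refine h.congr (Filter.Eventually.of_forall fun t => ?_)
    exact hgs t
  · have h := integral_integral_swap (f := fun t z => t ^ (r - 1) *
      Real.log (1 + (s ^ 2 - z ^ 2) / t)) hF
    calc ∫ t in Set.Ioi (0 : ℝ), t ^ (r - 1) * gs s t
        = ∫ t in Set.Ioi (0 : ℝ), ∫ z in Set.Ioc (-s) s,
            t ^ (r - 1) * Real.log (1 + (s ^ 2 - z ^ 2) / t) := by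
          congr 1
          ext t
          exact (hgs t).symm
      _ = _ := h
      _ = ∫ z in Set.Ioc (-s) s, Ir r * (s ^ 2 - z ^ 2) ^ r :=
          setIntegral_congr_fun measurableSet_Ioc fun z hzz => Ir_scale hr0 hr1 _ (hz z hzz)
      _ = Ir r * ∫ z in (-s)..s, (s ^ 2 - z ^ 2) ^ r := by
          rw [integral_const_mul, intervalIntegral.integral_of_le (by linarith)]
      _ = _ := by rw [beta_scale hr0 hs]; ring

end ScalarAux

theorem scalar_lim {r : ℝ} (hr0 : 0 < r) (hr1 : r < 1) {s : ℝ} (hs : 0 ≤ s) :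
    Filter.Tendsto (fun ε => ∫ t in ε..(1 / ε), t ^ (r - 1) * gs s t) (𝓝[>] 0)
      (𝓝 (Ir r * betaR r * s ^ (2 * r + 1))) := by
  rw [← (integral_gs hr0 hr1 hs).2]
  exact tendsto_trunc (integral_gs hr0 hr1 hs).1

end Vale.Agent.P371
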