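import Vale.Agent.P371.StepN
import Vale.Agent.P371.Scalar

/-!
# P371 [STEP1]: the trace inequality for `B = ∫ t^{r-1} k_t dt`
-/

open MeasureTheory Matrix Finset Filter Topology
open scoped ComplexOrder

namespace Vale.Agent.P371

/-- `m(e) = Tr k_e (Y + e) - Tr Y` -/
noncomputable def mfun {n : Type*} [Fintype n] [DecidableEq n] (S Z : Matrix n n ℂ) (e : ℝ) : ℝ :=
  (trace (kmat S Z e * (S ^ 2 - Z ^ 2 + ((e : ℝ) : ℂ) • 1) - (S ^ 2 - Z ^ 2))).re

/-- upper bound for `mfun`, depending on `S` only -/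
noncomputable def bm {n : Type*} [Fintype n] (S : Matrix n n ℂ) (e : ℝ) : ℝ :=
  Fintype.card n * ((2 * ((trace S).re + Fintype.card n)) ^ 2 *
    (|Real.log ((2 * ((trace S).re + Fintype.card n)) ^ 2)| + |Real.log e|) + 1)

namespace SM

open LI

variable {n : Type*} [Fintype n] [DecidableEq n] {S Z : Matrix n n ℂ}

set_option linter.unusedSectionVars false

theorem mfun_eq (S Z : Matrix n n ℂ) (e : ℝ) : mfun S Z e = mt S Z e := by
  rw [mfun, mt, trace_sub, Complex.sub_re, pow_two, pow_two]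
  rfl

/-- continuity of `t ↦ k_t` -/
theorem kmat_cont (hS : S.IsHermitian) {s : Set ℝ} (hs0 : s ⊆ Set.Ioi 0)
    (hp : ∀ t > 0, (Amat S t + Z).PosDef) (hm : ∀ t > 0, (Amat S t - Z).PosDef)
    (X : Matrix n n ℂ) : ContinuousOn (fun t => (trace (kmat S Z t * X)).re) s := by
  have hlog : ∀ {P D : ℝ → Matrix n n ℂ}, (∀ t > 0, (P t).PosDef) →
      (∀ t > 0, ∀ i j, HasDerivAt (fun t => P t i j) (D t i j) t) →
      (∀ i j, ContinuousOn (fun t => D t i j) (Set.Ioi 0)) →
      ContinuousOn (fun t => (trace (cfc Real.log (P t) * X)).re) s := by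
    intro P D hP hD hDc
    have h1 : ContinuousOn (fun t => cfc Real.log (P t)) s := by
      refine matrix_contOn fun i j t ht => ?_
      exact (hasDerivAt_log (Ioi_mem_nhds (hs0 ht)) (fun t ht => hP t ht)
        (fun t ht => hD t ht) hDc i j).continuousAt.continuousWithinAt
    exact Complex.continuous_re.comp_continuousOn
      ((continuous_id.matrix_trace).comp_continuousOn (h1.mul continuousOn_const))
  have h1 := hlog hp (fun t ht i j => hasDerivAt_P hS ht i j) (Dt_cont hS)
  have h2 := hlog hm (fun t ht i j => hasDerivAt_M hS ht i j) (Dt_cont hS)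
  have e : (fun t => (trace (kmat S Z t * X)).re) = fun t =>
      (trace (cfc Real.log (Amat S t + Z) * X)).re +
      (trace (cfc Real.log (Amat S t - Z) * X)).re - Real.log t * (trace X).re := by
    funext t
    exact kt_mul t X
  rw [e]
  refine (h1.add h2).sub (ContinuousOn.mul ?_ continuousOn_const)
  exact Real.continuousOn_log.mono fun t ht => (ne_of_gt (hs0 ht))

/-- integrated differential inequality for `t^r m(t)` -/
theorem int_m (hS : S.PosSemidef) (hp : ∀ t > 0, (Amat S t + Z).PosDef)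
    (hm : ∀ t > 0, (Amat S t - Z).PosDef) {r : ℝ} {a b : ℝ} (ha : 0 < a)
    (hab : a ≤ b) :
    -(a ^ r * mt S Z a) ≤ ∫ t in a..b, t ^ (r - 1) *
      (r * (trace (kmat S Z t * (S * S - Z * Z))).re +
        (1 + r) * (t * (trace (kmat S Z t)).re - (trace (S * S - Z * Z)).re)) := by
  have hpos : Set.Icc a b ⊆ Set.Ioi (0:ℝ) := fun t ht => lt_of_lt_of_le ha ht.1
  have hder : ∀ t > 0, ∃ m' : ℝ, HasDerivAt (mt S Z) m' t ∧
      m' ≤ (trace (kmat S Z t)).re - (trace (S * S - Z * Z)).re / t := fun t ht =>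
    mt_deriv hS.1 (s := Set.Ioi 0) le_rfl isOpen_Ioi (fun t ht => hp t ht)
      (fun t ht => hm t ht) ht
  choose! m' hm1 hm2 using hder
  have hG : ∀ t > 0, HasDerivAt (fun t => t ^ r * mt S Z t)
      (r * t ^ (r - 1) * mt S Z t + t ^ r * m' t) t := fun t ht =>
    (Real.hasDerivAt_rpow_const (Or.inl ht.ne')).mul (hm1 t ht)
  have hkc := kmat_cont (s := Set.Icc a b) hS.1 hpos hp hm (S * S - Z * Z)
  have hk1 : ContinuousOn (fun t => (trace (kmat S Z t)).re) (Set.Icc a b) := by
    have := kmat_cont (s := Set.Icc a b) hS.1 hpos hp hm 1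
    simpa using this
  have hφc : ContinuousOn (fun t => t ^ (r - 1) *
      (r * (trace (kmat S Z t * (S * S - Z * Z))).re +
        (1 + r) * (t * (trace (kmat S Z t)).re - (trace (S * S - Z * Z)).re))) (Set.Icc a b) := by
    refine ContinuousOn.mul ?_ ?_
    · exact continuousOn_id.rpow_const fun t ht => Or.inl (ne_of_gt (hpos ht))
    · exact (continuousOn_const.mul hkc).add (continuousOn_const.mul
        ((continuousOn_id.mul hk1).sub continuousOn_const))
  have key := intervalIntegral.sub_le_integral_of_hasDeriv_right_of_le hab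
    (g := fun t => t ^ r * mt S Z t)
    (g' := fun t => r * t ^ (r - 1) * mt S Z t + t ^ r * m' t)
    (φ := fun t => t ^ (r - 1) *
      (r * (trace (kmat S Z t * (S * S - Z * Z))).re +
        (1 + r) * (t * (trace (kmat S Z t)).re - (trace (S * S - Z * Z)).re)))
    (fun t ht => (hG t (hpos ht)).continuousAt.continuousWithinAt)
    (fun t ht => (hG t (hpos (Set.Ioo_subset_Icc_self ht))).hasDerivWithinAt)
    (hφc.integrableOn_Icc)
    (by
      intro t ht
      have ht0 : 0 < t := hpos (Set.Ioo_subset_Icc_self ht)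
      have h1 := hm2 t ht0
      have h2 : t ^ r = t ^ (r - 1) * t := by
        rw [← Real.rpow_add_one ht0.ne']
        congr 1
        ring
      have hmt : mt S Z t = (trace (kmat S Z t * (S * S - Z * Z))).re +
          t * (trace (kmat S Z t)).re - (trace (S * S - Z * Z)).re := by
        rw [mt]
        have : kt S Z t = kmat S Z t := rfl
        rw [this, Matrix.mul_add, trace_add, Complex.add_re, Matrix.mul_smul, Matrix.mul_one,
          trace_smul, smul_eq_mul, Complex.re_ofReal_mul]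
      have h3 : t * m' t ≤ t * (trace (kmat S Z t)).re - (trace (S * S - Z * Z)).re := by
        have := mul_le_mul_of_nonneg_left h1 ht0.le
        have e : t * ((trace (kmat S Z t)).re - (trace (S * S - Z * Z)).re / t) =
            t * (trace (kmat S Z t)).re - (trace (S * S - Z * Z)).re := by
          field_simp
        rwa [e] at this
      have h4 : 0 < t ^ (r - 1) := Real.rpow_pos_of_pos ht0 _
      calc r * t ^ (r - 1) * mt S Z t + t ^ r * m' t
          = t ^ (r - 1) * (r * mt S Z t + t * m' t) := by rw [h2]; ring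
        _ ≤ t ^ (r - 1) * (r * mt S Z t + (t * (trace (kmat S Z t)).re -
            (trace (S * S - Z * Z)).re)) := by
            refine mul_le_mul_of_nonneg_left ?_ h4.le
            linarith
        _ = _ := by rw [hmt]; ring)
  have hb : 0 < b := lt_of_lt_of_le ha hab
  have h5 : 0 ≤ b ^ r * mt S Z b :=
    mul_nonneg (Real.rpow_nonneg hb.le _) (mt_nonneg hS.1 hb (hp b hb) (hm b hb))
  beta_reduce at key
  linarith

end SM

open SM LI in
theorem mfun_le {n : Type*} [Fintype n] [DecidableEq n] {S Z : Matrix n n ℂ}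
    (hS : S.PosSemidef) (_hZ : Z.IsHermitian)
    (hp : ∀ t > 0, (Amat S t + Z).PosDef) (hm : ∀ t > 0, (Amat S t - Z).PosDef)
    {e : ℝ} (he : 0 < e) (he1 : e ≤ 1) : mfun S Z e ≤ bm S e := by
  rw [mfun_eq]
  exact mt_le hS he he1 (hp e he) (hm e he)

theorem tendsto_bm {n : Type*} [Fintype n] {r : ℝ} (hr0 : 0 < r) (S : Matrix n n ℂ) :
    Tendsto (fun e => e ^ r * bm S e) (𝓝[>] 0) (𝓝 0) := by
  have h1 : Tendsto (fun e : ℝ => e ^ r) (𝓝[>] 0) (𝓝 0) := by
    have h := (Real.continuousAt_rpow_const 0 r (Or.inr hr0.le)).tendsto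
    rw [Real.zero_rpow hr0.ne'] at h
    exact h.mono_left nhdsWithin_le_nhds
  have h2 : Tendsto (fun e : ℝ => e ^ r * |Real.log e|) (𝓝[>] 0) (𝓝 0) := by
    have h := (tendsto_log_mul_rpow_nhdsGT_zero hr0).abs
    rw [abs_zero] at h
    refine h.congr' ?_
    filter_upwards [self_mem_nhdsWithin] with e he
    have he' : (0:ℝ) < e := he
    rw [abs_mul, abs_of_nonneg (Real.rpow_nonneg he'.le r), mul_comm]
  set c := (2 * ((trace S).re + (Fintype.card n : ℝ))) ^ 2 with hc
  have h3 : Tendsto (fun e : ℝ => (Fintype.card n : ℝ) * (c * |Real.log c| + 1) * e ^ r +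
      (Fintype.card n : ℝ) * c * (e ^ r * |Real.log e|)) (𝓝[>] 0)
      (𝓝 ((Fintype.card n : ℝ) * (c * |Real.log c| + 1) * 0 + (Fintype.card n : ℝ) * c * 0)) :=
    (h1.const_mul _).add (h2.const_mul _)
  rw [mul_zero, mul_zero, add_zero] at h3
  refine h3.congr fun e => ?_
  rw [bm, ← hc]
  ring

namespace SM

open LI

variable {n : Type*} [Fintype n] [DecidableEq n] {S Z : Matrix n n ℂ}

theorem f_nonneg {y t : ℝ} (hy : 0 ≤ y) (ht : 0 < t) :
    0 ≤ (y + t) * Real.log (1 + y / t) - y := by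
  have h1 : 0 < 1 + y / t := by positivity
  have h2 := Real.one_sub_inv_le_log_of_pos h1
  have h3 := mul_le_mul_of_nonneg_left h2 (by positivity : 0 ≤ y + t)
  have h4 : (y + t) * (1 - (1 + y / t)⁻¹) = y := by
    field_simp
    ring
  linarith

theorem int_f_le {r : ℝ} (hr0 : 0 < r) (hr1 : r < 1) {y : ℝ} (hy : 0 ≤ y) {a b : ℝ} (ha : 0 < a)
    (hab : a ≤ b) :
    ∫ t in a..b, t ^ (r - 1) * ((y + t) * Real.log (1 + y / t) - y) ≤
      Ir r * y ^ (1 + r) / (1 + r) := by
  rw [← Ir_scale' hr0 hr1 y hy, intervalIntegral.integral_of_le hab]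
  refine setIntegral_mono_set (Ir_integrable' hr0 hr1 y hy) ?_ ?_
  · refine (ae_restrict_iff' measurableSet_Ioi).2 (Eventually.of_forall fun t ht => ?_)
    exact mul_nonneg (Real.rpow_nonneg (le_of_lt ht) _) (f_nonneg hy ht)
  · exact (Eventually.of_forall fun t ht => lt_trans ha ht.1)

theorem step1_aux {r : ℝ} (hr0 : 0 < r) (hr1 : r < 1)
    {W : Matrix n n ℂ} (hS : S.PosSemidef)
    (hp : ∀ t > 0, (Amat S t + Z).PosDef) (hm : ∀ t > 0, (Amat S t - Z).PosDef)
    (hW : W.PosSemidef) {e T : ℝ} (he : 0 < e) (heT : e ≤ T) :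
    ∫ t in e..T, t ^ (r - 1) * (trace (kmat S Z t * (W - (S * S - Z * Z)))).re ≤
      Ir r * kap r * (∑ i, hW.1.eigenvalues i ^ (1 + r)) + (1 / r) * e ^ r * mt S Z e := by
  have hpos : Set.Icc e T ⊆ Set.Ioi (0:ℝ) := fun t ht => lt_of_lt_of_le he ht.1
  set w := hW.1.eigenvalues with hw
  have hw0 : ∀ i, 0 ≤ w i := hW.eigenvalues_nonneg
  set q := r / (1 + r) with hq
  have hq0 : 0 < q := by positivity
  have hqr : (1 + r) * q = r := by rw [hq]; field_simp
  set T' := ((q : ℝ) : ℂ) • W with hT'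
  have hTp : T'.PosSemidef := hW.smul (by exact_mod_cast hq0.le)
  have hTc : T' = cfc (fun x : ℝ => q * x) W := by
    rw [← LI.cfc_smul hW.1, cfc_self hW.1]
  have htr : ∀ g : ℝ → ℝ, ∑ i, g (hTp.1.eigenvalues i) = ∑ i, g (q * w i) := by
    intro g
    have h1 : (trace (cfc g T')).re = ∑ i, g (hTp.1.eigenvalues i) := by
      rw [trace_cfc hTp.1, Complex.ofReal_re]
    have h2 : cfc g T' = cfc (fun x => g (q * x)) W := by
      rw [hTc]
      refine (cfc_comp' g (fun x : ℝ => q * x) W ?_ (contOn_spec W _) hW.1).symm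
      have hsp : spectrum ℝ (cfc (fun x : ℝ => q * x) W) =
          (fun x : ℝ => q * x) '' spectrum ℝ W :=
        cfc_map_spectrum (fun x : ℝ => q * x) W hW.1 (contOn_spec W _)
      rw [← hsp]
      exact contOn_spec _ _
    rw [← h1, h2, trace_cfc hW.1, Complex.ofReal_re]
  have hkW := kmat_cont (s := Set.Icc e T) hS.1 hpos hp hm (W - (S * S - Z * Z))
  have hkc := kmat_cont (s := Set.Icc e T) hS.1 hpos hp hm (S * S - Z * Z)
  have hk1 : ContinuousOn (fun t => (trace (kmat S Z t)).re) (Set.Icc e T) := by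
    have := kmat_cont (s := Set.Icc e T) hS.1 hpos hp hm 1
    simpa using this
  have hpow : ContinuousOn (fun t : ℝ => t ^ (r - 1)) (Set.Icc e T) :=
    continuousOn_id.rpow_const fun t ht => Or.inl (ne_of_gt (hpos ht))
  have hfc : ∀ y : ℝ, 0 ≤ y → ContinuousOn
      (fun t : ℝ => t ^ (r - 1) * ((y + t) * Real.log (1 + y / t) - y)) (Set.Icc e T) := by
    intro y hy
    refine hpow.mul (ContinuousOn.sub (ContinuousOn.mul (by fun_prop) ?_) continuousOn_const)
    refine ContinuousOn.log ?_ ?_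
    · exact continuousOn_const.add (continuousOn_const.div continuousOn_id
        fun t ht => ne_of_gt (hpos ht))
    · intro t ht
      have : (0:ℝ) < t := hpos ht
      positivity
  set φ : ℝ → ℝ := fun t => t ^ (r - 1) *
      (r * (trace (kmat S Z t * (S * S - Z * Z))).re +
        (1 + r) * (t * (trace (kmat S Z t)).re - (trace (S * S - Z * Z)).re)) with hφ
  have hφc : ContinuousOn φ (Set.Icc e T) := by
    refine hpow.mul ?_
    exact (continuousOn_const.mul hkc).add (continuousOn_const.mul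
        ((continuousOn_id.mul hk1).sub continuousOn_const))
  have hint : ∀ {g : ℝ → ℝ}, ContinuousOn g (Set.Icc e T) → IntervalIntegrable g volume e T := by
    intro g hg
    refine ContinuousOn.intervalIntegrable ?_
    rwa [Set.uIcc_of_le heT]
  have hmono : ∫ t in e..T, r * (t ^ (r - 1) *
        (trace (kmat S Z t * (W - (S * S - Z * Z)))).re) ≤
      ∫ t in e..T, ((1 + r) * (∑ i, t ^ (r - 1) *
        ((q * w i + t) * Real.log (1 + q * w i / t) - q * w i)) - φ t) := by
    refine intervalIntegral.integral_mono_on heT ?_ ?_ ?_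
    · exact hint (continuousOn_const.mul (hpow.mul hkW))
    · refine hint (ContinuousOn.sub (continuousOn_const.mul ?_) hφc)
      exact continuousOn_finsetSum _ fun i _ => hfc _ (mul_nonneg hq0.le (hw0 i))
    · intro t ht
      have ht0 : 0 < t := hpos ht
      have h1 := kt_le hS.1 ht0 (hp t ht0) (hm t ht0) hTp
      rw [htr (fun y => (y + t) * Real.log (1 + y / t) - y)] at h1
      have h2 : (trace (kmat S Z t * T')).re = q * (trace (kmat S Z t * W)).re := by
        rw [hT', Matrix.mul_smul, trace_smul, smul_eq_mul, Complex.re_ofReal_mul]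
      have h3 : (trace (kmat S Z t * (W - (S * S - Z * Z)))).re =
          (trace (kmat S Z t * W)).re - (trace (kmat S Z t * (S * S - Z * Z))).re := by
        rw [Matrix.mul_sub, trace_sub, Complex.sub_re]
      have h4 : 0 < t ^ (r - 1) := Real.rpow_pos_of_pos ht0 _
      have h5 := mul_le_mul_of_nonneg_left h1 (by linarith : (0:ℝ) ≤ 1 + r)
      rw [h2, ← mul_assoc, hqr] at h5
      have h6 : r * (trace (kmat S Z t * (W - (S * S - Z * Z)))).re ≤
          (1 + r) * (∑ i, ((q * w i + t) * Real.log (1 + q * w i / t) - q * w i)) -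
          (r * (trace (kmat S Z t * (S * S - Z * Z))).re +
            (1 + r) * (t * (trace (kmat S Z t)).re - (trace (S * S - Z * Z)).re)) := by
        rw [h3]
        linarith
      have h7 := mul_le_mul_of_nonneg_left h6 h4.le
      rw [hφ, ← Finset.mul_sum]
      calc r * (t ^ (r - 1) * (trace (kmat S Z t * (W - (S * S - Z * Z)))).re)
          = t ^ (r - 1) * (r * (trace (kmat S Z t * (W - (S * S - Z * Z)))).re) := by ring
        _ ≤ _ := h7
        _ = _ := by ring
  have hI1 : IntervalIntegrable (fun t : ℝ => (1 + r) * (∑ i, t ^ (r - 1) *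
        ((q * w i + t) * Real.log (1 + q * w i / t) - q * w i))) volume e T := by
    refine hint (continuousOn_const.mul ?_)
    exact continuousOn_finsetSum _ fun i _ => hfc _ (mul_nonneg hq0.le (hw0 i))
  rw [intervalIntegral.integral_const_mul, intervalIntegral.integral_sub hI1 (hint hφc),
    intervalIntegral.integral_const_mul,
    intervalIntegral.integral_finsetSum fun i _ => hint (hfc _ (mul_nonneg hq0.le (hw0 i)))]
    at hmono
  have hm2 := int_m hS hp hm (r := r) he heT
  have hsum : ∑ i, ∫ t in e..T, t ^ (r - 1) *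
        ((q * w i + t) * Real.log (1 + q * w i / t) - q * w i) ≤
      ∑ i, Ir r * (q * w i) ^ (1 + r) / (1 + r) :=
    Finset.sum_le_sum fun i _ => int_f_le hr0 hr1 (mul_nonneg hq0.le (hw0 i)) he heT
  have hsum2 : (1 + r) * ∑ i, Ir r * (q * w i) ^ (1 + r) / (1 + r) =
      r * (Ir r * kap r * ∑ i, w i ^ (1 + r)) := by
    have hk : q ^ (1 + r) = r * kap r := by
      rw [hq, kap, Real.div_rpow hr0.le (by linarith), Real.rpow_add hr0, Real.rpow_one]
      ring
    rw [Finset.mul_sum, Finset.mul_sum, Finset.mul_sum]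
    refine Finset.sum_congr rfl fun i _ => ?_
    rw [Real.mul_rpow hq0.le (hw0 i), hk]
    field_simp
  have hfin : r * ∫ t in e..T, t ^ (r - 1) *
        (trace (kmat S Z t * (W - (S * S - Z * Z)))).re ≤
      r * (Ir r * kap r * (∑ i, w i ^ (1 + r)) + (1 / r) * e ^ r * mt S Z e) := by
    have e1 : r * (Ir r * kap r * (∑ i, w i ^ (1 + r)) + (1 / r) * e ^ r * mt S Z e) =
        r * (Ir r * kap r * (∑ i, w i ^ (1 + r))) + e ^ r * mt S Z e := by
      field_simp
    rw [e1, ← hsum2]
    have := mul_le_mul_of_nonneg_left hsum (by linarith : (0:ℝ) ≤ 1 + r)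
    linarith
  exact le_of_mul_le_mul_left hfin hr0

end SM

open SM LI in
/-- [STEP1] -/
theorem step1 {N : ℕ} {r : ℝ} (hr0 : 0 < r) (hr1 : r < 1)
    {S Z W : Matrix (Fin N) (Fin N) ℂ} (hS : S.PosSemidef) (_hZ : Z.IsHermitian)
    (hp : ∀ t > 0, (Amat S t + Z).PosDef) (hm : ∀ t > 0, (Amat S t - Z).PosDef)
    (hW : W.PosSemidef) {e T : ℝ} (he : 0 < e) (heT : e ≤ T) :
    ∫ t in e..T, t ^ (r - 1) * (trace (kmat S Z t * (W - (S ^ 2 - Z ^ 2)))).re ≤
      Ir r * kap r * trPow W (1 + r) + (1 / r) * e ^ r * mfun S Z e := by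
  have h := step1_aux hr0 hr1 hS hp hm hW he heT
  rw [mfun_eq, trPow, dif_pos hW.1]
  simpa only [pow_two] using h

end Vale.Agent.P371
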