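import Vale.Agent.P371.Grad
import Vale.Agent.P371.Step1
import Vale.Agent.P371.Scalar
import Vale.Agent.P371.Ends

/-!
# P371 [STEP2] / [CALIB]: the vertex inequality `β_r Tr S^{2r+1} ≤ κ_r ∫ Tr W^{1+r}`
-/

open MeasureTheory Matrix Set Filter
open scoped ComplexOrder Topology

namespace Vale.Agent.P371

namespace Cal

/-- the integrand -/
noncomputable def Fk {N : ℕ} (S : Matrix (Fin N) (Fin N) ℂ) (Z W : ℝ → Matrix (Fin N) (Fin N) ℂ)
    (t x : ℝ) : ℝ :=
  (trace (kmat S (Z x) t * (W x - (S ^ 2 - Z x ^ 2)))).re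

theorem Fk_cont {N : ℕ} {a b : ℝ} {S : Matrix (Fin N) (Fin N) ℂ}
    {Z W : ℝ → Matrix (Fin N) (Fin N) ℂ} (hS : S.PosSemidef)
    (hWc : ContinuousOn W (Icc a b)) (hZc : ContinuousOn Z (Icc a b))
    (hp : ∀ x ∈ Icc a b, ∀ t > 0, (Amat S t + Z x).PosDef)
    (hm : ∀ x ∈ Icc a b, ∀ t > 0, (Amat S t - Z x).PosDef) :
    ContinuousOn (fun p : ℝ × ℝ => Fk S Z W p.2 p.1) (Icc a b ×ˢ Ioi 0) := by
  have h1 := kmat_cont hS.1 hZc hp hm
  have hW' : ContinuousOn (fun p : ℝ × ℝ => W p.1) (Icc a b ×ˢ Ioi 0) :=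
    hWc.comp continuousOn_fst fun p hp => hp.1
  have hZ' : ContinuousOn (fun p : ℝ × ℝ => Z p.1) (Icc a b ×ˢ Ioi 0) :=
    hZc.comp continuousOn_fst fun p hp => hp.1
  have h2 : ContinuousOn (fun p : ℝ × ℝ => W p.1 - (S ^ 2 - Z p.1 ^ 2)) (Icc a b ×ˢ Ioi 0) :=
    hW'.sub (continuousOn_const.sub (hZ'.pow 2))
  exact continuous_retrace.comp_continuousOn (h1.mul h2)

/-- FTC in `x` -/
theorem integral_Fk {N : ℕ} {a b : ℝ} (hab : a ≤ b) {S : Matrix (Fin N) (Fin N) ℂ}
    {Z W : ℝ → Matrix (Fin N) (Fin N) ℂ} (hS : S.PosSemidef)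
    (hWc : ContinuousOn W (Icc a b)) (hZc : ContinuousOn Z (Icc a b))
    (hder : ∀ x ∈ Icc a b, ∀ i j, HasDerivWithinAt (fun y => Z y i j)
      ((S ^ 2 - Z x ^ 2 - W x) i j) (Icc a b) x)
    (hp : ∀ x ∈ Icc a b, ∀ t > 0, (Amat S t + Z x).PosDef)
    (hm : ∀ x ∈ Icc a b, ∀ t > 0, (Amat S t - Z x).PosDef) {t : ℝ} (ht : 0 < t) :
    ∫ x in a..b, Fk S Z W t x = Gt S (Z b) t - Gt S (Z a) t := by
  have hd : ∀ x ∈ Icc a b, HasDerivWithinAt (fun y => Gt S (Z y) t) (Fk S Z W t x) (Icc a b) x := by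
    intro x hx
    have h := hasDerivWithinAt_Gt (S := S) (t := t) hx (hder x hx) (fun y hy => hp y hy t ht)
      (fun y hy => hm y hy t ht)
    have e : -(trace (kmat S (Z x) t * (S ^ 2 - Z x ^ 2 - W x))).re = Fk S Z W t x := by
      unfold Fk
      rw [← Complex.neg_re, ← trace_neg, ← Matrix.mul_neg, neg_sub]
    rw [e] at h
    exact h
  have hc := Fk_cont (a := a) (b := b) hS hWc hZc hp hm
  have hcx : ContinuousOn (fun x => Fk S Z W t x) (Icc a b) := by
    have h0 : ContinuousOn (fun x : ℝ => ((x, t) : ℝ × ℝ)) (Icc a b) := by fun_prop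
    have h1 : MapsTo (fun x : ℝ => ((x, t) : ℝ × ℝ)) (Icc a b) (Icc a b ×ˢ Ioi (0:ℝ)) :=
      fun x hx => Set.mk_mem_prod hx ht
    have h2 : ContinuousOn ((fun p : ℝ × ℝ => Fk S Z W p.2 p.1) ∘
      fun x : ℝ => ((x, t) : ℝ × ℝ)) (Icc a b) := ContinuousOn.comp hc h0 h1
    exact h2
  refine intervalIntegral.integral_eq_sub_of_hasDeriv_right_of_le hab
    (fun x hx => (hd x hx).continuousWithinAt) (fun x hx => ?_) ?_
  · have h1 := hd x (Ioo_subset_Icc_self hx)
    exact (h1.hasDerivAt (Icc_mem_nhds hx.1 hx.2)).hasDerivWithinAt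
  · exact hcx.intervalIntegrable_of_Icc hab

end Cal

open Cal in
theorem calib {N : ℕ} {r : ℝ} (hr0 : 0 < r) (hr1 : r < 1) {a b : ℝ} (hab : a < b)
    {S : Matrix (Fin N) (Fin N) ℂ} {Z W : ℝ → Matrix (Fin N) (Fin N) ℂ} (hS : S.PosSemidef)
    (hW : ∀ x ∈ Icc a b, (W x).PosSemidef) (hWc : ContinuousOn W (Icc a b))
    (hZ : ∀ x ∈ Icc a b, (Z x).IsHermitian)
    (hder : ∀ x ∈ Icc a b, ∀ i j, HasDerivWithinAt (fun y => Z y i j)
      ((S ^ 2 - Z x ^ 2 - W x) i j) (Icc a b) x)
    (ha : Z a = S) (hb : Z b = -S)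
    (hp : ∀ x ∈ Icc a b, ∀ t > 0, (Amat S t + Z x).PosDef)
    (hm : ∀ x ∈ Icc a b, ∀ t > 0, (Amat S t - Z x).PosDef) :
    betaR r * trPow S (2 * r + 1) ≤ kap r * ∫ x in a..b, trPow (W x) (1 + r) := by
  have hZc : ContinuousOn Z (Icc a b) :=
    continuousOn_matrix fun i j x hx => (hder x hx i j).continuousWithinAt
  have hc := Fk_cont (a := a) (b := b) hS hWc hZc hp hm
  -- continuity of the trace power
  have htp : ContinuousOn (fun x => trPow (W x) (1 + r)) (Icc a b) := by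
    have h1 : ContinuousOn (fun x => (trace (cfc (fun y : ℝ => y ^ (1 + r)) (W x))).re)
        (Icc a b) :=
      continuous_retrace.comp_continuousOn
        (continuousOn_cfc_herm (Real.continuous_rpow_const (by linarith)) hWc
          fun x hx => (hW x hx).1)
    refine h1.congr fun x hx => ?_
    simp only
    rw [trace_cfc (hW x hx).1, Complex.ofReal_re]
    unfold trPow
    rw [dif_pos (hW x hx).1]
  have htpi : IntervalIntegrable (fun x => trPow (W x) (1 + r)) volume a b :=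
    htp.intervalIntegrable_of_Icc hab.le
  -- the main inequality for fixed `e`, `T`
  have key : ∀ e T : ℝ, 0 < e → e ≤ 1 → e ≤ T →
      ∑ i, ∫ t in e..T, t ^ (r - 1) * gs (hS.1.eigenvalues i) t ≤
        Ir r * kap r * (∫ x in a..b, trPow (W x) (1 + r)) +
          (b - a) * ((1 / r) * (e ^ r * bm S e)) := by
    intro e T he he1 heT
    have hsub : Icc e T ⊆ Ioi 0 := fun t ht => lt_of_lt_of_le he ht.1
    -- swap
    have hcont2 : ContinuousOn (fun p : ℝ × ℝ => p.2 ^ (r - 1) * Fk S Z W p.2 p.1)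
        (Icc a b ×ˢ Icc e T) := by
      refine ContinuousOn.mul ?_ (hc.mono (prod_mono_right hsub))
      refine ContinuousOn.rpow_const continuousOn_snd fun p hp' => Or.inl ?_
      exact (hsub hp'.2 : (0:ℝ) < p.2).ne'
    have hint2 : Integrable (Function.uncurry fun x t => t ^ (r - 1) * Fk S Z W t x)
        ((volume.restrict (Icc a b)).prod (volume.restrict (Icc e T))) := by
      rw [Measure.prod_restrict]
      exact hcont2.integrableOn_compact (isCompact_Icc.prod isCompact_Icc)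
    have hswap : ∫ x in a..b, ∫ t in e..T, t ^ (r - 1) * Fk S Z W t x =
        ∫ t in e..T, ∫ x in a..b, t ^ (r - 1) * Fk S Z W t x := by
      rw [intervalIntegral.integral_of_le hab.le, intervalIntegral.integral_of_le heT,
        ← integral_Icc_eq_integral_Ioc, ← integral_Icc_eq_integral_Ioc]
      have e1 : ∀ x, ∫ t in e..T, t ^ (r - 1) * Fk S Z W t x =
          ∫ t in Icc e T, t ^ (r - 1) * Fk S Z W t x := by
        intro x
        rw [intervalIntegral.integral_of_le heT, integral_Icc_eq_integral_Ioc]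
      have e2 : ∀ t, ∫ x in a..b, t ^ (r - 1) * Fk S Z W t x =
          ∫ x in Icc a b, t ^ (r - 1) * Fk S Z W t x := by
        intro t
        rw [intervalIntegral.integral_of_le hab.le, integral_Icc_eq_integral_Ioc]
      simp only [e1, e2]
      exact integral_integral_swap hint2
    -- left side
    have hleft : ∫ t in e..T, ∫ x in a..b, t ^ (r - 1) * Fk S Z W t x =
        ∑ i, ∫ t in e..T, t ^ (r - 1) * gs (hS.1.eigenvalues i) t := by
      rw [← intervalIntegral.integral_finsetSum]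
      · refine intervalIntegral.integral_congr fun t ht => ?_
        rw [uIcc_of_le heT] at ht
        have ht0 : 0 < t := hsub ht
        rw [intervalIntegral.integral_const_mul,
          integral_Fk hab.le hS hWc hZc hder hp hm ht0, ha, hb, Gt_ends hS ht0, Finset.mul_sum]
      · intro i _
        refine ContinuousOn.intervalIntegrable_of_Icc heT ?_
        refine ContinuousOn.mul ?_ ((gs_cont (hS.eigenvalues_nonneg i)).mono hsub)
        exact ContinuousOn.rpow_const continuousOn_id fun t ht =>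
          Or.inl (hsub ht : (0:ℝ) < t).ne'
    rw [← hleft, ← hswap]
    -- right side
    have hint1 : IntervalIntegrable (fun x => ∫ t in e..T, t ^ (r - 1) * Fk S Z W t x)
        volume a b := by
      rw [intervalIntegrable_iff_integrableOn_Icc_of_le hab.le]
      have := hint2.integral_prod_left
      refine this.congr (Eventually.of_forall fun x => ?_)
      simp only [Function.uncurry]
      rw [intervalIntegral.integral_of_le heT, integral_Icc_eq_integral_Ioc]
    have hr2 : IntervalIntegrable (fun x => Ir r * kap r * trPow (W x) (1 + r) +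
        (1 / r) * (e ^ r * bm S e)) volume a b :=
      (htpi.const_mul _).add intervalIntegrable_const
    refine (intervalIntegral.integral_mono_on hab.le hint1 hr2 fun x hx => ?_).trans ?_
    · have h1 := step1 hr0 hr1 hS (hZ x hx) (hp x hx) (hm x hx) (hW x hx) he heT
      have h2 := mfun_le hS (hZ x hx) (hp x hx) (hm x hx) he he1
      refine h1.trans ?_
      have h3 : 1 / r * e ^ r * mfun S (Z x) e ≤ 1 / r * e ^ r * bm S e :=
        mul_le_mul_of_nonneg_left h2 (by positivity)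
      linarith
    · rw [intervalIntegral.integral_add (htpi.const_mul _) intervalIntegrable_const,
        intervalIntegral.integral_const_mul, intervalIntegral.integral_const, smul_eq_mul]
  -- the limit
  have hlim1 : Tendsto (fun e : ℝ => ∑ i, ∫ t in e..(1 / e), t ^ (r - 1) *
      gs (hS.1.eigenvalues i) t) (𝓝[>] 0)
      (𝓝 (∑ i, Ir r * betaR r * hS.1.eigenvalues i ^ (2 * r + 1))) :=
    tendsto_finsetSum _ fun i _ => scalar_lim hr0 hr1 (hS.eigenvalues_nonneg i)
  have hlim2 : Tendsto (fun e : ℝ => Ir r * kap r * (∫ x in a..b, trPow (W x) (1 + r)) +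
          (b - a) * ((1 / r) * (e ^ r * bm S e))) (𝓝[>] 0)
      (𝓝 (Ir r * kap r * (∫ x in a..b, trPow (W x) (1 + r)) + (b - a) * ((1 / r) * 0))) :=
    tendsto_const_nhds.add ((((tendsto_bm hr0 S).const_mul _).const_mul _))
  have hfin := le_of_tendsto_of_tendsto hlim1 hlim2 (by
    have h1 : Ioc (0:ℝ) 1 ∈ 𝓝[>] (0:ℝ) := Ioc_mem_nhdsGT one_pos
    filter_upwards [h1] with e he
    refine key e (1 / e) he.1 he.2 ?_
    rw [le_div_iff₀ he.1]
    have := he.1
    nlinarith [he.2])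
  have hI := Ir_pos hr0 hr1
  have e1 : ∑ i, Ir r * betaR r * hS.1.eigenvalues i ^ (2 * r + 1) =
      Ir r * (betaR r * trPow S (2 * r + 1)) := by
    unfold trPow
    rw [dif_pos hS.1, ← Finset.mul_sum, mul_assoc]
  rw [e1, mul_zero, mul_zero, add_zero, mul_assoc] at hfin
  exact le_of_mul_le_mul_left hfin hI

theorem step2 {N : ℕ} {r : ℝ} (hr0 : 0 < r) (hr1 : r < 1) (R : ℝ) (hR : 0 < R)
    {S : Matrix (Fin N) (Fin N) ℂ} {Z W : ℝ → Matrix (Fin N) (Fin N) ℂ} (hS : S.PosSemidef)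
    (hW : ContinuousOn W (Set.Icc (-R) R)) (hWp : ∀ x, (W x).PosSemidef)
    (hZh : ∀ x, (Z x).IsHermitian)
    (hZ : ∀ x ∈ Set.Icc (-R) R, ∀ i j,
      HasDerivAt (fun t => Z t i j) ((S * S - Z x * Z x - W x) i j) x)
    (h0 : Z (-R) = S) (h1 : Z R = -S)
    (hb : ∀ x ∈ Set.Icc (-R) R, (S - Z x).PosSemidef ∧ (S + Z x).PosSemidef) :
    trPow S (2 * r + 1) ≤ Lr r * ∫ x in (-R)..R, trPow (W x) (1 + r) := by
  have h := calib hr0 hr1 (show -R < R by linarith) hS (fun x _ => hWp x) hW (fun x _ => hZh x)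
    (fun x hx i j => by
      have := (hZ x hx i j).hasDerivWithinAt (s := Icc (-R) R)
      rwa [← pow_two, ← pow_two] at this) h0 h1
    (fun x hx t ht => Amat_add_posDef hS (hb x hx).2 ht)
    (fun x hx t ht => Amat_sub_posDef hS (hb x hx).1 ht)
  have hb0 := betaR_pos hr0
  unfold Lr
  rw [div_mul_eq_mul_div, le_div_iff₀ hb0, mul_comm]
  exact h

end Vale.Agent.P371
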