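import Vale.Agent.P371.Eig
import Vale.Agent.P371.Defs2

/-!
# P371 [TEST]: testing the vertex with the eigenfunctions
-/

open MeasureTheory Matrix Finset Set
open scoped ComplexOrder ENNReal

namespace Vale.Agent.P371

namespace Tst

variable {m N : ℕ}

/-- entrywise derivative of `A F B` -/
theorem deriv_sandwich {α β : Type*} [Fintype α] [Fintype β] {F : ℝ → Matrix α α ℂ}
    {F' : Matrix α α ℂ} {x : ℝ} (hF : ∀ i j, HasDerivAt (fun t => F t i j) (F' i j) x)
    (A : Matrix β α ℂ) (B : Matrix α β ℂ) (i j : β) :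
    HasDerivAt (fun t => (A * F t * B) i j) ((A * F' * B) i j) x := by
  simp only [Matrix.mul_apply]
  exact HasDerivAt.fun_sum fun k _ =>
    (HasDerivAt.fun_sum fun l _ => (hF l k).const_mul (A i l)).mul_const (B k j)

/-- derivative of the trace of a product -/
theorem deriv_trace_mul {α : Type*} [Fintype α] {F G : ℝ → Matrix α α ℂ}
    {F' G' : Matrix α α ℂ} {x : ℝ} (hF : ∀ i j, HasDerivAt (fun t => F t i j) (F' i j) x)
    (hG : ∀ i j, HasDerivAt (fun t => G t i j) (G' i j) x) :
    HasDerivAt (fun t => trace (F t * G t)) (trace (F' * G x + F x * G')) x := by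
  have e : trace (F' * G x + F x * G') = ∑ i, ∑ k, (F' i k * G x k i + F x i k * G' k i) := by
    simp only [trace, diag_apply, Matrix.add_apply, Matrix.mul_apply, Finset.sum_add_distrib]
  rw [e]
  simp only [trace, diag_apply, Matrix.mul_apply]
  exact HasDerivAt.fun_sum fun i _ => HasDerivAt.fun_sum fun k _ => (hF i k).mul (hG k i)

/-- the clamp onto `[-R, R]` -/
noncomputable def cl (R x : ℝ) : ℝ := max (-R) (min R x)

theorem cl_mem {R : ℝ} (hR : 0 < R) (x : ℝ) : cl R x ∈ Icc (-R) R :=
  ⟨le_max_left _ _, max_le (by linarith) (min_le_left _ _)⟩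

theorem cl_eq {R x : ℝ} (h : x ∈ Icc (-R) R) : cl R x = x := by
  rw [cl, min_eq_right h.2, max_eq_right h.1]

theorem cl_left {R x : ℝ} (hR : 0 < R) (h : x ≤ -R) : cl R x = -R := by
  rw [cl, min_eq_right (by linarith), max_eq_left h]

theorem cl_right {R x : ℝ} (hR : 0 < R) (h : R ≤ x) : cl R x = R := by
  rw [cl, min_eq_left h, max_eq_right (by linarith)]

theorem cl_lip (R : ℝ) : LipschitzWith 1 (cl R) :=
  ((LipschitzWith.id (α := ℝ)).const_min R).const_max (-R)

/-- a `C¹` function on `[-R,R]`, clamped, is absolutely continuous -/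
theorem cac_clamp {R : ℝ} (hR : 0 < R) {f f' : ℝ → ℂ}
    (hf : ∀ x ∈ Icc (-R) R, HasDerivWithinAt f (f' x) (Icc (-R) R) x)
    (hc : ContinuousOn f' (Icc (-R) R)) (s t : ℝ) : Ac.CAC (fun x => f (cl R x)) s t := by
  obtain ⟨C, hC⟩ := isCompact_Icc.exists_bound_of_continuousOn hc
  have hlip : LipschitzOnWith (Real.toNNReal C) f (Icc (-R) R) := by
    refine (convex_Icc (-R) R).lipschitzOnWith_of_nnnorm_hasDerivWithin_le hf fun x hx => ?_
    rw [← NNReal.coe_le_coe, coe_nnnorm]
    exact (hC x hx).trans (Real.le_coe_toNNReal C)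
  have h2 : LipschitzWith (Real.toNNReal C) fun x => f (cl R x) := by
    have h3 := hlip.comp ((cl_lip R).lipschitzOnWith (s := univ)) (fun x _ => cl_mem hR x)
    rw [mul_one, lipschitzOnWith_univ] at h3
    exact h3
  have hre : LipschitzWith (1 * Real.toNNReal C) fun x => (f (cl R x)).re :=
    (LipschitzWith.of_dist_le_mul fun a b => by
      rw [Real.dist_eq, ← Complex.sub_re, NNReal.coe_one, one_mul, Complex.dist_eq]
      exact Complex.abs_re_le_norm _ : LipschitzWith 1 Complex.re).comp h2
  have him : LipschitzWith (1 * Real.toNNReal C) fun x => (f (cl R x)).im :=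
    (LipschitzWith.of_dist_le_mul fun a b => by
      rw [Real.dist_eq, ← Complex.sub_im, NNReal.coe_one, one_mul, Complex.dist_eq]
      exact Complex.abs_im_le_norm _ : LipschitzWith 1 Complex.im).comp h2
  exact ⟨(hre.lipschitzOnWith (s := uIcc s t)).absolutelyContinuousOnInterval,
    (him.lipschitzOnWith (s := uIcc s t)).absolutelyContinuousOnInterval⟩

theorem bdd_clamp {R : ℝ} (hR : 0 < R) {f : ℝ → ℂ} (hc : ContinuousOn f (Icc (-R) R)) :
    ∃ C : ℝ, ∀ x, ‖f (cl R x)‖ ≤ C := by
  obtain ⟨C, hC⟩ := isCompact_Icc.exists_bound_of_continuousOn hc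
  exact ⟨C, fun x => hC _ (cl_mem hR x)⟩

theorem deriv_clamp {R : ℝ} (hR : 0 < R) {f f' : ℝ → ℂ}
    (hf : ∀ x ∈ Icc (-R) R, HasDerivWithinAt f (f' x) (Icc (-R) R) x) {x : ℝ} (h1 : x ≠ -R)
    (h2 : x ≠ R) :
    HasDerivAt (fun x => f (cl R x)) (if x ∈ Ioo (-R) R then f' x else 0) x := by
  rcases lt_or_gt_of_ne h1 with h | h
  · have hn : x ∉ Ioo (-R) R := fun hx => by linarith [hx.1]
    rw [if_neg hn]
    refine (hasDerivAt_const x (f (-R))).congr_of_eventuallyEq ?_
    filter_upwards [Iio_mem_nhds h] with y hy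
    rw [cl_left hR (le_of_lt hy)]
  · rcases lt_or_gt_of_ne h2 with h' | h'
    · rw [if_pos (show x ∈ Ioo (-R) R from ⟨h, h'⟩)]
      have h3 := (hf x ⟨h.le, h'.le⟩).hasDerivAt (Icc_mem_nhds h h')
      refine h3.congr_of_eventuallyEq ?_
      filter_upwards [Icc_mem_nhds h h'] with y hy
      rw [cl_eq hy]
    · have hn : x ∉ Ioo (-R) R := fun hx => by linarith [hx.2]
      rw [if_neg hn]
      refine (hasDerivAt_const x (f R)).congr_of_eventuallyEq ?_
      filter_upwards [Ioi_mem_nhds h'] with y hy
      rw [cl_right hR (le_of_lt hy)]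

/-- measurability of the glued source term -/
theorem meas_glue {R : ℝ} {f : ℝ → ℂ} (hc : ContinuousOn f (Icc (-R) R)) :
    AEStronglyMeasurable (fun x => if x ∈ Ioo (-R) R then f x else 0) volume := by
  have : (fun x => if x ∈ Ioo (-R) R then f x else 0) = (Ioo (-R) R).indicator f := by
    funext x
    by_cases hx : x ∈ Ioo (-R) R
    · rw [if_pos hx, indicator_of_mem hx]
    · rw [if_neg hx, indicator_of_notMem hx]
  rw [this]
  exact (aestronglyMeasurable_indicator_iff measurableSet_Ioo).2
    ((hc.mono Ioo_subset_Icc_self).aestronglyMeasurable measurableSet_Ioo)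

theorem bdd_glue {R : ℝ} {f : ℝ → ℂ} (hc : ContinuousOn f (Icc (-R) R)) :
    ∃ C : ℝ, ∀ x, ‖(if x ∈ Ioo (-R) R then f x else 0)‖ ≤ C := by
  obtain ⟨C, hC⟩ := isCompact_Icc.exists_bound_of_continuousOn hc
  refine ⟨max C 0, fun x => ?_⟩
  by_cases hx : x ∈ Ioo (-R) R
  · rw [if_pos hx]
    exact (hC x (Ioo_subset_Icc_self hx)).trans (le_max_left _ _)
  · rw [if_neg hx, norm_zero]
    exact le_max_right _ _

/-- integrability of the trace of a product, one factor bounded -/
theorem int_trace_mul {α : Type*} [Fintype α] {F G : ℝ → Matrix α α ℂ}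
    (hF : ∀ i j, AEStronglyMeasurable (fun x => F x i j) volume)
    (hFb : ∀ i j, ∃ C : ℝ, ∀ x, ‖F x i j‖ ≤ C)
    (hG : ∀ i j, Integrable fun x => G x i j) : Integrable fun x => trace (F x * G x) := by
  simp only [trace, diag_apply, Matrix.mul_apply]
  refine integrable_finsetSum _ fun i _ => integrable_finsetSum _ fun k _ => ?_
  obtain ⟨C, hC⟩ := hFb i k
  exact (hG k i).bdd_mul (hF i k) (Filter.Eventually.of_forall hC)

/-- entries of `A F B` are integrable -/
theorem int_sandwich {α β : Type*} [Fintype α] [Fintype β] {F : ℝ → Matrix α α ℂ}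
    (hF : ∀ i j, Integrable fun t => F t i j) (A : Matrix β α ℂ) (B : Matrix α β ℂ) (i j : β) :
    Integrable fun t => (A * F t * B) i j := by
  simp only [Matrix.mul_apply]
  exact integrable_finsetSum _ fun k _ =>
    (integrable_finsetSum _ fun l _ => (hF l k).const_mul (A i l)).mul_const (B k j)

theorem integral_trace_mul {α : Type*} [Fintype α] (A : Matrix α α ℂ) {G : ℝ → Matrix α α ℂ}
    (hG : ∀ i j, Integrable fun x => G x i j) :
    ∫ x, trace (A * G x) = trace (A * Matrix.of fun i j => ∫ x, G x i j) := by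
  simp only [trace, diag_apply, Matrix.mul_apply, Matrix.of_apply]
  rw [integral_finsetSum _ fun i _ => integrable_finsetSum _ fun k _ => (hG k i).const_mul (A i k)]
  refine Finset.sum_congr rfl fun i _ => ?_
  rw [integral_finsetSum _ fun k _ => (hG k i).const_mul (A i k)]
  exact Finset.sum_congr rfl fun k _ => integral_const_mul _ _

theorem integral_sandwich {α β : Type*} [Fintype α] [Fintype β] {F : ℝ → Matrix α α ℂ}
    (hF : ∀ i j, Integrable fun t => F t i j) (A : Matrix β α ℂ) (B : Matrix α β ℂ) (i j : β) :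
    ∫ t, (A * F t * B) i j = (A * (Matrix.of fun i j => ∫ t, F t i j) * B) i j := by
  simp only [Matrix.mul_apply, Matrix.of_apply]
  rw [integral_finsetSum _ fun k _ =>
    (integrable_finsetSum _ fun l _ => (hF l k).const_mul (A i l)).mul_const (B k j)]
  refine Finset.sum_congr rfl fun k _ => ?_
  rw [integral_mul_const, integral_finsetSum _ fun l _ => (hF l k).const_mul (A i l)]
  congr 1
  exact Finset.sum_congr rfl fun l _ => integral_const_mul _ _

theorem dgram_int {u du : Fin N → ℝ → Fin m → ℂ} (hu : ∀ j, IsH1 (u j) (du j)) (j k : Fin N) :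
    Integrable fun x => Ac.dgram u du x j k := by
  have : ∀ x, Ac.dgram u du x j k = ip (du j x) (u k x) + ip (u j x) (du k x) := by
    intro x
    simp only [Ac.dgram, Matrix.add_apply, Matrix.mul_apply, Ac.mat, conjTranspose_apply, ip,
      Matrix.of_apply]
  simp only [this]
  exact (Ac.ip_int' (fun a => (hu j a).2.1) fun a => (hu k a).1).add
    (Ac.ip_int' (fun a => (hu j a).1) fun a => (hu k a).2.1)

end Tst

open Tst Ac in
/-- **testing** -/
theorem testing {γ : ℝ} {m N : ℕ} {W : ℝ → Matrix (Fin m) (Fin m) ℂ} (hW : IsPotential γ W)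
    {lam : Fin N → ℝ} {u du : Fin N → ℝ → Fin m → ℂ} (hlam : ∀ j, 0 < lam j)
    (hE : ∀ j, IsEigen W (-(lam j)) (u j) (du j))
    (hon : ∀ j k, ∫ x, ip (u j x) (u k x) = if j = k then 1 else 0)
    {D : Matrix (Fin N) (Fin N) ℂ} (hD : D.IsHermitian) {R : ℝ} (hR : 0 < R)
    {S : Matrix (Fin N) (Fin N) ℂ} {Z WW : ℝ → Matrix (Fin N) (Fin N) ℂ}
    (hWW : ∀ i j, ContinuousOn (fun x => WW x i j) (Icc (-R) R))
    (hZh : ∀ x ∈ Icc (-R) R, (Z x).IsHermitian)
    (hZ : ∀ x ∈ Icc (-R) R, ∀ i j, HasDerivWithinAt (fun t => Z t i j)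
      ((S * S - Z x * Z x - WW x) i j) (Icc (-R) R) x)
    (h0 : Z (-R) = S) (h1 : Z R = -S) :
    Integrable (fun x => (trace (W x * (mat u x * (D * D) * (mat u x)ᴴ))).re) ∧
    (trace ((D * D) * (diagonal (fun j => (lam j : ℂ)) - S * S))).re ≤
      (∫ x, (trace (W x * (mat u x * (D * D) * (mat u x)ᴴ))).re) -
        ∫ x in (-R)..R, (trace (WW x * Vx D u x)).re := by
  have hu : ∀ j, IsH1 (u j) (du j) := fun j => (hE j).1
  obtain ⟨hi1, hi2, hw⟩ := Eig.weighted hW hlam hE hon (D * D)
  refine ⟨hi1.re, ?_⟩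
  -- the objects
  set G : ℝ → Matrix (Fin N) (Fin N) ℂ := fun x => S * S - Z x * Z x - WW x with hG
  set Zt : ℝ → Matrix (Fin N) (Fin N) ℂ := fun x => Z (cl R x) with hZt
  set Gt : ℝ → Matrix (Fin N) (Fin N) ℂ :=
    fun x => Matrix.of fun i j => if x ∈ Ioo (-R) R then G x i j else 0 with hGt
  set V : ℝ → Matrix (Fin N) (Fin N) ℂ := fun x => D * gram u x * D with hV
  set dV : ℝ → Matrix (Fin N) (Fin N) ℂ := fun x => D * dgram u du x * D with hdV
  -- continuity
  have hZc : ∀ i j, ContinuousOn (fun x => Z x i j) (Icc (-R) R) := fun i j x hx =>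
    (hZ x hx i j).continuousWithinAt
  have hGc : ∀ i j, ContinuousOn (fun x => G x i j) (Icc (-R) R) := by
    intro i j
    simp only [hG, Matrix.sub_apply, Matrix.mul_apply]
    refine (continuousOn_const.sub ?_).sub (hWW i j)
    exact continuousOn_finsetSum _ fun k _ => (hZc i k).mul (hZc k j)
  have hVi : ∀ i j, Integrable fun x => V x i j := fun i j =>
    int_sandwich (fun i j => ip_int (hu i) (hu j)) D D i j
  have hdVi : ∀ i j, Integrable fun x => dV x i j := fun i j =>
    int_sandwich (fun i j => dgram_int hu i j) D D i j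
  have hZm : ∀ i j, AEStronglyMeasurable (fun x => Zt x i j) volume := by
    intro i j
    have hc : Continuous fun x => Zt x i j :=
      (hZc i j).comp_continuous (cl_lip R).continuous fun x => cl_mem hR x
    exact hc.aestronglyMeasurable
  have hPi : Integrable fun x => trace (Zt x * V x) :=
    int_trace_mul hZm (fun i j => bdd_clamp hR (hZc i j)) hVi
  have hQi1 : Integrable fun x => trace (Gt x * V x) :=
    int_trace_mul (fun i j => meas_glue (hGc i j)) (fun i j => bdd_glue (hGc i j)) hVi
  have hQi2 : Integrable fun x => trace (Zt x * dV x) :=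
    int_trace_mul hZm (fun i j => bdd_clamp hR (hZc i j)) hdVi
  have hQi : Integrable fun x => trace (Gt x * V x + Zt x * dV x) := by
    simp only [trace_add]
    exact hQi1.add hQi2
  -- the fundamental theorem of calculus
  have key : ∀ s t : ℝ, ∫ x in s..t, trace (Gt x * V x + Zt x * dV x) =
      trace (Zt t * V t) - trace (Zt s * V s) := by
    intro s t
    have hMZ : MAC Zt s t := fun i j => cac_clamp hR (fun x hx => hZ x hx i j) (hGc i j) s t
    have hMV : MAC V s t := ((MAC.const D s t).mul (gram_ac hu s t)).mul (MAC.const D s t)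
    have hc : CAC (fun x => trace (Zt x * V x)) s t := (hMZ.mul hMV).trace
    refine hc.integral_eq hQi.intervalIntegrable ?_
    have hdu : ∀ᵐ x, ∀ j a, x ∈ uIcc s t → HasDerivAt (fun x => u j x a) (du j x a) x := by
      rw [ae_all_iff]; intro j
      rw [ae_all_iff]; intro a
      exact u_deriv (hu j) a s t
    have hne : ∀ᵐ x : ℝ, x ≠ -R ∧ x ≠ R := by
      have h1 : ∀ᵐ x : ℝ, x ≠ -R := by simp [ae_iff]
      have h2 : ∀ᵐ x : ℝ, x ≠ R := by simp [ae_iff]
      filter_upwards [h1, h2] with x h1 h2 using ⟨h1, h2⟩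
    filter_upwards [hdu, hne] with x h3 h4 hx
    refine deriv_trace_mul (fun i j => ?_) fun i j => ?_
    · exact deriv_clamp hR (fun x hx => hZ x hx i j) h4.1 h4.2
    · exact deriv_sandwich (fun i j => gram_deriv (fun j a => h3 j a hx) i j) D D i j
  have hzero := integral_eq_zero hPi hQi key
  -- the pointwise inequality
  have hZth : ∀ x, (Zt x).IsHermitian := fun x => hZh _ (cl_mem hR x)
  set WWt : ℝ → Matrix (Fin N) (Fin N) ℂ :=
    fun x => Matrix.of fun i j => if x ∈ Ioo (-R) R then WW x i j else 0 with hWWt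
  have hGt' : ∀ x, Gt x = S * S - Zt x * Zt x - WWt x := by
    intro x
    by_cases hx : x ∈ Ioo (-R) R
    · have e1 : Gt x = G x := by
        ext i j
        simp only [hGt, Matrix.of_apply, if_pos hx]
      have e2 : WWt x = WW x := by
        ext i j
        simp only [hWWt, Matrix.of_apply, if_pos hx]
      rw [e1, e2]
      simp only [hG, hZt, cl_eq (Ioo_subset_Icc_self hx)]
    · have e1 : Gt x = 0 := by
        ext i j
        simp only [hGt, Matrix.of_apply, if_neg hx, Matrix.zero_apply]
      have e2 : WWt x = 0 := by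
        ext i j
        simp only [hWWt, Matrix.of_apply, if_neg hx, Matrix.zero_apply]
      have e3 : Zt x * Zt x = S * S := by
        by_cases hx' : x ≤ -R
        · simp only [hZt, cl_left hR hx', h0]
        · have : R ≤ x := by
            by_contra hcon
            exact hx ⟨not_le.1 hx', not_le.1 hcon⟩
          simp only [hZt, cl_right hR this, h1, neg_mul_neg]
      rw [e1, e2, e3]
      simp
  have hpt : ∀ x, (trace (Gt x * V x + Zt x * dV x)).re ≤
      (trace ((D * D) * ((mat du x)ᴴ * mat du x))).re + (trace ((S * S) * V x)).re -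
        (trace (WWt x * V x)).re := by
    intro x
    have hsq := square (U := mat u x * D) (D := mat du x * D) (T := Zt x) (hZth x)
    have a1 : (mat du x * D)ᴴ * (mat u x * D) + (mat u x * D)ᴴ * (mat du x * D) = dV x := by
      simp only [hdV, dgram, conjTranspose_mul, hD.eq, Matrix.mul_add, Matrix.add_mul,
        Matrix.mul_assoc]
    have a2 : (mat u x * D)ᴴ * (mat u x * D) = V x := by
      simp only [hV, gram_eq, conjTranspose_mul, hD.eq, Matrix.mul_assoc]
    have a3 : trace ((mat du x * D)ᴴ * (mat du x * D)) =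
        trace ((D * D) * ((mat du x)ᴴ * mat du x)) := by
      calc trace ((mat du x * D)ᴴ * (mat du x * D))
          = trace (D * ((mat du x)ᴴ * mat du x * D)) := by
            simp only [conjTranspose_mul, hD.eq, Matrix.mul_assoc]
        _ = trace ((mat du x)ᴴ * mat du x * D * D) := trace_mul_comm _ _
        _ = trace (((mat du x)ᴴ * mat du x) * (D * D)) := by simp only [Matrix.mul_assoc]
        _ = _ := trace_mul_comm _ _
    have a4 : trace (Zt x * V x * Zt x) = trace (Zt x * Zt x * V x) := by
      rw [trace_mul_comm, Matrix.mul_assoc]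
    rw [a1, a2, a3, a4] at hsq
    have a5 : trace (Gt x * V x) = trace ((S * S) * V x) - trace (Zt x * Zt x * V x) -
        trace (WWt x * V x) := by
      rw [hGt', Matrix.sub_mul, Matrix.sub_mul, trace_sub, trace_sub]
    rw [trace_add, a5]
    simp only [Complex.add_re, Complex.sub_re]
    linarith
  -- integrate
  have hWi : Integrable fun x => trace (WWt x * V x) :=
    int_trace_mul (fun i j => meas_glue (hWW i j)) (fun i j => bdd_glue (hWW i j)) hVi
  have hSi : Integrable fun x => trace ((S * S) * V x) :=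
    int_trace_mul (fun i j => aestronglyMeasurable_const) (fun i j => ⟨‖(S * S) i j‖, fun _ => le_rfl⟩)
      hVi
  have r1 : Integrable fun x => (trace ((D * D) * ((mat du x)ᴴ * mat du x))).re := hi2.re
  have r2 : Integrable fun x => (trace ((S * S) * V x)).re := hSi.re
  have r3 : Integrable fun x => (trace (WWt x * V x)).re := hWi.re
  have r4 : Integrable fun x => (trace (Gt x * V x + Zt x * dV x)).re := hQi.re
  have hint : (0 : ℝ) ≤ (∫ x, (trace ((D * D) * ((mat du x)ᴴ * mat du x))).re) +
      (∫ x, (trace ((S * S) * V x)).re) - ∫ x, (trace (WWt x * V x)).re := by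
    have hz : (∫ x, (trace (Gt x * V x + Zt x * dV x)).re) = 0 := by
      have := congrArg Complex.re hzero
      rw [Complex.zero_re] at this
      rw [← this]
      exact integral_re hQi
    have r5 : Integrable fun x => (trace ((D * D) * ((mat du x)ᴴ * mat du x))).re +
        (trace ((S * S) * V x)).re := r1.add r2
    rw [← hz, ← integral_add r1 r2, ← integral_sub r5 r3]
    exact integral_mono r4 (r5.sub r3) hpt
  have hVint : (Matrix.of fun i j => ∫ x, V x i j : Matrix (Fin N) (Fin N) ℂ) = D * D := by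
    ext i j
    rw [Matrix.of_apply]
    simp only [hV]
    rw [integral_sandwich (F := gram u) (fun i j => ip_int (hu i) (hu j)) D D i j]
    have : (Matrix.of fun i j => ∫ x, gram u x i j : Matrix (Fin N) (Fin N) ℂ) = 1 := by
      ext i j
      rw [Matrix.of_apply, Matrix.one_apply]
      exact hon i j
    rw [this, Matrix.mul_one]
  have hS1 : (∫ x, (trace ((S * S) * V x)).re) = (trace ((S * S) * (D * D))).re := by
    rw [← hVint, ← integral_trace_mul _ hVi]
    exact integral_re hSi
  have hW1 : (∫ x, (trace (WWt x * V x)).re) = ∫ x in (-R)..R, (trace (WW x * Vx D u x)).re := by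
    rw [intervalIntegral.integral_of_le (by linarith), integral_Ioc_eq_integral_Ioo,
      ← integral_indicator measurableSet_Ioo]
    refine integral_congr_ae (Filter.Eventually.of_forall fun x => ?_)
    by_cases hx : x ∈ Ioo (-R) R
    · have e2 : WWt x = WW x := by
        ext i j
        simp only [hWWt, Matrix.of_apply, if_pos hx]
      simp only [indicator_of_mem hx, e2]
      rfl
    · have e2 : WWt x = 0 := by
        ext i j
        simp only [hWWt, Matrix.of_apply, if_neg hx, Matrix.zero_apply]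
      simp only [indicator_of_notMem hx, e2, Matrix.zero_mul, trace_zero, Complex.zero_re]
  have hw' := congrArg Complex.re hw
  rw [Complex.sub_re] at hw'
  have e1 : (∫ x, trace (W x * (mat u x * (D * D) * (mat u x)ᴴ))).re =
      ∫ x, (trace (W x * (mat u x * (D * D) * (mat u x)ᴴ))).re := (integral_re hi1).symm
  have e2 : (∫ x, trace ((D * D) * ((mat du x)ᴴ * mat du x))).re =
      ∫ x, (trace ((D * D) * ((mat du x)ᴴ * mat du x))).re := (integral_re hi2).symm
  rw [e1, e2] at hw'
  rw [Matrix.mul_sub, trace_sub, Complex.sub_re, trace_mul_comm (D * D) (S * S), ← hS1, ← hW1]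
  linarith

end Vale.Agent.P371
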