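import Vale.Agent.P371.VertexTouch

/-!
# P371 [VERTEX]: the vertex lemma (Brouwer + truncated matrix Riccati flow)
-/

namespace Vale.Agent.P371

open Matrix Set Filter
open scoped Topology ComplexOrder

namespace Vtx

variable {N : ℕ}

/-! ### the compact convex set `0 ≤ S ≤ K` -/

/-- `0 ≤ S ≤ K` -/
def KK (N : ℕ) (K : ℝ) : Set (Matrix (Fin N) (Fin N) ℂ) :=
  {S | S.PosSemidef ∧ ((K : ℂ) • (1 : Matrix (Fin N) (Fin N) ℂ) - S).PosSemidef}

theorem isClosed_psd : IsClosed {S : Matrix (Fin N) (Fin N) ℂ | S.PosSemidef} := by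
  have h1 : {S : Matrix (Fin N) (Fin N) ℂ | S.PosSemidef} =
      {S | Sᴴ = S} ∩ ⋂ v : Fin N → ℂ, {S | 0 ≤ qf v S} := by
    ext S
    simp only [mem_ofPred_eq, mem_inter_iff, mem_iInter, psd_iff, IsHermitian]
  rw [h1]
  refine IsClosed.inter (isClosed_eq continuous_id.matrix_conjTranspose continuous_id)
    (isClosed_iInter fun v => isClosed_le continuous_const ?_)
  have := qf_contOn (s := univ) (f := fun S : Matrix (Fin N) (Fin N) ℂ => S) (g := fun _ => v)
    continuousOn_id continuousOn_const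
  exact continuousOn_univ.1 this

theorem isCompact_KK (K : ℝ) : IsCompact (KK N K) := by
  have h0 : IsCompact (Set.pi univ fun _ : Fin N => Set.pi univ fun _ : Fin N =>
      Metric.closedBall (0 : ℂ) K) :=
    isCompact_univ_pi fun _ => isCompact_univ_pi fun _ => isCompact_closedBall _ _
  have hcl : IsClosed (KK N K) := by
    refine isClosed_psd.inter ?_
    exact isClosed_psd.preimage (continuous_const.sub continuous_id)
  refine IsCompact.of_isClosed_subset h0 hcl ?_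
  rintro S ⟨h1, h2⟩
  intro i _ j _
  rw [mem_closedBall_iff_norm, sub_zero]
  have hd : ∀ i, 0 ≤ (S i i).re ∧ (S i i).im = 0 ∧ (S i i).re ≤ K := by
    intro i
    have a1 := h1.diag_nonneg (i := i)
    have a2 := h2.diag_nonneg (i := i)
    rw [Complex.le_def] at a1 a2
    simp at a1 a2
    exact ⟨a1.1, a1.2.symm, a2.1⟩
  rcases eq_or_ne i j with rfl | hij
  · have hi := hd i
    have : S i i = ((S i i).re : ℂ) := Complex.ext (by simp) (by simp [hi.2.1])
    rw [this, Complex.norm_real, Real.norm_eq_abs, abs_of_nonneg hi.1]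
    exact hi.2.2
  · have a1 := (h1.submatrix ![i, j]).det_nonneg
    rw [Matrix.det_fin_two] at a1
    simp only [submatrix_apply, Matrix.cons_val_zero, Matrix.cons_val_one] at a1
    have a2 : S j i = star (S i j) := by
      rw [← h1.1.apply i j]
      simp
    rw [a2, Complex.star_def, Complex.mul_conj, Complex.le_def] at a1
    have a3 := a1.1
    simp only [Complex.sub_re, Complex.mul_re, Complex.zero_re, Complex.ofReal_re] at a3
    have hi := hd i
    have hj := hd j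
    rw [hi.2.1, hj.2.1, Complex.normSq_eq_norm_sq] at a3
    have hK : 0 ≤ K := hi.1.trans hi.2.2
    have a4 : ‖S i j‖ ^ 2 ≤ K ^ 2 := by
      have := mul_le_mul hi.2.2 hj.2.2 hj.1 hK
      nlinarith
    exact le_of_sq_le_sq a4 hK

theorem convex_psd : Convex ℝ {S : Matrix (Fin N) (Fin N) ℂ | S.PosSemidef} := by
  intro A hA B hB a b ha hb _
  exact (Matrix.PosSemidef.smul hA ha).add (Matrix.PosSemidef.smul hB hb)

theorem convex_KK (K : ℝ) : Convex ℝ (KK N K) := by
  refine convex_psd.inter ?_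
  intro A hA B hB a b ha hb hab
  have e : (K : ℂ) • (1 : Matrix (Fin N) (Fin N) ℂ) - (a • A + b • B) =
      a • ((K : ℂ) • (1 : Matrix (Fin N) (Fin N) ℂ) - A) +
        b • ((K : ℂ) • (1 : Matrix (Fin N) (Fin N) ℂ) - B) := by
    rw [smul_sub, smul_sub]
    have : (K : ℂ) • (1 : Matrix (Fin N) (Fin N) ℂ) =
        (a + b) • ((K : ℂ) • (1 : Matrix (Fin N) (Fin N) ℂ)) := by rw [hab, one_smul]
    rw [add_smul] at this
    calc _ = (a • ((K : ℂ) • (1 : Matrix (Fin N) (Fin N) ℂ)) +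
          b • ((K : ℂ) • (1 : Matrix (Fin N) (Fin N) ℂ))) - (a • A + b • B) := by rw [← this]
      _ = _ := by abel
  change ((K : ℂ) • (1 : Matrix (Fin N) (Fin N) ℂ) - (a • A + b • B)).PosSemidef
  rw [e]
  exact (Matrix.PosSemidef.smul hA ha).add (Matrix.PosSemidef.smul hB hb)

theorem psd_one_smul {K : ℝ} (hK : 0 ≤ K) :
    ((K : ℂ) • (1 : Matrix (Fin N) (Fin N) ℂ)).PosSemidef := by
  refine psd_iff.2 ⟨?_, fun v => ?_⟩
  · rw [IsHermitian, conjTranspose_smul, conjTranspose_one, Complex.star_def, Complex.conj_ofReal]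
  · rw [qf_smul, qf_one]
    exact mul_nonneg hK (nsq_nonneg v)

theorem herm_one_smul (K : ℝ) : ((K : ℂ) • (1 : Matrix (Fin N) (Fin N) ℂ)).IsHermitian := by
  rw [IsHermitian, conjTranspose_smul, conjTranspose_one, Complex.star_def, Complex.conj_ofReal]

theorem zero_mem_KK {K : ℝ} (hK : 0 ≤ K) : (0 : Matrix (Fin N) (Fin N) ℂ) ∈ KK N K :=
  ⟨Matrix.PosSemidef.zero, by rw [sub_zero]; exact psd_one_smul hK⟩

/-- `S² ≤ K²` -/
theorem sq_le {K : ℝ} {S : Matrix (Fin N) (Fin N) ℂ} (hS : S ∈ KK N K) (hK : 0 ≤ K)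
    (v : Fin N → ℂ) : qf v (S * S) ≤ K ^ 2 * nsq v := by
  have h1 := gK_eq hS.1.1 hS.2 ((psd_one_smul hK).add hS.1)
  have h2 := qf_nonneg (gK_le (K := K) hS.1.1) v
  rw [h1, qf_sub, qf_smul, qf_one] at h2
  linarith

/-! ### the truncation is inactive -/

/-- entrywise derivative of `(α + β y) • A + σ • Z y` -/
theorem hd_aff {I : Set ℝ} {x : ℝ} {Z : ℝ → Matrix (Fin N) (Fin N) ℂ}
    {Z' : Matrix (Fin N) (Fin N) ℂ} (hZ : ∀ i j, HasDerivWithinAt (fun y => Z y i j) (Z' i j) I x)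
    (A B : Matrix (Fin N) (Fin N) ℂ) (α β σ : ℝ) (i j : Fin N) :
    HasDerivWithinAt (fun y => (B + ((α + β * y : ℝ) : ℂ) • A + (σ : ℂ) • Z y) i j)
      (((β : ℂ) • A + (σ : ℂ) • Z') i j) I x := by
  have h1 : HasDerivWithinAt (fun y : ℝ => ((α + β * y : ℝ) : ℂ)) ((β : ℝ) : ℂ) I x := by
    have : HasDerivWithinAt (fun y : ℝ => α + β * y) β I x := by
      simpa using ((hasDerivWithinAt_id x I).const_mul β).const_add α
    exact this.ofReal_comp
  have h2 := (h1.mul_const (A i j)).add ((hZ i j).const_mul (σ : ℂ))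
  have h3 := h2.const_add (B i j)
  have e : (fun y => (B + ((α + β * y : ℝ) : ℂ) • A + (σ : ℂ) • Z y) i j) =
      fun x => B i j + ((fun y : ℝ => ((α + β * y : ℝ) : ℂ) * A i j) +
        fun y => (σ : ℂ) * Z y i j) x := by
    funext y
    simp only [Matrix.add_apply, Matrix.smul_apply, smul_eq_mul, Pi.add_apply, add_assoc]
  rw [e]
  exact h3

theorem trunc {K R : ℝ} (hK : 0 ≤ K) (hR : 0 ≤ R) {S : Matrix (Fin N) (Fin N) ℂ}
    (hS : S ∈ KK N K) {Z W : ℝ → Matrix (Fin N) (Fin N) ℂ}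
    (hZ0 : Z (-R) = S) (hZ1 : Z R = -S) (hH : ∀ x ∈ Icc (-R) R, (Z x).IsHermitian)
    (hW : ∀ x ∈ Icc (-R) R, (W x).PosSemidef)
    (hd : ∀ x ∈ Icc (-R) R, ∀ i j, HasDerivWithinAt (fun y => Z y i j)
      ((S * S - gK K (Z x) - W x) i j) (Icc (-R) R) x) :
    ∀ x ∈ Icc (-R) R, ((K : ℂ) • (1 : Matrix (Fin N) (Fin N) ℂ) - Z x).PosSemidef ∧
      ((K : ℂ) • (1 : Matrix (Fin N) (Fin N) ℂ) + Z x).PosSemidef := by
  have hpd : ∀ ε : ℝ, 0 < ε → ((K : ℂ) • (1 : Matrix (Fin N) (Fin N) ℂ) - S +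
      (ε : ℂ) • (1 : Matrix (Fin N) (Fin N) ℂ)).PosDef := by
    intro ε hε
    refine pd_iff.2 ⟨hS.2.1.add (herm_one_smul ε), fun v hv => ?_⟩
    rw [qf_add, qf_smul v ε, qf_one]
    have := qf_nonneg hS.2 v
    have := mul_pos hε (nsq_pos hv)
    linarith
  have hfor : ∀ ε : ℝ, 0 < ε → ∀ x ∈ Icc (-R) R,
      (0 + ((K + ε * (R + 1) + ε * x : ℝ) : ℂ) • (1 : Matrix (Fin N) (Fin N) ℂ) +
        ((-1 : ℝ) : ℂ) • Z x).PosDef := by
    intro ε hε
    refine touch (Q' := fun x => ((ε : ℂ) • (1 : Matrix (Fin N) (Fin N) ℂ) +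
      ((-1 : ℝ) : ℂ) • (S * S - gK K (Z x) - W x))) ?_ ?_ ?_ ?_
    · intro x hx
      refine (isHermitian_zero.add (herm_one_smul _)).add ?_
      rw [IsHermitian, conjTranspose_smul, (hH x hx).eq, Complex.star_def, Complex.conj_ofReal]
    · intro x hx i j
      exact hd_aff (hd x hx) _ _ _ _ _ i j
    · have := hpd ε hε
      convert this using 1
      rw [hZ0]
      ext i j
      simp
      ring
    · intro x hx hp v hv hz
      have hk : (Z x).mulVec v = ((K + ε * (R + 1) + ε * x : ℝ) : ℂ) • v := by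
        rw [Matrix.add_mulVec, Matrix.add_mulVec, Matrix.zero_mulVec, zero_add,
          Matrix.smul_mulVec, Matrix.smul_mulVec, Matrix.one_mulVec] at hz
        have h1 : ((K + ε * (R + 1) + ε * x : ℝ) : ℂ) • v - (Z x).mulVec v = 0 := by
          rw [← hz]; simp [sub_eq_add_neg]
        exact (sub_eq_zero.1 h1).symm
      have hkK : K ≤ K + ε * (R + 1) + ε * x := by nlinarith [hx.1]
      have h2 := qf_eig (gK_mulVec (K := K) (hH x hx) hk)
      rw [min_eq_right (pow_le_pow_left₀ hK hkK 2)] at h2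
      have h3 := sq_le hS hK v
      have h4 := qf_nonneg (hW x hx) v
      have h5 := mul_pos hε (nsq_pos hv)
      simp only [qf_add, qf_smul, qf_one, qf_sub, h2]
      linarith
  have hback : ∀ ε : ℝ, 0 < ε → ∀ x ∈ Icc (-R) R,
      (0 + ((K + ε * (R + 1) + (-ε) * x : ℝ) : ℂ) • (1 : Matrix (Fin N) (Fin N) ℂ) +
        ((1 : ℝ) : ℂ) • Z x).PosDef := by
    intro ε hε
    refine touch_back (Q' := fun x => (((-ε : ℝ) : ℂ) • (1 : Matrix (Fin N) (Fin N) ℂ) +
      ((1 : ℝ) : ℂ) • (S * S - gK K (Z x) - W x))) ?_ ?_ ?_ ?_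
    · intro x hx
      refine (isHermitian_zero.add (herm_one_smul _)).add ?_
      rw [IsHermitian, conjTranspose_smul, (hH x hx).eq, Complex.star_def, Complex.conj_ofReal]
    · intro x hx i j
      exact hd_aff (hd x hx) _ _ _ _ _ i j
    · have := hpd ε hε
      convert this using 1
      rw [hZ1]
      ext i j
      simp
      ring
    · intro x hx hp v hv hz
      have hk : (Z x).mulVec v = ((-(K + ε * (R + 1) + (-ε) * x) : ℝ) : ℂ) • v := by
        rw [Matrix.add_mulVec, Matrix.add_mulVec, Matrix.zero_mulVec, zero_add,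
          Matrix.smul_mulVec, Matrix.smul_mulVec, Matrix.one_mulVec] at hz
        have h1 : ((K + ε * (R + 1) + (-ε) * x : ℝ) : ℂ) • v + (Z x).mulVec v = 0 := by
          rw [← hz]; simp
        rw [eq_neg_of_add_eq_zero_right h1]
        push_cast
        rw [neg_smul]
      have hkK : K ≤ K + ε * (R + 1) + (-ε) * x := by nlinarith [hx.2]
      have h2 := qf_eig (gK_mulVec (K := K) (hH x hx) hk)
      rw [neg_sq, min_eq_right (pow_le_pow_left₀ hK hkK 2)] at h2
      have h3 := sq_le hS hK v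
      have h4 := qf_nonneg (hW x hx) v
      have h5 := mul_pos hε (nsq_pos hv)
      simp only [qf_add, qf_smul, qf_one, qf_sub, h2]
      linarith
  intro x hx
  refine ⟨psd_iff.2 ⟨(herm_one_smul _).sub (hH x hx), fun v => ?_⟩,
    psd_iff.2 ⟨(herm_one_smul _).add (hH x hx), fun v => ?_⟩⟩
  · refine le_of_forall_pos_le_add fun δ hδ => ?_
    have hn := nsq_nonneg v
    set ε : ℝ := δ / ((2 * R + 2) * (nsq v + 1)) with hε
    have hε0 : 0 < ε := by positivity
    have h1 := qf_nonneg (hfor ε hε0 x hx).posSemidef v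
    simp only [qf_add, qf_smul, qf_one, qf_sub] at h1 ⊢
    have h0 : qf v (0 : Matrix (Fin N) (Fin N) ℂ) = 0 := by simp [qf]
    have h2 : ε * ((2 * R + 2) * (nsq v + 1)) = δ := by
      rw [hε]; field_simp
    have h3 : (ε * (R + 1) + ε * x) * nsq v ≤ δ := by
      rw [← h2]
      have h4 : ε * (R + 1) + ε * x ≤ ε * (2 * R + 2) := by nlinarith [hx.2]
      calc _ ≤ ε * (2 * R + 2) * (nsq v + 1) := by
            refine mul_le_mul h4 (by linarith) hn (by positivity)
        _ = _ := by ring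
    rw [h0] at h1
    nlinarith
  · refine le_of_forall_pos_le_add fun δ hδ => ?_
    have hn := nsq_nonneg v
    set ε : ℝ := δ / ((2 * R + 2) * (nsq v + 1)) with hε
    have hε0 : 0 < ε := by positivity
    have h1 := qf_nonneg (hback ε hε0 x hx).posSemidef v
    simp only [qf_add, qf_smul, qf_one] at h1 ⊢
    have h0 : qf v (0 : Matrix (Fin N) (Fin N) ℂ) = 0 := by simp [qf]
    have h2 : ε * ((2 * R + 2) * (nsq v + 1)) = δ := by
      rw [hε]; field_simp
    have h3 : (ε * (R + 1) + (-ε) * x) * nsq v ≤ δ := by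
      rw [← h2]
      have h4 : ε * (R + 1) + (-ε) * x ≤ ε * (2 * R + 2) := by nlinarith [hx.1]
      calc _ ≤ ε * (2 * R + 2) * (nsq v + 1) := by
            refine mul_le_mul h4 (by linarith) hn (by positivity)
        _ = _ := by ring
    rw [h0] at h1
    nlinarith

/-- `-S ≤ Z ≤ S` along the Riccati flow. -/
theorem between {R : ℝ} {S : Matrix (Fin N) (Fin N) ℂ}
    (hS : S.PosSemidef) {Z W : ℝ → Matrix (Fin N) (Fin N) ℂ}
    (hZ0 : Z (-R) = S) (hZ1 : Z R = -S) (hH : ∀ x ∈ Icc (-R) R, (Z x).IsHermitian)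
    (hW : ∀ x ∈ Icc (-R) R, (W x).PosSemidef)
    (hd : ∀ x ∈ Icc (-R) R, ∀ i j, HasDerivWithinAt (fun y => Z y i j)
      ((S * S - Z x * Z x - W x) i j) (Icc (-R) R) x) :
    ∀ x ∈ Icc (-R) R, (S - Z x).PosSemidef ∧ (S + Z x).PosSemidef := by
  have hpd : ∀ ε : ℝ, 0 < ε → ((ε : ℂ) • (1 : Matrix (Fin N) (Fin N) ℂ)).PosDef := by
    intro ε hε
    refine pd_iff.2 ⟨herm_one_smul ε, fun v hv => ?_⟩
    rw [qf_smul, qf_one]
    exact mul_pos hε (nsq_pos hv)
  -- `⟨v, Z² v⟩ - ⟨v, S² v⟩ > 0` when `Z v = ± (S + ε) v`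
  have hkey : ∀ ε : ℝ, 0 < ε → ∀ x ∈ Icc (-R) R, ∀ v, v ≠ 0 → ∀ σ : ℝ, σ ^ 2 = 1 →
      (Z x).mulVec v = (σ : ℂ) • (S.mulVec v + (ε : ℂ) • v) →
      qf v (S * S) < qf v (Z x * Z x) := by
    intro ε hε x hx v hv σ hσ h
    rw [qf_sq hS.1, qf_sq (hH x hx), h, nsq_smul, hσ, one_mul, nsq_add_smul]
    have h1 : 0 ≤ (star v ⬝ᵥ S.mulVec v).re := qf_nonneg hS v
    have h2 := mul_pos (pow_pos hε 2) (nsq_pos hv)
    have h3 : 0 ≤ 2 * ε * (star v ⬝ᵥ S.mulVec v).re := by positivity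
    linarith
  have hfor : ∀ ε : ℝ, 0 < ε → ∀ x ∈ Icc (-R) R,
      (S + ((ε + 0 * x : ℝ) : ℂ) • (1 : Matrix (Fin N) (Fin N) ℂ) +
        ((-1 : ℝ) : ℂ) • Z x).PosDef := by
    intro ε hε
    refine touch (Q' := fun x => (((0 : ℝ) : ℂ) • (1 : Matrix (Fin N) (Fin N) ℂ) +
      ((-1 : ℝ) : ℂ) • (S * S - Z x * Z x - W x))) ?_ ?_ ?_ ?_
    · intro x hx
      refine (hS.1.add (herm_one_smul _)).add ?_
      rw [IsHermitian, conjTranspose_smul, (hH x hx).eq, Complex.star_def, Complex.conj_ofReal]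
    · intro x hx i j
      exact hd_aff (hd x hx) _ _ _ _ _ i j
    · have := hpd ε hε
      convert this using 1
      rw [hZ0]
      ext i j
      simp
    · intro x hx hp v hv hz
      have hk : (Z x).mulVec v = ((1 : ℝ) : ℂ) • (S.mulVec v + (ε : ℂ) • v) := by
        rw [Matrix.add_mulVec, Matrix.add_mulVec, 
          Matrix.smul_mulVec, Matrix.smul_mulVec, Matrix.one_mulVec] at hz
        have h1 : (S.mulVec v + (ε : ℂ) • v) - (Z x).mulVec v = 0 := by
          rw [← hz]; simp [sub_eq_add_neg]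
        rw [← sub_eq_zero.1 h1]
        simp
      have h2 := hkey ε hε x hx v hv 1 (by norm_num) hk
      have h4 := qf_nonneg (hW x hx) v
      simp only [qf_add, qf_smul, qf_one, qf_sub]
      linarith
  have hback : ∀ ε : ℝ, 0 < ε → ∀ x ∈ Icc (-R) R,
      (S + ((ε + 0 * x : ℝ) : ℂ) • (1 : Matrix (Fin N) (Fin N) ℂ) +
        ((1 : ℝ) : ℂ) • Z x).PosDef := by
    intro ε hε
    refine touch_back (Q' := fun x => (((0 : ℝ) : ℂ) • (1 : Matrix (Fin N) (Fin N) ℂ) +
      ((1 : ℝ) : ℂ) • (S * S - Z x * Z x - W x))) ?_ ?_ ?_ ?_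
    · intro x hx
      refine (hS.1.add (herm_one_smul _)).add ?_
      rw [IsHermitian, conjTranspose_smul, (hH x hx).eq, Complex.star_def, Complex.conj_ofReal]
    · intro x hx i j
      exact hd_aff (hd x hx) _ _ _ _ _ i j
    · have := hpd ε hε
      convert this using 1
      rw [hZ1]
      ext i j
      simp
    · intro x hx hp v hv hz
      have hk : (Z x).mulVec v = ((-1 : ℝ) : ℂ) • (S.mulVec v + (ε : ℂ) • v) := by
        rw [Matrix.add_mulVec, Matrix.add_mulVec,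
          Matrix.smul_mulVec, Matrix.smul_mulVec, Matrix.one_mulVec] at hz
        have h1 : (S.mulVec v + (ε : ℂ) • v) + (Z x).mulVec v = 0 := by
          rw [← hz]; simp
        rw [eq_neg_of_add_eq_zero_right h1]
        simp [add_comm]
      have h2 := hkey ε hε x hx v hv (-1) (by norm_num) hk
      have h4 := qf_nonneg (hW x hx) v
      simp only [qf_add, qf_smul, qf_one, qf_sub]
      linarith
  intro x hx
  refine ⟨psd_iff.2 ⟨hS.1.sub (hH x hx), fun v => ?_⟩,
    psd_iff.2 ⟨hS.1.add (hH x hx), fun v => ?_⟩⟩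
  · refine le_of_forall_pos_le_add fun δ hδ => ?_
    have hn := nsq_nonneg v
    set ε : ℝ := δ / (nsq v + 1) with hε
    have hε0 : 0 < ε := by positivity
    have h1 := qf_nonneg (hfor ε hε0 x hx).posSemidef v
    simp only [qf_add, qf_smul, qf_one, qf_sub] at h1 ⊢
    have h2 : ε * (nsq v + 1) = δ := by
      rw [hε]; field_simp
    nlinarith
  · refine le_of_forall_pos_le_add fun δ hδ => ?_
    have hn := nsq_nonneg v
    set ε : ℝ := δ / (nsq v + 1) with hε
    have hε0 : 0 < ε := by positivity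
    have h1 := qf_nonneg (hback ε hε0 x hx).posSemidef v
    simp only [qf_add, qf_smul, qf_one] at h1 ⊢
    have h2 : ε * (nsq v + 1) = δ := by
      rw [hε]; field_simp
    nlinarith

/-! ### the rank one projection -/

/-- `e e*` -/
noncomputable def E (e : Fin N → ℂ) : Matrix (Fin N) (Fin N) ℂ := vecMulVec e (star e)

theorem E_psd (e : Fin N → ℂ) : (E e).PosSemidef := posSemidef_vecMulVec_self_star e

theorem star_dot {e : Fin N → ℂ} (he : nsq e = 1) : star e ⬝ᵥ e = 1 := by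
  refine Complex.ext (by simpa [nsq] using he) ?_
  have := (Complex.le_def.1 (dotProduct_star_self_nonneg e)).2
  simpa using this.symm

theorem E_mul_E {e : Fin N → ℂ} (he : nsq e = 1) : E e * E e = E e := by
  rw [E, vecMulVec_mul_vecMulVec, star_dot he]
  simp

theorem mul_E {e : Fin N → ℂ} {M : Matrix (Fin N) (Fin N) ℂ} {μ : ℝ}
    (h : M.mulVec e = (μ : ℂ) • e) : M * E e = (μ : ℂ) • E e := by
  rw [E, mul_vecMulVec, h, smul_vecMulVec]

theorem E_mul {e : Fin N → ℂ} {M : Matrix (Fin N) (Fin N) ℂ} {μ : ℝ} (hM : M.IsHermitian)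
    (h : M.mulVec e = (μ : ℂ) • e) : E e * M = (μ : ℂ) • E e := by
  have h1 := congrArg conjTranspose (mul_E h)
  rw [conjTranspose_mul, conjTranspose_smul, (E_psd e).1.eq, hM.eq, Complex.star_def,
    Complex.conj_ofReal] at h1
  exact h1

theorem trace_E_mul (e : Fin N → ℂ) (M : Matrix (Fin N) (Fin N) ℂ) :
    trace (E e * M) = star e ⬝ᵥ M.mulVec e := by
  rw [trace_mul_comm, E, mul_vecMulVec, trace_vecMulVec, dotProduct_comm]

theorem trace_E_mul_re (e : Fin N → ℂ) (M : Matrix (Fin N) (Fin N) ℂ) :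
    (trace (E e * M)).re = qf e M := by
  rw [trace_E_mul]; rfl

theorem trace_E {e : Fin N → ℂ} (he : nsq e = 1) : (trace (E e)).re = 1 := by
  have := trace_E_mul_re e 1
  rw [Matrix.mul_one, qf_one, he] at this
  exact this

/-- `1 - e e*` -/
noncomputable def P (e : Fin N → ℂ) : Matrix (Fin N) (Fin N) ℂ := 1 - E e

theorem P_herm (e : Fin N → ℂ) : (P e)ᴴ = P e := (isHermitian_one.sub (E_psd e).1).eq

theorem P_mul_P {e : Fin N → ℂ} (he : nsq e = 1) : P e * P e = P e := by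
  rw [P, Matrix.sub_mul, Matrix.mul_sub, Matrix.mul_sub, E_mul_E he]
  simp

theorem conj_psd {e : Fin N → ℂ} {A : Matrix (Fin N) (Fin N) ℂ} (hA : A.PosSemidef) :
    (P e * A * P e).PosSemidef := by
  have := hA.mul_mul_conjTranspose_same (P e)
  rwa [P_herm] at this

/-- `⟨e, W e⟩ ≤ Tr W` for a unit vector `e` -/
theorem qf_le_trace {e : Fin N → ℂ} (he : nsq e = 1) {W : Matrix (Fin N) (Fin N) ℂ}
    (hW : W.PosSemidef) : qf e W ≤ (trace W).re := by
  have h1 := (Complex.le_def.1 (conj_psd (e := e) hW).trace_nonneg).1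
  rw [trace_mul_comm, ← Matrix.mul_assoc, P_mul_P he, P, Matrix.sub_mul, Matrix.one_mul, trace_sub,
    Complex.sub_re, trace_E_mul_re] at h1
  simpa using h1

/-- compression of `M` commuting with `E` -/
theorem PMP {e : Fin N → ℂ} (he : nsq e = 1) {M : Matrix (Fin N) (Fin N) ℂ} {μ : ℝ}
    (hM : M.IsHermitian) (h : M.mulVec e = (μ : ℂ) • e) :
    P e * M * P e = M - (μ : ℂ) • E e := by
  rw [P, Matrix.sub_mul, Matrix.one_mul, E_mul hM h, Matrix.mul_sub, Matrix.mul_one,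
    Matrix.sub_mul, mul_E h, Matrix.smul_mul, E_mul_E he, sub_self, sub_zero]

theorem trace_test {e : Fin N → ℂ} (he : nsq e = 1) {M S : Matrix (Fin N) (Fin N) ℂ} {μ : ℝ}
    (hM : M.IsHermitian) (h : M.mulVec e = (μ : ℂ) • e) :
    (trace (M * (P e * S * P e - S))).re = - (μ * qf e S) := by
  have h1 : trace (M * (P e * S * P e)) = trace (P e * M * P e * S) := by
    calc trace (M * (P e * S * P e)) = trace ((M * P e * S) * P e) := by
          simp only [Matrix.mul_assoc]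
      _ = trace (P e * (M * P e * S)) := trace_mul_comm _ _
      _ = _ := by simp only [Matrix.mul_assoc]
  rw [Matrix.mul_sub, trace_sub, h1, PMP he hM h, Matrix.sub_mul, trace_sub, Matrix.smul_mul,
    trace_smul, Complex.sub_re, Complex.sub_re, smul_eq_mul, Complex.re_ofReal_mul,
    trace_E_mul_re]
  ring

theorem K_smul_split {e : Fin N → ℂ} (he : nsq e = 1) (K : ℝ) (S : Matrix (Fin N) (Fin N) ℂ) :
    (K : ℂ) • (1 : Matrix (Fin N) (Fin N) ℂ) - P e * S * P e =
      (K : ℂ) • E e + P e * ((K : ℂ) • (1 : Matrix (Fin N) (Fin N) ℂ) - S) * P e := by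
  rw [Matrix.mul_sub, Matrix.sub_mul, Matrix.mul_smul, Matrix.smul_mul, Matrix.mul_one,
    P_mul_P he]
  have : (K : ℂ) • (1 : Matrix (Fin N) (Fin N) ℂ) = (K : ℂ) • E e + (K : ℂ) • P e := by
    rw [P, smul_sub]; abel
  rw [this]
  abel

theorem smul_psd {K : ℝ} (hK : 0 ≤ K) {A : Matrix (Fin N) (Fin N) ℂ} (hA : A.PosSemidef) :
    ((K : ℂ) • A).PosSemidef := by
  have := Matrix.PosSemidef.smul hA hK
  have e : K • A = (K : ℂ) • A := by
    ext i j; simp
  rwa [e] at this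

theorem mem1 {e : Fin N → ℂ} (he : nsq e = 1) {K : ℝ} (hK : 0 ≤ K)
    {S : Matrix (Fin N) (Fin N) ℂ} (hS : S ∈ KK N K) : P e * S * P e ∈ KK N K := by
  refine ⟨conj_psd hS.1, ?_⟩
  rw [K_smul_split he]
  exact (smul_psd hK (E_psd e)).add (conj_psd hS.2)

theorem mem2 {e : Fin N → ℂ} (he : nsq e = 1) {K : ℝ} (hK : 0 ≤ K)
    {S : Matrix (Fin N) (Fin N) ℂ} (hS : S ∈ KK N K) :
    P e * S * P e + (K : ℂ) • E e ∈ KK N K := by
  refine ⟨(conj_psd hS.1).add (smul_psd hK (E_psd e)), ?_⟩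
  have h1 : (K : ℂ) • (1 : Matrix (Fin N) (Fin N) ℂ) - (P e * S * P e + (K : ℂ) • E e) =
      P e * ((K : ℂ) • (1 : Matrix (Fin N) (Fin N) ℂ) - S) * P e := by
    rw [← sub_sub, K_smul_split he]
    abel
  rw [h1]
  exact conj_psd hS.2

/-! ### monotone quantities along the flow -/

theorem mono_le {a b c : ℝ} {f f' : ℝ → ℝ} (hab : a ≤ b)
    (hd : ∀ x ∈ Icc a b, HasDerivWithinAt f (f' x) (Icc a b) x)
    (hf : ∀ x ∈ Icc a b, c ≤ f' x) : c * (b - a) ≤ f b - f a := by
  have hcont : ContinuousOn f (Icc a b) := fun x hx => (hd x hx).continuousWithinAt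
  have hint : ∀ x ∈ interior (Icc a b), HasDerivAt f (f' x) x := by
    intro x hx
    have hx' : x ∈ Icc a b := interior_subset hx
    exact (hd x hx').hasDerivAt (mem_interior_iff_mem_nhds.1 hx)
  exact (convex_Icc a b).mul_sub_le_image_sub_of_le_deriv hcont
    (fun x hx => (hint x hx).differentiableAt.differentiableWithinAt)
    (fun x hx => by rw [(hint x hx).deriv]; exact hf x (interior_subset hx))
    a (left_mem_Icc.2 hab) b (right_mem_Icc.2 hab) hab

end Vtx

open Vtx in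
/-- **Vertex lemma** (derivatives within `[-R, R]`). -/
theorem vertex_within {N : ℕ} {R : ℝ} (hR : 0 < R)
    (WW : ℝ → Matrix (Fin N) (Fin N) ℂ → Matrix (Fin N) (Fin N) ℂ)
    (hc : ContinuousOn (fun q : Matrix (Fin N) (Fin N) ℂ × ℝ => WW q.2 q.1)
      ({S | S.PosSemidef} ×ˢ Icc (-R) R))
    (hp : ∀ x ∈ Icc (-R) R, ∀ S : Matrix (Fin N) (Fin N) ℂ, S.PosSemidef → (WW x S).PosSemidef)
    {B : ℝ} (hB : ∀ x ∈ Icc (-R) R, ∀ S : Matrix (Fin N) (Fin N) ℂ, S.PosSemidef →
      (trace (WW x S)).re ≤ B) :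
    ∃ (S : Matrix (Fin N) (Fin N) ℂ) (Z : ℝ → Matrix (Fin N) (Fin N) ℂ),
      S.PosSemidef ∧ Z (-R) = S ∧ Z R = -S ∧
      (∀ x ∈ Icc (-R) R, (Z x).IsHermitian ∧
        (∀ i j, HasDerivWithinAt (fun y => Z y i j) ((S ^ 2 - Z x ^ 2 - WW x S) i j)
          (Icc (-R) R) x) ∧
        (S - Z x).PosSemidef ∧ (S + Z x).PosSemidef) := by
  classical
  set B' : ℝ := max B 0 with hB'
  have hB'0 : 0 ≤ B' := le_max_right _ _
  set K : ℝ := R * B' + 1 with hKdef
  have hK : 0 < K := by positivity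
  have hRR : -R ≤ R := by linarith
  have hRmem : R ∈ Icc (-R) R := right_mem_Icc.2 hRR
  have hLmem : -R ∈ Icc (-R) R := left_mem_Icc.2 hRR
  have hsub : KK N K ⊆ {S | S.PosSemidef} := fun S hS => hS.1
  obtain ⟨Z, hZ, hZc⟩ := riccati_flow (K := K) (R := R) hK.le hR.le (D := KK N K)
    (fun S hS => hS.1.1) WW (hc.mono (prod_mono hsub Subset.rfl))
    (fun x hx S hS => (hp x hx S hS.1).1)
  have hΦ : ContinuousOn (fun S : Matrix (Fin N) (Fin N) ℂ => Z S R + S) (KK N K) := by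
    refine ContinuousOn.add ?_ continuousOn_id
    exact hZc.comp (continuousOn_id.prodMk continuousOn_const) fun S hS => ⟨hS, hRmem⟩
  obtain ⟨S, hS, hvar⟩ := matrix_variational (isCompact_KK K) (convex_KK K)
    ⟨0, zero_mem_KK hK.le⟩ hΦ
  obtain ⟨hZ0, hZd⟩ := hZ S hS
  set M : Matrix (Fin N) (Fin N) ℂ := Z S R + S with hM
  have hMh : M.IsHermitian := (hZd R hRmem).1.add hS.1.1
  have hqd : ∀ v : Fin N → ℂ, ∀ x ∈ Icc (-R) R, HasDerivWithinAt (fun y => qf v (Z S y))
      (qf v (S * S - gK K (Z S x) - WW x S)) (Icc (-R) R) x :=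
    fun v x hx => qf_hasDeriv v (hZd x hx).2
  -- no nonzero eigenvalue
  have hno : ∀ e : Fin N → ℂ, nsq e = 1 → ∀ μ : ℝ, M.mulVec e = (μ : ℂ) • e → μ = 0 := by
    intro e he μ hμ
    have hqM : qf e M = μ := by rw [qf_eig hμ, he, mul_one]
    have hqM2 : qf e M = qf e (Z S R) + qf e S := qf_add _ _ _
    by_contra hne
    rcases lt_or_gt_of_ne hne with hneg | hpos
    · -- μ < 0
      have h1 := hvar _ (mem2 he hK.le hS)
      rw [hMh.eq] at h1
      have h2 : (trace (M * (P e * S * P e + (K : ℂ) • E e - S))).re =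
          μ * (K - qf e S) := by
        have e1 : P e * S * P e + (K : ℂ) • E e - S = (P e * S * P e - S) + (K : ℂ) • E e := by
          abel
        rw [e1, Matrix.mul_add, trace_add, Complex.add_re, trace_test he hMh hμ,
          Matrix.mul_smul, mul_E hμ, smul_smul, trace_smul, smul_eq_mul, ← Complex.ofReal_mul,
          Complex.re_ofReal_mul, trace_E he]
        ring
      rw [h2] at h1
      have h3 : qf e ((K : ℂ) • (1 : Matrix (Fin N) (Fin N) ℂ) - S) ≤ 0 := by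
        rw [qf_sub, qf_smul, qf_one, he, mul_one]
        by_contra hcc
        push Not at hcc
        have := mul_neg_of_neg_of_pos hneg hcc
        linarith
      have h4 := psd_zero hS.2 h3
      have h5 : S.mulVec e = (K : ℂ) • e := by
        rw [Matrix.sub_mulVec, Matrix.smul_mulVec, Matrix.one_mulVec, sub_eq_zero] at h4
        exact h4.symm
      have h6 : qf e S = K := by rw [qf_eig h5, he, mul_one]
      have h7 : qf e (S * S) = K ^ 2 := by
        rw [qf_sq hS.1.1, h5, nsq_smul, he, mul_one]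
      have h8 : -B' * (R - -R) ≤ qf e (Z S R) - qf e (Z S (-R)) := by
        refine mono_le hRR (hqd e) fun x hx => ?_
        have a1 := qf_nonneg (gK_le (K := K) (hZd x hx).1) e
        rw [qf_sub, qf_smul, qf_one, he] at a1
        have a2 := qf_le_trace he (hp x hx S hS.1)
        have a3 := hB x hx S hS.1
        have a4 : B ≤ B' := le_max_left _ _
        rw [qf_sub, qf_sub, h7]
        linarith
      rw [hZ0, h6] at h8
      have : 0 < μ := by
        rw [← hqM, hqM2, h6]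
        nlinarith
      linarith
    · -- μ > 0
      have h1 := hvar _ (mem1 he hK.le hS)
      rw [hMh.eq, trace_test he hMh hμ] at h1
      have h3 : qf e S ≤ 0 := by
        by_contra hcc
        push Not at hcc
        have := mul_pos hpos hcc
        linarith
      have h4 := psd_zero hS.1 h3
      have h7 : qf e (S * S) = 0 := by
        rw [qf_sq hS.1.1, h4]; simp [nsq]
      have h8 : 0 * (R - -R) ≤ (-qf e (Z S R)) - (-qf e (Z S (-R))) := by
        refine mono_le hRR (fun x hx => (hqd e x hx).neg) fun x hx => ?_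
        have a1 := qf_nonneg (gK_psd (K := K) (hZd x hx).1) e
        have a2 := qf_nonneg (hp x hx S hS.1) e
        rw [qf_sub, qf_sub, h7]
        linarith
      rw [hZ0] at h8
      have h9 := qf_nonneg hS.1 e
      linarith
  have hM0 : M = 0 := by
    rw [← hMh.eigenvalues_eq_zero_iff]
    funext i
    refine hno (⇑(hMh.eigenvectorBasis i)) ?_ _ ?_
    · have h1 := hMh.eigenvectorBasis.orthonormal.1 i
      have h2 : ‖hMh.eigenvectorBasis i‖ ^ 2 = 1 := by rw [h1, one_pow]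
      rw [EuclideanSpace.norm_sq_eq] at h2
      rw [nsq, dotProduct, Complex.re_sum, ← h2]
      refine Finset.sum_congr rfl fun j _ => ?_
      rw [Pi.star_apply, Complex.star_def, mul_comm, Complex.mul_conj, Complex.ofReal_re,
        Complex.normSq_eq_norm_sq]
    · have := hMh.mulVec_eigenvectorBasis i
      rw [this]
      funext j
      simp
  have hZ1 : Z S R = -S := eq_neg_of_add_eq_zero_left hM0
  have htr := trunc (Z := Z S) (W := fun x => WW x S) hK.le hR.le hS hZ0 hZ1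
    (fun x hx => (hZd x hx).1) (fun x hx => hp x hx S hS.1) (fun x hx => (hZd x hx).2)
  have hd2 : ∀ x ∈ Icc (-R) R, ∀ i j, HasDerivWithinAt (fun y => Z S y i j)
      ((S * S - Z S x * Z S x - WW x S) i j) (Icc (-R) R) x := by
    intro x hx i j
    have h1 := (hZd x hx).2 i j
    rwa [gK_eq (hZd x hx).1 (htr x hx).1 (htr x hx).2] at h1
  have hbt := between (Z := Z S) (W := fun x => WW x S) hS.1 hZ0 hZ1
    (fun x hx => (hZd x hx).1) (fun x hx => hp x hx S hS.1) hd2
  refine ⟨S, Z S, hS.1, hZ0, hZ1, fun x hx => ⟨(hZd x hx).1, fun i j => ?_, hbt x hx⟩⟩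
  rw [pow_two, pow_two]
  exact hd2 x hx i j

/-- **Vertex lemma.** -/
theorem vertex {N : ℕ} (R : ℝ) (hR : 0 < R)
    (W : ℝ → Matrix (Fin N) (Fin N) ℂ → Matrix (Fin N) (Fin N) ℂ)
    (hWc : ContinuousOn (fun p : ℝ × Matrix (Fin N) (Fin N) ℂ => W p.1 p.2) {p | p.2.PosSemidef})
    (hWp : ∀ x S, S.PosSemidef → (W x S).PosSemidef) (B : ℝ)
    (hB : ∀ x S, S.PosSemidef → (trace (W x S)).re ≤ B) :
    ∃ (S : Matrix (Fin N) (Fin N) ℂ) (Z : ℝ → Matrix (Fin N) (Fin N) ℂ), S.PosSemidef ∧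
      (∀ x, (Z x).IsHermitian) ∧
      (∀ x ∈ Set.Icc (-R) R, ∀ i j,
        HasDerivAt (fun t => Z t i j) ((S * S - Z x * Z x - W x S) i j) x) ∧
      Z (-R) = S ∧ Z R = -S ∧
      ∀ x ∈ Set.Icc (-R) R, (S - Z x).PosSemidef ∧ (S + Z x).PosSemidef := by
  have hc : ContinuousOn (fun q : Matrix (Fin N) (Fin N) ℂ × ℝ => W q.2 q.1)
      ({S | S.PosSemidef} ×ˢ Icc (-R) R) :=
    hWc.comp (continuous_snd.prodMk continuous_fst).continuousOn fun q hq => hq.1
  obtain ⟨S, Z, hS, h0, h1, hZ⟩ := vertex_within hR W hc (fun x _ S hS => hWp x S hS)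
    (B := B) fun x _ S hS => hB x S hS
  have hRR : -R ≤ R := by linarith
  have hRlt : -R < R := by linarith
  have hRmem : R ∈ Icc (-R) R := right_mem_Icc.2 hRR
  have hLmem : -R ∈ Icc (-R) R := left_mem_Icc.2 hRR
  -- extension outside `[-R, R]`
  set D0 : Matrix (Fin N) (Fin N) ℂ := S ^ 2 - Z (-R) ^ 2 - W (-R) S with hD0
  set D1 : Matrix (Fin N) (Fin N) ℂ := S ^ 2 - Z R ^ 2 - W R S with hD1
  have hsq : ∀ A : Matrix (Fin N) (Fin N) ℂ, A.IsHermitian → (A ^ 2).IsHermitian :=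
    fun A hA => hA.pow 2
  have hD0h : D0.IsHermitian :=
    ((hsq _ hS.1).sub (hsq _ (hZ _ hLmem).1)).sub (hWp _ S hS).1
  have hD1h : D1.IsHermitian :=
    ((hsq _ hS.1).sub (hsq _ (hZ _ hRmem).1)).sub (hWp _ S hS).1
  have hsm : ∀ (c : ℝ) (A : Matrix (Fin N) (Fin N) ℂ), A.IsHermitian →
      ((c : ℂ) • A).IsHermitian := by
    intro c A hA
    rw [IsHermitian, conjTranspose_smul, hA.eq, Complex.star_def, Complex.conj_ofReal]
  set Y : ℝ → Matrix (Fin N) (Fin N) ℂ := fun x =>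
    if x < -R then S + ((x + R : ℝ) : ℂ) • D0 else
      if x ≤ R then Z x else -S + ((x - R : ℝ) : ℂ) • D1 with hY
  have hYin : ∀ x ∈ Icc (-R) R, Y x = Z x := by
    intro x hx
    simp only [hY]
    rw [if_neg (not_lt.2 hx.1), if_pos hx.2]
  have hYl : ∀ x ∈ Iic (-R), Y x = S + ((x + R : ℝ) : ℂ) • D0 := by
    intro x hx
    rcases lt_or_eq_of_le (mem_Iic.1 hx) with h | h
    · simp only [hY]
      rw [if_pos h]
    · rw [h, hYin _ hLmem, h0]
      simp
  have hYr : ∀ x ∈ Ici R, Y x = -S + ((x - R : ℝ) : ℂ) • D1 := by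
    intro x hx
    rcases lt_or_eq_of_le (mem_Ici.1 hx) with h | h
    · simp only [hY]
      rw [if_neg (not_lt.2 (hRR.trans h.le)), if_neg (not_le.2 h)]
    · rw [← h, hYin _ hRmem, h1]
      simp
  have hin : ∀ x ∈ Icc (-R) R, ∀ i j, HasDerivWithinAt (fun t => Y t i j)
      ((S ^ 2 - Z x ^ 2 - W x S) i j) (Icc (-R) R) x := by
    intro x hx i j
    exact ((hZ x hx).2.1 i j).congr_of_mem (fun y hy => by rw [hYin y hy]) hx
  have hl : ∀ i j, HasDerivWithinAt (fun t => Y t i j) (D0 i j) (Iic (-R)) (-R) := by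
    intro i j
    have a1 : HasDerivAt (fun x : ℝ => ((x + R : ℝ) : ℂ)) ((1 : ℝ) : ℂ) (-R) :=
      ((hasDerivAt_id (-R)).add_const R).ofReal_comp
    have a2 := (a1.mul_const (D0 i j)).const_add (S i j)
    rw [Complex.ofReal_one, one_mul] at a2
    refine a2.hasDerivWithinAt.congr_of_mem (fun y hy => ?_) (mem_Iic.2 le_rfl)
    rw [hYl y hy, Matrix.add_apply, Matrix.smul_apply, smul_eq_mul]
  have hr : ∀ i j, HasDerivWithinAt (fun t => Y t i j) (D1 i j) (Ici R) R := by
    intro i j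
    have a1 : HasDerivAt (fun x : ℝ => ((x - R : ℝ) : ℂ)) ((1 : ℝ) : ℂ) R :=
      ((hasDerivAt_id R).sub_const R).ofReal_comp
    have a2 := (a1.mul_const (D1 i j)).const_add ((-S) i j)
    rw [Complex.ofReal_one, one_mul] at a2
    refine a2.hasDerivWithinAt.congr_of_mem (fun y hy => ?_) (mem_Ici.2 le_rfl)
    rw [hYr y hy, Matrix.add_apply, Matrix.smul_apply, smul_eq_mul]
  refine ⟨S, Y, hS, ?_, ?_, ?_, ?_, ?_⟩
  · intro x
    simp only [hY]
    split_ifs with g1 g2
    · exact hS.1.add (hsm _ _ hD0h)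
    · exact (hZ x ⟨not_lt.1 g1, g2⟩).1
    · exact hS.1.neg.add (hsm _ _ hD1h)
  · intro x hx i j
    rw [hYin x hx, ← pow_two, ← pow_two]
    rcases eq_or_lt_of_le hx.1 with g1 | g1
    · have a1 := (hl i j).union (hin (-R) hLmem i j)
      rw [← g1]
      refine a1.hasDerivAt ?_
      rw [Iic_union_Icc_eq_Iic hRR]
      exact Iic_mem_nhds hRlt
    · rcases eq_or_lt_of_le hx.2 with g2 | g2
      · have a1 := (hin R hRmem i j).union (hr i j)
        rw [g2]
        refine a1.hasDerivAt ?_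
        rw [Icc_union_Ici_eq_Ici hRR]
        exact Ici_mem_nhds hRlt
      · exact (hin x hx i j).hasDerivAt (Icc_mem_nhds g1 g2)
  · rw [hYin _ hLmem, h0]
  · rw [hYin _ hRmem, h1]
  · intro x hx
    rw [hYin x hx]
    exact (hZ x hx).2.2

end Vale.Agent.P371
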