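import Vale.Agent.P371.Defs2
import Vale.Agent.P371.Young
import Vale.Agent.P371.Conv
import Vale.Agent.P371.Const

/-!
# P371 [YOUNG2]: the trace Young inequality with exponents `1 + r`, `1 + 1/r`
-/

open MeasureTheory Matrix Finset
open scoped ComplexOrder ENNReal Topology

namespace Vale.Agent.P371

namespace Young2Aux

theorem sR_pow {r : ℝ} (hr0 : 0 < r) : sR r ^ r = (Lr r * (1 + r))⁻¹ := by
  have hL := Lr_pos hr0
  have h1 : 0 < Lr r * (1 + r) := by positivity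
  unfold sR
  rw [← Real.rpow_mul h1.le]
  have : -(1 / r) * r = -1 := by field_simp
  rw [this, Real.rpow_neg_one]

theorem sR_pos' {r : ℝ} (hr0 : 0 < r) : 0 < sR r := by
  have hL := Lr_pos hr0
  exact Real.rpow_pos_of_pos (by positivity) _

/-- scalar Young inequality -/
theorem young_scalar2 {r w x : ℝ} (hr0 : 0 < r) (hw : 0 ≤ w) (hx : 0 ≤ x) :
    w * x ≤ Lr r * w ^ (1 + r) + (sR r - Lr r * sR r ^ (1 + r)) * x ^ (1 + 1 / r) := by
  have hL := Lr_pos hr0
  have hs := sR_pos' hr0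
  rcases hx.eq_or_lt with hx0 | hx0
  · rw [← hx0, mul_zero, Real.zero_rpow (by positivity), mul_zero, add_zero]
    have : 0 ≤ w ^ (1 + r) := Real.rpow_nonneg hw _
    positivity
  · have hw0 : 0 < sR r * x ^ (1 / r) := mul_pos hs (Real.rpow_pos_of_pos hx0 _)
    have h1 := ConvAux.scalar_ge (γ := 1 + r) (l := sR r * x ^ (1 / r)) (y := w) (by linarith) hw0 hw
    have e1 : (sR r * x ^ (1 / r)) ^ (1 + r) = sR r ^ (1 + r) * x ^ (1 + 1 / r) := by
      rw [Real.mul_rpow hs.le (Real.rpow_nonneg hx _), ← Real.rpow_mul hx]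
      congr 2
      field_simp
      ring
    have e2 : (sR r * x ^ (1 / r)) ^ (1 + r - 1) = (Lr r * (1 + r))⁻¹ * x := by
      rw [Real.mul_rpow hs.le (Real.rpow_nonneg hx _), ← Real.rpow_mul hx,
        show 1 + r - 1 = r by ring, sR_pow hr0]
      congr 1
      rw [show 1 / r * r = 1 by field_simp, Real.rpow_one]
    have e3 : x ^ (1 + 1 / r) = x * x ^ (1 / r) := by
      rw [Real.rpow_add hx0, Real.rpow_one]
    rw [e1, e2] at h1
    have h2 := mul_le_mul_of_nonneg_left h1 hL.le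
    have e4 : Lr r * (w ^ (1 + r) + (1 + r) * ((Lr r * (1 + r))⁻¹ * x) *
        (sR r * x ^ (1 / r) - w)) = Lr r * w ^ (1 + r) + sR r * x ^ (1 + 1 / r) - w * x := by
      rw [e3]
      field_simp
      ring
    rw [e4] at h2
    linarith

end Young2Aux

open Young2Aux

theorem trace_young2 {m : ℕ} {r : ℝ} (hr0 : 0 < r) (hr1 : r < 1)
    (W X : Matrix (Fin m) (Fin m) ℂ) (hW : W.PosSemidef) (hX : X.PosSemidef) :
    (trace (W * X)).re ≤ Lr r * trPow W (1 + r) +
      (sR r - Lr r * sR r ^ (1 + r)) * trPow X (1 + 1 / r) := by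
  obtain ⟨U, hU1, hU2, hU3⟩ := spec_eq hW.1
  obtain ⟨V, hV1, hV2, hV3⟩ := spec_eq hX.1
  have hw : ∀ i, 0 ≤ hW.1.eigenvalues i := hW.eigenvalues_nonneg
  have hx : ∀ i, 0 ≤ hX.1.eigenvalues i := hX.eigenvalues_nonneg
  have hW32 : trPow W (1 + r) = ∑ i, hW.1.eigenvalues i ^ (1 + r) := by
    unfold trPow
    rw [dif_pos hW.1]
  have hX32 : trPow X (1 + 1 / r) = ∑ i, hX.1.eigenvalues i ^ (1 + 1 / r) := by
    unfold trPow
    rw [dif_pos hX.1]
  rw [hW32, hX32]
  set w := hW.1.eigenvalues with hwdef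
  set x := hX.1.eigenvalues with hxdef
  set c := sR r - Lr r * sR r ^ (1 + r) with hc
  set S := Uᴴ * V with hS
  have hSS : Sᴴ = Vᴴ * U := by rw [hS, conjTranspose_mul, conjTranspose_conjTranspose]
  have hS1 : S * Sᴴ = 1 := by
    rw [hSS, hS]
    calc Uᴴ * V * (Vᴴ * U) = Uᴴ * (V * Vᴴ) * U := by simp only [Matrix.mul_assoc]
      _ = 1 := by rw [hV1, Matrix.mul_one, hU2]
  have hS2 : Sᴴ * S = 1 := by
    rw [hSS, hS]
    calc Vᴴ * U * (Uᴴ * V) = Vᴴ * (U * Uᴴ) * V := by simp only [Matrix.mul_assoc]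
      _ = 1 := by rw [hU1, Matrix.mul_one, hV2]
  have htr : trace (W * X) = ((∑ i, ∑ j, ‖S i j‖ ^ 2 * (w i * x j) : ℝ) : ℂ) := by
    rw [← trace_diag_mul]
    conv_lhs => rw [hU3, hV3]
    rw [hSS, hS]
    set Dw := diagonal (fun i => (w i : ℂ))
    set Dr := diagonal (fun i => (x i : ℂ))
    calc trace (U * Dw * Uᴴ * (V * Dr * Vᴴ)) = trace (U * (Dw * Uᴴ * (V * Dr * Vᴴ))) := by
          simp only [Matrix.mul_assoc]
      _ = trace (Dw * Uᴴ * (V * Dr * Vᴴ) * U) := trace_mul_comm _ _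
      _ = _ := by simp only [Matrix.mul_assoc]
  rw [htr, Complex.ofReal_re]
  have hrow := fun i => row_sum hS1 i
  have hcol := fun j => col_sum hS2 j
  calc ∑ i, ∑ j, ‖S i j‖ ^ 2 * (w i * x j)
      ≤ ∑ i, ∑ j, ‖S i j‖ ^ 2 * (Lr r * w i ^ (1 + r) + c * x j ^ (1 + 1 / r)) :=
        Finset.sum_le_sum fun i _ => Finset.sum_le_sum fun j _ =>
          mul_le_mul_of_nonneg_left (young_scalar2 hr0 (hw i) (hx j)) (by positivity)
    _ = ∑ i, ∑ j, (‖S i j‖ ^ 2 * (Lr r * w i ^ (1 + r))) +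
        ∑ i, ∑ j, (‖S i j‖ ^ 2 * (c * x j ^ (1 + 1 / r))) := by
        simp only [mul_add, Finset.sum_add_distrib]
    _ = _ := by
        congr 1
        · rw [Finset.mul_sum]
          refine Finset.sum_congr rfl fun i _ => ?_
          rw [← Finset.sum_mul, hrow, one_mul]
        · rw [Finset.sum_comm, Finset.mul_sum]
          refine Finset.sum_congr rfl fun j _ => ?_
          rw [← Finset.sum_mul, hcol, one_mul]

theorem sR_pos {r : ℝ} (hr0 : 0 < r) (hr1 : r < 1) :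
    0 < sR r ∧ 0 ≤ sR r - Lr r * sR r ^ (1 + r) := by
  have hL := Lr_pos hr0
  have hs := sR_pos' hr0
  refine ⟨hs, ?_⟩
  have e : sR r - Lr r * sR r ^ (1 + r) = sR r * (r / (1 + r)) := by
    rw [Real.rpow_add hs, Real.rpow_one, sR_pow hr0]
    field_simp
    ring
  rw [e]
  positivity

end Vale.Agent.P371
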