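import Vale.Agent.P371.Field
import Vale.Agent.P371.Conv
import Vale.Agent.P371.Const
import Vale.Agent.P371.Test
import Vale.Agent.P371.Young2
import Vale.Agent.P371.Vertex
import Vale.Agent.P371.Step2

/-!
# P371 [REDUCE]: the upper bound for all `γ ∈ (1/2, 3/2)`
-/

open MeasureTheory Matrix Finset Set
open scoped ComplexOrder ENNReal Topology

namespace Vale.Agent.P371

namespace Red

variable {m N : ℕ}

theorem Vx_cont {u du : Fin N → ℝ → Fin m → ℂ} (hu : ∀ j, IsH1 (u j) (du j))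
    (D : Matrix (Fin N) (Fin N) ℂ) : Continuous fun x => Vx D u x := by
  have h := FieldAux.gram_cont hu
  unfold Vx
  exact (continuous_const.matrix_mul h).matrix_mul continuous_const

theorem trPow_Vx_cont {u du : Fin N → ℝ → Fin m → ℂ} (hu : ∀ j, IsH1 (u j) (du j))
    {D : Matrix (Fin N) (Fin N) ℂ} (hD : D.IsHermitian) {q : ℝ} (hq : 0 < q) :
    Continuous fun x => trPow (Vx D u x) q :=
  (trPow_cont hq).comp_continuous (Vx_cont hu D) fun x => FieldAux.Vx_psd hD u x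

/-- the core inequality, for a weight `DD S` -/
theorem core {γ r : ℝ} (hγ : γ = r + 1 / 2) (hr0 : 0 < r) (hr1 : r < 1)
    {W : ℝ → Matrix (Fin m) (Fin m) ℂ} (hW : IsPotential γ W)
    {lam : Fin N → ℝ} {u du : Fin N → ℝ → Fin m → ℂ} (hlam : ∀ j, 0 < lam j)
    (hE : ∀ j, IsEigen W (-(lam j)) (u j) (du j))
    (hon : ∀ j k, ∫ x, ip (u j x) (u k x) = if j = k then 1 else 0)
    (DD : Matrix (Fin N) (Fin N) ℂ → Matrix (Fin N) (Fin N) ℂ) {c B : ℝ}
    (hDh : ∀ S, S.PosSemidef → (DD S).IsHermitian)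
    (hDc : ∀ S, S.PosSemidef → (trace (DD S * DD S)).re ≤ c)
    (hf1 : ContinuousOn (fun p : ℝ × Matrix (Fin N) (Fin N) ℂ =>
      ((sR r : ℝ) : ℂ) • mpow (Vx (DD p.2) u p.1) (1 / r)) {p | p.2.PosSemidef})
    (hf2 : ∀ (x : ℝ) (S : Matrix (Fin N) (Fin N) ℂ), S.PosSemidef →
      (((sR r : ℝ) : ℂ) • mpow (Vx (DD S) u x) (1 / r)).PosSemidef)
    (hf3 : ∀ (x : ℝ) (S : Matrix (Fin N) (Fin N) ℂ), S.PosSemidef →
      (trace (((sR r : ℝ) : ℂ) • mpow (Vx (DD S) u x) (1 / r))).re ≤ B)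
    {ε : ℝ} (hε : 0 < ε) :
    ∃ S : Matrix (Fin N) (Fin N) ℂ, S.PosSemidef ∧
      ENNReal.ofReal ((trace ((DD S * DD S) * (diagonal (fun j => (lam j : ℂ)) - S * S))).re +
        trPow S (2 * r + 1) - ε) ≤ ENNReal.ofReal (Lr r) * potInt γ W := by
  have hu : ∀ j, IsH1 (u j) (du j) := fun j => (hE j).1
  obtain ⟨hs0, hBq0⟩ := sR_pos hr0 hr1
  set s := sR r with hs
  set Bq := s - Lr r * s ^ (1 + r) with hBq
  set q := 1 + 1 / r with hq
  have hq1 : 1 ≤ q := by rw [hq]; have : 0 < 1 / r := by positivity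
                         linarith
  have hq0 : 0 < q := by linarith
  obtain ⟨P, hPi, hP0, hP⟩ := V_decay hq1 u du hu c
  -- choice of `R`
  obtain ⟨R, hR, hRt⟩ : ∃ R : ℝ, 0 < R ∧ Bq * ((∫ x, P x) - ∫ x in (-R)..R, P x) ≤ ε := by
    have h1 := intervalIntegral_tendsto_integral hPi Filter.tendsto_neg_atTop_atBot
      Filter.tendsto_id
    have h2 : Filter.Tendsto (fun R : ℝ => Bq * ((∫ x, P x) - ∫ x in (-R)..R, P x))
        Filter.atTop (𝓝 (Bq * ((∫ x, P x) - ∫ x, P x))) :=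
      (h1.const_sub _).const_mul _
    rw [sub_self, mul_zero] at h2
    have h3 := (h2.eventually (ge_mem_nhds hε)).and (Filter.eventually_gt_atTop 0)
    obtain ⟨R, hR1, hR2⟩ := h3.exists
    exact ⟨R, hR2, hR1⟩
  obtain ⟨S, Z, hS, hZh, hZ, h0, h1, hb⟩ := vertex R hR
    (fun x S => ((s : ℝ) : ℂ) • mpow (Vx (DD S) u x) (1 / r)) hf1 hf2 B hf3
  refine ⟨S, hS, ?_⟩
  set D := DD S with hDdef
  have hD : D.IsHermitian := hDh S hS
  set V : ℝ → Matrix (Fin N) (Fin N) ℂ := fun x => Vx D u x with hV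
  set WW : ℝ → Matrix (Fin N) (Fin N) ℂ := fun x => ((s : ℝ) : ℂ) • mpow (V x) (1 / r) with hWW
  have hVp : ∀ x, (V x).PosSemidef := fun x => FieldAux.Vx_psd hD u x
  have hWWc : Continuous WW := by
    have := hf1.comp_continuous (f := fun x : ℝ => (x, S)) (by fun_prop) fun x => hS
    exact this
  set tV : ℝ → ℝ := fun x => trPow (V x) q with htV
  have htVc : Continuous tV := trPow_Vx_cont hu hD hq0
  have htV0 : ∀ x, 0 ≤ tV x := fun x => trPow_nonneg (hVp x) q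
  have htVP : ∀ x, tV x ≤ P x := fun x => (hP D hD (hDc S hS) x).1
  have htVi : Integrable tV := hPi.mono' htVc.aestronglyMeasurable
    (Filter.Eventually.of_forall fun x => by rw [Real.norm_of_nonneg (htV0 x)]; exact htVP x)
  -- testing
  obtain ⟨hti, htest⟩ := testing hW hlam hE hon hD hR (S := S) (Z := Z) (WW := WW)
    (fun i j => (hWWc.matrix_elem i j).continuousOn) (fun x _ => hZh x)
    (fun x hx i j => (hZ x hx i j).hasDerivWithinAt) h0 h1
  -- step 2
  have hst := step2 hr0 hr1 R hR (S := S) (Z := Z) (W := WW) hS hWWc.continuousOn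
    (fun x => hf2 x S hS) hZh hZ h0 h1 hb
  have e1 : ∀ x, trPow (WW x) (1 + r) = s ^ (1 + r) * tV x := by
    intro x
    rw [hWW, trPow_mpow (hVp x) (by positivity) (by positivity) hs0.le]
    congr 2
    rw [hq]
    field_simp
    ring
  have e2 : ∀ x, (trace (WW x * Vx D u x)).re = s * tV x := by
    intro x
    have := trace_mpow_mul (hVp x) (q := 1 / r) (by positivity)
    simp only [hWW, Matrix.smul_mul, trace_smul, smul_eq_mul, Complex.re_ofReal_mul]
    rw [this]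
    congr 2
    rw [hq]
    ring
  simp only [e1] at hst
  simp only [e2] at htest
  rw [intervalIntegral.integral_const_mul] at hst htest
  -- the tail
  have htail : (∫ x, tV x) - ∫ x in (-R)..R, tV x ≤ (∫ x, P x) - ∫ x in (-R)..R, P x := by
    have h2 : ∫ x in (-R)..R, (P x - tV x) ≤ ∫ x, (P x - tV x) := by
      rw [intervalIntegral.integral_of_le (by linarith)]
      exact setIntegral_le_integral (hPi.sub htVi)
        (Filter.Eventually.of_forall fun x => sub_nonneg.2 (htVP x))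
    rw [intervalIntegral.integral_sub hPi.intervalIntegrable htVi.intervalIntegrable,
      integral_sub hPi htVi] at h2
    linarith
  have htail2 : Bq * ((∫ x, tV x) - ∫ x in (-R)..R, tV x) ≤ ε :=
    (mul_le_mul_of_nonneg_left htail hBq0).trans hRt
  set ρ : ℝ → Matrix (Fin m) (Fin m) ℂ := fun x => Ac.mat u x * (D * D) * (Ac.mat u x)ᴴ with hρ
  have hle : (trace ((D * D) * (diagonal (fun j => (lam j : ℂ)) - S * S))).re +
      trPow S (2 * r + 1) - ε ≤ ∫ x, ((trace (W x * ρ x)).re - Bq * tV x) := by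
    rw [integral_sub hti (htVi.const_mul _), integral_const_mul]
    have : Bq * (∫ x in (-R)..R, tV x) = s * (∫ x in (-R)..R, tV x) -
        Lr r * (s ^ (1 + r) * ∫ x in (-R)..R, tV x) := by
      rw [hBq]; ring
    linarith
  refine (ENNReal.ofReal_le_ofReal hle).trans ?_
  refine (Up.ofReal_integral_le _ (hti.sub (htVi.const_mul _))).trans ?_
  rw [potInt, ← lintegral_const_mul' _ _ ENNReal.ofReal_ne_top]
  refine lintegral_mono fun x => ?_
  rw [← ENNReal.ofReal_mul (Lr_pos hr0).le]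
  refine ENNReal.ofReal_le_ofReal ?_
  have hρp : (ρ x).PosSemidef := by
    have h2 : (D * D).PosSemidef := by
      have := posSemidef_conjTranspose_mul_self D
      rwa [hD.eq] at this
    exact h2.mul_mul_conjTranspose_same _
  have hy := trace_young2 hr0 hr1 (W x) (ρ x) (hW.posSemidef x) hρp
  have e3 : trPow (ρ x) (1 + 1 / r) = tV x := by
    rw [hρ, trPow_comm D hD (Ac.mat u x) hq0]
    simp only [htV, hV, Vx, Ac.gram_eq]
  rw [e3] at hy
  have e4 : γ + 1 / 2 = 1 + r := by rw [hγ]; ring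
  rw [e4]
  have h5 : (trace (W x * ρ x)).re - Bq * tV x ≤ Lr r * trPow (W x) (1 + r) := by linarith
  exact h5

/-- `γ ≥ 1` -/
theorem upper_ge {γ : ℝ} (hγ0 : 1 ≤ γ) (hγ1 : γ < 3 / 2)
    {W : ℝ → Matrix (Fin m) (Fin m) ℂ} (hW : IsPotential γ W)
    {lam : Fin N → ℝ} {u du : Fin N → ℝ → Fin m → ℂ} (hlam : ∀ j, 0 < lam j)
    (hE : ∀ j, IsEigen W (-(lam j)) (u j) (du j))
    (hon : ∀ j k, ∫ x, ip (u j x) (u k x) = if j = k then 1 else 0) {ε : ℝ} (hε : 0 < ε) :
    ENNReal.ofReal (∑ j, lam j ^ γ - ε) ≤ ENNReal.ofReal (Lr (γ - 1 / 2)) * potInt γ W := by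
  have hu : ∀ j, IsH1 (u j) (du j) := fun j => (hE j).1
  set r := γ - 1 / 2 with hr
  have hr0 : 0 < r := by rw [hr]; linarith
  have hr1 : r < 1 := by rw [hr]; linarith
  set D : Matrix (Fin N) (Fin N) ℂ :=
    diagonal (fun j => ((Real.sqrt (γ * lam j ^ (γ - 1)) : ℝ) : ℂ)) with hDdef
  have hD : D.IsHermitian := by
    rw [hDdef, IsHermitian, diagonal_conjTranspose]
    congr 1
    funext j
    exact Complex.conj_ofReal _
  have hDD : D * D = diagonal (fun j => ((γ * lam j ^ (γ - 1) : ℝ) : ℂ)) := by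
    rw [hDdef, diagonal_mul_diagonal]
    congr 1
    funext j
    rw [← Complex.ofReal_mul, Real.mul_self_sqrt]
    have := hlam j
    positivity
  obtain ⟨B, hf1, hf2, hf3⟩ := field_ge hr0 hr1 D hD u du hu
  obtain ⟨S, hS, hle⟩ := core (γ := γ) (r := r) (by rw [hr]; ring) hr0 hr1 hW hlam hE hon
    (fun _ => D) (c := (trace (D * D)).re) (B := B) (fun _ _ => hD) (fun _ _ => le_rfl)
    (hf1.comp continuous_fst).continuousOn (fun x _ _ => hf2 x) (fun x _ _ => hf3 x) hε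
  refine (ENNReal.ofReal_le_ofReal ?_).trans hle
  have hc := conv_ge hγ0 hlam hS
  have e : 2 * r + 1 = 2 * γ := by rw [hr]; ring
  rw [e, hDD]
  linarith

/-- `γ ≤ 1` -/
theorem upper_le {γ : ℝ} (hγ0 : 1 / 2 < γ) (hγ1 : γ ≤ 1)
    {W : ℝ → Matrix (Fin m) (Fin m) ℂ} (hW : IsPotential γ W)
    {lam : Fin N → ℝ} {u du : Fin N → ℝ → Fin m → ℂ} (hlam : ∀ j, 0 < lam j)
    (hE : ∀ j, IsEigen W (-(lam j)) (u j) (du j))
    (hon : ∀ j k, ∫ x, ip (u j x) (u k x) = if j = k then 1 else 0) {ε : ℝ} (hε : 0 < ε)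
    {δ : ℝ} (hδ : 0 < δ) :
    ENNReal.ofReal (∑ j, ((lam j + δ) ^ γ - δ ^ γ) - ε) ≤
      ENNReal.ofReal (Lr (γ - 1 / 2)) * potInt γ W := by
  have hu : ∀ j, IsH1 (u j) (du j) := fun j => (hE j).1
  set r := γ - 1 / 2 with hr
  have hr0 : 0 < r := by rw [hr]; linarith
  have hr1 : r < 1 := by rw [hr]; linarith
  have hg0 : 0 < γ := by linarith
  obtain ⟨B, hf1, hf2, hf3⟩ := field_le (γ := γ) (δ := δ) hg0 hγ1 hδ hr0 hr1 u du hu
  obtain ⟨S, hS, hle⟩ := core (γ := γ) (r := r) (by rw [hr]; ring) hr0 hr1 hW hlam hE hon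
    (fun S => Dw γ δ S) (c := N * (γ * δ ^ (γ - 1))) (B := B)
    (fun S _ => FieldAux.Dw_herm γ δ S) (fun S hS => FieldAux.Dw_trace hg0 hγ1 hδ hS.1)
    hf1 hf2 hf3 hε
  refine (ENNReal.ofReal_le_ofReal ?_).trans hle
  have hc := conv_le hg0 hγ1 hδ hlam hS
  have e : 2 * r + 1 = 2 * γ := by rw [hr]; ring
  rw [e]
  linarith

end Red

open Red in
/-- **The upper bound** for all `1/2 < γ < 3/2` and all matrix sizes. -/
theorem upper2 {γ : ℝ} (hγ0 : 1 / 2 < γ) (hγ1 : γ < 3 / 2) (m N : ℕ)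
    (W : ℝ → Matrix (Fin m) (Fin m) ℂ) (hW : IsPotential γ W)
    (lam : Fin N → ℝ) (u du : Fin N → ℝ → Fin m → ℂ) (hlam : ∀ j, 0 < lam j)
    (hE : ∀ j, IsEigen W (-(lam j)) (u j) (du j))
    (hon : ∀ j k, ∫ x, ip (u j x) (u k x) = if j = k then 1 else 0) :
    ∑ j, ENNReal.ofReal (lam j ^ γ) ≤ ENNReal.ofReal (Lr (γ - 1 / 2)) * potInt γ W := by
  rw [← ENNReal.ofReal_sum_of_nonneg fun j _ => Real.rpow_nonneg (hlam j).le _]
  rcases le_total 1 γ with h | h
  · have hlim : Filter.Tendsto (fun ε : ℝ => ENNReal.ofReal (∑ j, lam j ^ γ - ε)) (𝓝[>] 0)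
        (𝓝 (ENNReal.ofReal (∑ j, lam j ^ γ - 0))) := by
      refine (ENNReal.continuous_ofReal.comp (by fun_prop : Continuous fun ε : ℝ =>
        ∑ j, lam j ^ γ - ε)).continuousAt.tendsto.mono_left nhdsWithin_le_nhds
    rw [sub_zero] at hlim
    refine le_of_tendsto hlim ?_
    filter_upwards [self_mem_nhdsWithin] with ε hε
    exact upper_ge h hγ1 hW hlam hE hon hε
  · have hg0 : 0 < γ := by linarith
    have hcont : Continuous fun ε : ℝ => ∑ j, ((lam j + ε) ^ γ - ε ^ γ) - ε := by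
      refine (continuous_finsetSum _ fun j _ => ?_).sub continuous_id
      exact (Real.continuous_rpow_const hg0.le |>.comp (by fun_prop)).sub
        (Real.continuous_rpow_const hg0.le)
    have hlim : Filter.Tendsto
        (fun ε : ℝ => ENNReal.ofReal (∑ j, ((lam j + ε) ^ γ - ε ^ γ) - ε)) (𝓝[>] 0)
        (𝓝 (ENNReal.ofReal (∑ j, ((lam j + 0) ^ γ - (0:ℝ) ^ γ) - 0))) :=
      (ENNReal.continuous_ofReal.comp hcont).continuousAt.tendsto.mono_left nhdsWithin_le_nhds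
    simp only [sub_zero, add_zero, Real.zero_rpow hg0.ne'] at hlim
    refine le_of_tendsto hlim ?_
    filter_upwards [self_mem_nhdsWithin] with ε hε
    exact upper_le hγ0 h hW hlam hE hon hε hε

end Vale.Agent.P371
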