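import Vale.Agent.P371.LogDer

/-!
# P371: the trace inequality for the derivative of the logarithm

For `P` positive definite, `H = P + M` positive definite, `D = H⁻¹`, `X = (P M + M P) / 2`,
`∫_0^1 Re Tr (Q⁻¹ D Q⁻¹ X) dv ≤ N - Re Tr (D P)`.
-/

open MeasureTheory Matrix Finset Filter Topology
open scoped ComplexOrder

namespace Vale.Agent.P371

namespace LI

variable {n : Type*} [Fintype n] [DecidableEq n]

set_option linter.unusedSectionVars false

theorem trace_star_re (A B : Matrix n n ℂ) :
    (trace (A * B)).re = (trace (Bᴴ * Aᴴ)).re := by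
  rw [← conjTranspose_mul, trace_conjTranspose]
  simp

/-- `Tr R² ≤ Tr (R H⁻¹ R H)` -/
theorem cs {H D R : Matrix n n ℂ} (hH : H.PosDef) (hDH : D * H = 1) (hR : R.IsHermitian) :
    (trace (R * R)).re ≤ (trace (R * D * R * H)).re := by
  set h := cfc Real.sqrt H with hh
  set g := cfc (fun x => 1 / Real.sqrt x) H with hg
  have hhg : h * g = 1 := by
    rw [hh, hg, cfc_mul hH.1, ← cfc_one hH.1]
    refine cfc_congr' hH.1 fun i => ?_
    have := Real.sqrt_pos.2 (hH.eigenvalues_pos i)
    field_simp
  have hhh : h * h = H := by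
    rw [hh, cfc_mul hH.1]
    conv_rhs => rw [← cfc_self hH.1]
    refine cfc_congr' hH.1 fun i => ?_
    exact Real.mul_self_sqrt (hH.eigenvalues_pos i).le
  have hgg : g * g = D := by
    have e1 : g * g * H = 1 := by
      rw [← hhh, hg, hh, cfc_mul hH.1, cfc_mul hH.1, cfc_mul hH.1, ← cfc_one hH.1]
      refine cfc_congr' hH.1 fun i => ?_
      have := Real.sqrt_pos.2 (hH.eigenvalues_pos i)
      field_simp
    have e2 : H * D = 1 := mul_eq_one_comm.1 hDH
    calc g * g = g * g * (H * D) := by rw [e2, Matrix.mul_one]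
      _ = g * g * H * D := by simp only [Matrix.mul_assoc]
      _ = D := by rw [e1, Matrix.one_mul]
  have hgh : g * h = 1 := mul_eq_one_comm.1 hhg
  have hhH : hᴴ = h := cfc_herm _
  have hgH : gᴴ = g := cfc_herm _
  have key := GTAux.trace_sq_le (g * R * h)
  have e3 : trace (g * R * h * (g * R * h)) = trace (R * R) := by
    calc trace (g * R * h * (g * R * h)) = trace (g * (R * (h * g) * R * h)) := by
          simp only [Matrix.mul_assoc]
      _ = trace (R * (h * g) * R * h * g) := trace_mul_comm _ _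
      _ = trace (R * R) := by
          rw [hhg, Matrix.mul_one, Matrix.mul_assoc (R * R), hhg, Matrix.mul_one]
  have e4 : trace ((g * R * h)ᴴ * (g * R * h)) = trace (R * D * R * H) := by
    rw [conjTranspose_mul, conjTranspose_mul, hhH, hgH, hR.eq]
    calc trace (h * (R * g) * (g * R * h)) = trace (h * (R * (g * g) * R * h)) := by
          simp only [Matrix.mul_assoc]
      _ = trace (R * (g * g) * R * h * h) := trace_mul_comm _ _
      _ = trace (R * (g * g) * R * (h * h)) := by rw [Matrix.mul_assoc (R * (g * g) * R)]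
      _ = _ := by rw [hgg, hhh]
  rwa [e3, e4] at key

/-- the pointwise inequality in `v` -/
theorem pointE {P M D : Matrix n n ℂ} (hP : P.PosDef) (hM : M.IsHermitian)
    (hH : (P + M).PosDef) (hDH : D * (P + M) = 1) {v : ℝ} (hv0 : 0 ≤ v) (hv1 : v ≤ 1) :
    (trace ((Q P v)⁻¹ * D * (Q P v)⁻¹ * ((1 / 2 : ℂ) • (P * M + M * P)))).re ≤
      (trace (cfc (fun x => x * (1 / (1 - v + v * x)) ^ 2) P)).re -
      (trace (D * cfc (fun x => x * (x * (1 / (1 - v + v * x)) ^ 2)) P)).re := by
  have hHD : (P + M) * D = 1 := mul_eq_one_comm.1 hDH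
  have hDher : Dᴴ = D := by
    have h1 : Dᴴ * (P + M) = 1 := by
      have := congrArg conjTranspose hHD
      rwa [conjTranspose_mul, hH.1.eq, conjTranspose_one] at this
    calc Dᴴ = Dᴴ * ((P + M) * D) := by rw [hHD, Matrix.mul_one]
      _ = Dᴴ * (P + M) * D := by rw [Matrix.mul_assoc]
      _ = D := by rw [h1, Matrix.one_mul]
  rw [Q_inv hP hv0 hv1]
  set R := cfc (fun x => 1 / (1 - v + v * x)) P with hR
  have hRH : Rᴴ = R := cfc_herm _
  have hRP : R * P = cfc (fun x => 1 / (1 - v + v * x) * x) P := by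
    have := cfc_mul hP.1 (fun x => 1 / (1 - v + v * x)) (fun x => x)
    rwa [cfc_self hP.1] at this
  -- symmetrisation
  have ea : (trace (R * D * R * (P * M))).re = (trace (R * D * R * (M * P))).re := by
    rw [trace_star_re, conjTranspose_mul, conjTranspose_mul, conjTranspose_mul, hP.1.eq, hM.eq,
      hRH, hDher, trace_mul_comm]
    simp only [Matrix.mul_assoc]
  have eb : (trace (R * D * R * ((1 / 2 : ℂ) • (P * M + M * P)))).re =
      (trace (R * D * R * (P * M))).re := by
    rw [Matrix.mul_smul, trace_smul, Matrix.mul_add, trace_add, smul_eq_mul]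
    have : ((1 / 2 : ℂ) * (trace (R * D * R * (P * M)) + trace (R * D * R * (M * P)))).re =
        1 / 2 * ((trace (R * D * R * (P * M))).re + (trace (R * D * R * (M * P))).re) := by
      have h2 : (1 / 2 : ℂ) = ((1 / 2 : ℝ) : ℂ) := by push_cast; rfl
      rw [h2, Complex.re_ofReal_mul, Complex.add_re]
    rw [this, ← ea]
    ring
  have ec : trace (R * D * R * (P * M)) = trace (R * D * (R * P) * (P + M)) -
      trace (D * cfc (fun x => x * (x * (1 / (1 - v + v * x)) ^ 2)) P) := by
    have h1 : R * D * R * (P * M) = R * D * (R * P) * (P + M) - R * D * (R * P) * P := by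
      rw [Matrix.mul_add]
      simp only [Matrix.mul_assoc]
      abel
    rw [h1, trace_sub]
    congr 1
    have h2 : trace (R * D * (R * P) * P) = trace (D * ((R * P) * P * R)) := by
      rw [Matrix.mul_assoc R, Matrix.mul_assoc R, trace_mul_comm R]
      simp only [Matrix.mul_assoc]
    rw [h2]
    congr 2
    rw [Matrix.mul_assoc (R * P), hRP]
    have h3 : P * R = cfc (fun x => x * (1 / (1 - v + v * x))) P := by
      have := cfc_mul hP.1 (fun x => x) (fun x => 1 / (1 - v + v * x))
      rwa [cfc_self hP.1] at this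
    rw [h3, cfc_mul hP.1]
    refine cfc_congr' hP.1 fun i => ?_
    ring
  rw [eb, ec, Complex.sub_re]
  refine sub_le_sub_right ?_ _
  rcases hv0.eq_or_lt with h0 | h0
  · -- v = 0
    have hR1 : R = 1 := by
      rw [hR, ← h0, ← cfc_one hP.1]
      refine cfc_congr' hP.1 fun i => ?_
      simp
    have hc : cfc (fun x => x * (1 / (1 - v + v * x)) ^ 2) P = P := by
      conv_rhs => rw [← cfc_self hP.1]
      rw [← h0]
      refine cfc_congr' hP.1 fun i => ?_
      simp
    rw [hR1, hc, Matrix.one_mul, Matrix.one_mul, Matrix.mul_assoc, trace_mul_comm,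
      Matrix.mul_assoc, hHD, Matrix.mul_one]
  · -- v > 0
    have h1 : (v : ℂ) • (R * P) = 1 - ((1 - v : ℝ) : ℂ) • R := by
      rw [hRP, cfc_smul hP.1, hR, cfc_smul hP.1, ← cfc_one hP.1, cfc_sub hP.1]
      refine cfc_congr' hP.1 fun i => ?_
      have := qpos (hP.eigenvalues_pos i) hv0 hv1
      field_simp
      ring
    have h2 : v * (trace (R * D * (R * P) * (P + M))).re =
        (trace R).re - (1 - v) * (trace (R * D * R * (P + M))).re := by
      have e1 : (v : ℂ) * trace (R * D * (R * P) * (P + M)) =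
          trace R - ((1 - v : ℝ) : ℂ) * trace (R * D * R * (P + M)) := by
        have e2 : (v : ℂ) • (R * D * (R * P) * (P + M)) =
            R - ((1 - v : ℝ) : ℂ) • (R * D * R * (P + M)) := by
          calc (v : ℂ) • (R * D * (R * P) * (P + M))
              = R * D * ((v : ℂ) • (R * P)) * (P + M) := by
                rw [Matrix.mul_smul, Matrix.smul_mul]
            _ = R * (D * (P + M)) - ((1 - v : ℝ) : ℂ) • (R * D * R * (P + M)) := by
                rw [h1, Matrix.mul_sub, Matrix.sub_mul, Matrix.mul_one, Matrix.mul_smul,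
                  Matrix.smul_mul, Matrix.mul_assoc R D]
            _ = _ := by rw [hDH, Matrix.mul_one]
        have := congrArg trace e2
        rwa [trace_smul, trace_sub, trace_smul, smul_eq_mul, smul_eq_mul] at this
      have := congrArg Complex.re e1
      rwa [Complex.re_ofReal_mul, Complex.sub_re, Complex.re_ofReal_mul] at this
    have h3 := cs hH hDH hRH
    have h4 : (trace R).re - (1 - v) * (trace (R * R)).re =
        v * (trace (cfc (fun x => x * (1 / (1 - v + v * x)) ^ 2) P)).re := by
      rw [hR, cfc_mul hP.1, trace_cfc hP.1, trace_cfc hP.1, trace_cfc hP.1, Complex.ofReal_re,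
        Complex.ofReal_re, Complex.ofReal_re, Finset.mul_sum, Finset.mul_sum,
        ← Finset.sum_sub_distrib]
      refine Finset.sum_congr rfl fun i _ => ?_
      have := qpos (hP.eigenvalues_pos i) hv0 hv1
      field_simp
      ring
    have h5 : v * (trace (R * D * (R * P) * (P + M))).re ≤
        v * (trace (cfc (fun x => x * (1 / (1 - v + v * x)) ^ 2) P)).re := by
      rw [h2, ← h4]
      have : 0 ≤ 1 - v := by linarith
      have := mul_le_mul_of_nonneg_left h3 this
      linarith
    exact le_of_mul_le_mul_left h5 h0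

theorem Q_slice_cont {P : Matrix n n ℂ} (hP : P.PosDef) :
    ContinuousOn (fun v => (Q P v)⁻¹) (Set.Icc (0:ℝ) 1) := by
  have h := Qinv_cont (P := fun _ : ℝ => P) (s := {0}) continuousOn_const fun _ _ => hP
  exact h.comp (f := fun v : ℝ => ((0 : ℝ), v)) (by fun_prop)
    fun v hv => ⟨Set.mem_singleton _, hv⟩

theorem Q_slice_int {P : Matrix n n ℂ} (hP : P.PosDef) (D X : Matrix n n ℂ) :
    IntervalIntegrable (fun v => (trace ((Q P v)⁻¹ * D * (Q P v)⁻¹ * X)).re) volume 0 1 := by
  refine ContinuousOn.intervalIntegrable ?_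
  rw [Set.uIcc_of_le zero_le_one]
  have h := Q_slice_cont hP
  have h2 : ContinuousOn (fun v => (Q P v)⁻¹ * D * (Q P v)⁻¹ * X) (Set.Icc (0:ℝ) 1) :=
    ((h.mul continuousOn_const).mul h).mul continuousOn_const
  exact Complex.continuous_re.comp_continuousOn
    ((continuous_id.matrix_trace).comp_continuousOn h2)

theorem sq_cont {x : ℝ} (hx : 0 < x) :
    ContinuousOn (fun v : ℝ => x * (1 / (1 - v + v * x)) ^ 2) (Set.Icc 0 1) := by
  refine continuousOn_const.mul ((continuousOn_const.div (by fun_prop) ?_).pow 2)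
  intro v hv
  exact (qpos hx hv.1 hv.2).ne'

/-- the integrated inequality -/
theorem intE {P M D : Matrix n n ℂ} (hP : P.PosDef) (hM : M.IsHermitian)
    (hH : (P + M).PosDef) (hDH : D * (P + M) = 1) :
    ∫ v in (0:ℝ)..1, (trace ((Q P v)⁻¹ * D * (Q P v)⁻¹ * ((1 / 2 : ℂ) • (P * M + M * P)))).re ≤
      Fintype.card n - (trace (D * P)).re := by
  have h1 : ∫ v in (0:ℝ)..1,
      (trace ((Q P v)⁻¹ * D * (Q P v)⁻¹ * ((1 / 2 : ℂ) • (P * M + M * P)))).re ≤
      ∫ v in (0:ℝ)..1, ∑ k, (1 - (dg hP.1 D k).re * hP.1.eigenvalues k) *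
        (hP.1.eigenvalues k * (1 / (1 - v + v * hP.1.eigenvalues k)) ^ 2) := by
    refine intervalIntegral.integral_mono_on zero_le_one (Q_slice_int hP _ _) ?_ ?_
    · refine ContinuousOn.intervalIntegrable ?_
      rw [Set.uIcc_of_le zero_le_one]
      exact continuousOn_finsetSum _ fun k _ =>
        continuousOn_const.mul (sq_cont (hP.eigenvalues_pos k))
    · intro v hv
      refine (pointE hP hM hH hDH hv.1 hv.2).trans (le_of_eq ?_)
      rw [trace_cfc hP.1, trace_mul_cfc hP.1, Complex.ofReal_re, Complex.re_sum,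
        ← Finset.sum_sub_distrib]
      refine Finset.sum_congr rfl fun k _ => ?_
      rw [Complex.re_mul_ofReal]
      ring
  refine h1.trans (le_of_eq ?_)
  rw [intervalIntegral.integral_finsetSum]
  · have h2 : ∀ k, ∫ v in (0:ℝ)..1, (1 - (dg hP.1 D k).re * hP.1.eigenvalues k) *
        (hP.1.eigenvalues k * (1 / (1 - v + v * hP.1.eigenvalues k)) ^ 2) =
        1 - (dg hP.1 D k).re * hP.1.eigenvalues k := by
      intro k
      rw [intervalIntegral.integral_const_mul, scalar_sq (hP.eigenvalues_pos k), mul_one]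
    simp only [h2]
    rw [Finset.sum_sub_distrib, Finset.sum_const, Finset.card_univ, nsmul_eq_mul, mul_one]
    congr 1
    conv_rhs => rw [← cfc_self hP.1]
    rw [trace_mul_cfc hP.1, Complex.re_sum]
    refine Finset.sum_congr rfl fun k _ => ?_
    rw [Complex.re_mul_ofReal]
  · intro k _
    refine ContinuousOn.intervalIntegrable ?_
    rw [Set.uIcc_of_le zero_le_one]
    exact continuousOn_const.mul (sq_cont (hP.eigenvalues_pos k))

end LI

end Vale.Agent.P371
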