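import Vale.Agent.P371.StepE
import Vale.Agent.P371.Defs2

/-!
# P371: the function `m(t) = Tr k_t (Y + t) - Tr Y`
-/

open MeasureTheory Matrix Finset Filter Topology
open scoped ComplexOrder

namespace Vale.Agent.P371

namespace SM

open LI

variable {n : Type*} [Fintype n] [DecidableEq n]

set_option linter.unusedSectionVars false

/-! ### `A_t` -/

theorem At_herm (S : Matrix n n ℂ) (t : ℝ) : (Amat S t).IsHermitian := cfc_herm _

theorem At_sq {S : Matrix n n ℂ} (hS : S.IsHermitian) {t : ℝ} (ht : 0 ≤ t) :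
    Amat S t * Amat S t = S * S + ((t : ℝ) : ℂ) • 1 := by
  have h1 : S * S = cfc (fun x : ℝ => x * x) S := by
    have := cfc_mul hS (fun x => x) (fun x => x)
    rwa [cfc_self hS] at this
  have h2 : ((t : ℝ) : ℂ) • (1 : Matrix n n ℂ) = cfc (fun _ => t) S := by
    rw [← cfc_one hS, cfc_smul hS]
    simp
  rw [h1, h2, Amat, cfc_mul hS, cfc_add hS]
  refine cfc_congr' hS fun i => ?_
  rw [Real.mul_self_sqrt (by positivity)]
  ring

/-- `D_t = (2 A_t)⁻¹` -/
noncomputable def Dt (S : Matrix n n ℂ) (t : ℝ) : Matrix n n ℂ :=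
  cfc (fun x : ℝ => 1 / (2 * Real.sqrt (x ^ 2 + t))) S

theorem Dt_mul {S : Matrix n n ℂ} (hS : S.IsHermitian) {t : ℝ} (ht : 0 < t) :
    Dt S t * (Amat S t + Amat S t) = 1 := by
  rw [Dt, Amat, cfc_add hS, cfc_mul hS, ← cfc_one hS]
  refine cfc_congr' hS fun i => ?_
  have : 0 < Real.sqrt (hS.eigenvalues i ^ 2 + t) := Real.sqrt_pos.2 (by positivity)
  field_simp
  ring

theorem At_deriv {S : Matrix n n ℂ} (hS : S.IsHermitian) {t : ℝ} (ht : 0 < t) (i j : n) :
    HasDerivAt (fun t => Amat S t i j) (Dt S t i j) t := by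
  simp only [Amat, Dt, cfc_apply_entry hS]
  refine HasDerivAt.fun_sum fun k _ => ?_
  refine HasDerivAt.mul_const ?_ _
  have h1 : HasDerivAt (fun t : ℝ => Real.sqrt (hS.eigenvalues k ^ 2 + t))
      (1 / (2 * Real.sqrt (hS.eigenvalues k ^ 2 + t))) t := by
    have h2 : HasDerivAt (fun t : ℝ => hS.eigenvalues k ^ 2 + t) 1 t :=
      (hasDerivAt_id' t).const_add _
    exact h2.sqrt (by positivity)
  exact h1.ofReal_comp

theorem Dt_cont {S : Matrix n n ℂ} (hS : S.IsHermitian) (i j : n) :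
    ContinuousOn (fun t => Dt S t i j) (Set.Ioi 0) := by
  simp only [Dt, cfc_apply_entry hS]
  refine continuousOn_finsetSum _ fun k _ => ContinuousOn.mul ?_ continuousOn_const
  refine Complex.continuous_ofReal.comp_continuousOn ?_
  refine continuousOn_const.div (by fun_prop) ?_
  intro t ht
  have ht' : (0:ℝ) < t := ht
  have : 0 < Real.sqrt (hS.eigenvalues k ^ 2 + t) := Real.sqrt_pos.2 (by positivity)
  positivity

/-! ### Derivative of `Tr (log P_t X_t)` -/

theorem hasDerivAt_trace_log {P D X : ℝ → Matrix n n ℂ} {X' : Matrix n n ℂ} {x : ℝ} {s : Set ℝ}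
    (hs : s ∈ 𝓝 x)
    (hP : ∀ t ∈ s, (P t).PosDef)
    (hD : ∀ t ∈ s, ∀ i j, HasDerivAt (fun t => P t i j) (D t i j) t)
    (hDc : ∀ i j, ContinuousOn (fun t => D t i j) s)
    (hX : ∀ i j, HasDerivAt (fun t => X t i j) (X' i j) x) :
    HasDerivAt (fun t => (trace (cfc Real.log (P t) * X t)).re)
      ((∫ v in (0:ℝ)..1, (trace ((Q (P x) v)⁻¹ * D x * (Q (P x) v)⁻¹ * X x)).re) +
        (trace (cfc Real.log (P x) * X')).re) x := by
  have hxs : x ∈ s := mem_of_mem_nhds hs
  have h1 : HasDerivAt (fun t => ∑ i, ∑ j, cfc Real.log (P t) i j * X t j i)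
      (∑ i, ∑ j, ((∫ v in (0:ℝ)..1, ((Q (P x) v)⁻¹ * D x * (Q (P x) v)⁻¹) i j) * X x j i +
        cfc Real.log (P x) i j * X' j i)) x :=
    HasDerivAt.fun_sum fun i _ => HasDerivAt.fun_sum fun j _ =>
      (hasDerivAt_log hs hP hD hDc i j).mul (hX j i)
  have h2 : HasDerivAt (fun t => (∑ i, ∑ j, cfc Real.log (P t) i j * X t j i).re)
      (∑ i, ∑ j, ((∫ v in (0:ℝ)..1, ((Q (P x) v)⁻¹ * D x * (Q (P x) v)⁻¹) i j) * X x j i +
        cfc Real.log (P x) i j * X' j i)).re x :=
    Complex.reCLM.hasFDerivAt.comp_hasDerivAt x h1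
  have e1 : (fun t => (trace (cfc Real.log (P t) * X t)).re) =
      fun t => (∑ i, ∑ j, cfc Real.log (P t) i j * X t j i).re := by
    funext t
    simp only [trace, diag_apply, Matrix.mul_apply]
  rw [e1]
  refine h2.congr_deriv ?_
  have hQc := Q_slice_cont (hP x hxs)
  have hint : ∀ i j, IntervalIntegrable
      (fun v => ((Q (P x) v)⁻¹ * D x * (Q (P x) v)⁻¹) i j) volume 0 1 := by
    intro i j
    refine ContinuousOn.intervalIntegrable ?_
    rw [Set.uIcc_of_le zero_le_one]
    exact entry_contOn ((hQc.mul continuousOn_const).mul hQc) i j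
  have e2 : ∑ i, ∑ j, ((∫ v in (0:ℝ)..1, ((Q (P x) v)⁻¹ * D x * (Q (P x) v)⁻¹) i j) * X x j i +
        cfc Real.log (P x) i j * X' j i) =
      (∫ v in (0:ℝ)..1, trace ((Q (P x) v)⁻¹ * D x * (Q (P x) v)⁻¹ * X x)) +
        trace (cfc Real.log (P x) * X') := by
    simp only [Finset.sum_add_distrib]
    congr 1
    have : ∀ v, trace ((Q (P x) v)⁻¹ * D x * (Q (P x) v)⁻¹ * X x) =
        ∑ i, ∑ j, ((Q (P x) v)⁻¹ * D x * (Q (P x) v)⁻¹) i j * X x j i := by
      intro v
      rw [trace]
      refine Finset.sum_congr rfl fun i _ => ?_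
      rw [diag_apply, Matrix.mul_apply]
    simp only [this]
    rw [intervalIntegral.integral_finsetSum]
    · refine Finset.sum_congr rfl fun i _ => ?_
      rw [intervalIntegral.integral_finsetSum]
      · refine Finset.sum_congr rfl fun j _ => ?_
        rw [intervalIntegral.integral_mul_const]
      · intro j _
        exact (hint i j).mul_const _
    · intro i _
      refine ContinuousOn.intervalIntegrable ?_
      rw [Set.uIcc_of_le zero_le_one]
      exact continuousOn_finsetSum _ fun j _ =>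
        (entry_contOn ((hQc.mul continuousOn_const).mul hQc) i j).mul continuousOn_const
  rw [e2, Complex.add_re]
  congr 1
  refine (Complex.reCLM.intervalIntegral_comp_comm ?_).symm
  refine ContinuousOn.intervalIntegrable ?_
  rw [Set.uIcc_of_le zero_le_one]
  exact (continuous_id.matrix_trace).comp_continuousOn
    (((hQc.mul continuousOn_const).mul hQc).mul continuousOn_const)

/-! ### The function `m` -/

section mm

variable {S Z : Matrix n n ℂ}

/-- `X_t = Y + t = (P M + M P) / 2` -/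
theorem X_eq (hS : S.IsHermitian) {t : ℝ} (ht : 0 ≤ t) :
    S * S - Z * Z + ((t : ℝ) : ℂ) • 1 = (1 / 2 : ℂ) • ((Amat S t + Z) * (Amat S t - Z) +
      (Amat S t - Z) * (Amat S t + Z)) := by
  have e : (Amat S t + Z) * (Amat S t - Z) + (Amat S t - Z) * (Amat S t + Z) =
      (2 : ℂ) • (Amat S t * Amat S t - Z * Z) := by
    rw [two_smul]
    noncomm_ring
  rw [e, smul_smul, At_sq hS ht]
  norm_num
  abel

theorem trace_X_re (hS : S.IsHermitian) {t : ℝ} (ht : 0 ≤ t) :
    (trace (S * S - Z * Z + ((t : ℝ) : ℂ) • 1)).re =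
      (trace ((Amat S t + Z) * (Amat S t - Z))).re := by
  rw [X_eq hS ht, trace_smul, trace_add, trace_mul_comm (Amat S t - Z), smul_eq_mul]
  congr 1
  ring

theorem trace_X (S Z : Matrix n n ℂ) (t : ℝ) :
    (trace (S * S - Z * Z + ((t : ℝ) : ℂ) • 1)).re =
      (trace (S * S - Z * Z)).re + t * Fintype.card n := by
  rw [trace_add, trace_smul, trace_one, Complex.add_re, smul_eq_mul, Complex.re_ofReal_mul,
    Complex.natCast_re]

theorem kt_mul (t : ℝ) (X : Matrix n n ℂ) :
    (trace (kmat S Z t * X)).re = (trace (cfc Real.log (Amat S t + Z) * X)).re +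
      (trace (cfc Real.log (Amat S t - Z) * X)).re - Real.log t * (trace X).re := by
  rw [kmat, Matrix.sub_mul, Matrix.add_mul, trace_sub, trace_add, Complex.sub_re,
    Complex.add_re, Matrix.smul_mul, Matrix.one_mul, trace_smul, smul_eq_mul,
    Complex.re_ofReal_mul]

theorem kt_trace (t : ℝ) :
    (trace (kmat S Z t)).re = (trace (cfc Real.log (Amat S t + Z))).re +
      (trace (cfc Real.log (Amat S t - Z))).re - Real.log t * Fintype.card n := by
  have := kt_mul (S := S) (Z := Z) t 1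
  rw [Matrix.mul_one, Matrix.mul_one, Matrix.mul_one, trace_one, Complex.natCast_re] at this
  exact this

theorem hasDerivAt_P (hS : S.IsHermitian) {t : ℝ} (ht : 0 < t) (i j : n) :
    HasDerivAt (fun t => (Amat S t + Z) i j) (Dt S t i j) t := by
  simp only [Matrix.add_apply]
  exact (At_deriv hS ht i j).add_const _

theorem hasDerivAt_M (hS : S.IsHermitian) {t : ℝ} (ht : 0 < t) (i j : n) :
    HasDerivAt (fun t => (Amat S t - Z) i j) (Dt S t i j) t := by
  simp only [Matrix.sub_apply]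
  exact (At_deriv hS ht i j).sub_const _

theorem hasDerivAt_X (t : ℝ) (i j : n) :
    HasDerivAt (fun t : ℝ => (S * S - Z * Z + ((t : ℝ) : ℂ) • (1 : Matrix n n ℂ)) i j)
      ((1 : Matrix n n ℂ) i j) t := by
  simp only [Matrix.add_apply, Matrix.smul_apply, smul_eq_mul]
  have h1 : HasDerivAt (fun t : ℝ => ((t : ℝ) : ℂ)) 1 t := by
    simpa using (hasDerivAt_id' t).ofReal_comp
  exact ((h1.mul_const _).const_add _).congr_deriv (by ring)

/-- the differential inequality for `m` -/
theorem mt_deriv (hS : S.IsHermitian)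
    {s : Set ℝ} (hs0 : s ⊆ Set.Ioi 0) (hso : IsOpen s)
    (hp : ∀ t ∈ s, (Amat S t + Z).PosDef) (hm : ∀ t ∈ s, (Amat S t - Z).PosDef)
    {t : ℝ} (ht : t ∈ s) :
    ∃ m' : ℝ, HasDerivAt (mt S Z) m' t ∧
      m' ≤ (trace (kmat S Z t)).re - (trace (S * S - Z * Z)).re / t := by
  have ht0 : 0 < t := hs0 ht
  have hsn : s ∈ 𝓝 t := hso.mem_nhds ht
  have h1 := hasDerivAt_trace_log (P := fun t => Amat S t + Z) (D := Dt S)
    (X := fun t => S * S - Z * Z + ((t : ℝ) : ℂ) • 1) (X' := 1) hsn hp
    (fun t ht i j => hasDerivAt_P hS (hs0 ht) i j)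
    (fun i j => (Dt_cont hS i j).mono hs0) (hasDerivAt_X t)
  have h2 := hasDerivAt_trace_log (P := fun t => Amat S t - Z) (D := Dt S)
    (X := fun t => S * S - Z * Z + ((t : ℝ) : ℂ) • 1) (X' := 1) hsn hm
    (fun t ht i j => hasDerivAt_M hS (hs0 ht) i j)
    (fun i j => (Dt_cont hS i j).mono hs0) (hasDerivAt_X t)
  have h3 : HasDerivAt (fun t : ℝ => Real.log t *
      ((trace (S * S - Z * Z)).re + t * Fintype.card n))
      (t⁻¹ * ((trace (S * S - Z * Z)).re + t * Fintype.card n) +
        Real.log t * (Fintype.card n : ℝ)) t := by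
    have h4 : HasDerivAt (fun t : ℝ => (trace (S * S - Z * Z)).re + t * Fintype.card n)
        (Fintype.card n : ℝ) t := by
      have := ((hasDerivAt_id' t).mul_const (Fintype.card n : ℝ)).const_add
        (trace (S * S - Z * Z)).re
      exact this.congr_deriv (by ring)
    exact (Real.hasDerivAt_log ht0.ne').mul h4
  have e : mt S Z = fun t => (trace (cfc Real.log (Amat S t + Z) *
      (S * S - Z * Z + ((t : ℝ) : ℂ) • 1))).re +
      (trace (cfc Real.log (Amat S t - Z) * (S * S - Z * Z + ((t : ℝ) : ℂ) • 1))).re -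
      Real.log t * ((trace (S * S - Z * Z)).re + t * Fintype.card n) -
      (trace (S * S - Z * Z)).re := by
    funext t
    rw [mt]
    have : kt S Z t = kmat S Z t := rfl
    rw [this, kt_mul, trace_X]
  have hd := ((h1.fun_add h2).fun_sub h3).sub_const (trace (S * S - Z * Z)).re
  rw [e]
  refine ⟨_, hd, ?_⟩
  · rw [Matrix.mul_one, Matrix.mul_one]
    have hsum : (Amat S t + Z) + (Amat S t - Z) = Amat S t + Amat S t := by abel
    have hsum2 : (Amat S t - Z) + (Amat S t + Z) = Amat S t + Amat S t := by abel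
    have hPM : ((Amat S t + Z) + (Amat S t - Z)).PosDef := (hp t ht).add (hm t ht)
    have hMP : ((Amat S t - Z) + (Amat S t + Z)).PosDef := (hm t ht).add (hp t ht)
    have hD1 : Dt S t * ((Amat S t + Z) + (Amat S t - Z)) = 1 := by
      rw [hsum]; exact Dt_mul hS ht0
    have hD2 : Dt S t * ((Amat S t - Z) + (Amat S t + Z)) = 1 := by
      rw [hsum2]; exact Dt_mul hS ht0
    have i1 := intE (hp t ht) (hm t ht).1 hPM hD1
    have i2 := intE (hm t ht) (hp t ht).1 hMP hD2
    rw [← X_eq hS ht0.le] at i1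
    rw [add_comm ((Amat S t - Z) * (Amat S t + Z)), ← X_eq hS ht0.le] at i2
    have e5 : (trace (Dt S t * (Amat S t + Z))).re + (trace (Dt S t * (Amat S t - Z))).re =
        Fintype.card n := by
      rw [← Complex.add_re, ← trace_add, ← Matrix.mul_add, hD1, trace_one, Complex.natCast_re]
    rw [kt_trace]
    have e6 : t⁻¹ * ((trace (S * S - Z * Z)).re + t * (Fintype.card n : ℝ)) =
        (trace (S * S - Z * Z)).re / t + Fintype.card n := by
      field_simp
    rw [e6]
    linarith

end mm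

end SM

end Vale.Agent.P371
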