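import Vale.Agent.P371.StepM

/-!
# P371: `m(t) ≥ 0`, upper bound for `m`, and the Gibbs-Golden-Thompson bound for `k_t`
-/

open MeasureTheory Matrix Finset Filter Topology
open scoped ComplexOrder

namespace Vale.Agent.P371

namespace SM

open LI

variable {n : Type*} [Fintype n] [DecidableEq n] {S Z : Matrix n n ℂ}

set_option linter.unusedSectionVars false

/-- `m(t)` as a sum over eigenvalues -/
theorem mt_formula (hS : S.IsHermitian) {t : ℝ} (ht : 0 < t)
    (hp : (Amat S t + Z).PosDef) (hm : (Amat S t - Z).PosDef) :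
    ∃ p : n → n → ℝ, (∀ i j, 0 ≤ p i j) ∧ (∑ i, ∑ j, p i j = Fintype.card n) ∧
      mt S Z t = ∑ i, ∑ j, p i j *
        ((hp.1.eigenvalues i * hm.1.eigenvalues j) *
          (Real.log (hp.1.eigenvalues i) + Real.log (hm.1.eigenvalues j) - Real.log t) -
          hp.1.eigenvalues i * hm.1.eigenvalues j + t) := by
  obtain ⟨p, hp0, hrow, hcol, hf⟩ := GGT.trace_cfc_mul_cfc hp.1 hm.1
  set P := Amat S t + Z with hPdef
  set M := Amat S t - Z with hMdef
  set a := hp.1.eigenvalues with ha
  set b := hm.1.eigenvalues with hb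
  have hcard : ∑ i, ∑ j, p i j = Fintype.card n := by
    simp only [hrow]
    simp
  refine ⟨p, hp0, hcard, ?_⟩
  have hX : S * S - Z * Z + ((t : ℝ) : ℂ) • 1 = (1 / 2 : ℂ) • (P * M + M * P) := X_eq hS ht.le
  -- Re Tr (L X) for L Hermitian commuting
  have half : ∀ L : Matrix n n ℂ, (trace (L * ((1 / 2 : ℂ) • (P * M + M * P)))).re =
      1 / 2 * ((trace (L * (P * M))).re + (trace (L * (M * P))).re) := by
    intro L
    rw [Matrix.mul_smul, trace_smul, Matrix.mul_add, trace_add, smul_eq_mul]
    have h2 : (1 / 2 : ℂ) = ((1 / 2 : ℝ) : ℂ) := by push_cast; rfl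
    rw [h2, Complex.re_ofReal_mul, Complex.add_re]
  have hPc : cfc Real.log P * P = cfc (fun x => Real.log x * x) P := by
    have := LI.cfc_mul hp.1 Real.log (fun x => x)
    rwa [cfc_self hp.1] at this
  have hPc' : P * cfc Real.log P = cfc (fun x => Real.log x * x) P := by
    have := LI.cfc_mul hp.1 (fun x => x) Real.log
    rw [cfc_self hp.1] at this
    rw [this]
    exact cfc_congr' hp.1 fun i => mul_comm _ _
  have hMc : cfc Real.log M * M = cfc (fun x => Real.log x * x) M := by
    have := LI.cfc_mul hm.1 Real.log (fun x => x)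
    rwa [cfc_self hm.1] at this
  have hMc' : M * cfc Real.log M = cfc (fun x => Real.log x * x) M := by
    have := LI.cfc_mul hm.1 (fun x => x) Real.log
    rw [cfc_self hm.1] at this
    rw [this]
    exact cfc_congr' hm.1 fun i => mul_comm _ _
  have e1 : (trace (cfc Real.log P * ((1 / 2 : ℂ) • (P * M + M * P)))).re =
      ∑ i, ∑ j, p i j * ((Real.log (a i) * a i) * b j) := by
    rw [half]
    have h1 : trace (cfc Real.log P * (P * M)) = trace (cfc (fun x => Real.log x * x) P * M) := by
      rw [← Matrix.mul_assoc, hPc]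
    have h2 : trace (cfc Real.log P * (M * P)) = trace (cfc (fun x => Real.log x * x) P * M) := by
      rw [← Matrix.mul_assoc, trace_mul_comm, ← Matrix.mul_assoc, hPc']
    have h3 := hf (fun x => Real.log x * x) (fun x => x)
    rw [cfc_self hm.1] at h3
    rw [h1, h2, h3]
    ring
  have e2 : (trace (cfc Real.log M * ((1 / 2 : ℂ) • (P * M + M * P)))).re =
      ∑ i, ∑ j, p i j * (a i * (Real.log (b j) * b j)) := by
    rw [half]
    have h1 : trace (cfc Real.log M * (P * M)) = trace (P * cfc (fun x => Real.log x * x) M) := by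
      rw [trace_mul_comm, Matrix.mul_assoc, hMc']
    have h2 : trace (cfc Real.log M * (M * P)) = trace (P * cfc (fun x => Real.log x * x) M) := by
      rw [← Matrix.mul_assoc, hMc, trace_mul_comm]
    have h3 := hf (fun x => x) (fun x => Real.log x * x)
    rw [cfc_self hp.1] at h3
    rw [h1, h2, h3]
    ring
  have e3 : (trace (S * S - Z * Z)).re + t * Fintype.card n = ∑ i, ∑ j, p i j * (a i * b j) := by
    rw [← trace_X, trace_X_re hS ht.le]
    have h3 := hf (fun x => x) (fun x => x)
    rw [cfc_self hp.1, cfc_self hm.1] at h3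
    exact h3
  have e4 : mt S Z t = (trace (cfc Real.log P * ((1 / 2 : ℂ) • (P * M + M * P)))).re +
      (trace (cfc Real.log M * ((1 / 2 : ℂ) • (P * M + M * P)))).re -
      Real.log t * ((trace (S * S - Z * Z)).re + t * Fintype.card n) -
      (trace (S * S - Z * Z)).re := by
    rw [mt]
    have : kt S Z t = kmat S Z t := rfl
    rw [this, kt_mul, trace_X, hX]
  have e5 : (trace (S * S - Z * Z)).re = (∑ i, ∑ j, p i j * (a i * b j)) - t * Fintype.card n := by
    linarith
  rw [e4, e1, e2, e3, e5, ← hcard]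
  simp only [Finset.mul_sum, ← Finset.sum_add_distrib, ← Finset.sum_sub_distrib]
  refine Finset.sum_congr rfl fun i _ => Finset.sum_congr rfl fun j _ => ?_
  ring

theorem mt_nonneg (hS : S.IsHermitian) {t : ℝ} (ht : 0 < t)
    (hp : (Amat S t + Z).PosDef) (hm : (Amat S t - Z).PosDef) : 0 ≤ mt S Z t := by
  obtain ⟨p, hp0, -, h⟩ := mt_formula hS ht hp hm
  rw [h]
  refine Finset.sum_nonneg fun i _ => Finset.sum_nonneg fun j _ => mul_nonneg (hp0 i j) ?_
  set a := hp.1.eigenvalues i with ha
  set b := hm.1.eigenvalues j with hb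
  have ha0 : 0 < a := hp.eigenvalues_pos i
  have hb0 : 0 < b := hm.eigenvalues_pos j
  have hab : 0 < a * b := mul_pos ha0 hb0
  have h1 : Real.log a + Real.log b = Real.log (a * b) := (Real.log_mul ha0.ne' hb0.ne').symm
  rw [h1]
  have h2 := Real.log_le_sub_one_of_pos (x := t / (a * b)) (by positivity)
  rw [Real.log_div ht.ne' hab.ne'] at h2
  have h3 := mul_le_mul_of_nonneg_left h2 hab.le
  have h4 : a * b * (t / (a * b) - 1) = t - a * b := by
    field_simp
  rw [h4] at h3
  linarith

theorem eig_le_trace {P : Matrix n n ℂ} (hP : P.PosSemidef) (i : n) :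
    hP.1.eigenvalues i ≤ (trace P).re := by
  have h1 : (trace P).re = ∑ i, hP.1.eigenvalues i := by
    conv_lhs => rw [← cfc_self hP.1]
    rw [trace_cfc hP.1, Complex.ofReal_re]
  rw [h1]
  exact Finset.single_le_sum (fun i _ => hP.eigenvalues_nonneg i) (Finset.mem_univ i)

theorem trace_At_le {S : Matrix n n ℂ} (hS : S.PosSemidef) {t : ℝ} (ht : t ≤ 1) :
    (trace (Amat S t)).re ≤ (trace S).re + Fintype.card n := by
  have h1 : (trace S).re = ∑ i, hS.1.eigenvalues i := by
    conv_lhs => rw [← cfc_self hS.1]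
    rw [trace_cfc hS.1, Complex.ofReal_re]
  rw [Amat, trace_cfc hS.1, Complex.ofReal_re, h1]
  have h2 : (Fintype.card n : ℝ) = ∑ _i : n, (1 : ℝ) := by simp
  rw [h2, ← Finset.sum_add_distrib]
  refine Finset.sum_le_sum fun i _ => ?_
  have h0 := hS.eigenvalues_nonneg i
  rw [Real.sqrt_le_left (by linarith)]
  nlinarith

/-- the bound for `m` -/
theorem mt_le (hS : S.PosSemidef) {t : ℝ} (ht : 0 < t) (ht1 : t ≤ 1)
    (hp : (Amat S t + Z).PosDef) (hm : (Amat S t - Z).PosDef) :
    mt S Z t ≤ Fintype.card n * ((2 * ((trace S).re + Fintype.card n)) ^ 2 *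
      (|Real.log ((2 * ((trace S).re + Fintype.card n)) ^ 2)| + |Real.log t|) + 1) := by
  obtain ⟨p, hp0, hc, h⟩ := mt_formula hS.1 ht hp hm
  set c := 2 * ((trace S).re + (Fintype.card n : ℝ)) with hcdef
  have hS0 : 0 ≤ (trace S).re := (Complex.le_def.1 hS.trace_nonneg).1
  have hc0 : 0 ≤ c := by positivity
  have htr : (trace (Amat S t + Z)).re + (trace (Amat S t - Z)).re ≤ c := by
    rw [← Complex.add_re, ← trace_add]
    have : Amat S t + Z + (Amat S t - Z) = Amat S t + Amat S t := by abel
    rw [this, trace_add, Complex.add_re]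
    have := trace_At_le hS ht1
    linarith
  have hP0 : 0 ≤ (trace (Amat S t + Z)).re := (Complex.le_def.1 hp.posSemidef.trace_nonneg).1
  have hM0 : 0 ≤ (trace (Amat S t - Z)).re := (Complex.le_def.1 hm.posSemidef.trace_nonneg).1
  rw [h, ← hc, Finset.sum_mul]
  refine Finset.sum_le_sum fun i _ => ?_
  rw [Finset.sum_mul]
  refine Finset.sum_le_sum fun j _ => mul_le_mul_of_nonneg_left ?_ (hp0 i j)
  set a := hp.1.eigenvalues i with ha
  set b := hm.1.eigenvalues j with hb
  have ha0 : 0 < a := hp.eigenvalues_pos i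
  have hb0 : 0 < b := hm.eigenvalues_pos j
  have hab : 0 < a * b := mul_pos ha0 hb0
  have hac : a ≤ c := by
    have := eig_le_trace hp.posSemidef i
    have h2 : hp.posSemidef.1.eigenvalues i = a := rfl
    linarith
  have hbc : b ≤ c := by
    have := eig_le_trace hm.posSemidef j
    have h2 : hm.posSemidef.1.eigenvalues j = b := rfl
    linarith
  have hle : a * b ≤ c ^ 2 := by nlinarith
  have h1 : Real.log a + Real.log b = Real.log (a * b) := (Real.log_mul ha0.ne' hb0.ne').symm
  rw [h1]
  have hlog : Real.log (a * b) ≤ Real.log (c ^ 2) := Real.log_le_log hab hle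
  have h2 : Real.log (a * b) - Real.log t ≤ |Real.log (c ^ 2)| + |Real.log t| := by
    have h3 := le_abs_self (Real.log (c ^ 2))
    have h4 := neg_abs_le (Real.log t)
    linarith
  have h5 : 0 ≤ |Real.log (c ^ 2)| + |Real.log t| := by positivity
  have h6 : a * b * (Real.log (a * b) - Real.log t) ≤
      c ^ 2 * (|Real.log (c ^ 2)| + |Real.log t|) :=
    (mul_le_mul_of_nonneg_left h2 hab.le).trans (mul_le_mul_of_nonneg_right hle h5)
  linarith

/-! ### The bound for `Tr k_t T` -/

theorem contOn_spec (S : Matrix n n ℂ) (f : ℝ → ℝ) : ContinuousOn f (spectrum ℝ S) := by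
  rw [continuousOn_iff_continuous_domRestrict]
  fun_prop

/-- (C) -/
theorem kt_le (hS : S.IsHermitian) {t : ℝ} (ht : 0 < t)
    (hp : (Amat S t + Z).PosDef) (hm : (Amat S t - Z).PosDef) {T : Matrix n n ℂ}
    (hT : T.PosSemidef) :
    (trace (kmat S Z t * T)).re ≤
      (∑ i, ((hT.1.eigenvalues i + t) * Real.log (1 + hT.1.eigenvalues i / t) -
        hT.1.eigenvalues i)) -
      t * (trace (kmat S Z t)).re + (trace (S * S - Z * Z)).re := by
  have hTt : (T + ((t : ℝ) : ℂ) • (1 : Matrix n n ℂ)) = cfc (fun x : ℝ => x + t) T := by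
    have h1 := LI.cfc_add hT.1 (fun x => x) (fun _ => t)
    rw [cfc_self hT.1] at h1
    rw [← h1]
    congr 1
    rw [← LI.cfc_one hT.1, LI.cfc_smul hT.1]
    simp
  have hTpd : (T + ((t : ℝ) : ℂ) • (1 : Matrix n n ℂ)).PosDef := by
    refine PosDef.posSemidef_add hT ?_
    exact PosDef.smul PosDef.one (by exact_mod_cast ht)
  have key := gibbs_gt hp hm hTpd
  have hlogT : cfc Real.log (T + ((t : ℝ) : ℂ) • (1 : Matrix n n ℂ)) =
      cfc (fun x => Real.log (x + t)) T := by
    rw [hTt]
    refine (cfc_comp' Real.log (fun x : ℝ => x + t) T ?_ (contOn_spec T _) hT.1).symm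
    have hsp : spectrum ℝ (cfc (fun x : ℝ => x + t) T) =
        (fun x : ℝ => x + t) '' spectrum ℝ T :=
      cfc_map_spectrum (fun x : ℝ => x + t) T hT.1 (contOn_spec T _)
    rw [← hsp]
    exact contOn_spec _ _
  set L := cfc Real.log (Amat S t + Z) + cfc Real.log (Amat S t - Z) with hL
  have hk : kmat S Z t = L - ((Real.log t : ℝ) : ℂ) • 1 := rfl
  have e1 : (trace (T + ((t : ℝ) : ℂ) • (1 : Matrix n n ℂ))).re =
      ∑ i, (hT.1.eigenvalues i + t) := by
    rw [hTt, trace_cfc hT.1, Complex.ofReal_re]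
  have e2 : (trace ((T + ((t : ℝ) : ℂ) • (1 : Matrix n n ℂ)) *
      cfc Real.log (T + ((t : ℝ) : ℂ) • (1 : Matrix n n ℂ)))).re =
      ∑ i, (hT.1.eigenvalues i + t) * Real.log (hT.1.eigenvalues i + t) := by
    rw [hlogT, hTt, LI.cfc_mul hT.1, trace_cfc hT.1, Complex.ofReal_re]
  have e3 : (trace ((T + ((t : ℝ) : ℂ) • (1 : Matrix n n ℂ)) * L)).re =
      (trace (kmat S Z t * T)).re + Real.log t * (trace T).re +
        t * ((trace (kmat S Z t)).re + Real.log t * Fintype.card n) := by
    have h1 : (trace (kmat S Z t * T)).re = (trace (L * T)).re - Real.log t * (trace T).re := by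
      rw [hk, Matrix.sub_mul, Matrix.smul_mul, Matrix.one_mul, trace_sub, trace_smul,
        Complex.sub_re, smul_eq_mul, Complex.re_ofReal_mul]
    have h2 : (trace (kmat S Z t)).re = (trace L).re - Real.log t * Fintype.card n := by
      rw [hk, trace_sub, trace_smul, trace_one, Complex.sub_re, smul_eq_mul,
        Complex.re_ofReal_mul, Complex.natCast_re]
    rw [h1, h2, Matrix.add_mul, Matrix.smul_mul, Matrix.one_mul, trace_add, trace_smul,
      Complex.add_re, smul_eq_mul, Complex.re_ofReal_mul, trace_mul_comm T L]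
    ring
  have e4 : (trace ((Amat S t + Z) * (Amat S t - Z))).re =
      (trace (S * S - Z * Z)).re + t * Fintype.card n := by
    rw [← trace_X_re hS ht.le, trace_X]
  have e5 : (trace T).re = ∑ i, hT.1.eigenvalues i := by
    conv_lhs => rw [← cfc_self hT.1]
    rw [trace_cfc hT.1, Complex.ofReal_re]
  rw [Matrix.mul_sub, trace_sub, Complex.sub_re, e1, e2, e3, e4, e5] at key
  have e6 : ∑ i, ((hT.1.eigenvalues i + t) * Real.log (1 + hT.1.eigenvalues i / t) -
        hT.1.eigenvalues i) =
      (∑ i, (hT.1.eigenvalues i + t) * Real.log (hT.1.eigenvalues i + t)) -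
      Real.log t * (∑ i, hT.1.eigenvalues i) - Real.log t * (t * Fintype.card n) -
      ∑ i, hT.1.eigenvalues i := by
    have hcard : t * (Fintype.card n : ℝ) = ∑ _i : n, t := by
      rw [Finset.sum_const, Finset.card_univ, nsmul_eq_mul, mul_comm]
    rw [hcard, Finset.mul_sum, Finset.mul_sum, ← Finset.sum_sub_distrib,
      ← Finset.sum_sub_distrib, ← Finset.sum_sub_distrib]
    refine Finset.sum_congr rfl fun i _ => ?_
    have hy := hT.eigenvalues_nonneg i
    have h1 : 1 + hT.1.eigenvalues i / t = (hT.1.eigenvalues i + t) / t := by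
      field_simp
      ring
    rw [h1, Real.log_div (by positivity) ht.ne']
    ring
  have e7 : ∑ i, (hT.1.eigenvalues i + t) = (∑ i, hT.1.eigenvalues i) + t * Fintype.card n := by
    rw [Finset.sum_add_distrib, Finset.sum_const, Finset.card_univ, nsmul_eq_mul,
      mul_comm (Fintype.card n : ℝ)]
  rw [e7] at key
  rw [e6]
  linarith

end SM

end Vale.Agent.P371
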