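import Vale.Agent.P371.Kin
import Vale.Agent.P371.Young

/-!
# P371 [UPPER]: the upper bound for `γ = 1`
-/

open MeasureTheory Matrix Finset
open scoped ComplexOrder ENNReal

namespace Vale.Agent.P371

namespace Up

variable {m N : ℕ}

theorem ip_self (v : Fin m → ℂ) : ip v v = ((∑ a, ‖v a‖ ^ 2 : ℝ) : ℂ) := by
  rw [ip, Complex.ofReal_sum]
  refine Finset.sum_congr rfl fun a _ => ?_
  rw [Complex.star_def, ← Complex.normSq_eq_conj_mul_self, Complex.normSq_eq_norm_sq]

theorem integral_ip_self (du : ℝ → Fin m → ℂ) :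
    ∫ x, ip (du x) (du x) = ((∫ x, ∑ a, ‖du x a‖ ^ 2 : ℝ) : ℂ) := by
  simp only [ip_self]
  exact integral_ofReal

/-- energy identity for one eigenfunction -/
theorem energy {W : ℝ → Matrix (Fin m) (Fin m) ℂ} {lam : ℝ} {u du : ℝ → Fin m → ℂ}
    (hlam : 0 < lam) (hE : IsEigen W (-lam) u du) (hn : ∫ x, ip (u x) (u x) = 1) :
    Integrable (fun x => ip (u x) ((W x).mulVec (u x))) ∧
    lam = (∫ x, (ip (u x) ((W x).mulVec (u x))).re) - ∫ x, ∑ a, ‖du x a‖ ^ 2 := by
  have h1 := hE.2 u du hE.1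
  rw [form, hn, integral_ip_self, mul_one] at h1
  have hpos : 0 ≤ ∫ x, ∑ a, ‖du x a‖ ^ 2 :=
    integral_nonneg fun x => Finset.sum_nonneg fun _ _ => by positivity
  have hint : Integrable (fun x => ip (u x) ((W x).mulVec (u x))) := by
    by_contra hcon
    rw [integral_undef hcon, sub_zero] at h1
    have h2 : (∫ x, ∑ a, ‖du x a‖ ^ 2) = -lam := by exact_mod_cast h1
    linarith
  refine ⟨hint, ?_⟩
  have h3 := congrArg Complex.re h1
  rw [Complex.sub_re, Complex.ofReal_re, Complex.ofReal_re] at h3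
  have h4 : (∫ x, ip (u x) ((W x).mulVec (u x))).re =
      ∫ x, (ip (u x) ((W x).mulVec (u x))).re := (integral_re hint).symm
  rw [h4] at h3
  linarith

theorem trace_mul_dens (W : Matrix (Fin m) (Fin m) ℂ) (u : Fin N → ℝ → Fin m → ℂ) (x : ℝ) :
    trace (W * dens u x) = ∑ j, ip (u j x) (W.mulVec (u j x)) := by
  simp only [trace, diag_apply, Matrix.mul_apply, dens, Matrix.of_apply, ip, Matrix.mulVec,
    dotProduct, Finset.mul_sum]
  rw [Finset.sum_comm]
  conv_lhs =>
    enter [2, a]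
    rw [Finset.sum_comm]
  rw [Finset.sum_comm]
  refine Finset.sum_congr rfl fun j _ => ?_
  rw [Finset.sum_comm]
  refine Finset.sum_congr rfl fun b _ => Finset.sum_congr rfl fun a _ => ?_
  ring

theorem ofReal_integral_le (h : ℝ → ℝ) (hi : Integrable h) :
    ENNReal.ofReal (∫ x, h x) ≤ ∫⁻ x, ENNReal.ofReal (h x) := by
  rw [integral_eq_lintegral_pos_part_sub_lintegral_neg_part hi]
  refine (ENNReal.ofReal_le_ofReal (sub_le_self _ ENNReal.toReal_nonneg)).trans ?_
  exact ENNReal.ofReal_toReal_le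

end Up

open Up in
theorem upper {m N : ℕ} (W : ℝ → Matrix (Fin m) (Fin m) ℂ) (hW : IsPotential 1 W)
    (lam : Fin N → ℝ) (u du : Fin N → ℝ → Fin m → ℂ) (hlam : ∀ j, 0 < lam j)
    (hE : ∀ j, IsEigen W (-(lam j)) (u j) (du j))
    (hon : ∀ j k, ∫ x, ip (u j x) (u k x) = if j = k then 1 else 0) :
    ENNReal.ofReal (∑ j, lam j) ≤
      ENNReal.ofReal (4 / (3 * Real.sqrt 3 * Real.pi)) * potInt 1 W := by
  have hu : ∀ j, IsH1 (u j) (du j) := fun j => (hE j).1
  obtain ⟨hg, hk, hkin⟩ := kinetic u du hu hon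
  have hen := fun j => energy (hlam j) (hE j) (by simpa using hon j j)
  have hre : ∀ j, Integrable fun x => (ip (u j x) ((W x).mulVec (u j x))).re :=
    fun j => (hen j).1.re
  have hsum : ∑ j, lam j = (∫ x, (trace (W x * dens u x)).re) -
      ∫ x, ∑ j, ∑ a, ‖du j x a‖ ^ 2 := by
    rw [Finset.sum_congr rfl fun j _ => (hen j).2, Finset.sum_sub_distrib]
    congr 1
    · rw [← integral_finsetSum _ fun j _ => hre j]
      refine integral_congr_ae (Filter.Eventually.of_forall fun x => ?_)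
      simp only [trace_mul_dens, Complex.re_sum]
    · rw [integral_finsetSum _ fun j _ => ?_]
      exact integrable_finsetSum _ fun a _ => Ac.du_sq_int (hu j) a
  have htr : Integrable fun x => (trace (W x * dens u x)).re := by
    simp only [trace_mul_dens, Complex.re_sum]
    exact integrable_finsetSum _ fun j _ => hre j
  have hle : ∑ j, lam j ≤ ∫ x, ((trace (W x * dens u x)).re -
      Real.pi ^ 2 / 4 * (trace (gram u x * gram u x * gram u x)).re) := by
    rw [integral_sub htr (hg.const_mul _), integral_const_mul, hsum]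
    linarith
  refine (ENNReal.ofReal_le_ofReal hle).trans ?_
  refine (ofReal_integral_le _ (htr.sub (hg.const_mul _))).trans ?_
  rw [potInt, ← lintegral_const_mul' _ _ ENNReal.ofReal_ne_top]
  refine lintegral_mono fun x => ?_
  rw [← ENNReal.ofReal_mul (by positivity)]
  refine ENNReal.ofReal_le_ofReal ?_
  obtain ⟨h1, h2, -⟩ := trace_dens u x
  have h3 := trace_young (W x) (dens u x) (hW.posSemidef x) h2
  rw [h1] at h3
  have h4 : (1:ℝ) + 1 / 2 = 3 / 2 := by norm_num
  rw [h4]
  rw [Pi.sub_apply]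
  linarith

end Vale.Agent.P371
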