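import Vale.Agent.P371.Flow
import Vale.Agent.P371.Pos

/-!
# P371: quadratic forms and the first touching lemma
-/

namespace Vale.Agent.P371

open Matrix Set Filter
open scoped Topology ComplexOrder

namespace Vtx

variable {N : ℕ}

/-- the real quadratic form `Re ⟨v, M v⟩` -/
noncomputable def qf (v : Fin N → ℂ) (M : Matrix (Fin N) (Fin N) ℂ) : ℝ :=
  (star v ⬝ᵥ M.mulVec v).re

/-- `|v|²` -/
noncomputable def nsq (v : Fin N → ℂ) : ℝ := (star v ⬝ᵥ v).re

theorem nsq_nonneg (v : Fin N → ℂ) : 0 ≤ nsq v :=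
  (Complex.le_def.1 (dotProduct_star_self_nonneg v)).1

theorem nsq_pos {v : Fin N → ℂ} (hv : v ≠ 0) : 0 < nsq v :=
  (Complex.lt_def.1 (dotProduct_star_self_pos_iff.2 hv)).1

theorem qf_add (v : Fin N → ℂ) (A B : Matrix (Fin N) (Fin N) ℂ) :
    qf v (A + B) = qf v A + qf v B := by
  simp [qf, Matrix.add_mulVec, dotProduct_add]

theorem qf_sub (v : Fin N → ℂ) (A B : Matrix (Fin N) (Fin N) ℂ) :
    qf v (A - B) = qf v A - qf v B := by
  simp [qf, Matrix.sub_mulVec, dotProduct_sub]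

theorem qf_smul (v : Fin N → ℂ) (c : ℝ) (A : Matrix (Fin N) (Fin N) ℂ) :
    qf v ((c : ℂ) • A) = c * qf v A := by
  simp [qf, Matrix.smul_mulVec, dotProduct_smul]

theorem qf_one (v : Fin N → ℂ) : qf v (1 : Matrix (Fin N) (Fin N) ℂ) = nsq v := by
  simp [qf, nsq]

theorem qf_eig {v : Fin N → ℂ} {A : Matrix (Fin N) (Fin N) ℂ} {c : ℝ}
    (h : A.mulVec v = (c : ℂ) • v) : qf v A = c * nsq v := by
  simp [qf, nsq, h, dotProduct_smul]

theorem psd_iff {A : Matrix (Fin N) (Fin N) ℂ} :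
    A.PosSemidef ↔ A.IsHermitian ∧ ∀ v, 0 ≤ qf v A := by
  rw [posSemidef_iff_dotProduct_mulVec]
  refine and_congr_right fun hA => forall_congr' fun v => ?_
  have him := hA.im_star_dotProduct_mulVec_self v
  rw [Complex.le_def]
  exact ⟨fun h => h.1, fun h => ⟨h, by simpa using him.symm⟩⟩

theorem pd_iff {A : Matrix (Fin N) (Fin N) ℂ} :
    A.PosDef ↔ A.IsHermitian ∧ ∀ v, v ≠ 0 → 0 < qf v A := by
  rw [posDef_iff_dotProduct_mulVec]
  refine and_congr_right fun hA => forall_congr' fun v => ?_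
  have him := hA.im_star_dotProduct_mulVec_self v
  rw [Complex.lt_def]
  exact ⟨fun h h1 => (h h1).1, fun h h1 => ⟨h h1, by simpa using him.symm⟩⟩

theorem qf_nonneg {A : Matrix (Fin N) (Fin N) ℂ} (hA : A.PosSemidef) (v : Fin N → ℂ) :
    0 ≤ qf v A := (psd_iff.1 hA).2 v

theorem psd_zero {A : Matrix (Fin N) (Fin N) ℂ} (hA : A.PosSemidef) {v : Fin N → ℂ}
    (h : qf v A ≤ 0) : A.mulVec v = 0 := by
  rw [← hA.dotProduct_mulVec_zero_iff]
  have him := hA.1.im_star_dotProduct_mulVec_self v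
  refine Complex.ext ?_ (by simpa using him)
  exact le_antisymm h (qf_nonneg hA v)

theorem qf_sq {A : Matrix (Fin N) (Fin N) ℂ} (hA : A.IsHermitian) (v : Fin N → ℂ) :
    qf v (A * A) = nsq (A.mulVec v) := by
  have h1 : star (A.mulVec v) = star v ᵥ* A := by
    rw [Matrix.star_mulVec, hA.eq]
  rw [qf, nsq, h1, ← Matrix.mulVec_mulVec, Matrix.dotProduct_mulVec, Matrix.dotProduct_mulVec]

theorem nsq_smul (c : ℝ) (v : Fin N → ℂ) : nsq ((c : ℂ) • v) = c ^ 2 * nsq v := by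
  simp [nsq, star_smul, smul_dotProduct, dotProduct_smul, pow_two, mul_assoc]

/-- `|a + c v|² = |a|² + 2 c Re ⟨v, a⟩ + c² |v|²` -/
theorem nsq_add_smul (c : ℝ) (v a : Fin N → ℂ) :
    nsq (a + (c : ℂ) • v) = nsq a + 2 * c * (star v ⬝ᵥ a).re + c ^ 2 * nsq v := by
  have h1 : (star a ⬝ᵥ v).re = (star v ⬝ᵥ a).re := by
    have : star a ⬝ᵥ v = star (star v ⬝ᵥ a) := by
      rw [Matrix.star_dotProduct]
    rw [this, Complex.star_def, Complex.conj_re]
  simp only [nsq, star_add, star_smul, add_dotProduct, dotProduct_add, smul_dotProduct,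
    dotProduct_smul, Complex.star_def, Complex.conj_ofReal, smul_eq_mul, Complex.add_re,
    Complex.re_ofReal_mul, h1]
  ring

theorem qf_expand (v : Fin N → ℂ) (A : Matrix (Fin N) (Fin N) ℂ) :
    qf v A = ∑ i, ∑ j, (star (v i) * A i j * v j).re := by
  simp only [qf, dotProduct, Matrix.mulVec, Complex.re_sum, Finset.mul_sum, Pi.star_apply,
    mul_assoc]

theorem qf_hasDeriv (v : Fin N → ℂ) {Z : ℝ → Matrix (Fin N) (Fin N) ℂ}
    {Z' : Matrix (Fin N) (Fin N) ℂ} {I : Set ℝ} {x : ℝ}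
    (h : ∀ i j, HasDerivWithinAt (fun y => Z y i j) (Z' i j) I x) :
    HasDerivWithinAt (fun y => qf v (Z y)) (qf v Z') I x := by
  simp only [qf_expand]
  refine HasDerivWithinAt.fun_sum fun i _ => HasDerivWithinAt.fun_sum fun j _ => ?_
  have h1 : HasDerivWithinAt (fun y => star (v i) * Z y i j * v j) (star (v i) * Z' i j * v j) I x :=
    ((h i j).const_mul _).mul_const _
  exact (Complex.reCLM.hasFDerivAt.comp_hasDerivWithinAt x h1)

theorem qf_cont : Continuous fun p : Matrix (Fin N) (Fin N) ℂ × (Fin N → ℂ) => qf p.2 p.1 := by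
  simp only [qf_expand]
  refine continuous_finsetSum _ fun i _ => continuous_finsetSum _ fun j _ => ?_
  refine Complex.continuous_re.comp ?_
  have h1 : Continuous fun p : Matrix (Fin N) (Fin N) ℂ × (Fin N → ℂ) => star (p.2 i) :=
    ((continuous_apply i).comp continuous_snd).star
  have h2 : Continuous fun p : Matrix (Fin N) (Fin N) ℂ × (Fin N → ℂ) => p.1 i j :=
    (continuous_fst.matrix_elem i j)
  have h3 : Continuous fun p : Matrix (Fin N) (Fin N) ℂ × (Fin N → ℂ) => p.2 j :=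
    (continuous_apply j).comp continuous_snd
  exact (h1.mul h2).mul h3

theorem qf_contOn {X : Type*} [TopologicalSpace X] {f : X → Matrix (Fin N) (Fin N) ℂ}
    {g : X → Fin N → ℂ} {s : Set X} (hf : ContinuousOn f s) (hg : ContinuousOn g s) :
    ContinuousOn (fun p => qf (g p) (f p)) s := by
  simp only [qf_expand]
  refine continuousOn_finsetSum _ fun i _ => continuousOn_finsetSum _ fun j _ => ?_
  refine Complex.continuous_re.comp_continuousOn ?_
  have h1 : ContinuousOn (fun p => star (g p i)) s :=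
    ((continuous_apply i).comp_continuousOn hg).star
  have h2 : ContinuousOn (fun p => f p i j) s :=
    ((continuous_id.matrix_elem i j).comp_continuousOn hf)
  have h3 : ContinuousOn (fun p => g p j) s := (continuous_apply j).comp_continuousOn hg
  exact (h1.mul h2).mul h3

theorem mat_cont {Z Z' : ℝ → Matrix (Fin N) (Fin N) ℂ} {I : Set ℝ}
    (h : ∀ x ∈ I, ∀ i j, HasDerivWithinAt (fun y => Z y i j) (Z' x i j) I x) :
    ContinuousOn Z I := by
  intro x hx
  refine tendsto_pi_nhds.2 fun i => tendsto_pi_nhds.2 fun j => ?_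
  exact (h x hx i j).continuousWithinAt

/-- scaling of the quadratic form -/
theorem qf_scale (v : Fin N → ℂ) (A : Matrix (Fin N) (Fin N) ℂ) (c : ℝ) :
    qf ((c : ℂ) • v) A = c ^ 2 * qf v A := by
  simp only [qf, Matrix.mulVec_smul, star_smul, smul_dotProduct, dotProduct_smul,
    Complex.star_def, Complex.conj_ofReal, smul_eq_mul, Complex.re_ofReal_mul]
  ring

/-- The first touching lemma (forward). -/
theorem touch {a b : ℝ} {Q Q' : ℝ → Matrix (Fin N) (Fin N) ℂ}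
    (hH : ∀ x ∈ Icc a b, (Q x).IsHermitian)
    (hd : ∀ x ∈ Icc a b, ∀ i j, HasDerivWithinAt (fun y => Q y i j) (Q' x i j) (Icc a b) x)
    (h0 : (Q a).PosDef)
    (ht : ∀ x ∈ Icc a b, (Q x).PosSemidef → ∀ v, v ≠ 0 → (Q x).mulVec v = 0 → 0 < qf v (Q' x)) :
    ∀ x ∈ Icc a b, (Q x).PosDef := by
  by_contra hcon
  push Not at hcon
  obtain ⟨x1, hx1, hx1n⟩ := hcon
  have hcont : ContinuousOn Q (Icc a b) := mat_cont hd
  have hcomp : IsCompact (Icc a b ×ˢ Metric.sphere (0 : Fin N → ℂ) 1) :=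
    isCompact_Icc.prod (isCompact_sphere _ _)
  have hqc : ContinuousOn (fun p : ℝ × (Fin N → ℂ) => qf p.2 (Q p.1))
      (Icc a b ×ˢ Metric.sphere (0 : Fin N → ℂ) 1) := by
    have h1 : ContinuousOn (fun p : ℝ × (Fin N → ℂ) => Q p.1)
        (Icc a b ×ˢ Metric.sphere (0 : Fin N → ℂ) 1) :=
      hcont.comp continuousOn_fst fun p hp => hp.1
    exact qf_contOn h1 continuousOn_snd
  have hcl : IsClosed ((Icc a b ×ˢ Metric.sphere (0 : Fin N → ℂ) 1) ∩
      (fun p : ℝ × (Fin N → ℂ) => qf p.2 (Q p.1)) ⁻¹' (Iic (0 : ℝ))) :=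
    hqc.preimage_isClosed_of_isClosed hcomp.isClosed isClosed_Iic
  obtain ⟨T, hT⟩ : ∃ T : Set (ℝ × (Fin N → ℂ)), T = (Icc a b ×ˢ
      Metric.sphere (0 : Fin N → ℂ) 1) ∩
      (fun p : ℝ × (Fin N → ℂ) => qf p.2 (Q p.1)) ⁻¹' (Iic (0 : ℝ)) := ⟨_, rfl⟩
  have hTc : IsCompact T := by
    rw [hT]
    exact hcomp.of_isClosed_subset hcl inter_subset_left
  have hTm : ∀ p : ℝ × (Fin N → ℂ), p ∈ T ↔ (p.1 ∈ Icc a b ∧
      p.2 ∈ Metric.sphere (0 : Fin N → ℂ) 1) ∧ qf p.2 (Q p.1) ≤ 0 := by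
    intro p
    rw [hT]
    rfl
  -- normalisation
  have hnorm : ∀ x, ∀ v : Fin N → ℂ, v ≠ 0 → qf v (Q x) ≤ 0 → x ∈ Icc a b →
      (x, (((‖v‖⁻¹ : ℝ)) : ℂ) • v) ∈ T := by
    intro x v hv hq hx
    refine (hTm _).2 ⟨⟨hx, ?_⟩, ?_⟩
    · simp only [mem_sphere_iff_norm, sub_zero, norm_smul]
      rw [Complex.norm_real, norm_inv, norm_norm, inv_mul_cancel₀ (norm_ne_zero_iff.2 hv)]
    · change qf ((((‖v‖⁻¹ : ℝ)) : ℂ) • v) (Q x) ≤ 0
      rw [qf_scale]
      exact mul_nonpos_of_nonneg_of_nonpos (sq_nonneg _) hq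
  have hTne : T.Nonempty := by
    have h1 : ¬ ∀ v, v ≠ 0 → 0 < qf v (Q x1) := fun h => hx1n (pd_iff.2 ⟨hH x1 hx1, h⟩)
    push Not at h1
    obtain ⟨v, hv, hq⟩ := h1
    exact ⟨_, hnorm x1 v hv hq hx1⟩
  obtain ⟨⟨x0, v0⟩, hp0, hmin⟩ := hTc.exists_isMinOn hTne continuous_fst.continuousOn
  replace hp0 := (hTm _).1 hp0
  have hx0 : x0 ∈ Icc a b := hp0.1.1
  have hv0 : v0 ≠ 0 := by
    intro h
    have := hp0.1.2
    simp only [h, mem_sphere_iff_norm, sub_zero, norm_zero] at this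
    exact zero_ne_one this
  have hq0 : qf v0 (Q x0) ≤ 0 := hp0.2
  have hax0 : a < x0 := by
    rcases eq_or_lt_of_le hx0.1 with h | h
    · exfalso
      rw [← h] at hq0
      exact absurd ((pd_iff.1 h0).2 v0 hv0) (not_lt.2 hq0)
    · exact h
  have hlt : ∀ x ∈ Ico a x0, ∀ v, v ≠ 0 → 0 < qf v (Q x) := by
    intro x hx v hv
    by_contra hc
    have h1 := hmin (hnorm x v hv (not_lt.1 hc) ⟨hx.1, hx.2.le.trans hx0.2⟩)
    exact absurd hx.2 (not_lt.2 h1)
  have hev : ∀ᶠ x in 𝓝[<] x0, x ∈ Ico a x0 := by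
    filter_upwards [self_mem_nhdsWithin, mem_nhdsWithin_of_mem_nhds (Ioi_mem_nhds hax0)]
      with x hx1 hx2
    exact ⟨le_of_lt hx2, hx1⟩
  have hIcc : Icc a b ∈ 𝓝[<] x0 := by
    filter_upwards [hev] with x hx
    exact ⟨hx.1, hx.2.le.trans hx0.2⟩
  have hder : ∀ v, HasDerivWithinAt (fun y => qf v (Q y)) (qf v (Q' x0)) (Iio x0) x0 :=
    fun v => (qf_hasDeriv v (hd x0 hx0)).mono_of_mem_nhdsWithin hIcc
  have hpsd : (Q x0).PosSemidef := by
    refine psd_iff.2 ⟨hH x0 hx0, fun v => ?_⟩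
    rcases eq_or_ne v 0 with rfl | hv
    · simp [qf]
    · have h1 : Tendsto (fun y => qf v (Q y)) (𝓝[<] x0) (𝓝 (qf v (Q x0))) :=
        (hder v).continuousWithinAt
      refine ge_of_tendsto h1 ?_
      filter_upwards [hev] with x hx
      exact (hlt x hx v hv).le
  have hz : (Q x0).mulVec v0 = 0 := psd_zero hpsd hq0
  have hpos := ht x0 hx0 hpsd v0 hv0 hz
  have hq00 : qf v0 (Q x0) = 0 := le_antisymm hq0 (qf_nonneg hpsd v0)
  have hsl := (hasDerivWithinAt_iff_tendsto_slope' (by simp)).1 (hder v0)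
  have h2 : ∀ᶠ y in 𝓝[<] x0, 0 < slope (fun y => qf v0 (Q y)) x0 y :=
    hsl.eventually (lt_mem_nhds hpos)
  obtain ⟨y, hy1, hy2⟩ := (h2.and hev).exists
  have h3 := hlt y hy2 v0 hv0
  rw [slope_def_field, hq00, sub_zero] at hy1
  have h4 : y - x0 < 0 := sub_neg.2 hy2.2
  have h5 : qf v0 (Q y) / (y - x0) < 0 := div_neg_of_pos_of_neg h3 h4
  exact absurd hy1 (not_lt.2 h5.le)

/-- The first touching lemma (backward), on a symmetric interval. -/
theorem touch_back {R : ℝ} {Q Q' : ℝ → Matrix (Fin N) (Fin N) ℂ}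
    (hH : ∀ x ∈ Icc (-R) R, (Q x).IsHermitian)
    (hd : ∀ x ∈ Icc (-R) R, ∀ i j,
      HasDerivWithinAt (fun y => Q y i j) (Q' x i j) (Icc (-R) R) x)
    (h0 : (Q R).PosDef)
    (ht : ∀ x ∈ Icc (-R) R, (Q x).PosSemidef → ∀ v, v ≠ 0 → (Q x).mulVec v = 0 →
      qf v (Q' x) < 0) :
    ∀ x ∈ Icc (-R) R, (Q x).PosDef := by
  have hneg : ∀ x ∈ Icc (-R) R, -x ∈ Icc (-R) R := fun x hx =>
    ⟨neg_le_neg hx.2, by linarith [hx.1]⟩
  have key := touch (a := -R) (b := R) (Q := fun x => Q (-x)) (Q' := fun x => -(Q' (-x)))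
    (fun x hx => hH _ (hneg x hx)) (fun x hx i j => ?_) (by simpa using h0)
    (fun x hx hp v hv hz => ?_)
  · intro x hx
    have := key (-x) (hneg x hx)
    simpa using this
  · have h1 : HasDerivWithinAt (fun y : ℝ => -y) (-1) (Icc (-R) R) x :=
      (hasDerivAt_neg x).hasDerivWithinAt
    have h2 := (hd (-x) (hneg x hx) i j).scomp x h1 hneg
    simpa [Function.comp_def] using h2
  · have h1 := ht (-x) (hneg x hx) hp v hv hz
    have h2 : qf v (-(Q' (-x))) = - qf v (Q' (-x)) := by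
      have := qf_sub v 0 (Q' (-x))
      rw [zero_sub] at this
      rw [this]
      simp [qf]
    rw [h2]
    linarith

end Vtx

end Vale.Agent.P371
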